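import Vale.Agent.P066.CLin

/-! Part C: antisymmetrisation and transport along colour preserving permutations. -/

namespace Vale.Agent.P066
open MvPolynomial Equiv
noncomputable section
variable {V : Type} [Fintype V] [DecidableEq V] {K : ℕ}

theorem mem_GT {T : Finset (Om V K)} {π : Perm (Om V K)} :
    π ∈ GT T ↔ CP π ∧ ∀ s, s ∉ T → π s = s := by
  simp [GT]
theorem CP.inv {π : Perm (Om V K)} (h : CP π) : CP π⁻¹ := fun s => by
  have := h (π⁻¹ s)
  simpa using this.symm
theorem CP.mul {π ρ : Perm (Om V K)} (h : CP π) (h' : CP ρ) : CP (π * ρ) := fun s =>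
  (h (ρ s)).trans (h' s)
theorem one_mem_GT (T : Finset (Om V K)) : (1 : Perm (Om V K)) ∈ GT T :=
  mem_GT.2 ⟨fun _ => rfl, fun _ _ => rfl⟩
theorem mul_mem_GT {T : Finset (Om V K)} {π ρ : Perm (Om V K)} (h : π ∈ GT T) (h' : ρ ∈ GT T) :
    π * ρ ∈ GT T :=
  mem_GT.2 ⟨(mem_GT.1 h).1.mul (mem_GT.1 h').1, fun s hs => by
    rw [Perm.mul_apply, (mem_GT.1 h').2 s hs, (mem_GT.1 h).2 s hs]⟩
theorem inv_mem_GT {T : Finset (Om V K)} {π : Perm (Om V K)} (h : π ∈ GT T) : π⁻¹ ∈ GT T :=
  mem_GT.2 ⟨(mem_GT.1 h).1.inv, fun s hs =>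
    Perm.inv_eq_iff_eq.2 ((mem_GT.1 h).2 s hs).symm⟩
theorem apply_mem_of_GT {T : Finset (Om V K)} {π : Perm (Om V K)} (h : π ∈ GT T) {s : Om V K}
    (hs : s ∈ T) : π s ∈ T := by
  by_contra hn
  have := π.injective ((mem_GT.1 h).2 _ hn)
  exact hn (this.symm ▸ hs)
theorem image_GT {T : Finset (Om V K)} {π : Perm (Om V K)} (h : π ∈ GT T) : T.image π = T := by
  refine Finset.eq_of_subset_of_card_le (fun s hs => ?_)
    (Finset.card_image_of_injective _ π.injective).ge
  obtain ⟨t, ht, rfl⟩ := Finset.mem_image.1 hs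
  exact apply_mem_of_GT h ht

theorem rename_mul_apply (π ρ : Perm (Om V K)) (f : PR V K) :
    rename (π * ρ : Perm (Om V K)) f = rename π (rename ρ f) := by
  rw [rename_rename]
  rfl

theorem rename_inv_rename (π : Perm (Om V K)) (f : PR V K) :
    rename (π⁻¹ : Perm (Om V K)) (rename π f) = f := by
  rw [← rename_mul_apply, inv_mul_cancel]
  exact rename_id_apply f

theorem rename_rename_inv (π : Perm (Om V K)) (f : PR V K) :
    rename π (rename (π⁻¹ : Perm (Om V K)) f) = f := by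
  rw [← rename_mul_apply, mul_inv_cancel]
  exact rename_id_apply f

theorem image_inv_image (π : Perm (Om V K)) (T : Finset (Om V K)) :
    (T.image π).image (π⁻¹ : Perm (Om V K)) = T := by
  rw [Finset.image_image]
  simp

theorem image_image_inv (π : Perm (Om V K)) (T : Finset (Om V K)) :
    (T.image (π⁻¹ : Perm (Om V K))).image π = T := image_inv_image π⁻¹ T

theorem sign_mul_self (π : Perm (Om V K)) :
    (((Perm.sign π : ℤˣ) : ℤ) : ℚ) * (((Perm.sign π : ℤˣ) : ℤ) : ℚ) = 1 := by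
  rw [← Int.cast_mul, ← Units.val_mul, Int.units_mul_self]
  simp

/-- Hint: `Equiv.Perm.mem_closure_isSwap`-type induction. -/
theorem rename_eq_sign_smul (r : Setoid (Om V K)) {f : PR V K}
    (hf : ∀ s s', s ≠ s' → r s s' → rename (swap s s') f = -f) {π : Perm (Om V K)}
    (hπ : ∀ s, r (π s) s) : rename π f = (((Perm.sign π : ℤˣ) : ℤ) : ℚ) • f := by
  induction hn : π.support.card using Nat.strong_induction_on generalizing π with
  | _ n ih =>
    by_cases h1 : π = 1
    · subst h1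
      simp
    · obtain ⟨x, hx⟩ : ∃ x, π x ≠ x := by
        by_contra hc
        push Not at hc
        exact h1 (Equiv.ext hc)
      have hr : ∀ s, r ((swap x (π x) * π) s) s := by
        intro s
        refine r.trans ?_ (hπ s)
        rw [Perm.mul_apply, swap_apply_def]
        split_ifs with h2 h3
        · rw [h2]; exact hπ x
        · rw [h3]; exact r.symm (hπ x)
        · exact r.refl _
      have h2 := ih _ (hn ▸ Perm.card_support_swap_mul hx) hr rfl
      have h3 : π = swap x (π x) * (swap x (π x) * π) := by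
        rw [← mul_assoc, swap_mul_self, one_mul]
      rw [h3, rename_mul_apply, h2, map_smul, hf x (π x) hx.symm (r.symm (hπ x)),
        Perm.sign_mul (swap x (π x)), Perm.sign_swap hx.symm]
      simp

theorem rename_of_mem_Anti {T : Finset (Om V K)} {f : PR V K} (hf : f ∈ Anti T)
    {π : Perm (Om V K)} (hπ : π ∈ GT T) :
    rename π f = (((Perm.sign π : ℤˣ) : ℤ) : ℚ) • f := by
  let r : Setoid (Om V K) :=
    { r := fun s s' => s = s' ∨ (s ∈ T ∧ s' ∈ T ∧ s.1 = s'.1)
      iseqv :=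
        { refl := fun _ => Or.inl rfl
          symm := by
            rintro s s' (h | ⟨h1, h2, h3⟩)
            · exact Or.inl h.symm
            · exact Or.inr ⟨h2, h1, h3.symm⟩
          trans := by
            rintro s s' s'' (rfl | ⟨h1, h2, h3⟩) h
            · exact h
            · rcases h with rfl | ⟨-, h5, h6⟩
              · exact Or.inr ⟨h1, h2, h3⟩
              · exact Or.inr ⟨h1, h5, h3.trans h6⟩ } }
  refine rename_eq_sign_smul r (fun s s' hne h => ?_) fun s => ?_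
  · rcases h with h | ⟨h1, h2, h3⟩
    · exact absurd h hne
    · exact hf.2 s h1 s' h2 hne h3
  · by_cases hs : s ∈ T
    · exact Or.inr ⟨apply_mem_of_GT hπ hs, hs, (mem_GT.1 hπ).1 s⟩
    · exact Or.inl ((mem_GT.1 hπ).2 s hs)
theorem Alt_apply (T : Finset (Om V K)) (f : PR V K) :
    Alt T f = ∑ π ∈ GT T, (((Perm.sign π : ℤˣ) : ℤ) : ℚ) • rename π f := by
  simp [Alt, LinearMap.sum_apply]
theorem rename_mem_RT (π : Perm (Om V K)) {T : Finset (Om V K)} {f : PR V K} (hf : f ∈ RT T) :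
    rename π f ∈ RT (T.image π) := by
  refine mem_supported.2 fun s hs => ?_
  obtain ⟨t, ht, rfl⟩ := mem_vars_rename _ _ hs
  exact Finset.mem_coe.2 (Finset.mem_image_of_mem _ (mem_supported.1 hf ht))
theorem rename_Alt {T : Finset (Om V K)} (f : PR V K) {π : Perm (Om V K)} (hπ : π ∈ GT T) :
    rename π (Alt T f) = (((Perm.sign π : ℤˣ) : ℤ) : ℚ) • Alt T f := by
  rw [Alt_apply, map_sum, Finset.smul_sum]
  refine Finset.sum_nbij' (fun ρ => π * ρ) (fun ρ => π⁻¹ * ρ) (fun ρ h => mul_mem_GT hπ h)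
    (fun ρ h => mul_mem_GT (inv_mem_GT hπ) h) (fun ρ _ => by simp) (fun ρ _ => by simp)
    fun ρ _ => ?_
  rw [map_smul, rename_mul_apply, smul_smul, Perm.sign_mul, Units.val_mul, Int.cast_mul,
    ← mul_assoc, sign_mul_self, one_mul]
theorem swap_mem_GT {T : Finset (Om V K)} {s s' : Om V K} (hs : s ∈ T) (hs' : s' ∈ T)
    (h : s.1 = s'.1) : swap s s' ∈ GT T := by
  refine mem_GT.2 ⟨fun t => ?_, fun t ht => swap_apply_of_ne_of_ne ?_ ?_⟩
  · rw [swap_apply_def]
    split_ifs with h1 h2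
    · rw [h1, h]
    · rw [h2, h]
    · rfl
  · rintro rfl; exact ht hs
  · rintro rfl; exact ht hs'
theorem Alt_mem_Anti {T : Finset (Om V K)} {f : PR V K} (hf : f ∈ RT T) : Alt T f ∈ Anti T := by
  refine ⟨?_, fun s hs s' hs' hne h => ?_⟩
  · rw [Alt_apply]
    refine Submodule.sum_mem _ fun π hπ => Submodule.smul_mem _ _ ?_
    have := rename_mem_RT π hf
    rwa [image_GT hπ] at this
  · rw [rename_Alt f (swap_mem_GT hs hs' h), Perm.sign_swap hne]
    simp
theorem Alt_rename {T : Finset (Om V K)} (f : PR V K) {π : Perm (Om V K)} (hπ : π ∈ GT T) :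
    Alt T (rename π f) = (((Perm.sign π : ℤˣ) : ℤ) : ℚ) • Alt T f := by
  rw [Alt_apply, Alt_apply, Finset.smul_sum]
  refine Finset.sum_nbij' (fun ρ => ρ * π) (fun ρ => ρ * π⁻¹) (fun ρ h => mul_mem_GT h hπ)
    (fun ρ h => mul_mem_GT h (inv_mem_GT hπ)) (fun ρ _ => by simp) (fun ρ _ => by simp)
    fun ρ _ => ?_
  rw [rename_mul_apply, smul_smul, Perm.sign_mul, Units.val_mul, Int.cast_mul,
    mul_left_comm, sign_mul_self, mul_one]
theorem Alt_of_mem_Anti {T : Finset (Om V K)} {f : PR V K} (hf : f ∈ Anti T) :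
    Alt T f = ((GT T).card : ℚ) • f := by
  rw [Alt_apply, Nat.cast_smul_eq_nsmul, ← Finset.sum_const]
  refine Finset.sum_congr rfl fun π hπ => ?_
  rw [rename_of_mem_Anti hf hπ, smul_smul, sign_mul_self, one_smul]
theorem card_GT_ne_zero (T : Finset (Om V K)) : ((GT T).card : ℚ) ≠ 0 :=
  Nat.cast_ne_zero.2 (Finset.card_pos.2 ⟨1, one_mem_GT T⟩).ne'
theorem Alt_isHomogeneous (T : Finset (Om V K)) {f : PR V K} {k : ℕ} (hf : f.IsHomogeneous k) :
    (Alt T f).IsHomogeneous k := by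
  rw [Alt_apply]
  exact (Hm V K k).sum_mem fun π _ => (Hm V K k).smul_mem _ hf.rename_isHomogeneous
theorem Alt_mem {T : Finset (Om V K)} {Q : Submodule ℚ (PR V K)}
    (hQ : ∀ π ∈ GT T, ∀ f ∈ Q, rename π f ∈ Q) {f : PR V K} (hf : f ∈ Q) :
    Alt T f ∈ Q := by
  rw [Alt_apply]
  exact Q.sum_mem fun π hπ => Q.smul_mem _ (hQ π hπ f hf)

/-- one inclusion for all colour preserving permutations gives equality -/
theorem map_eq_of_forall {F : Finset (Om V K) → Submodule ℚ (PR V K)}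
    (h : ∀ π : Perm (Om V K), CP π → ∀ T, ∀ f ∈ F T, rename π f ∈ F (T.image π))
    {π : Perm (Om V K)} (hπ : CP π) (T : Finset (Om V K)) :
    (F T).map (rename π : PR V K →ₐ[ℚ] PR V K).toLinearMap = F (T.image π) := by
  refine le_antisymm ?_ fun f hf => ?_
  · rintro _ ⟨f, hf, rfl⟩
    exact h π hπ T f hf
  · refine ⟨rename (π⁻¹ : Perm (Om V K)) f, ?_, rename_rename_inv π f⟩
    have := h π⁻¹ hπ.inv _ f hf
    rwa [image_inv_image] at this

theorem rename_congr_RT {T : Finset (Om V K)} {f : PR V K} (hf : f ∈ RT T)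
    {φ ψ : Om V K → Om V K} (h : ∀ s ∈ T, φ s = ψ s) : rename φ f = rename ψ f := by
  refine hom_congr_vars (f₁ := (rename φ : PR V K →ₐ[ℚ] PR V K).toRingHom)
    (f₂ := (rename ψ : PR V K →ₐ[ℚ] PR V K).toRingHom) ?_ (fun i hi _ => ?_) rfl
  · ext1
    simp
  · simp [h i (mem_supported.1 hf hi)]

theorem rename_mem_mI_pow (π : Perm (Om V K)) {k : ℕ} {f : PR V K} (hf : f ∈ mI V K ^ k) :
    rename π f ∈ mI V K ^ k := by
  have h1 : (mI V K).map (rename π : PR V K →ₐ[ℚ] PR V K) ≤ mI V K := by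
    rw [Ideal.map_span, Ideal.span_le]
    rintro _ ⟨_, ⟨s, rfl⟩, rfl⟩
    rw [rename_X]
    exact Ideal.subset_span ⟨π s, rfl⟩
  have h2 := Ideal.mem_map_of_mem (rename π : PR V K →ₐ[ℚ] PR V K) hf
  rw [Ideal.map_pow] at h2
  exact Ideal.pow_right_mono h1 k h2

/-- Hint: `Equiv.ofFiberEquiv`. -/
theorem exists_perm_of_card_fiber {X : Type} [DecidableEq X] (φ φ' : Om V K → X)
    (h : ∀ x, (Finset.univ.filter fun s => φ s = x).card =
      (Finset.univ.filter fun s => φ' s = x).card) :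
    ∃ π : Perm (Om V K), ∀ s, φ' (π s) = φ s := by
  have he : ∀ x, {s // φ s = x} ≃ {s // φ' s = x} := fun x =>
    Fintype.equivOfCardEq (by rw [Fintype.card_subtype, Fintype.card_subtype, h])
  exact ⟨Equiv.ofFiberEquiv he, Equiv.ofFiberEquiv_map he⟩
theorem dv_sdiff {S T : Finset (Om V K)} (hT : T ⊆ S) (v : V) :
    dv (S \ T) v + dv T v = dv S v := by
  have := congrFun (dv_union (Finset.sdiff_disjoint (s := T) (t := S))) v
  rw [Finset.sdiff_union_of_subset hT] at this
  exact this.symm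
theorem exists_GT_image' {S T T' : Finset (Om V K)} (hT : T ⊆ S) (hT' : T' ⊆ S)
    (h : dv T = dv T') : ∃ π ∈ GT S, T.image π = T' := by
  have key : ∀ {T : Finset (Om V K)}, T ⊆ S → ∀ (v : V) (c : Bool),
      (Finset.univ.filter fun s : Om V K => (if s ∈ S then Sum.inl (s.1, decide (s ∈ T))
        else Sum.inr s : (V × Bool) ⊕ Om V K) = Sum.inl (v, c)).card =
        if c then dv T v else dv (S \ T) v := by
    intro T hT v c
    cases c
    · simp only [dv, Bool.false_eq_true, if_false]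
      refine congrArg Finset.card (Finset.ext fun s => ?_)
      by_cases hs : s ∈ S <;> simp [hs, and_comm]
    · simp only [dv, if_true]
      refine congrArg Finset.card (Finset.ext fun s => ?_)
      by_cases hs : s ∈ S
      · simp [hs, and_comm]
      · have : s ∉ T := fun h' => hs (hT h')
        simp [hs, this]
  obtain ⟨π, hπ⟩ := exists_perm_of_card_fiber (X := (V × Bool) ⊕ Om V K)
    (fun s => if s ∈ S then Sum.inl (s.1, decide (s ∈ T)) else Sum.inr s)
    (fun s => if s ∈ S then Sum.inl (s.1, decide (s ∈ T')) else Sum.inr s) (by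
      rintro (⟨v, c⟩ | x)
      · rw [key hT, key hT', h]
        have h1 := dv_sdiff hT v
        have h2 := dv_sdiff hT' v
        rw [h] at h1
        rw [show dv (S \ T) v = dv (S \ T') v by omega]
      · refine congrArg Finset.card (Finset.ext fun s => ?_)
        by_cases hs : s ∈ S <;> simp [hs])
  have h1 : ∀ s, s ∉ S → π s = s := by
    intro s hs
    have := hπ s
    by_cases h2 : π s ∈ S
    · simp [hs, h2] at this
    · simpa [hs, h2] using this
  have h2 : ∀ s, s ∈ S → (π s).1 = s.1 ∧ (π s ∈ T' ↔ s ∈ T) := by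
    intro s hs
    have := hπ s
    by_cases h2 : π s ∈ S
    · simpa [hs, h2] using this
    · simp [hs, h2] at this
  refine ⟨π, mem_GT.2 ⟨fun s => ?_, h1⟩, Finset.ext fun s => ?_⟩
  · by_cases hs : s ∈ S
    · exact (h2 s hs).1
    · rw [h1 s hs]
  · obtain ⟨t, rfl⟩ := π.surjective s
    rw [Finset.mem_image]
    by_cases ht : t ∈ S
    · rw [(h2 t ht).2]
      exact ⟨fun ⟨x, hx, e⟩ => π.injective e ▸ hx, fun hx => ⟨t, hx, rfl⟩⟩
    · refine ⟨fun ⟨x, hx, e⟩ => absurd (hT (π.injective e ▸ hx)) ht, fun hx => ?_⟩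
      rw [h1 t ht] at hx
      exact absurd (hT' hx) ht
theorem exists_CP_image {T T' : Finset (Om V K)} (h : dv T = dv T') :
    ∃ π : Perm (Om V K), CP π ∧ T.image π = T' := by
  obtain ⟨π, hπ, e⟩ := exists_GT_image' (Finset.subset_univ T) (Finset.subset_univ T') h
  exact ⟨π, (mem_GT.1 hπ).1, e⟩
theorem exists_GT_image {S T T' : Finset (Om V K)} (hT : T ⊆ S) (hT' : T' ⊆ S) (h : dv T = dv T') :
    ∃ π ∈ GT S, T.image π = T' := exists_GT_image' hT hT' h
theorem dv_std {d : V → ℕ} (hd : ∀ v, d v ≤ K) : dv (std K d) = d := by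
  funext v
  have h1 : ((std K d).filter fun s => s.1 = v) =
      (Finset.univ.filter fun i : Fin K => i.val < d v).image fun i => (v, i) := by
    ext ⟨w, i⟩
    simp only [std, Finset.mem_filter, Finset.mem_univ, true_and, Finset.mem_image,
      Prod.mk.injEq]
    constructor
    · rintro ⟨h, rfl⟩
      exact ⟨i, h, rfl, rfl⟩
    · rintro ⟨j, h, rfl, rfl⟩
      exact ⟨h, rfl⟩
  rw [dv, h1, Finset.card_image_of_injective _ (Prod.mk_right_injective v), Fin.card_filter_val_lt,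
    min_eq_right (hd v)]
theorem std_mono {d e : V → ℕ} (h : d ≤ e) : std K d ⊆ std K e := fun s hs =>
  Finset.mem_filter.2 ⟨Finset.mem_univ _, (Finset.mem_filter.1 hs).2.trans_le (h s.1)⟩
theorem mv_spec (B : Finset (Om V K)) : CP (mv B) ∧ (std K (dv B)).image (mv B) = B := by
  have h : ∃ π : Perm (Om V K), CP π ∧ (std K (dv B)).image π = B :=
    exists_CP_image (dv_std (dv_le B))
  rw [mv, dif_pos h]
  exact h.choose_spec

section transport
variable (ar : V → V → ℕ) (η : Stab (V → ℤ)) {π : Perm (Om V K)} (hπ : CP π)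
include hπ
theorem dv_image (T : Finset (Om V K)) : dv (T.image π) = dv T := by
  funext v
  simp only [dv]
  rw [Finset.filter_image, Finset.card_image_of_injective _ π.injective]
  simp only [hπ _]
theorem rename_kr (A B : Finset (Om V K)) :
    rename π (kr ar A B) = kr ar (A.image π) (B.image π) := by
  simp only [kr, map_prod, map_pow, map_sub, rename_X,
    Finset.prod_image π.injective.injOn, hπ _]
theorem blk_image (T : Finset (Om V K)) (b : Om V K → ℕ) (i : ℕ) :
    blk (T.image π) (b ∘ π.symm) i = (blk T b i).image π := by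
  have _ := hπ
  simp only [blk]
  rw [Finset.filter_image]
  simp
theorem labels_image (T : Finset (Om V K)) (b : Om V K → ℕ) :
    (T.image π).image (b ∘ π.symm) = T.image b := by
  have _ := hπ
  rw [Finset.image_image]
  exact Finset.image_congr fun s _ => by simp
theorem kap_image (T : Finset (Om V K)) (b : Om V K → ℕ) :
    kap ar (T.image π) (b ∘ π.symm) = kap ar T b := by
  simp only [kap, Finset.sum_image π.injective.injOn, hπ _, Function.comp_apply,
    symm_apply_apply]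
theorem IsEP.image {T : Finset (Om V K)} {b : Om V K → ℕ} (h : IsEP η T b) :
    IsEP η (T.image π) (b ∘ π.symm) := fun i => by
  rw [blk_image hπ, dv_image hπ]
  exact h i
theorem rename_Kb (T : Finset (Om V K)) (b : Om V K → ℕ) :
    rename π (Kb ar T b) = Kb ar (T.image π) (b ∘ π.symm) := by
  simp only [Kb, map_prod, apply_ite (rename π : PR V K →ₐ[ℚ] PR V K), map_pow, map_sub, rename_X,
    map_one, Finset.prod_image π.injective.injOn, hπ _, Function.comp_apply, symm_apply_apply]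
theorem rename_pB (B : Finset (Om V K)) : rename π (pB B) = pB (B.image π) := by
  have _ := hπ
  simp only [pB, map_mul, map_sum, rename_X, rename_C, Finset.sum_image π.injective.injOn,
    Finset.card_image_of_injective _ π.injective]
theorem map_RT (T : Finset (Om V K)) :
    (RT T).map (rename π : PR V K →ₐ[ℚ] PR V K).toLinearMap = RT (T.image π) :=
  map_eq_of_forall (F := RT) (fun π _ _ _ hf => rename_mem_RT π hf) hπ T
theorem rename_mem_Anti {T : Finset (Om V K)} {f : PR V K} (hf : f ∈ Anti T) :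
    rename π f ∈ Anti (T.image π) := by
  refine ⟨rename_mem_RT π hf.1, fun s hs s' hs' hne h => ?_⟩
  obtain ⟨t, ht, rfl⟩ := Finset.mem_image.1 hs
  obtain ⟨t', ht', rfl⟩ := Finset.mem_image.1 hs'
  rw [hπ, hπ] at h
  rw [← rename_mul_apply, ← Equiv.mul_swap_eq_swap_mul, rename_mul_apply,
    hf.2 t ht t' ht' (fun e => hne (congrArg π e)) h, map_neg]
theorem map_Anti (T : Finset (Om V K)) :
    (Anti T).map (rename π : PR V K →ₐ[ℚ] PR V K).toLinearMap = Anti (T.image π) :=
  map_eq_of_forall (F := Anti) (fun _ hπ _ _ hf => rename_mem_Anti hπ hf) hπ T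
theorem rename_mem_Jnn {T : Finset (Om V K)} {f : PR V K} (hf : f ∈ Jnn ar η T) :
    rename π f ∈ Jnn ar η (T.image π) := by
  have h1 : Jnn ar η T ≤ (Jnn ar η (T.image π)).comap (rename π : PR V K →ₐ[ℚ] PR V K) := by
    rw [Jnn, Ideal.span_le]
    rintro _ ⟨A, hA, hn, rfl⟩
    refine Ideal.subset_span ⟨A.image π, Finset.image_subset_image hA, ?_, ?_⟩
    · rwa [dv_image hπ]
    · rw [rename_kr ar hπ, Finset.image_sdiff _ _ π.injective]
  exact h1 hf
theorem rename_mem_Jneg {T : Finset (Om V K)} {f : PR V K} (hf : f ∈ Jneg ar η T) :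
    rename π f ∈ Jneg ar η (T.image π) := by
  have h1 : Jneg ar η T ≤ (Jneg ar η (T.image π)).comap (rename π : PR V K →ₐ[ℚ] PR V K) := by
    rw [Jneg, Ideal.span_le]
    rintro _ ⟨A, hA, hne, hn, rfl⟩
    refine Ideal.subset_span ⟨A.image π, Finset.image_subset_image hA,
      fun e => hne (Finset.image_injective π.injective e), ?_, ?_⟩
    · rwa [← Finset.image_sdiff _ _ π.injective, dv_image hπ]
    · rw [rename_kr ar hπ, Finset.image_sdiff _ _ π.injective]
  exact h1 hf
theorem map_Jnn (T : Finset (Om V K)) :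
    (rs (Jnn ar η T)).map (rename π : PR V K →ₐ[ℚ] PR V K).toLinearMap =
      rs (Jnn ar η (T.image π)) :=
  map_eq_of_forall (F := fun T => rs (Jnn ar η T)) (fun _ hπ _ _ hf => rename_mem_Jnn ar η hπ hf)
    hπ T
theorem map_Jneg (T : Finset (Om V K)) :
    (rs (Jneg ar η T)).map (rename π : PR V K →ₐ[ℚ] PR V K).toLinearMap =
      rs (Jneg ar η (T.image π)) :=
  map_eq_of_forall (F := fun T => rs (Jneg ar η T))
    (fun _ hπ _ _ hf => rename_mem_Jneg ar η hπ hf) hπ T
theorem rename_mem_aI {T : Finset (Om V K)} {b : Om V K → ℕ} {f : PR V K}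
    (hf : f ∈ aI ar η T b) : rename π f ∈ aI ar η (T.image π) (b ∘ π.symm) := by
  have h1 : aI ar η T b ≤
      (aI ar η (T.image π) (b ∘ π.symm)).comap (rename π : PR V K →ₐ[ℚ] PR V K) := by
    refine iSup₂_le fun i hi g hg => ?_
    have h2 := rename_mem_Jnn ar η hπ hg
    rw [← blk_image hπ] at h2
    rw [← labels_image hπ] at hi
    exact (le_iSup₂ (f := fun i (_ : i ∈ (T.image π).image (b ∘ π.symm)) =>
      Jnn ar η (blk (T.image π) (b ∘ π.symm) i)) i hi) h2
  exact h1 hf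
theorem rename_mem_OrdAt {T : Finset (Om V K)} {b : Om V K → ℕ} {k : ℕ} {f : PR V K}
    (hf : f ∈ OrdAt ar η T b k) : rename π f ∈ OrdAt ar η (T.image π) (b ∘ π.symm) k := by
  refine (Submodule.mem_iInf _).2 fun c => ?_
  have h1 : sh (pt T b c) f ∈ aI ar η T b ⊔ mI V K ^ k := (Submodule.mem_iInf _).1 hf c
  have h2 : pt (T.image π) (b ∘ π.symm) c ∘ π = pt T b c := by
    funext s
    simp [pt]
  rw [Ideal.mem_comap, rename_sh, h2]
  obtain ⟨x, hx, y, hy, hxy⟩ := Submodule.mem_sup.1 h1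
  rw [← hxy, map_add]
  exact Submodule.add_mem_sup (rename_mem_aI ar η hπ hx) (rename_mem_mI_pow π hy)
theorem rename_mem_Fil {T : Finset (Om V K)} {w r : ℕ} {f : PR V K}
    (hf : f ∈ Fil ar η T w r) : rename π f ∈ Fil ar η (T.image π) w r := by
  refine (Submodule.mem_iInf _).2 fun b' => (Submodule.mem_iInf _).2 fun hb' => ?_
  obtain ⟨b, rfl⟩ : ∃ b : Om V K → ℕ, b' = b ∘ π.symm := ⟨b' ∘ π, by funext s; simp⟩
  have hb : IsEP η T b := fun i => by
    have := hb' i
    rwa [blk_image hπ, dv_image hπ] at this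
  have h1 := (Submodule.mem_iInf _).1 ((Submodule.mem_iInf _).1 hf b) hb
  rw [kap_image ar hπ, nb, labels_image hπ]
  exact rename_mem_OrdAt ar η hπ h1
theorem rename_mem_BPSk' {T : Finset (Om V K)} {k : ℕ} {f : PR V K}
    (hf : f ∈ BPSk ar η T k) : rename π f ∈ BPSk ar η (T.image π) k :=
  ⟨⟨rename_mem_Anti hπ hf.1.1, IsHomogeneous.rename_isHomogeneous hf.1.2⟩,
    rename_mem_Fil ar η hπ hf.2⟩
theorem rename_mem_BPS {T : Finset (Om V K)} {f : PR V K}
    (hf : f ∈ BPS ar η T) : rename π f ∈ BPS ar η (T.image π) := by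
  have h1 : BPS ar η T ≤
      (BPS ar η (T.image π)).comap (rename π : PR V K →ₐ[ℚ] PR V K).toLinearMap :=
    iSup_le fun k g hg => le_iSup (BPSk ar η (T.image π)) k (rename_mem_BPSk' ar η hπ hg)
  exact h1 hf
theorem map_BPS (T : Finset (Om V K)) :
    (BPS ar η T).map (rename π : PR V K →ₐ[ℚ] PR V K).toLinearMap = BPS ar η (T.image π) :=
  map_eq_of_forall (F := BPS ar η) (fun _ hπ _ _ hf => rename_mem_BPS ar η hπ hf) hπ T
theorem rename_mem_BPSk {T : Finset (Om V K)} {k : ℕ} {f : PR V K}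
    (hf : f ∈ BPSk ar η T k) : rename π f ∈ BPSk ar η (T.image π) k :=
  rename_mem_BPSk' ar η hπ hf
/-- moving a placed anti-invariant polynomial changes it by a sign -/
theorem rename_pl (B : Finset (Om V K)) {f : PR V K} (hf : f ∈ Anti (std K (dv B))) :
    ∃ ε : ℚ, (ε = 1 ∨ ε = -1) ∧ rename π (pl B f) = ε • pl (B.image π) f := by
  obtain ⟨h1, h2⟩ := mv_spec B
  obtain ⟨h3, h4⟩ := mv_spec (B.image π)
  rw [dv_image hπ] at h4
  set S := std K (dv B)
  set ρ : Perm (Om V K) := (mv (B.image π))⁻¹ * (π * mv B) with hρ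
  have hρ1 : CP ρ := h3.inv.mul (hπ.mul h1)
  have hρ2 : S.image ρ = S := by
    have : S.image ρ = (((S.image (mv B)).image π)).image ((mv (B.image π))⁻¹ : Perm _) := by
      rw [Finset.image_image, Finset.image_image]
      rfl
    have h5 := image_inv_image (mv (B.image π)) S
    rw [h4] at h5
    rw [this, h2, h5]
  have hρ3 : ∀ s, ρ s ∈ S ↔ s ∈ S := fun s => by
    conv_lhs => rw [← hρ2]
    exact ρ.injective.mem_finset_image
  let ρ' : Perm (Om V K) := Perm.ofSubtype (ρ.subtypePerm hρ3)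
  have e1 : ∀ s ∈ S, ρ' s = ρ s := fun s hs => Perm.ofSubtype_subtypePerm_of_mem hρ3 hs
  have e2 : ∀ s, s ∉ S → ρ' s = s := fun s hs => Perm.ofSubtype_apply_of_not_mem _ hs
  have hρ' : ρ' ∈ GT S := mem_GT.2 ⟨fun s => by
    by_cases hs : s ∈ S
    · rw [e1 s hs, hρ1]
    · rw [e2 s hs], e2⟩
  refine ⟨((Perm.sign ρ' : ℤˣ) : ℤ), ?_, ?_⟩
  · rcases Int.units_eq_one_or (Perm.sign ρ') with h | h <;> simp [h]
  · have e3 : π * mv B = mv (B.image π) * ρ := by rw [hρ, mul_inv_cancel_left]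
    rw [pl, pl, ← rename_mul_apply, e3, rename_mul_apply, ← rename_congr_RT hf.1 e1,
      rename_of_mem_Anti hf hρ', map_smul]
end transport

theorem Alt_mem_Fil (ar : V → V → ℕ) (η : Stab (V → ℤ)) {T : Finset (Om V K)} {w r : ℕ}
    {f : PR V K} (hf : f ∈ Fil ar η T w r) : Alt T f ∈ Fil ar η T w r := by
  refine Alt_mem (Q := rs (Fil ar η T w r)) (fun π hπ g hg => ?_) hf
  have := rename_mem_Fil ar η (mem_GT.1 hπ).1 hg
  rwa [image_GT hπ] at this

theorem hil_Jnn_eq (ar : V → V → ℕ) (η : Stab (V → ℤ)) {T T' : Finset (Om V K)}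
    (h : dv T = dv T') :
    hil (Anti T) (rs (Jnn ar η T)) = hil (Anti T') (rs (Jnn ar η T')) := by
  obtain ⟨π, hπ, rfl⟩ := exists_CP_image h
  rw [← map_Anti hπ, ← map_Jnn ar η hπ, hil_map_rename]

variable {ar : V → V → ℕ} {η : Stab (V → ℤ)} {Γ : Type}
/-- the placed BPS basis -/
theorem BD.bm_pl (D : BD ar η K Γ) {B : Finset (Om V K)} (hB : B.Nonempty)
    (hz : η.zero (dz (dv B))) :
    IsBM (fun γ : {γ // D.dg γ = dv B} => pl B (D.u γ.1)) (BPS ar η B) (rs (Jnn ar η B)) := by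
  obtain ⟨h1, h2⟩ := mv_spec B
  have h3 := (D.bm (dv B) (fun h => hB.ne_empty (dv_eq_zero h)) (dv_le B) hz).map
    (renameEquiv ℚ (mv B)).toLinearEquiv
  have e1 := map_BPS ar η h1 (std K (dv B))
  have e2 := map_Jnn ar η h1 (std K (dv B))
  rw [h2] at e1 e2
  rw [← e1, ← e2]
  exact h3
theorem BD.u_mem (D : BD ar η K Γ) (γ : Γ) : D.u γ ∈ BPSk ar η (std K (D.dg γ)) (D.kg γ) := by
  have h1 := hc_mem_BPSk ar η _ ((D.bm _ (D.ne γ) (D.le γ) (D.z γ)).mem ⟨γ, rfl⟩) (D.kg γ)
  rwa [homogeneousComponent_eq_self (D.hom γ)] at h1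
theorem BD.pl_mem (D : BD ar η K Γ) {B : Finset (Om V K)} {γ : Γ} (h : D.dg γ = dv B) :
    pl B (D.u γ) ∈ BPSk ar η B (D.kg γ) := by
  obtain ⟨h1, h2⟩ := mv_spec B
  have h3 := rename_mem_BPSk ar η h1 (D.u_mem γ)
  rwa [h, h2] at h3

end
end Vale.Agent.P066
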