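import Vale.Agent.P066.Stab

/-! Part C: definitions for the shuffle-algebra proof of positivity of wall functions. -/

namespace Vale.Agent.P066
open MvPolynomial Equiv
noncomputable section

/-- Variables: a colour and an index. -/
abbrev Om (V : Type) (K : ℕ) := V × Fin K
/-- The polynomial ring in which everything lives. -/
abbrev PR (V : Type) (K : ℕ) := MvPolynomial (Om V K) ℚ

variable {V : Type} [Fintype V] [DecidableEq V] {K : ℕ}

/-- dimension vector of a set of variables -/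
def dv (T : Finset (Om V K)) : V → ℕ := fun v => (T.filter fun s => s.1 = v).card
def dz (d : V → ℕ) : V → ℤ := fun v => (d v : ℤ)
/-- number of arrows from dimension vector `d` to `e` -/
def aa (ar : V → V → ℕ) (d e : V → ℕ) : ℕ := ∑ v, ∑ w, d v * e w * ar v w
/-- the arrow form is symmetric on classes of phase zero -/
def Sym0 (ar : V → V → ℕ) (η : Stab (V → ℤ)) : Prop :=
  ∀ d e : V → ℕ, η.zero (dz d) → η.zero (dz e) → aa ar d e = aa ar e d
/-- shuffle kernel -/
def kr (ar : V → V → ℕ) (A B : Finset (Om V K)) : PR V K :=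
  ∏ s ∈ A, ∏ s' ∈ B, (X s' - X s) ^ ar s.1 s'.1
def Jnn (ar : V → V → ℕ) (η : Stab (V → ℤ)) (T : Finset (Om V K)) : Ideal (PR V K) :=
  Ideal.span {k | ∃ A, A ⊆ T ∧ η.neg (dz (dv A)) ∧ k = kr ar A (T \ A)}
def Jneg (ar : V → V → ℕ) (η : Stab (V → ℤ)) (T : Finset (Om V K)) : Ideal (PR V K) :=
  Ideal.span {k | ∃ A, A ⊆ T ∧ A ≠ T ∧ η.nn (dz (dv (T \ A))) ∧ k = kr ar A (T \ A)}
/-- an ideal as a rational subspace -/
abbrev rs (I : Ideal (PR V K)) : Submodule ℚ (PR V K) := Submodule.restrictScalars ℚ I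
/-- polynomials in the variables of `T` -/
def RT (T : Finset (Om V K)) : Submodule ℚ (PR V K) :=
  Subalgebra.toSubmodule (supported ℚ (T : Set (Om V K)))
/-- polynomials in the variables of `T`, anti-invariant under swaps of equal colour -/
def Anti (T : Finset (Om V K)) : Submodule ℚ (PR V K) where
  carrier := {f | f ∈ RT T ∧ ∀ s ∈ T, ∀ s' ∈ T, s ≠ s' → s.1 = s'.1 → rename (swap s s') f = -f}
  add_mem' := by
    rintro f g ⟨hf, hf'⟩ ⟨hg, hg'⟩
    refine ⟨Submodule.add_mem _ hf hg, fun s hs s' hs' h1 h2 => ?_⟩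
    rw [map_add, hf' s hs s' hs' h1 h2, hg' s hs s' hs' h1 h2, neg_add]
  zero_mem' := ⟨Submodule.zero_mem _, fun _ _ _ _ _ _ => by simp⟩
  smul_mem' := by
    rintro c f ⟨hf, hf'⟩
    refine ⟨Submodule.smul_mem _ c hf, fun s hs s' hs' h1 h2 => ?_⟩
    rw [map_smul, hf' s hs s' hs' h1 h2, smul_neg]
/-- colour preserving permutations -/
def CP (π : Perm (Om V K)) : Prop := ∀ s, (π s).1 = s.1
open Classical in
/-- colour preserving permutations of `T` -/
def GT (T : Finset (Om V K)) : Finset (Perm (Om V K)) :=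
  Finset.univ.filter fun π => CP π ∧ ∀ s, s ∉ T → π s = s
/-- antisymmetrisation over `GT T` -/
def Alt (T : Finset (Om V K)) : PR V K →ₗ[ℚ] PR V K :=
  ∑ π ∈ GT T, (((Perm.sign π : ℤˣ) : ℤ) : ℚ) • (rename π : PR V K →ₐ[ℚ] PR V K).toLinearMap
/-- homogeneous polynomials of degree `j` -/
abbrev Hm (V : Type) (K : ℕ) (j : ℕ) : Submodule ℚ (PR V K) := homogeneousSubmodule (Om V K) ℚ j
/-- homogeneous component -/
abbrev hc (j : ℕ) : PR V K →ₗ[ℚ] PR V K := homogeneousComponent j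
/-- graded subspaces -/
def Gr (Q : Submodule ℚ (PR V K)) : Prop := ∀ f ∈ Q, ∀ j, hc j f ∈ Q
/-- `u` is a basis of `P` modulo `Q` -/
structure IsBM {ι : Type} (u : ι → PR V K) (P Q : Submodule ℚ (PR V K)) : Prop where
  mem : ∀ i, u i ∈ P
  li : ∀ l : ι →₀ ℚ, Finsupp.linearCombination ℚ u l ∈ Q → l = 0
  sp : P ≤ Submodule.span ℚ (Set.range u) ⊔ Q
/-- Hilbert series of `P` modulo `Q` -/
def hil (P Q : Submodule ℚ (PR V K)) : PowerSeries ℚ :=
  PowerSeries.mk fun j => (Module.finrank ℚ ((P ⊓ Hm V K j).map Q.mkQ) : ℚ)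
/-- generating function of a graded set -/
def gfN {ι : Type} (δ : ι → ℕ) : PowerSeries ℚ :=
  PowerSeries.mk fun j => (Nat.card {i // δ i = j} : ℚ)
/-- apply the functional `ψ` to the variables in `A` -/
def tens (A : Finset (Om V K)) (ψ : PR V K →ₗ[ℚ] ℚ) : PR V K →ₗ[ℚ] PR V K :=
  (basisMonomials (Om V K) ℚ).constr ℚ fun m =>
    ψ (monomial (m.filter fun s => s ∈ A) 1) • monomial (m.filter fun s => s ∉ A) 1
/-- translation of the variables -/
def sh (c : Om V K → ℚ) : PR V K →ₐ[ℚ] PR V K := aeval fun s => X s + C (c s)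
/-- the irrelevant ideal -/
abbrev mI (V : Type) (K : ℕ) : Ideal (PR V K) := idealOfVars (Om V K) ℚ
/-- blocks of the labelling `b` of `T` -/
def blk (T : Finset (Om V K)) (b : Om V K → ℕ) (i : ℕ) : Finset (Om V K) :=
  T.filter fun s => b s = i
/-- all blocks have phase zero -/
def IsEP (η : Stab (V → ℤ)) (T : Finset (Om V K)) (b : Om V K → ℕ) : Prop :=
  ∀ i, η.zero (dz (dv (blk T b i)))
def aI (ar : V → V → ℕ) (η : Stab (V → ℤ)) (T : Finset (Om V K)) (b : Om V K → ℕ) :
    Ideal (PR V K) := ⨆ i ∈ T.image b, Jnn ar η (blk T b i)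
def nb (T : Finset (Om V K)) (b : Om V K → ℕ) : ℕ := (T.image b).card
def kap (ar : V → V → ℕ) (T : Finset (Om V K)) (b : Om V K → ℕ) : ℕ :=
  ∑ s ∈ T, ∑ s' ∈ T, if b s < b s' then ar s.1 s'.1 else 0
def Kb (ar : V → V → ℕ) (T : Finset (Om V K)) (b : Om V K → ℕ) : PR V K :=
  ∏ s ∈ T, ∏ s' ∈ T, if b s < b s' then (X s' - X s) ^ ar s.1 s'.1 else 1
/-- the value of `Kb` at block-constant points, as a polynomial in the block coordinates -/
def Ktop (ar : V → V → ℕ) (T : Finset (Om V K)) (b : Om V K → ℕ) : MvPolynomial ℕ ℚ :=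
  ∏ i ∈ T.image b, ∏ j ∈ T.image b,
    if i < j then (X j - X i) ^ aa ar (dv (blk T b i)) (dv (blk T b j)) else 1
/-- the block-constant point with block coordinates `c` -/
def pt (T : Finset (Om V K)) (b : Om V K → ℕ) (c : ℕ → ℚ) : Om V K → ℚ :=
  fun s => if s ∈ T then c (b s) else 0
/-- order of vanishing at least `k` (modulo `aI`) at all block-constant points -/
def OrdAt (ar : V → V → ℕ) (η : Stab (V → ℤ)) (T : Finset (Om V K)) (b : Om V K → ℕ) (k : ℕ) :
    Ideal (PR V K) := ⨅ c : ℕ → ℚ, (aI ar η T b ⊔ mI V K ^ k).comap (sh (pt T b c))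
/-- the (decreasing) filtration; `(w, r + 1)` is followed by `(w, r)` -/
def Fil (ar : V → V → ℕ) (η : Stab (V → ℤ)) (T : Finset (Om V K)) (w r : ℕ) : Ideal (PR V K) :=
  ⨅ (b : Om V K → ℕ) (_ : IsEP η T b),
    OrdAt ar η T b ((if nb T b < r then w else w + 1) - kap ar T b)
/-- BPS polynomials of degree `k` -/
def BPSk (ar : V → V → ℕ) (η : Stab (V → ℤ)) (T : Finset (Om V K)) (k : ℕ) :
    Submodule ℚ (PR V K) := Anti T ⊓ Hm V K k ⊓ rs (Fil ar η T k 2)
def BPS (ar : V → V → ℕ) (η : Stab (V → ℤ)) (T : Finset (Om V K)) : Submodule ℚ (PR V K) :=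
  ⨆ k, BPSk ar η T k
/-- `b` refines `b'` on `T` -/
def Refines (T : Finset (Om V K)) (b b' : Om V K → ℕ) : Prop :=
  ∀ s ∈ T, ∀ s' ∈ T, b s = b s' → b' s = b' s'
def SameP (T : Finset (Om V K)) (b b' : Om V K → ℕ) : Prop := Refines T b b' ∧ Refines T b' b
/-- the standard set of variables with dimension vector `d` -/
def std (K : ℕ) (d : V → ℕ) : Finset (Om V K) := Finset.univ.filter fun s => s.2.val < d s.1
open Classical in
/-- a colour preserving permutation carrying the standard set onto `B` -/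
def mv (B : Finset (Om V K)) : Perm (Om V K) :=
  if h : ∃ π : Perm (Om V K), CP π ∧ (std K (dv B)).image π = B then h.choose else 1
/-- place a polynomial in the standard variables on the block `B` -/
def pl (B : Finset (Om V K)) (f : PR V K) : PR V K := rename (mv B) f
/-- average of the variables of `B` -/
def pB (B : Finset (Om V K)) : PR V K := C ((B.card : ℚ)⁻¹) * ∑ s ∈ B, X s

/-- A homogeneous basis of all BPS spaces. -/
structure BD (ar : V → V → ℕ) (η : Stab (V → ℤ)) (K : ℕ) (Γ : Type) where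
  dg : Γ → V → ℕ
  u : Γ → PR V K
  kg : Γ → ℕ
  ne : ∀ γ, dg γ ≠ 0
  le : ∀ γ v, dg γ v ≤ K
  z : ∀ γ, η.zero (dz (dg γ))
  hom : ∀ γ, (u γ).IsHomogeneous (kg γ)
  bm : ∀ d : V → ℕ, d ≠ 0 → (∀ v, d v ≤ K) → η.zero (dz d) →
    IsBM (fun γ : {γ // dg γ = d} => u γ.1) (BPS ar η (std K d)) (rs (Jnn ar η (std K d)))

variable {ar : V → V → ℕ} {η : Stab (V → ℤ)} {Γ : Type}

/-- the items placed on the blocks have the right dimension vectors -/
def BD.Valid (D : BD ar η K Γ) (T : Finset (Om V K)) (b : Om V K → ℕ) (it : ℕ → Γ × ℕ) : Prop :=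
  ∀ i ∈ T.image b, D.dg (it i).1 = dv (blk T b i)
/-- product of BPS elements and powers of block averages, times the kernel -/
def BD.Y (D : BD ar η K Γ) (T : Finset (Om V K)) (b : Om V K → ℕ) (it : ℕ → Γ × ℕ) : PR V K :=
  Kb ar T b * (∏ i ∈ T.image b, pl (blk T b i) (D.u (it i).1)) *
    ∏ i ∈ T.image b, pB (blk T b i) ^ (it i).2
/-- filtration level of `Y` -/
def BD.lev (D : BD ar η K Γ) (T : Finset (Om V K)) (b : Om V K → ℕ) (it : ℕ → Γ × ℕ) : ℕ :=
  kap ar T b + ∑ i ∈ T.image b, D.kg (it i).1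
/-- the multiset of items -/
def conf (T : Finset (Om V K)) (b : Om V K → ℕ) (it : ℕ → Γ × ℕ) : Multiset (Γ × ℕ) :=
  (T.image b).val.map it
/-- fermionic dimension vectors -/
def Ferm (ar : V → V → ℕ) (d : V → ℕ) : Prop := Odd (∑ v, d v + aa ar d d)
open Classical in
/-- configurations of total class `d`: fermionic items are not repeated -/
def Conf {W : Type} [AddCommMonoid W] (dg : Γ → W) (fm : Γ → Prop) (d : W) : Type :=
  {c : Multiset (Γ × ℕ) // (c.map fun x => dg x.1).sum = d ∧ ∀ x, fm x.1 → c.count x ≤ 1}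
/-- `1 / ((1-q)...(1-q^e))`, times `q^(e choose 2)` in the fermionic case -/
def psi (fm : Bool) (e : ℕ) : PowerSeries ℚ :=
  (if fm then PowerSeries.X ^ e.choose 2 else 1) *
    (∏ i ∈ Finset.range e, (1 - PowerSeries.X ^ (i + 1) : PowerSeries ℚ))⁻¹
/-- functions bounded by `K` -/
def box (ι : Type) [Fintype ι] [DecidableEq ι] (K : ℕ) : Finset (ι → ℕ) :=
  Fintype.piFinset fun _ => Finset.range (K + 1)

end
end Vale.Agent.P066
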