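import Vale.Agent.P066.CLin

/-! Part C: auxiliary lemmas for the bound lemma. -/

namespace Vale.Agent.P066
open MvPolynomial Equiv
noncomputable section
variable {V : Type} [Fintype V] [DecidableEq V] {K : ℕ}

/-- product of kernel factors over a set of pairs -/
def Pk_fb (ar : V → V → ℕ) (P : Finset (Om V K × Om V K)) : PR V K :=
  ∏ p ∈ P, (X p.2 - X p.1) ^ ar p.1.1 p.2.1

omit [Fintype V] [DecidableEq V] in
theorem kr_eq_Pk_fb (ar : V → V → ℕ) (A B : Finset (Om V K)) : kr ar A B = Pk_fb ar (A ×ˢ B) := by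
  unfold kr Pk_fb
  rw [Finset.prod_product]

omit [Fintype V] in
theorem Pk_dvd_mul_fb (ar : V → V → ℕ) {P Q R : Finset (Om V K × Om V K)}
    (h : ∀ p ∈ P, p ∈ Q ∨ p ∈ R) : Pk_fb ar P ∣ Pk_fb ar Q * Pk_fb ar R := by
  unfold Pk_fb
  rw [← Finset.prod_union_inter]
  refine Dvd.dvd.mul_right (Finset.prod_dvd_prod_of_subset _ _ _ fun p hp => ?_) _
  exact Finset.mem_union.2 (h p hp)

omit [Fintype V] [DecidableEq V] in
theorem Pk_dvd_fb (ar : V → V → ℕ) {P Q : Finset (Om V K × Om V K)} (h : P ⊆ Q) :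
    Pk_fb ar P ∣ Pk_fb ar Q := Finset.prod_dvd_prod_of_subset _ _ _ h

/-- pairs inside a block of `b'` which increase for `b` -/
def inP_fb (T : Finset (Om V K)) (b b' : Om V K → ℕ) : Finset (Om V K × Om V K) :=
  (T ×ˢ T).filter fun p => b p.1 < b p.2 ∧ b' p.1 = b' p.2

omit [Fintype V] [DecidableEq V] in
theorem mem_inP_fb {T : Finset (Om V K)} {b b' : Om V K → ℕ} {p : Om V K × Om V K} :
    p ∈ inP_fb T b b' ↔ (p.1 ∈ T ∧ p.2 ∈ T) ∧ b p.1 < b p.2 ∧ b' p.1 = b' p.2 := by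
  simp [inP_fb]

omit [Fintype V] [DecidableEq V] in
theorem Kb_eq_Pk_fb (ar : V → V → ℕ) (T : Finset (Om V K)) (b : Om V K → ℕ) :
    Kb ar T b = Pk_fb ar ((T ×ˢ T).filter fun p => b p.1 < b p.2) := by
  unfold Kb Pk_fb
  rw [Finset.prod_filter, Finset.prod_product]

omit [Fintype V] [DecidableEq V] in
theorem Pk_inP_dvd_fb (ar : V → V → ℕ) (T : Finset (Om V K)) (b b' : Om V K → ℕ) :
    Pk_fb ar (inP_fb T b b') ∣ Kb ar T b := by
  rw [Kb_eq_Pk_fb]
  refine Pk_dvd_fb ar fun p hp => ?_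
  rw [mem_inP_fb] at hp
  simp only [Finset.mem_filter, Finset.mem_product]
  exact ⟨hp.1, hp.2.1⟩

omit [Fintype V] [DecidableEq V] in
theorem sh_Pk_fb (ar : V → V → ℕ) {P : Finset (Om V K × Om V K)} {c : Om V K → ℚ}
    (h : ∀ p ∈ P, c p.1 = c p.2) : sh c (Pk_fb ar P) = Pk_fb ar P := by
  unfold Pk_fb
  rw [map_prod]
  refine Finset.prod_congr rfl fun p hp => ?_
  rw [map_pow, map_sub]
  unfold sh
  rw [aeval_X, aeval_X, h p hp, add_sub_add_right_eq_sub]

omit [Fintype V] [DecidableEq V] in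
theorem sh_Pk_inP_fb (ar : V → V → ℕ) (T : Finset (Om V K)) (b b' : Om V K → ℕ) [DecidableEq V]
    (c : ℕ → ℚ) : sh (pt T b' c) (Pk_fb ar (inP_fb T b b')) = Pk_fb ar (inP_fb T b b') := by
  refine sh_Pk_fb ar fun p hp => ?_
  rw [mem_inP_fb] at hp
  simp only [pt, hp.1.1, hp.1.2, if_true, hp.2.2]

omit [Fintype V] [DecidableEq V] in
theorem Pk_isHomogeneous_fb (ar : V → V → ℕ) (P : Finset (Om V K × Om V K)) :
    (Pk_fb ar P).IsHomogeneous (∑ p ∈ P, ar p.1.1 p.2.1) := by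
  unfold Pk_fb
  refine IsHomogeneous.prod _ _ _ fun p _ => ?_
  have h1 : (X p.2 - X p.1 : PR V K).IsHomogeneous 1 :=
    (isHomogeneous_X _ _).sub (isHomogeneous_X _ _)
  simpa using h1.pow (ar p.1.1 p.2.1)

omit [Fintype V] [DecidableEq V] in
theorem mem_blk_fb {T : Finset (Om V K)} {b : Om V K → ℕ} {i : ℕ} {s : Om V K} :
    s ∈ blk T b i ↔ s ∈ T ∧ b s = i := by simp [blk]

omit [Fintype V] [DecidableEq V] in
/-- double sums inside the blocks -/
theorem sum_blk_blk_fb (T : Finset (Om V K)) (b : Om V K → ℕ) (F : Om V K → Om V K → ℕ) :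
    ∑ i ∈ T.image b, ∑ s ∈ blk T b i, ∑ s' ∈ blk T b i, F s s' =
      ∑ s ∈ T, ∑ s' ∈ T, if b s = b s' then F s s' else 0 := by
  rw [← Finset.sum_fiberwise_of_maps_to (s := T) (t := T.image b) (g := b)
    (fun s hs => Finset.mem_image_of_mem b hs)]
  refine Finset.sum_congr rfl fun i _ => ?_
  refine Finset.sum_congr rfl fun s hs => ?_
  have hs' : b s = i := (Finset.mem_filter.1 hs).2
  unfold blk
  rw [Finset.sum_filter]
  refine Finset.sum_congr rfl fun s' _ => ?_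
  rw [hs']
  exact if_congr eq_comm rfl rfl

omit [Fintype V] [DecidableEq V] in
theorem sum_inP_fb (ar : V → V → ℕ) (T : Finset (Om V K)) (b b' : Om V K → ℕ) :
    ∑ p ∈ inP_fb T b b', ar p.1.1 p.2.1 = ∑ j ∈ T.image b', kap ar (blk T b' j) b := by
  unfold kap
  rw [sum_blk_blk_fb, inP_fb, Finset.sum_filter, Finset.sum_product]
  refine Finset.sum_congr rfl fun s _ => Finset.sum_congr rfl fun s' _ => ?_
  by_cases h1 : b s < b s' <;> by_cases h2 : b' s = b' s' <;> simp [h1, h2]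

/-- lower part of a set -/
def low_fb (T : Finset (Om V K)) (b : Om V K → ℕ) (m : ℕ) : Finset (Om V K) :=
  T.filter fun s => b s < m

omit [Fintype V] [DecidableEq V] in
theorem mem_low_fb {T : Finset (Om V K)} {b : Om V K → ℕ} {m : ℕ} {s : Om V K} :
    s ∈ low_fb T b m ↔ s ∈ T ∧ b s < m := by simp [low_fb]

theorem dv_low_succ_fb (T : Finset (Om V K)) (b : Om V K → ℕ) (m : ℕ) :
    dz (dv (low_fb T b (m + 1))) = dz (dv (low_fb T b m)) + dz (dv (blk T b m)) := by
  rw [← dz_add, ← dv_union]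
  · congr 2
    ext s
    simp only [Finset.mem_union, mem_low_fb, mem_blk_fb]
    constructor
    · rintro ⟨h1, h2⟩
      rcases Nat.lt_succ_iff_lt_or_eq.1 h2 with h | h
      · exact Or.inl ⟨h1, h⟩
      · exact Or.inr ⟨h1, h⟩
    · rintro (⟨h1, h2⟩ | ⟨h1, h2⟩)
      · exact ⟨h1, by omega⟩
      · exact ⟨h1, by omega⟩
  · rw [Finset.disjoint_left]
    intro s h1 h2
    have := (mem_low_fb.1 h1).2
    have := (mem_blk_fb.1 h2).2
    omega

theorem zero_low_fb {η : Stab (V → ℤ)} {T : Finset (Om V K)} {b : Om V K → ℕ} (hb : IsEP η T b)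
    (m : ℕ) : η.zero (dz (dv (low_fb T b m))) := by
  induction m with
  | zero =>
    have : low_fb T b 0 = ∅ := by ext s; simp [mem_low_fb]
    rw [this, dv_empty, dz_zero]; exact η.zero_zero
  | succ m ih => rw [dv_low_succ_fb]; exact ih.add (hb m)

theorem dz_sum_fb {ι : Type} (s : Finset ι) (f : ι → V → ℕ) :
    dz (∑ i ∈ s, f i) = ∑ i ∈ s, dz (f i) := by
  classical
  induction s using Finset.induction_on with
  | empty => simpa using dz_zero
  | insert a s ha ih => rw [Finset.sum_insert ha, Finset.sum_insert ha, dz_add, ih]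

theorem zero_of_sum_fb {L : Type} [AddCommGroup L] {σ : Stab L} {ι : Type} [DecidableEq ι]
    {s : Finset ι} {f : ι → L} (h : ∀ i ∈ s, σ.nn (f i)) (hz : σ.zero (∑ i ∈ s, f i)) {i : ι}
    (hi : i ∈ s) : σ.zero (f i) := by
  refine ⟨h i hi, ?_⟩
  by_contra hp
  have hp' : σ.pos (f i) := hp
  rw [← Finset.add_sum_erase s f hi] at hz
  exact (hp'.add_nn (Stab.nn_sum _ _ fun j hj => h j (Finset.mem_of_mem_erase hj))).not_zero hz

/-- if no lower part of a block of `b'` is negative, all lower parts have phase zero -/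
theorem zero_low_blk_fb {η : Stab (V → ℤ)} {T : Finset (Om V K)} {b b' : Om V K → ℕ}
    (hb : IsEP η T b) (h : ∀ j m, η.nn (dz (dv (low_fb (blk T b' j) b m)))) (j m : ℕ) :
    η.zero (dz (dv (low_fb (blk T b' j) b m))) := by
  have e : ∀ j, low_fb (blk T b' j) b m = blk (low_fb T b m) b' j := by
    intro j; ext s; simp only [mem_low_fb, mem_blk_fb]; tauto
  have hz := zero_low_fb hb m
  rw [dv_eq_sum_blk _ b', dz_sum_fb] at hz
  by_cases hj : j ∈ (low_fb T b m).image b'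
  · rw [e]
    exact zero_of_sum_fb (f := fun j => dz (dv (blk (low_fb T b m) b' j)))
      (fun j _ => by rw [← e]; exact h j m) hz hj
  · have : low_fb (blk T b' j) b m = ∅ := by
      rw [e]; ext s
      simp only [mem_blk_fb, Finset.notMem_empty, iff_false, not_and]
      intro h1 h2
      exact hj (Finset.mem_image.2 ⟨s, h1, h2⟩)
    rw [this, dv_empty, dz_zero]; exact η.zero_zero

theorem isEP_of_zero_low_fb {η : Stab (V → ℤ)} {T : Finset (Om V K)} {b : Om V K → ℕ}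
    (h : ∀ m, η.zero (dz (dv (low_fb T b m)))) : IsEP η T b := by
  intro i
  have := (h (i + 1)).sub (h i)
  rwa [dv_low_succ_fb, add_sub_cancel_left] at this

omit [Fintype V] [DecidableEq V] in
theorem blk_comm_fb (T : Finset (Om V K)) (b b' : Om V K → ℕ) (i j : ℕ) :
    blk (blk T b i) b' j = blk (blk T b' j) b i := by
  ext s; simp only [mem_blk_fb]; tauto

omit [Fintype V] in
theorem Jnn_le_aI_fb (ar : V → V → ℕ) (η : Stab (V → ℤ)) {T : Finset (Om V K)} {b : Om V K → ℕ}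
    {j : ℕ} (hj : j ∈ T.image b) : Jnn ar η (blk T b j) ≤ aI ar η T b :=
  le_iSup₂_of_le (f := fun i (_ : i ∈ T.image b) => Jnn ar η (blk T b i)) j hj le_rfl

/-- Case A of the bound lemma -/
theorem Pk_inP_mem_aI_fb (ar : V → V → ℕ) {η : Stab (V → ℤ)} {T : Finset (Om V K)}
    {b b' : Om V K → ℕ} {j m : ℕ} (h : η.neg (dz (dv (low_fb (blk T b' j) b m)))) :
    Pk_fb ar (inP_fb T b b') ∈ aI ar η T b' := by
  have hne : (low_fb (blk T b' j) b m).Nonempty := by
    rw [Finset.nonempty_iff_ne_empty]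
    intro h0
    rw [h0, dv_empty, dz_zero] at h
    exact η.not_neg_zero h
  obtain ⟨s0, hs0⟩ := hne
  have hj : j ∈ T.image b' := by
    have := mem_blk_fb.1 (mem_low_fb.1 hs0).1
    exact Finset.mem_image.2 ⟨s0, this.1, this.2⟩
  refine Jnn_le_aI_fb ar η hj ?_
  have hm : kr ar (low_fb (blk T b' j) b m) (blk T b' j \ low_fb (blk T b' j) b m) ∈
      Jnn ar η (blk T b' j) :=
    Ideal.subset_span ⟨_, Finset.filter_subset _ _, h, rfl⟩
  refine Ideal.mem_of_dvd _ ?_ hm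
  rw [kr_eq_Pk_fb]
  refine Pk_dvd_fb ar fun p hp => ?_
  simp only [Finset.mem_product, Finset.mem_sdiff, mem_low_fb, mem_blk_fb] at hp
  obtain ⟨⟨⟨h1, h2⟩, h3⟩, ⟨h4, h5⟩, h6⟩ := hp
  have h7 : ¬ b p.2 < m := fun h => h6 ⟨⟨h4, h5⟩, h⟩
  exact mem_inP_fb.2 ⟨⟨h1, h4⟩, by omega, by rw [h2, h5]⟩

/-- Case B of the bound lemma: absorbing the ideal of a block -/
theorem Pk_inP_mul_mem_fb (ar : V → V → ℕ) {η : Stab (V → ℤ)} {T : Finset (Om V K)}
    {b b' : Om V K → ℕ} (h : ∀ j m, η.zero (dz (dv (low_fb (blk T b' j) b m)))) (i : ℕ)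
    {f : PR V K} (hf : f ∈ aI ar η (blk T b i) b') :
    Pk_fb ar (inP_fb T b b') * f ∈ aI ar η T b' := by
  have key : aI ar η (blk T b i) b' ≤ (aI ar η T b').colon {Pk_fb ar (inP_fb T b b')} := by
    refine iSup₂_le fun j hj => Ideal.span_le.2 ?_
    rintro _ ⟨A, hA, hneg, rfl⟩
    have hj' : j ∈ T.image b' := Finset.image_subset_image (Finset.filter_subset _ _) hj
    rw [SetLike.mem_coe, Submodule.mem_colon_singleton, smul_eq_mul, mul_comm]
    refine Jnn_le_aI_fb ar η hj' ?_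
    have hAm : ∀ s ∈ A, (s ∈ T ∧ b s = i) ∧ b' s = j := fun s hs => by
      simpa only [mem_blk_fb] using hA hs
    have hdis : Disjoint A (low_fb (blk T b' j) b i) := by
      rw [Finset.disjoint_left]
      intro s h1 h2
      have := (hAm s h1).1.2
      have := (mem_low_fb.1 h2).2
      omega
    have hm : kr ar (A ∪ low_fb (blk T b' j) b i) (blk T b' j \ (A ∪ low_fb (blk T b' j) b i)) ∈
        Jnn ar η (blk T b' j) := by
      refine Ideal.subset_span ⟨_, ?_, ?_, rfl⟩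
      · refine Finset.union_subset (fun s hs => ?_) (Finset.filter_subset _ _)
        exact mem_blk_fb.2 ⟨(hAm s hs).1.1, (hAm s hs).2⟩
      · rw [dv_union hdis, dz_add]
        exact hneg.add_np (h j i).2
    refine Ideal.mem_of_dvd _ ?_ hm
    rw [kr_eq_Pk_fb, kr_eq_Pk_fb]
    refine Pk_dvd_mul_fb ar fun p hp => ?_
    simp only [Finset.mem_product, Finset.mem_sdiff, Finset.mem_union, mem_low_fb, mem_blk_fb,
      not_or] at hp
    obtain ⟨h1, ⟨h4, h5⟩, h6, h7⟩ := hp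
    have h8 : ¬ b p.2 < i := fun h => h7 ⟨⟨h4, h5⟩, h⟩
    rcases h1 with h1 | ⟨⟨h1, h2⟩, h3⟩
    · obtain ⟨⟨h9, h10⟩, h11⟩ := hAm _ h1
      by_cases he : b p.2 = i
      · right
        simp only [Finset.mem_product, Finset.mem_sdiff, mem_blk_fb]
        exact ⟨h1, ⟨⟨h4, he⟩, h5⟩, h6⟩
      · left
        exact mem_inP_fb.2 ⟨⟨h9, h4⟩, by omega, by rw [h11, h5]⟩
    · left
      exact mem_inP_fb.2 ⟨⟨h1, h4⟩, by omega, by rw [h2, h5]⟩
  have := key hf
  rwa [Submodule.mem_colon_singleton, smul_eq_mul, mul_comm] at this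

theorem mul_mem_sup_pow_fb {R : Type} [CommRing R] {I m : Ideal R} {x y : R} {a c : ℕ}
    (hx : x ∈ I ⊔ m ^ a) (hy : y ∈ I ⊔ m ^ c) : x * y ∈ I ⊔ m ^ (a + c) := by
  obtain ⟨x1, hx1, x2, hx2, rfl⟩ := Submodule.mem_sup.1 hx
  obtain ⟨y1, hy1, y2, hy2, rfl⟩ := Submodule.mem_sup.1 hy
  refine Submodule.mem_sup.2 ⟨x1 * (y1 + y2) + x2 * y1, ?_, x2 * y2, ?_, by ring⟩
  · exact I.add_mem (I.mul_mem_right _ hx1) (I.mul_mem_left _ hy1)
  · rw [pow_add]; exact Ideal.mul_mem_mul hx2 hy2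

theorem prod_mem_sup_pow_fb {R : Type} [CommRing R] {I m : Ideal R} {ι : Type} (s : Finset ι)
    {x : ι → R} {o : ι → ℕ} (hx : ∀ i ∈ s, x i ∈ I ⊔ m ^ o i) :
    ∏ i ∈ s, x i ∈ I ⊔ m ^ (∑ i ∈ s, o i) := by
  classical
  induction s using Finset.induction_on with
  | empty => simp
  | insert a s ha ih =>
    rw [Finset.prod_insert ha, Finset.sum_insert ha]
    exact mul_mem_sup_pow_fb (hx a (Finset.mem_insert_self _ _))
      (ih fun i hi => hx i (Finset.mem_insert_of_mem hi))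

theorem prod_sub_prod_mem_fb {R : Type} [CommRing R] {I : Ideal R} {ι : Type} (s : Finset ι)
    {x y : ι → R} (h : ∀ i ∈ s, x i - y i ∈ I) : ∏ i ∈ s, x i - ∏ i ∈ s, y i ∈ I := by
  rw [← Ideal.Quotient.eq, map_prod, map_prod]
  exact Finset.prod_congr rfl fun i hi => Ideal.Quotient.eq.2 (h i hi)

/-- a translate of a homogeneous polynomial which vanishes to full order -/
theorem sh_sub_mem_fb {I : Ideal (PR V K)} (hI : Gr (rs I)) {f : PR V K} {k : ℕ}
    (hf : f.IsHomogeneous k) (c : Om V K → ℚ) (h : sh c f ∈ I ⊔ mI V K ^ k) : sh c f - f ∈ I := by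
  refine mem_of_forall_sup_pow hI fun n => ?_
  have h0 : sh c f - f ∈ I ⊔ mI V K ^ k :=
    Ideal.sub_mem _ h (Ideal.mem_sup_right (IsHomogeneous.mem_mI_pow hf))
  rcases le_total n k with hn | hn
  · exact (sup_le_sup_left (Ideal.pow_le_pow_right hn) I) h0
  · induction n, hn using Nat.le_induction with
    | base => exact h0
    | succ n hn ih =>
      rw [mem_sup_pow_succ_iff hI ih, map_sub]
      obtain ⟨h1, h2⟩ := hc_sh_of_isHomogeneous hf c
      have h3 : hc n f = if n = k then f else 0 := homogeneousComponent_of_mem hf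
      rcases hn.eq_or_lt with he | hl
      · subst he
        rw [h1, h3, if_pos rfl, sub_self]; exact I.zero_mem
      · rw [h2 n hl, h3, if_neg hl.ne', sub_self]; exact I.zero_mem

end
end Vale.Agent.P066
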