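import Vale.Agent.P066.CLin
import Vale.Agent.P066.CFilAuxB

/-! Part C: the filtration by order of vanishing; bound lemma and symbols. -/

namespace Vale.Agent.P066
open MvPolynomial Equiv
noncomputable section
variable {V : Type} [Fintype V] [DecidableEq V] {K : ℕ}
variable {ar : V → V → ℕ} {η : Stab (V → ℤ)} {T : Finset (Om V K)} {b b' : Om V K → ℕ}

section basic
theorem mem_OrdAt {k : ℕ} {f : PR V K} : f ∈ OrdAt ar η T b k ↔
    ∀ c : ℕ → ℚ, sh (pt T b c) f ∈ aI ar η T b ⊔ mI V K ^ k := by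
  simp only [OrdAt, Ideal.mem_iInf, Ideal.mem_comap]
theorem mem_Fil {w r : ℕ} {f : PR V K} : f ∈ Fil ar η T w r ↔ ∀ b, IsEP η T b →
    f ∈ OrdAt ar η T b ((if nb T b < r then w else w + 1) - kap ar T b) := by
  simp only [Fil, Ideal.mem_iInf]
theorem OrdAt_anti {k k' : ℕ} (h : k ≤ k') : OrdAt ar η T b k' ≤ OrdAt ar η T b k :=
  fun _ hf => mem_OrdAt.2 fun c =>
    (sup_le_sup_left (Ideal.pow_le_pow_right h) _ :
      aI ar η T b ⊔ mI V K ^ k' ≤ aI ar η T b ⊔ mI V K ^ k) (mem_OrdAt.1 hf c)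
theorem nb_le_card : nb T b ≤ T.card := Finset.card_image_le
theorem Fil_mono_r {w r r' : ℕ} (h : r ≤ r') : Fil ar η T w r ≤ Fil ar η T w r' :=
  fun _ hf => mem_Fil.2 fun b hb =>
    OrdAt_anti (by split_ifs <;> omega) (mem_Fil.1 hf b hb)
theorem Fil_le_of_lt {w w' r r' : ℕ} (h : w < w') : Fil ar η T w' r' ≤ Fil ar η T w r :=
  fun _ hf => mem_Fil.2 fun b hb =>
    OrdAt_anti (by split_ifs <;> omega) (mem_Fil.1 hf b hb)
theorem Fil_zero_eq (w : ℕ) : Fil ar η T w 0 = Fil ar η T (w + 1) (T.card + 1) := by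
  ext f
  rw [mem_Fil, mem_Fil]
  refine forall₂_congr fun b _ => ?_
  rw [if_neg (Nat.not_lt_zero _), if_pos (Nat.lt_succ_of_le nb_le_card)]
theorem Fil_top : Fil ar η T 0 (T.card + 1) = ⊤ := by
  rw [eq_top_iff]
  intro f _
  refine mem_Fil.2 fun b _ => mem_OrdAt.2 fun c => ?_
  rw [if_pos (Nat.lt_succ_of_le nb_le_card), Nat.zero_sub, pow_zero, Ideal.one_eq_top, sup_top_eq]
  trivial
theorem mem_blk_fil {i : ℕ} {s : Om V K} : s ∈ blk T b i ↔ s ∈ T ∧ b s = i := Finset.mem_filter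
theorem blk_eq_empty_fil {i : ℕ} (hi : i ∉ T.image b) : blk T b i = ∅ :=
  Finset.filter_eq_empty_iff.2 fun s hs h => hi (Finset.mem_image.2 ⟨s, hs, h⟩)
theorem zero_dv_empty_fil : η.zero (dz (dv (∅ : Finset (Om V K)))) := by
  rw [dv_empty, dz_zero]; exact η.zero_zero
theorem Fil_le_sup (hT : η.zero (dz (dv T))) (w r : ℕ) :
    Fil ar η T w r ≤ Jnn ar η T ⊔ mI V K ^ w := by
  intro f hf
  have h0 : blk T (fun _ => 0) 0 = T := Finset.filter_true_of_mem fun _ _ => rfl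
  have hb : IsEP η T fun _ => 0 := fun i => by
    by_cases hi : i ∈ T.image fun _ => 0
    · obtain ⟨_, _, rfl⟩ := Finset.mem_image.1 hi
      rwa [h0]
    · rw [blk_eq_empty_fil hi]; exact zero_dv_empty_fil
  have hk : kap ar T (fun _ => 0) = 0 := by simp [kap]
  have h1 := mem_OrdAt.1 (OrdAt_anti (k := w) (by rw [hk]; split_ifs <;> omega)
    (mem_Fil.1 hf _ hb)) 0
  have hp : pt T (fun _ => 0) 0 = 0 := by funext s; simp [pt]
  rw [hp, sh_zero] at h1
  have h2 : aI ar η T (fun _ => 0) ≤ Jnn ar η T := iSup₂_le fun i hi => by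
    obtain ⟨_, _, rfl⟩ := Finset.mem_image.1 hi
    rw [h0]
  exact (sup_le_sup_right h2 _ : aI ar η T (fun _ => 0) ⊔ mI V K ^ w ≤ _) h1
theorem prod_pair_blk_fil {M : Type} [CommMonoid M] (G : ℕ → ℕ → M) :
    ∏ s ∈ T, ∏ s' ∈ T, G (b s) (b s') ^ ar s.1 s'.1 =
      ∏ i ∈ T.image b, ∏ j ∈ T.image b, G i j ^ aa ar (dv (blk T b i)) (dv (blk T b j)) := by
  rw [← Finset.prod_fiberwise_of_maps_to (g := b) fun s hs => Finset.mem_image_of_mem b hs]
  refine Finset.prod_congr rfl fun i _ => ?_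
  simp only [aa_dv, ← Finset.prod_pow_eq_pow_sum]
  rw [Finset.prod_comm (s := T.image b)]
  refine Finset.prod_congr rfl fun s hs => ?_
  rw [← Finset.prod_fiberwise_of_maps_to (g := b) fun s hs => Finset.mem_image_of_mem b hs]
  refine Finset.prod_congr rfl fun j _ => Finset.prod_congr rfl fun s' hs' => ?_
  rw [(mem_blk_fil.1 hs).2, (mem_blk_fil.1 hs').2]
theorem sum_pair_blk_fil (P : ℕ → ℕ → Prop) [∀ i j, Decidable (P i j)] :
    (∑ s ∈ T, ∑ s' ∈ T, if P (b s) (b s') then ar s.1 s'.1 else 0) =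
      ∑ i ∈ T.image b, ∑ j ∈ T.image b,
        if P i j then aa ar (dv (blk T b i)) (dv (blk T b j)) else 0 := by
  have := prod_pair_blk_fil (ar := ar) (T := T) (b := b)
    fun i j => Multiplicative.ofAdd (if P i j then 1 else 0)
  simp only [← ofAdd_nsmul, ← ofAdd_sum, smul_eq_mul, mul_ite, mul_one, mul_zero] at this
  exact Multiplicative.ofAdd.injective this
/-- twice `kap` counts all arrows between different blocks -/
theorem two_kap (hs : Sym0 ar η) (hb : IsEP η T b) :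
    2 * kap ar T b = ∑ s ∈ T, ∑ s' ∈ T, if b s ≠ b s' then ar s.1 s'.1 else 0 := by
  have h1 : kap ar T b = ∑ s ∈ T, ∑ s' ∈ T, if b s' < b s then ar s.1 s'.1 else 0 := by
    rw [kap, sum_pair_blk_fil (· < ·), sum_pair_blk_fil (fun i j => j < i), Finset.sum_comm]
    refine Finset.sum_congr rfl fun i _ => Finset.sum_congr rfl fun j _ => ?_
    rw [hs _ _ (hb i) (hb j)]
  rw [two_mul]
  nth_rewrite 1 [h1]
  rw [kap, ← Finset.sum_add_distrib]
  refine Finset.sum_congr rfl fun s _ => ?_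
  rw [← Finset.sum_add_distrib]
  refine Finset.sum_congr rfl fun s' _ => ?_
  split_ifs <;> omega
theorem two_kap_add (hs : Sym0 ar η) (hb : IsEP η T b) :
    2 * kap ar T b + ∑ i ∈ T.image b, aa ar (dv (blk T b i)) (dv (blk T b i)) =
      aa ar (dv T) (dv T) := by
  have h1 : ∑ i ∈ T.image b, aa ar (dv (blk T b i)) (dv (blk T b i)) =
      ∑ s ∈ T, ∑ s' ∈ T, if b s = b s' then ar s.1 s'.1 else 0 := by
    rw [sum_pair_blk_fil (· = ·)]
    refine Finset.sum_congr rfl fun i hi => ?_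
    rw [Finset.sum_ite_eq, if_pos hi]
  rw [two_kap hs hb, h1, aa_dv, ← Finset.sum_add_distrib]
  refine Finset.sum_congr rfl fun s _ => ?_
  rw [← Finset.sum_add_distrib]
  refine Finset.sum_congr rfl fun s' _ => ?_
  split_ifs <;> omega
theorem kr_dvd_fil {A A' B B' : Finset (Om V K)} (hA : A' ⊆ A) (hB : B' ⊆ B) :
    kr ar A' B' ∣ kr ar A B :=
  (Finset.prod_dvd_prod_of_dvd _ _ fun _ _ => Finset.prod_dvd_prod_of_subset _ _ _ hB).trans
    (Finset.prod_dvd_prod_of_subset _ _ _ hA)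
theorem sh_mem_aI_of_Jnn {B : Finset (Om V K)} (hBT : B ⊆ T)
    (hB : ∀ s ∈ B, ∀ s' ∈ T, b s = b s' → s' ∈ B) (c : ℕ → ℚ) :
    Jnn ar η B ≤ (aI ar η T b).comap (sh (pt T b c)) := by
  refine Ideal.span_le.2 ?_
  rintro _ ⟨A, hA, hneg, rfl⟩
  obtain ⟨j, hj, hjn⟩ : ∃ j ∈ A.image b, η.neg (dz (dv (blk A b j))) := by
    by_contra hc
    apply hneg
    have e : dz (dv A) = ∑ j ∈ A.image b, dz (dv (blk A b j)) := by
      rw [dv_eq_sum_blk A b]
      funext v
      simp [dz]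
    rw [e]
    exact Stab.nn_sum _ _ fun j hj => by_contra fun h => hc ⟨j, hj, h⟩
  obtain ⟨s0, hs0, rfl⟩ := Finset.mem_image.1 hj
  have h1 : blk A b (b s0) ⊆ blk T b (b s0) := Finset.filter_subset_filter _ (hA.trans hBT)
  obtain ⟨g, hg⟩ : kr ar (blk A b (b s0)) (blk T b (b s0) \ blk A b (b s0)) ∣ kr ar A (B \ A) := by
    refine kr_dvd_fil (Finset.filter_subset _ _) fun s hs => ?_
    rw [Finset.mem_sdiff, mem_blk_fil, mem_blk_fil] at hs
    exact Finset.mem_sdiff.2 ⟨hB s0 (hA hs0) s hs.1.1 hs.1.2.symm, fun h => hs.2 ⟨h, hs.1.2⟩⟩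
  rw [SetLike.mem_coe, Ideal.mem_comap, hg, map_mul, sh_kr]
  · refine Ideal.mul_mem_right _ _ ?_
    exact le_iSup₂_of_le (f := fun i (_ : i ∈ T.image b) => Jnn ar η (blk T b i)) (b s0)
      (Finset.mem_image_of_mem b (hBT (hA hs0))) le_rfl (Ideal.subset_span ⟨_, h1, hjn, rfl⟩)
  · intro s hs s' hs'
    have e1 := mem_blk_fil.1 (h1 hs)
    have e2 := mem_blk_fil.1 (Finset.mem_sdiff.1 hs').1
    simp only [pt, if_pos e1.1, if_pos e2.1, e1.2, e2.2]
/-- Fact 1: if every block of `b'` is a union of blocks of `b`, translating along `b` maps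
`aI b'` into `aI b`. -/
theorem sh_mem_aI (hb : IsEP η T b) (h : Refines T b b') (c : ℕ → ℚ) {f : PR V K}
    (hf : f ∈ aI ar η T b') : sh (pt T b c) f ∈ aI ar η T b := by
  have _ := hb
  have : aI ar η T b' ≤ (aI ar η T b).comap (sh (pt T b c)) :=
    iSup₂_le fun i _ => sh_mem_aI_of_Jnn (Finset.filter_subset _ _) (fun s hs s' hs' e =>
      mem_blk_fil.2 ⟨hs', (h s (mem_blk_fil.1 hs).1 s' hs' e).symm.trans (mem_blk_fil.1 hs).2⟩) c
  exact this hf
theorem Jnn_le_OrdAt (hb : IsEP η T b) (k : ℕ) : Jnn ar η T ≤ OrdAt ar η T b k := by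
  have _ := hb
  exact fun _ hf => mem_OrdAt.2 fun c => Ideal.mem_sup_left
    (sh_mem_aI_of_Jnn le_rfl (fun _ _ _ hs' _ => hs') c hf)
theorem Jnn_le_Fil (w r : ℕ) : Jnn ar η T ≤ Fil ar η T w r :=
  fun _ hf => mem_Fil.2 fun _ hb => Jnn_le_OrdAt hb _ hf
theorem Refines.exists_fun_fil (h : Refines T b b') : ∃ φ : ℕ → ℕ, ∀ s ∈ T, b' s = φ (b s) := by
  classical
  refine ⟨fun i => if hi : ∃ s ∈ T, b s = i then b' hi.choose else 0, fun s hs => ?_⟩
  have hi : ∃ s' ∈ T, b s' = b s := ⟨s, hs, rfl⟩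
  simp only [dif_pos hi]
  exact (h _ hi.choose_spec.1 s hs hi.choose_spec.2).symm
theorem pt_comp_fil {φ : ℕ → ℕ} (hφ : ∀ s ∈ T, b' s = φ (b s)) (c : ℕ → ℚ) :
    pt T b' c = pt T b (c ∘ φ) := by
  funext s
  by_cases hs : s ∈ T <;> simp [pt, hs, hφ]
theorem sh_mem_OrdAt (h : Refines T b b') (c : ℕ → ℚ) {k : ℕ} {f : PR V K}
    (hf : f ∈ OrdAt ar η T b k) : sh (pt T b' c) f ∈ OrdAt ar η T b k := by
  obtain ⟨φ, hφ⟩ := h.exists_fun_fil
  refine mem_OrdAt.2 fun c2 => ?_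
  have e : pt T b c2 + pt T b (c ∘ φ) = pt T b (c2 + c ∘ φ) := by
    funext s
    by_cases hs : s ∈ T <;> simp [pt, hs]
  rw [sh_sh, pt_comp_fil hφ, e]
  exact mem_OrdAt.1 hf _
theorem image_comp_eq_fil {φ : ℕ → ℕ} (hφ : ∀ s ∈ T, b' s = φ (b s)) :
    T.image b' = (T.image b).image φ := by
  rw [Finset.image_image]
  exact Finset.image_congr hφ
theorem Refines.nb_le (h : Refines T b b') : nb T b' ≤ nb T b := by
  obtain ⟨φ, hφ⟩ := h.exists_fun_fil
  rw [nb, image_comp_eq_fil hφ]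
  exact Finset.card_image_le
theorem Refines.sameP_of_nb (h : Refines T b b') (hn : nb T b ≤ nb T b') : SameP T b b' := by
  obtain ⟨φ, hφ⟩ := h.exists_fun_fil
  have h1 := le_antisymm h.nb_le hn
  rw [nb, image_comp_eq_fil hφ, nb, Finset.card_image_iff] at h1
  refine ⟨h, fun s hs s' hs' e => h1 (Finset.mem_image_of_mem b hs)
    (Finset.mem_image_of_mem b hs') ?_⟩
  rw [← hφ s hs, ← hφ s' hs', e]
theorem SameP.symm_fil (h : SameP T b b') : SameP T b' b := ⟨h.2, h.1⟩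
theorem SameP.exists_fun_fil (h : SameP T b b') :
    ∃ φ : ℕ → ℕ, (∀ s ∈ T, b' s = φ (b s)) ∧ Set.InjOn φ (T.image b) := by
  obtain ⟨φ, hφ⟩ := h.1.exists_fun_fil
  refine ⟨φ, hφ, fun i hi j hj e => ?_⟩
  obtain ⟨s, hs, rfl⟩ := Finset.mem_image.1 hi
  obtain ⟨s', hs', rfl⟩ := Finset.mem_image.1 hj
  exact h.2 s hs s' hs' (by rw [hφ s hs, hφ s' hs', e])
theorem SameP.blk_eq (h : SameP T b b') {s : Om V K} (hs : s ∈ T) :
    blk T b (b s) = blk T b' (b' s) :=
  Finset.filter_congr fun s' hs' => ⟨h.1 s' hs' s hs, h.2 s' hs' s hs⟩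
theorem SameP.isEP (h : SameP T b b') (hb : IsEP η T b) : IsEP η T b' := fun i => by
  by_cases hi : i ∈ T.image b'
  · obtain ⟨s, hs, rfl⟩ := Finset.mem_image.1 hi
    rw [← h.blk_eq hs]; exact hb _
  · rw [blk_eq_empty_fil hi]; exact zero_dv_empty_fil
theorem SameP.aI_le (h : SameP T b b') : aI ar η T b ≤ aI ar η T b' :=
  iSup₂_le fun i hi => by
    obtain ⟨s, hs, rfl⟩ := Finset.mem_image.1 hi
    rw [h.blk_eq hs]
    exact le_iSup₂_of_le (f := fun i (_ : i ∈ T.image b') => Jnn ar η (blk T b' i)) (b' s)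
      (Finset.mem_image_of_mem b' hs) le_rfl
theorem SameP.aI_eq (h : SameP T b b') : aI ar η T b = aI ar η T b' :=
  le_antisymm h.aI_le h.symm_fil.aI_le
theorem SameP.nb_eq (h : SameP T b b') : nb T b = nb T b' := le_antisymm h.2.nb_le h.1.nb_le
theorem SameP.kap_eq (h : SameP T b b') (hs : Sym0 ar η) (hb : IsEP η T b) :
    kap ar T b = kap ar T b' := by
  have : 2 * kap ar T b = 2 * kap ar T b' := by
    rw [two_kap hs hb, two_kap hs (h.isEP hb)]
    refine Finset.sum_congr rfl fun s hs => Finset.sum_congr rfl fun s' hs' => ?_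
    exact if_congr (not_congr ⟨h.1 s hs s' hs', h.2 s hs s' hs'⟩) rfl rfl
  omega
theorem SameP.OrdAt_le (h : SameP T b b') (k : ℕ) :
    OrdAt ar η T b k ≤ OrdAt ar η T b' k := by
  obtain ⟨φ, hφ⟩ := h.1.exists_fun_fil
  intro f hf
  refine mem_OrdAt.2 fun c => ?_
  rw [pt_comp_fil hφ, ← h.aI_eq]
  exact mem_OrdAt.1 hf _
theorem SameP.OrdAt_eq (h : SameP T b b') (k : ℕ) :
    OrdAt ar η T b k = OrdAt ar η T b' k := le_antisymm (h.OrdAt_le k) (h.symm_fil.OrdAt_le k)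
/-- reindexing a product over blocks -/
theorem SameP.prod_eq {M : Type} [CommMonoid M] (h : SameP T b b') (F F' : ℕ → M)
    (hF : ∀ s ∈ T, F (b s) = F' (b' s)) : ∏ i ∈ T.image b, F i = ∏ i ∈ T.image b', F' i := by
  obtain ⟨φ, hφ, hinj⟩ := h.exists_fun_fil
  rw [image_comp_eq_fil hφ, Finset.prod_image hinj]
  refine Finset.prod_congr rfl fun i hi => ?_
  obtain ⟨s, hs, rfl⟩ := Finset.mem_image.1 hi
  rw [hF s hs, hφ s hs]
theorem mem_Fil_of_succ {w r : ℕ} {f : PR V K} (hf : f ∈ Fil ar η T w (r + 1))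
    (h : ∀ b, IsEP η T b → nb T b = r → kap ar T b ≤ w →
      f ∈ OrdAt ar η T b (w - kap ar T b + 1)) : f ∈ Fil ar η T w r := by
  refine mem_Fil.2 fun b hb => ?_
  by_cases hc : nb T b = r ∧ kap ar T b ≤ w
  · exact OrdAt_anti (by split_ifs <;> omega) (h b hb hc.1 hc.2)
  · exact OrdAt_anti (by split_ifs <;> omega) (mem_Fil.1 hf b hb)
end basic

section bound
variable (hs : Sym0 ar η) (hb : IsEP η T b) {w : ℕ → PR V K} {k : ℕ → ℕ}
  (hw : ∀ i ∈ T.image b, w i ∈ RT (blk T b i) ∧ (w i).IsHomogeneous (k i) ∧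
    w i ∈ Fil ar η (blk T b i) (k i) 2)

theorem kap_count_fb (hs : Sym0 ar η) (hb : IsEP η T b) (hb' : IsEP η T b')
    (h1 : ∀ i, IsEP η (blk T b i) b') (h2 : ∀ j, IsEP η (blk T b' j) b) :
    ∑ j ∈ T.image b', kap ar (blk T b' j) b + kap ar T b' =
      kap ar T b + ∑ i ∈ T.image b, kap ar (blk T b i) b' := by
  apply Nat.eq_of_mul_eq_mul_left (show 0 < 2 by norm_num)
  rw [mul_add, mul_add, Finset.mul_sum, Finset.mul_sum, two_kap hs hb, two_kap hs hb',
    Finset.sum_congr rfl fun j _ => two_kap hs (h2 j),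
    Finset.sum_congr rfl fun i _ => two_kap hs (h1 i), sum_blk_blk_fb, sum_blk_blk_fb,
    ← Finset.sum_add_distrib, ← Finset.sum_add_distrib]
  refine Finset.sum_congr rfl fun s _ => ?_
  rw [← Finset.sum_add_distrib, ← Finset.sum_add_distrib]
  refine Finset.sum_congr rfl fun s' _ => ?_
  by_cases e1 : b s = b s' <;> by_cases e2 : b' s = b' s' <;> simp [e1, e2]

omit [Fintype V] [DecidableEq V] in
theorem exists_two_le_nb_fb (h : ¬ Refines T b b') : ∃ i ∈ T.image b, 2 ≤ nb (blk T b i) b' := by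
  unfold Refines at h
  push Not at h
  obtain ⟨s, hs, s', hs', e1, e2⟩ := h
  refine ⟨b s, Finset.mem_image_of_mem b hs, ?_⟩
  refine Finset.one_lt_card.2 ⟨b' s, ?_, b' s', ?_, e2⟩
  · exact Finset.mem_image_of_mem b' (mem_blk_fb.2 ⟨hs, rfl⟩)
  · exact Finset.mem_image_of_mem b' (mem_blk_fb.2 ⟨hs', e1.symm⟩)

omit [Fintype V] in
theorem sh_pt_blk_fb [Fintype V] {i : ℕ} {f : PR V K} (hf : f ∈ RT (blk T b i)) (c : ℕ → ℚ) :
    sh (pt T b' c) f = sh (pt (blk T b i) b' c) f :=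
  sh_congr (fun s hs => by simp only [pt, hs, (mem_blk_fb.1 hs).1, if_true]) hf

include hs hb hw

open Classical in
/-- The bound lemma. -/
theorem bound_lemma (h : PR V K) (hb' : IsEP η T b') :
    Kb ar T b * (∏ i ∈ T.image b, w i) * h ∈ OrdAt ar η T b'
      ((if Refines T b b' then kap ar T b + ∑ i ∈ T.image b, k i
        else kap ar T b + ∑ i ∈ T.image b, k i + 1) - kap ar T b') := by
  rw [mem_OrdAt]
  intro c
  obtain ⟨Ko, hKo⟩ := Pk_inP_dvd_fb ar T b b'
  have e0 : sh (pt T b' c) (Kb ar T b * (∏ i ∈ T.image b, w i) * h) =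
      Pk_fb ar (inP_fb T b b') * (∏ i ∈ T.image b, sh (pt T b' c) (w i)) * sh (pt T b' c) (Ko * h) := by
    rw [hKo, map_mul, map_mul, map_mul, map_mul, map_prod, sh_Pk_inP_fb]; ring
  rw [e0]
  refine Ideal.mul_mem_right _ _ ?_
  by_cases hA : ∃ j m, η.neg (dz (dv (low_fb (blk T b' j) b m)))
  · obtain ⟨j, m, hA⟩ := hA
    exact Ideal.mem_sup_left (Ideal.mul_mem_right _ _ (Pk_inP_mem_aI_fb ar hA))
  have hnn : ∀ j m, η.nn (dz (dv (low_fb (blk T b' j) b m))) := fun j m => by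
    by_contra hc'
    exact hA ⟨j, m, hc'⟩
  have hz := zero_low_blk_fb hb hnn
  have h2 : ∀ j, IsEP η (blk T b' j) b := fun j => isEP_of_zero_low_fb (hz j)
  have h1 : ∀ i, IsEP η (blk T b i) b' := fun i j => by rw [blk_comm_fb]; exact h2 j i
  set I : Ideal (PR V K) := (aI ar η T b').colon {Pk_fb ar (inP_fb T b b')} with hI
  have hIm : ∀ f, f ∈ I ↔ Pk_fb ar (inP_fb T b b') * f ∈ aI ar η T b' := fun f => by
    rw [hI, Submodule.mem_colon_singleton, smul_eq_mul, mul_comm]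
  have hle : ∀ i, aI ar η (blk T b i) b' ≤ I := fun i f hf =>
    (hIm f).2 (Pk_inP_mul_mem_fb ar hz i hf)
  have hp : ∏ i ∈ T.image b, sh (pt T b' c) (w i) ∈ I ⊔ mI V K ^ (∑ i ∈ T.image b,
      ((if nb (blk T b i) b' < 2 then k i else k i + 1) - kap ar (blk T b i) b')) := by
    refine prod_mem_sup_pow_fb _ fun i hi => ?_
    obtain ⟨w1, -, w3⟩ := hw i hi
    rw [sh_pt_blk_fb w1]
    exact sup_le_sup_right (hle i) _ (mem_OrdAt.1 (mem_Fil.1 w3 b' (h1 i)) c)
  obtain ⟨x, hx, y, hy, hxy⟩ := Submodule.mem_sup.1 hp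
  rw [← hxy, mul_add]
  refine Ideal.add_mem _ (Ideal.mem_sup_left ((hIm x).1 hx)) (Ideal.mem_sup_right ?_)
  have hK := IsHomogeneous.mem_mI_pow (Pk_isHomogeneous_fb ar (inP_fb T b b'))
  have hxy2 := Ideal.mul_mem_mul hK hy
  rw [← pow_add, sum_inP_fb] at hxy2
  refine Ideal.pow_le_pow_right ?_ hxy2
  have hc1 := kap_count_fb hs hb hb' h1 h2
  have hc2 : ∑ i ∈ T.image b, (if nb (blk T b i) b' < 2 then k i else k i + 1) ≤
      ∑ i ∈ T.image b, ((if nb (blk T b i) b' < 2 then k i else k i + 1) -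
        kap ar (blk T b i) b') + ∑ i ∈ T.image b, kap ar (blk T b i) b' := by
    rw [← Finset.sum_add_distrib]
    exact Finset.sum_le_sum fun i _ => by omega
  have hc3 : ∀ i ∈ T.image b, k i ≤ if nb (blk T b i) b' < 2 then k i else k i + 1 := by
    intro i _
    split_ifs <;> omega
  split_ifs with hr
  · have := Finset.sum_le_sum hc3
    omega
  · obtain ⟨i, hi, hi2⟩ := exists_two_le_nb_fb hr
    have := Finset.sum_lt_sum hc3 ⟨i, hi, by rw [if_neg (by omega)]; omega⟩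
    omega

theorem bound_mem_Fil (h : PR V K) : Kb ar T b * (∏ i ∈ T.image b, w i) * h ∈
    Fil ar η T (kap ar T b + ∑ i ∈ T.image b, k i) (nb T b + 1) := by
  rw [mem_Fil]
  intro b2 hb2
  refine OrdAt_anti ?_ (bound_lemma hs hb hw h hb2)
  by_cases hr : Refines T b b2
  · rw [if_pos hr, if_pos (Nat.lt_succ_of_le hr.nb_le)]
  · rw [if_neg hr]
    split_ifs <;> omega

theorem bound_other (h : PR V K) (hb' : IsEP η T b') (hn : nb T b' = nb T b)
    (hne : ¬ SameP T b b') : Kb ar T b * (∏ i ∈ T.image b, w i) * h ∈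
      OrdAt ar η T b' (kap ar T b + ∑ i ∈ T.image b, k i - kap ar T b' + 1) ∨
      kap ar T b + ∑ i ∈ T.image b, k i < kap ar T b' := by
  have hr : ¬ Refines T b b' := fun hr => hne (hr.sameP_of_nb hn.ge)
  have h1 := bound_lemma hs hb hw h hb'
  rw [if_neg hr] at h1
  rcases lt_or_ge (kap ar T b + ∑ i ∈ T.image b, k i) (kap ar T b') with hl | hl
  · exact Or.inr hl
  · exact Or.inl (OrdAt_anti (by omega) h1)

omit hs in
theorem sh_sub_self_mem_fb {i : ℕ} (hi : i ∈ T.image b) (c : ℕ → ℚ) :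
    sh (pt T b c) (w i) - w i ∈ aI ar η T b := by
  obtain ⟨w1, w2, w3⟩ := hw i hi
  refine sh_sub_mem_fb (gr_aI ar η T b) w2 _ ?_
  have e1 : blk (blk T b i) b i = blk T b i := by
    ext s; simp only [mem_blk_fb]; tauto
  have him : ∀ j ∈ (blk T b i).image b, j = i := fun j hj => by
    obtain ⟨s, hs, rfl⟩ := Finset.mem_image.1 hj
    exact (mem_blk_fb.1 hs).2
  have h1 : IsEP η (blk T b i) b := fun j => by
    by_cases hj : j = i
    · rw [hj, e1]; exact hb i
    · have : blk (blk T b i) b j = ∅ := by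
        ext s
        simp only [mem_blk_fb, Finset.notMem_empty, iff_false, not_and]
        rintro ⟨-, h1⟩ h2
        exact hj (h2.symm.trans h1)
      rw [this, dv_empty, dz_zero]; exact η.zero_zero
  have h2 : nb (blk T b i) b < 2 := by
    refine Nat.lt_succ_of_le (Finset.card_le_one.2 fun j hj j' hj' => ?_)
    rw [him j hj, him j' hj']
  have h3 : kap ar (blk T b i) b = 0 := by
    refine Finset.sum_eq_zero fun s hs => Finset.sum_eq_zero fun s' hs' => ?_
    rw [(mem_blk_fb.1 hs).2, (mem_blk_fb.1 hs').2, if_neg (lt_irrefl i)]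
  have h4 := mem_OrdAt.1 (mem_Fil.1 w3 b h1) c
  rw [if_pos h2, h3, Nat.sub_zero] at h4
  rw [sh_pt_blk_fb w1]
  have h5 : aI ar η (blk T b i) b ≤ aI ar η T b := by
    refine iSup₂_le fun j hj => ?_
    rw [him j hj, e1]
    exact Jnn_le_aI_fb ar η hi
  exact sup_le_sup_right h5 _ h4

set_option linter.unusedSectionVars false in
/-- The symbol of a product. -/
theorem symbol_prod (g : PR V K) (c : ℕ → ℚ) :
    sh (pt T b c) ((∏ i ∈ T.image b, w i) * g) - eval (pt T b c) g • ∏ i ∈ T.image b, w i ∈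
      aI ar η T b ⊔ mI V K ^ (∑ i ∈ T.image b, k i + 1) := by
  have h1 : ∏ i ∈ T.image b, sh (pt T b c) (w i) - ∏ i ∈ T.image b, w i ∈ aI ar η T b :=
    prod_sub_prod_mem_fb _ fun i hi => sh_sub_self_mem_fb hb hw hi c
  have h2 : ∏ i ∈ T.image b, w i ∈ mI V K ^ (∑ i ∈ T.image b, k i) :=
    IsHomogeneous.mem_mI_pow (IsHomogeneous.prod _ _ _ fun i hi => (hw i hi).2.1)
  have h3 := Ideal.mul_mem_mul h2 (sh_sub_eval_mem (pt T b c) g)
  rw [← pow_succ] at h3
  refine Submodule.mem_sup.2 ⟨_, Ideal.mul_mem_right (sh (pt T b c) g) _ h1, _, h3, ?_⟩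
  rw [map_mul, map_prod, smul_eq_C_mul]; ring

/-- Reordering the blocks changes the product by a sign, modulo the next filtration step. -/
theorem reorder_of_eval (h : PR V K) (hbb : SameP T b b') (ε : ℚ)
    (hε : ∀ c : ℕ → ℚ, eval (pt T b c) (Kb ar T b') = ε * eval (pt T b c) (Kb ar T b)) :
    Kb ar T b' * (∏ i ∈ T.image b, w i) * h - ε • (Kb ar T b * (∏ i ∈ T.image b, w i) * h) ∈
      Fil ar η T (kap ar T b + ∑ i ∈ T.image b, k i) (nb T b) := by
  classical
  obtain ⟨φ, hφ⟩ : ∃ φ : ℕ → ℕ, ∀ s ∈ T, φ (b' s) = b s := by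
    refine ⟨fun j => if h : ∃ s ∈ T, b' s = j then b h.choose else 0, fun s hs => ?_⟩
    have h0 : ∃ s' ∈ T, b' s' = b' s := ⟨s, hs, rfl⟩
    simp only [dif_pos h0]
    exact hbb.2 _ h0.choose_spec.1 _ hs h0.choose_spec.2
  have hb' : IsEP η T b' := hbb.isEP hb
  have hw' : ∀ j ∈ T.image b', w (φ j) ∈ RT (blk T b' j) ∧ (w (φ j)).IsHomogeneous (k (φ j)) ∧
      w (φ j) ∈ Fil ar η (blk T b' j) (k (φ j)) 2 := by
    intro j hj
    obtain ⟨s, hs, rfl⟩ := Finset.mem_image.1 hj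
    rw [hφ s hs, ← hbb.blk_eq hs]
    exact hw _ (Finset.mem_image_of_mem b hs)
  have e1 : ∏ j ∈ T.image b', w (φ j) = ∏ i ∈ T.image b, w i :=
    (hbb.prod_eq w (fun j => w (φ j)) fun s hs => by simp only [hφ s hs]).symm
  have e2 : ∑ j ∈ T.image b', k (φ j) = ∑ i ∈ T.image b, k i := by
    have := hbb.prod_eq (M := Multiplicative ℕ) (fun i => Multiplicative.ofAdd (k i))
      (fun j => Multiplicative.ofAdd (k (φ j))) fun s hs => by simp only [hφ s hs]
    rw [← ofAdd_sum, ← ofAdd_sum] at this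
    exact (Multiplicative.ofAdd.injective this).symm
  have e3 := hbb.kap_eq hs hb
  have e4 := hbb.nb_eq
  have hsm : ∀ (I : Ideal (PR V K)) (f : PR V K), f ∈ I → ε • f ∈ I := fun I f hf => by
    rw [smul_eq_C_mul]; exact I.mul_mem_left _ hf
  refine mem_Fil_of_succ (Ideal.sub_mem _ ?_ (hsm _ _ (bound_mem_Fil hs hb hw h))) ?_
  · have := bound_mem_Fil hs hb' (w := fun j => w (φ j)) (k := fun j => k (φ j)) hw' h
    rwa [e1, e2, ← e3, ← e4] at this
  intro b3 hb3 hn hk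
  by_cases hS : SameP T b b3
  · rw [← hS.OrdAt_eq, ← hS.kap_eq hs hb, Nat.add_sub_cancel_left, mem_OrdAt]
    intro c
    have h1 := symbol_prod hs hb hw ((Kb ar T b' - C ε * Kb ar T b) * h) c
    rw [map_mul (eval _), map_sub, map_mul (eval _), eval_C, hε c, sub_self, zero_mul, zero_smul,
      sub_zero] at h1
    have e5 : Kb ar T b' * (∏ i ∈ T.image b, w i) * h -
        ε • (Kb ar T b * (∏ i ∈ T.image b, w i) * h) =
        (∏ i ∈ T.image b, w i) * ((Kb ar T b' - C ε * Kb ar T b) * h) := by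
      rw [smul_eq_C_mul]; ring
    rw [e5]; exact h1
  · have hS' : ¬ SameP T b' b3 := fun h' => hS
      ⟨fun s hs s' hs' e => h'.1 s hs s' hs' (hbb.1 s hs s' hs' e),
        fun s hs s' hs' e => hbb.2 s hs s' hs' (h'.2 s hs s' hs' e)⟩
    refine Ideal.sub_mem _ ?_ (hsm _ _ ((bound_other hs hb hw h hb3 hn hS).resolve_right
      (not_lt.2 hk)))
    have := bound_other hs hb' (w := fun j => w (φ j)) (k := fun j => k (φ j)) hw' h hb3
      (hn.trans e4) hS'
    rw [e1, e2, ← e3] at this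
    exact this.resolve_right (not_lt.2 hk)
end bound

section values
theorem eval_Kb_comp {φ : ℕ → ℕ} (hφ : ∀ s ∈ T, b' s = φ (b s)) (c : ℕ → ℚ) :
    eval (pt T b c) (Kb ar T b') = ∏ i ∈ T.image b, ∏ j ∈ T.image b,
      (if φ i < φ j then c j - c i else 1) ^ aa ar (dv (blk T b i)) (dv (blk T b j)) := by
  rw [← prod_pair_blk_fil fun i j => if φ i < φ j then c j - c i else 1, Kb, map_prod]
  refine Finset.prod_congr rfl fun s hs => ?_
  rw [map_prod]
  refine Finset.prod_congr rfl fun s' hs' => ?_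
  rw [hφ s hs, hφ s' hs']
  split_ifs <;> simp [pt, hs, hs']
theorem eval_Kb (c : ℕ → ℚ) : eval (pt T b c) (Kb ar T b) = eval c (Ktop ar T b) := by
  rw [eval_Kb_comp (b := b) (b' := b) (φ := id) fun _ _ => rfl, Ktop, map_prod]
  refine Finset.prod_congr rfl fun i _ => ?_
  rw [map_prod]
  refine Finset.prod_congr rfl fun j _ => ?_
  simp only [id]
  split_ifs <;> simp
theorem Ktop_ne_zero : Ktop ar T b ≠ 0 := by
  refine Finset.prod_ne_zero_iff.2 fun i _ => Finset.prod_ne_zero_iff.2 fun j _ => ?_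
  split_ifs with h
  · exact pow_ne_zero _ (sub_ne_zero.2 fun e => h.ne' (X_injective e))
  · exact one_ne_zero
theorem eval_pB {i : ℕ} (hi : i ∈ T.image b) (c : ℕ → ℚ) :
    eval (pt T b c) (pB (blk T b i)) = c i := by
  obtain ⟨s, hs, rfl⟩ := Finset.mem_image.1 hi
  have h0 : ((blk T b (b s)).card : ℚ) ≠ 0 :=
    Nat.cast_ne_zero.2 (Finset.card_ne_zero.2 ⟨s, mem_blk_fil.2 ⟨hs, rfl⟩⟩)
  rw [pB, map_mul, eval_C, map_sum, Finset.sum_congr rfl (g := fun _ => c (b s)) fun s' hs' => by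
    simp [pt, (mem_blk_fil.1 hs').1, (mem_blk_fil.1 hs').2], Finset.sum_const, nsmul_eq_mul,
    inv_mul_cancel_left₀ h0]
theorem pB_mem_RT (B : Finset (Om V K)) : pB B ∈ RT B :=
  Subalgebra.mul_mem _ (Subalgebra.algebraMap_mem _ _)
    (Subalgebra.sum_mem _ fun _ hs => X_mem_supported.2 hs)
theorem pB_isHomogeneous (B : Finset (Om V K)) : (pB B).IsHomogeneous 1 :=
  (IsHomogeneous.sum _ _ _ fun s _ => isHomogeneous_X ℚ s).C_mul _
theorem prod_pair_lt_fil {I : Finset ℕ} (F : ℕ → ℕ → ℚ) (hF : ∀ i, F i i = 1) :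
    ∏ i ∈ I, ∏ j ∈ I, F i j = ∏ i ∈ I, ∏ j ∈ I, if i < j then F i j * F j i else 1 := by
  have e1 : ∀ i j, F i j = (if i < j then F i j else 1) * if j < i then F i j else 1 := by
    intro i j
    rcases lt_trichotomy i j with h | rfl | h
    · simp [h, h.not_gt]
    · simp [hF]
    · simp [h, h.not_gt]
  have e2 : ∀ i j, (if i < j then F i j * F j i else 1) =
      (if i < j then F i j else 1) * if i < j then F j i else 1 := by
    intro i j
    split_ifs <;> simp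
  rw [Finset.prod_congr rfl fun i _ => Finset.prod_congr rfl fun j _ => e1 i j]
  simp only [e2, Finset.prod_mul_distrib]
  rw [Finset.prod_comm (f := fun i j => if j < i then F i j else 1)]
theorem eval_Kb_sign (hs : Sym0 ar η) (hb : IsEP η T b) {φ : ℕ → ℕ}
    (hφ : ∀ s ∈ T, b' s = φ (b s)) (hinj : Set.InjOn φ (T.image b)) (c : ℕ → ℚ) :
    eval (pt T b c) (Kb ar T b') = (∏ i ∈ T.image b, ∏ j ∈ T.image b,
      if i < j ∧ φ j < φ i then (-1 : ℚ) ^ aa ar (dv (blk T b i)) (dv (blk T b j)) else 1) *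
      eval (pt T b c) (Kb ar T b) := by
  rw [eval_Kb_comp hφ, eval_Kb_comp (b := b) (b' := b) (φ := id) fun _ _ => rfl, prod_pair_lt_fil _ fun i => by simp,
    ← Finset.prod_mul_distrib]
  refine Finset.prod_congr rfl fun i hi => ?_
  rw [← Finset.prod_mul_distrib]
  refine Finset.prod_congr rfl fun j hj => ?_
  by_cases hij : i < j
  · rcases lt_or_gt_of_ne (fun e => hij.ne (hinj hi hj e)) with h | h
    · simp [hij, h, h.not_gt]
    · simp [hij, h, h.not_gt, hs _ _ (hb j) (hb i), ← mul_pow]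
  · simp [hij]
theorem eval_Kb_sameP (hs : Sym0 ar η) (hb : IsEP η T b) (hbb : SameP T b b') :
    ∃ ε : ℚ, (ε = 1 ∨ ε = -1) ∧
      ∀ c : ℕ → ℚ, eval (pt T b c) (Kb ar T b') = ε * eval (pt T b c) (Kb ar T b) := by
  obtain ⟨φ, hφ, hinj⟩ := hbb.exists_fun_fil
  refine ⟨_, ?_, eval_Kb_sign hs hb hφ hinj⟩
  rw [← mul_self_eq_one_iff, ← Finset.prod_mul_distrib]
  refine Finset.prod_eq_one fun i _ => ?_
  rw [← Finset.prod_mul_distrib]
  refine Finset.prod_eq_one fun j _ => ?_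
  split_ifs
  · rw [← mul_pow]; simp
  · simp
/-- exchanging the labels of two blocks of the same type -/
theorem eval_Kb_swap (hs : Sym0 ar η) (hb : IsEP η T b) {i j : ℕ} (hi : i ∈ T.image b)
    (hj : j ∈ T.image b) (hij : i ≠ j) (hd : dv (blk T b i) = dv (blk T b j)) (c : ℕ → ℚ) :
    eval (pt T b c) (Kb ar T (fun s => swap i j (b s))) =
      (-1) ^ aa ar (dv (blk T b i)) (dv (blk T b i)) * eval (pt T b c) (Kb ar T b) := by
  wlog hlt : i < j generalizing i j
  · rw [swap_comm, hd]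
    exact this hj hi hij.symm hd.symm (by omega)
  rw [eval_Kb_sign hs hb (φ := swap i j) (fun _ _ => rfl) (swap i j).injective.injOn]
  congr 1
  have e : ∀ p q : ℕ, (if p < q ∧ swap i j q < swap i j p then
      (-1 : ℚ) ^ aa ar (dv (blk T b p)) (dv (blk T b q)) else 1) =
      (if i = p then (if j = q then (-1 : ℚ) ^ aa ar (dv (blk T b i)) (dv (blk T b i)) else 1)
        else 1) *
      (if i = p then (if i < q ∧ q < j then
        (-1 : ℚ) ^ aa ar (dv (blk T b i)) (dv (blk T b q)) else 1) else 1) *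
      (if j = q then (if i < p ∧ p < j then
        (-1 : ℚ) ^ aa ar (dv (blk T b i)) (dv (blk T b p)) else 1) else 1) := by
    intro p q
    by_cases h1 : i = p
    · subst h1
      by_cases h2 : j = q
      · subst h2
        simp [hlt, hd]
      · simp only [h2, if_true, if_false, one_mul, mul_one, swap_apply_left]
        refine if_congr ?_ rfl rfl
        rw [swap_apply_def]
        split_ifs <;> omega
    · by_cases h2 : j = q
      · subst h2
        simp only [h1, if_true, if_false, one_mul, swap_apply_right]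
        refine if_congr ?_ (by rw [← hd, hs _ _ (hb p) (hb i)]) rfl
        rw [swap_apply_def]
        split_ifs <;> omega
      · simp only [h1, h2, if_false, mul_one]
        refine if_neg ?_
        rw [swap_apply_def, swap_apply_def]
        split_ifs <;> omega
  simp only [e, Finset.prod_mul_distrib]
  simp only [Finset.prod_ite_irrel, Finset.prod_const_one, Finset.prod_ite_eq, if_pos hi, if_pos hj]
  rw [mul_assoc, ← Finset.prod_mul_distrib, Finset.prod_eq_one, mul_one]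
  intro q _
  split_ifs
  · rw [← mul_pow]; simp
  · simp
end values

end
end Vale.Agent.P066
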