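import Vale.Agent.P066.CSym

/-! Part C: BPS spaces are finite dimensional. -/

namespace Vale.Agent.P066
open MvPolynomial Equiv
noncomputable section
variable {V : Type} [Fintype V] [DecidableEq V] {K : ℕ}
variable {ar : V → V → ℕ} {η : Stab (V → ℤ)}

omit [Fintype V] in
theorem kr_split (ar : V → V → ℕ) {A B T : Finset (Om V K)} (hA : A ⊆ B) (hB : B ⊆ T) :
    kr ar A (T \ A) = kr ar A (B \ A) * kr ar A (T \ B) := by
  have e : T \ A = (B \ A) ∪ (T \ B) := by
    ext s
    simp only [Finset.mem_sdiff, Finset.mem_union]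
    have := @hA s
    have := @hB s
    tauto
  rw [kr, kr, kr, ← Finset.prod_mul_distrib]
  refine Finset.prod_congr rfl fun s _ => ?_
  rw [e, Finset.prod_union]
  exact Finset.disjoint_left.2 fun t h h' => (Finset.mem_sdiff.1 h').2 (Finset.mem_sdiff.1 h).1

theorem exists_neg_blk {T : Finset (Om V K)} (hT : η.zero (dz (dv T))) {b : Om V K → ℕ}
    (hb : ¬ IsEP η T b) : ∃ j, η.neg (dz (dv (blk T b j))) := by
  by_contra h
  have h1 : ∀ j, η.nn (dz (dv (blk T b j))) := fun j => by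
    by_contra h'
    exact h ⟨j, h'⟩
  obtain ⟨i, hi⟩ := not_forall.1 hb
  have h2 : η.pos (dz (dv (blk T b i))) := fun h' => hi ⟨h1 i, h'⟩
  have h3 : i ∈ T.image b := by
    by_contra h'
    have : blk T b i = ∅ :=
      Finset.filter_eq_empty_iff.2 fun s hs h => h' (Finset.mem_image.2 ⟨s, hs, h⟩)
    rw [this, dv_empty, dz_zero] at h2
    exact η.not_pos_zero h2
  have h4 : dz (dv T) = ∑ j ∈ T.image b, dz (dv (blk T b j)) := by
    rw [dv_eq_sum_blk T b]
    funext v
    simp [dz]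
  rw [h4, ← Finset.add_sum_erase _ _ h3] at hT
  exact (h2.add_nn (Stab.nn_sum _ _ fun j _ => h1 j)).not_zero hT

/-- A power of the ideal of differences of variables kills the intersection of the block ideals. -/
theorem exists_pow_mul_le {T : Finset (Om V K)} (hT : η.zero (dz (dv T))) :
    ∃ N : ℕ, Ideal.span {y | ∃ s ∈ T, ∃ s' ∈ T, y = X s - X s'} ^ N *
      (⨅ (b : Om V K → ℕ) (_ : IsEP η T b ∧ 2 ≤ nb T b), aI ar η T b) ≤ Jnn ar η T := by
  classical
  set I := ⨅ (b : Om V K → ℕ) (_ : IsEP η T b ∧ 2 ≤ nb T b), aI ar η T b with hI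
  let Q : Ideal (PR V K) := (Jnn ar η T).colon (I : Set (PR V K))
  have hQ : ∀ r, r ∈ Q ↔ ∀ f ∈ I, r * f ∈ Jnn ar η T := fun r => Submodule.mem_colon
  have h1 : Ideal.span {y | ∃ s ∈ T, ∃ s' ∈ T, y = X s - X s'} ≤ Q.radical := by
    rw [Ideal.radical_eq_sInf, Ideal.span_le]
    rintro _ ⟨s, hs, s', hs', rfl⟩
    refine Ideal.mem_sInf.2 fun {p} hp => ?_
    have hp2 := hp.2
    by_contra hn
    have : Nonempty (Om V K) := ⟨s⟩
    let φ : Om V K → PR V K ⧸ p := fun s => Ideal.Quotient.mk p (X s)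
    let b : Om V K → ℕ := fun s => Fintype.equivFin (Om V K) (Function.invFun φ (φ s))
    have hb : ∀ s t, b s = b t ↔ X s - X t ∈ p := fun s t => by
      rw [← Ideal.Quotient.eq]
      refine ⟨fun h => ?_, fun h => congrArg
        (fun q => (Fintype.equivFin (Om V K) (Function.invFun φ q) : ℕ)) h⟩
      have := congrArg φ ((Fintype.equivFin (Om V K)).injective (Fin.ext h))
      rwa [Function.invFun_eq (f := φ) ⟨s, rfl⟩, Function.invFun_eq (f := φ) ⟨t, rfl⟩] at this
    have hk : ∀ i, ∀ A ⊆ blk T b i, kr ar A (T \ blk T b i) ∉ p := by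
      intro i A hA h
      obtain ⟨u, hu, h⟩ := hp2.prod_mem_iff.1 h
      obtain ⟨t, ht, h⟩ := hp2.prod_mem_iff.1 h
      rw [Finset.mem_sdiff] at ht
      exact ht.2 (Finset.mem_filter.2 ⟨ht.1,
        ((hb t u).2 (hp2.mem_of_pow_mem _ h)).trans (Finset.mem_filter.1 (hA hu)).2⟩)
    by_cases hE : IsEP η T b
    · have hnb : 2 ≤ nb T b := Finset.one_lt_card.2 ⟨_, Finset.mem_image_of_mem b hs, _,
        Finset.mem_image_of_mem b hs', fun h => hn ((hb s s').1 h)⟩
      have hD : ∏ i ∈ T.image b, ∏ A ∈ (blk T b i).powerset, kr ar A (T \ blk T b i) ∈ Q := by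
        refine (hQ _).2 fun f hf => ?_
        have h2 : I ≤ aI ar η T b := iInf₂_le b ⟨hE, hnb⟩
        have h3 : aI ar η T b ≤ (Jnn ar η T).colon {∏ i ∈ T.image b,
            ∏ A ∈ (blk T b i).powerset, kr ar A (T \ blk T b i)} := by
          refine iSup₂_le fun i hi => Ideal.span_le.2 ?_
          rintro _ ⟨A, hA, hneg, rfl⟩
          obtain ⟨D, hD⟩ := (Finset.dvd_prod_of_mem (fun A => kr ar A (T \ blk T b i))
            (Finset.mem_powerset.2 hA)).trans (Finset.dvd_prod_of_mem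
              (fun i => ∏ A ∈ (blk T b i).powerset, kr ar A (T \ blk T b i)) hi)
          refine Submodule.mem_colon_singleton.2 ?_
          rw [hD, smul_eq_mul, ← mul_assoc, ← kr_split ar hA (Finset.filter_subset _ _)]
          exact Ideal.mul_mem_right _ _
            (Ideal.subset_span ⟨A, hA.trans (Finset.filter_subset _ _), hneg, rfl⟩)
        rw [mul_comm]
        exact Submodule.mem_colon_singleton.1 (h3 (h2 hf))
      obtain ⟨i, -, h⟩ := hp2.prod_mem_iff.1 (hp.1 hD)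
      obtain ⟨A, hA, h⟩ := hp2.prod_mem_iff.1 h
      exact hk i A (Finset.mem_powerset.1 hA) h
    · obtain ⟨j, hj⟩ := exists_neg_blk hT hE
      exact hk j _ subset_rfl (hp.1 ((hQ _).2 fun f _ => Ideal.mul_mem_right _ _
        (Ideal.subset_span ⟨_, Finset.filter_subset _ _, hj, rfl⟩)))
  obtain ⟨N, hN⟩ := Ideal.exists_pow_le_of_le_radical_of_fg h1 (IsNoetherian.noetherian _)
  exact ⟨N, Ideal.mul_le.2 fun r hr f hf => (hQ r).1 (hN hr) f hf⟩

theorem sh_sub_mem {T : Finset (Om V K)} (hT : η.zero (dz (dv T))) {k : ℕ} {g : PR V K}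
    (hg : g ∈ BPSk ar η T k) (c : ℕ → ℚ) : sh (pt T (fun _ => 0) c) g - g ∈ Jnn ar η T := by
  have h1 : g.IsHomogeneous k := hg.1.2
  have h2 : sh (pt T (fun _ => 0) c) g ∈ Fil ar η T k 2 := mem_Fil.2 fun b hb =>
    sh_mem_OrdAt (fun _ _ _ _ _ => rfl) c (mem_Fil.1 hg.2 b hb)
  have h3 : ∀ j, k ≤ j → sh (pt T (fun _ => 0) c) g - g ∈ Jnn ar η T ⊔ mI V K ^ j := by
    refine Nat.le_induction (sub_mem (Fil_le_sup hT k 2 h2)
      (Ideal.mem_sup_right (IsHomogeneous.mem_mI_pow h1))) fun j hj ih => ?_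
    rw [mem_sup_pow_succ_iff (gr_Jnn ar η T) ih, map_sub]
    rcases hj.eq_or_lt with rfl | hj
    · rw [(hc_sh_of_isHomogeneous h1 _).1, homogeneousComponent_eq_self h1, sub_self]
      exact zero_mem _
    · rw [(hc_sh_of_isHomogeneous h1 _).2 j hj, homogeneousComponent_of_mem h1, if_neg hj.ne',
        sub_self]
      exact zero_mem _
  exact mem_of_forall_sup_pow (gr_Jnn ar η T) fun j =>
    (sup_le_sup_left (Ideal.pow_le_pow_right (le_max_right k j)) _ :
      Jnn ar η T ⊔ mI V K ^ max k j ≤ _) (h3 _ (le_max_left k j))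

theorem eval_mem_of_forall {I : Ideal (PR V K)} {P : Polynomial (PR V K)}
    (h : ∀ c : ℚ, P.eval (C c) ∈ I) (x : PR V K) : P.eval x ∈ I := by
  rw [Polynomial.eval_eq_sum]
  refine Ideal.sum_mem _ fun n hn => Ideal.mul_mem_right _ _ ?_
  refine mem_of_forall_dual (Q := rs I) fun l hl => ?_
  have h1 : ∑ m ∈ P.support, Polynomial.monomial m (l (P.coeff m)) = 0 := by
    refine Polynomial.funext fun c => ?_
    rw [Polynomial.eval_zero, ← hl _ (h c), Polynomial.eval_finsetSum, Polynomial.eval_eq_sum,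
      Polynomial.sum, map_sum]
    refine Finset.sum_congr rfl fun m _ => ?_
    rw [Polynomial.eval_monomial, ← map_pow, mul_comm (P.coeff m), C_mul', map_smul, smul_eq_mul,
      mul_comm]
  have h2 := congrArg (fun q => Polynomial.coeff q n) h1
  simpa [Polynomial.coeff_monomial, hn] using h2

omit [Fintype V] [DecidableEq V] in
theorem algHom_eq_on_RT {A : Type} [CommRing A] [Algebra ℚ A] {T : Finset (Om V K)}
    (φ ψ : PR V K →ₐ[ℚ] A) (h : ∀ s ∈ T, φ (X s) = ψ (X s)) {g : PR V K} (hg : g ∈ RT T) :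
    φ g = ψ g := by
  have h1 : supported ℚ (T : Set (Om V K)) ≤ AlgHom.equalizer φ ψ := by
    rw [supported_eq_adjoin_X]
    refine Algebra.adjoin_le ?_
    rintro _ ⟨s, hs, rfl⟩
    exact h s hs
  exact h1 hg

/-- translation invariant elements of high degree in all block ideals vanish -/
theorem exists_degree_bound {T : Finset (Om V K)} (hT : η.zero (dz (dv T))) (hne : T.Nonempty) :
    ∃ k0 : ℕ, ∀ k, k0 < k → ∀ g ∈ BPSk ar η T k,
      (∀ b, IsEP η T b → 2 ≤ nb T b → g ∈ aI ar η T b) → g ∈ Jnn ar η T := by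
  classical
  obtain ⟨N, hN⟩ := exists_pow_mul_le (ar := ar) hT
  set y : Ideal (PR V K) := Ideal.span {y | ∃ s ∈ T, ∃ s' ∈ T, y = X s - X s'} with hy
  set I := ⨅ (b : Om V K → ℕ) (_ : IsEP η T b ∧ 2 ≤ nb T b), aI ar η T b with hI
  obtain ⟨c, hc⟩ := Ideal.exists_pow_inf_eq_pow_smul y I
  obtain ⟨s0, hs0⟩ := hne
  let ρ : PR V K →ₐ[ℚ] PR V K := aeval fun s => if s ∈ T then X s - X s0 else 0
  have hρ : ∀ s ∈ T, ρ (X s) = X s - X s0 := fun s hs => by simp [ρ, hs]
  have h1 : ∀ B ⊆ T, Jnn ar η B ≤ (Jnn ar η B).comap ρ := fun B hB => by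
    refine Ideal.span_le.2 ?_
    rintro _ ⟨A, hA, hneg, rfl⟩
    have : ρ (kr ar A (B \ A)) = kr ar A (B \ A) := by
      simp only [kr, map_prod, map_pow, map_sub]
      refine Finset.prod_congr rfl fun s hs => Finset.prod_congr rfl fun t ht => ?_
      rw [hρ s (hB (hA hs)), hρ t (hB (Finset.mem_sdiff.1 ht).1), sub_sub_sub_cancel_right]
    change ρ _ ∈ Jnn ar η B
    rw [this]
    exact Ideal.subset_span ⟨A, hA, hneg, rfl⟩
  have h2 : ∀ b, aI ar η T b ≤ (aI ar η T b).comap ρ := fun b => iSup₂_le fun i hi =>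
    (h1 _ (Finset.filter_subset _ _)).trans (Ideal.comap_mono
      (le_iSup₂ (f := fun i (_ : i ∈ T.image b) => Jnn ar η (blk T b i)) i hi))
  have h3 : (mI V K).map ρ ≤ y := by
    rw [Ideal.map_le_iff_le_comap]
    refine Ideal.span_le.2 ?_
    rintro _ ⟨s, rfl⟩
    change ρ _ ∈ y
    by_cases hs : s ∈ T
    · rw [hρ s hs]
      exact Ideal.subset_span ⟨s, hs, s0, hs0, rfl⟩
    · simp [ρ, hs]
  refine ⟨N + c, fun k hk g hg h => ?_⟩
  have a1 : ρ g ∈ y ^ k := by
    have := Ideal.mem_map_of_mem ρ (IsHomogeneous.mem_mI_pow hg.1.2)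
    rw [Ideal.map_pow] at this
    exact Ideal.pow_right_mono h3 k this
  have a2 : ρ g ∈ I := Submodule.mem_iInf _ |>.2 fun b => Submodule.mem_iInf _ |>.2 fun hb =>
    h2 b (h b hb.1 hb.2)
  have a3 : ρ g ∈ Jnn ar η T := by
    have b1 : ρ g ∈ y ^ k • ⊤ ⊓ I := ⟨by simpa using a1, a2⟩
    rw [hc k (by omega)] at b1
    exact hN (Ideal.mul_mono (Ideal.pow_le_pow_right (by omega)) inf_le_right b1)
  let τ : PR V K →ₐ[ℚ] Polynomial (PR V K) := aeval fun s => Polynomial.C (X s) + Polynomial.X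
  have a4 : ∀ x, ((Polynomial.aeval x).restrictScalars ℚ).comp τ g = (τ g).eval x := fun x => by
    simp [Polynomial.coe_aeval_eq_eval]
  have a5 := eval_mem_of_forall (I := Jnn ar η T) (P := τ g - Polynomial.C g) (fun q => by
    rw [Polynomial.eval_sub, Polynomial.eval_C, ← a4,
      algHom_eq_on_RT _ (sh (pt T (fun _ => 0) fun _ => q)) (fun s hs => by simp [τ, sh, pt, hs])
        hg.1.1.1]
    exact sh_sub_mem hT hg _) (-X s0)
  rw [Polynomial.eval_sub, Polynomial.eval_C, ← a4,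
    algHom_eq_on_RT _ ρ (fun s hs => by simp [τ, hρ s hs, sub_eq_add_neg]) hg.1.1.1] at a5
  simpa using sub_mem a3 a5

theorem BPSk_le_Jnn (hs : Sym0 ar η) (T : Finset (Om V K)) (hT : η.zero (dz (dv T)))
    (hne : T.Nonempty) : ∃ k0 : ℕ, ∀ k, k0 < k → BPSk ar η T k ≤ rs (Jnn ar η T) := by
  classical
  induction T using Finset.strongInduction with
  | H T ih =>
  obtain ⟨k1, hk1⟩ := exists_degree_bound (ar := ar) hT hne
  choose! m hm using ih
  obtain ⟨M, hM⟩ := (Set.finite_range m).bddAbove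
  refine ⟨k1 + aa ar (dv T) (dv T) + T.card * M, fun k hk g hg => hk1 k (by omega) g hg ?_⟩
  let P : ℕ → ℕ → Prop := fun w r => ∀ b, IsEP η T b → 2 ≤ nb T b →
    g ∈ OrdAt ar η T b ((if nb T b < r then w else w + 1) - kap ar T b)
  have step : ∀ w, k < w → ∀ r, P w (r + 1) → P w r := by
    intro w hw r h b hb h2
    have h3 := h b hb h2
    by_cases hr : nb T b = r
    · have hkap : kap ar T b ≤ aa ar (dv T) (dv T) := by
        have := two_kap_add hs hb
        omega
      rw [if_pos (by omega)] at h3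
      rw [if_neg (by omega), show w + 1 - kap ar T b = w - kap ar T b + 1 by omega]
      refine mem_OrdAt.2 fun c => ?_
      rw [mem_sup_pow_succ_iff (gr_aI ar η T b) (mem_OrdAt.1 h3 c)]
      refine (sup_le (Submodule.span_le.2 ?_) le_rfl : _ ≤ rs (aI ar η T b))
        (symbol_mem_span hs hb (by omega) hg.1.1
          (fun b' hb' hR => hr ▸ h b' hb' (h2.trans hR.nb_le)) c)
      rintro _ ⟨f, l, h4, h5, rfl⟩
      obtain ⟨i, hi, h6⟩ : ∃ i ∈ T.image b, M < l i := by
        by_contra h6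
        push Not at h6
        have h7 := Finset.sum_le_card_nsmul _ _ _ h6
        have h8 := Nat.mul_le_mul_right M (nb_le_card (T := T) (b := b))
        rw [smul_eq_mul, h5] at h7
        unfold nb at h8
        omega
      have h7 : blk T b i ⊂ T := by
        refine Finset.filter_ssubset.2 ?_
        obtain ⟨j, hj, hji⟩ := Finset.exists_mem_ne h2 i
        obtain ⟨s, hs, rfl⟩ := Finset.mem_image.1 hj
        exact ⟨s, hs, hji⟩
      have h8 : (blk T b i).Nonempty := by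
        obtain ⟨s, hs, rfl⟩ := Finset.mem_image.1 hi
        exact ⟨s, Finset.mem_filter.2 ⟨hs, rfl⟩⟩
      have h9 := hm _ h7 (hb i) h8 (l i) ((hM ⟨_, rfl⟩).trans_lt h6) (h4 i hi)
      exact Ideal.mem_of_dvd _ (Finset.dvd_prod_of_mem f hi)
        (le_iSup₂ (f := fun i (_ : i ∈ T.image b) => Jnn ar η (blk T b i)) i hi h9)
    · rwa [if_congr (show nb T b < r ↔ nb T b < r + 1 by omega) rfl rfl]
  have all : ∀ w, k + 1 ≤ w → P w (T.card + 1) := by
    refine Nat.le_induction (fun b hb h2 => ?_) fun w hw ih b hb h2 => ?_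
    · have := mem_Fil.1 hg.2 b hb
      rw [if_neg (by omega)] at this
      rwa [if_pos (Nat.lt_succ_of_le nb_le_card)]
    · have h0 : P w 0 := Nat.decreasingInduction (motive := fun r _ => P w r)
        (fun r _ h => step w hw r h) ih (Nat.zero_le _)
      have := h0 b hb h2
      rw [if_neg (by omega)] at this
      rwa [if_pos (Nat.lt_succ_of_le nb_le_card)]
  intro b hb h2
  refine mem_of_forall_sup_pow (gr_aI ar η T b) fun j => ?_
  have h3 := all (j + kap ar T b + (k + 1)) (by omega) b hb h2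
  rw [if_pos (Nat.lt_succ_of_le nb_le_card)] at h3
  have h4 := mem_OrdAt.1 (OrdAt_anti (k := j) (by omega) h3) 0
  have e : pt T b 0 = 0 := by
    funext s
    simp [pt]
  rwa [e, sh_zero] at h4

theorem exists_BD (hs : Sym0 ar η) (K : ℕ) :
    ∃ (Γ : Type) (_ : Fintype Γ), Nonempty (BD ar η K Γ) := by
  classical
  choose ι u δ hu hbm using fun d : V → ℕ =>
    exists_isBM (gr_BPS ar η (std K d)) (gr_Jnn ar η (std K d))
  let D : Type := {d : V → ℕ // d ≠ 0 ∧ (∀ v, d v ≤ K) ∧ η.zero (dz d)}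
  have : Finite D := Set.Finite.subset (box V K).finite_toSet
    (t := {d | d ≠ 0 ∧ (∀ v, d v ≤ K) ∧ η.zero (dz d)}) fun d hd => by
      simpa [box, Nat.lt_succ_iff] using hd.2.1
  have : ∀ d : D, Finite (ι d.1) := by
    rintro ⟨d, h1, h2, h3⟩
    obtain ⟨k0, hk0⟩ := BPSk_le_Jnn hs (std K d) (by rwa [dv_std h2]) (by
      rw [Finset.nonempty_iff_ne_empty]
      intro h
      rw [← dv_std h2, h, dv_empty] at h1
      exact h1 rfl)
    have h4 : ∀ i : ι d, δ d i ≤ k0 := fun i => by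
      by_contra h
      have h5 := hc_mem_BPSk ar η _ ((hbm d).mem i) (δ d i)
      rw [homogeneousComponent_eq_self (hu d i)] at h5
      have h6 := (hbm d).li (Finsupp.single i 1) (by
        rw [Finsupp.linearCombination_single, one_smul]
        exact hk0 _ (not_le.1 h) h5)
      simp at h6
    have h5 := ((hbm d).hil_eq (hu d) (gr_Jnn ar η _)).1
    refine Set.finite_univ_iff.1 (((Set.finite_le_nat k0).biUnion
      (t := fun j => {i | δ d i = j}) fun j _ => h5 j).subset fun i _ => ?_)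
    exact Set.mem_biUnion (h4 i) rfl
  refine ⟨Σ d : D, ι d.1, Fintype.ofFinite _, ⟨⟨fun γ => γ.1.1, fun γ => u _ γ.2, fun γ => δ _ γ.2,
    fun γ => γ.1.2.1, fun γ => γ.1.2.2.1, fun γ => γ.1.2.2.2, fun γ => hu _ _,
    fun d h1 h2 h3 => ?_⟩⟩⟩
  let e : ι d ≃ {γ : Σ d : D, ι d.1 // γ.1.1 = d} := Equiv.ofBijective
    (fun i => ⟨⟨⟨d, h1, h2, h3⟩, i⟩, rfl⟩) ⟨fun i j h => by simpa using h, by
      rintro ⟨⟨⟨d', h⟩, i⟩, rfl⟩
      exact ⟨i, rfl⟩⟩
  have h4 := (hbm d).reindex e.symm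
  have h5 : (fun γ => u d (e.symm γ)) = fun γ : {γ : Σ d : D, ι d.1 // γ.1.1 = d} =>
      u _ γ.1.2 := by
    funext γ
    obtain ⟨i, rfl⟩ := e.surjective γ
    rw [Equiv.symm_apply_apply]
    rfl
  rwa [h5] at h4

end
end Vale.Agent.P066
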