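import Vale.Agent.P066.CLin

/-! Part C: generating function of configurations. -/

namespace Vale.Agent.P066
noncomputable section

namespace Gf
open PowerSeries

theorem gfN_shift {ι : Type} (δ : ι → ℕ) (a : ℕ) : gfN (fun i => a + δ i) = X ^ a * gfN δ := by
  ext j
  rw [coeff_X_pow_mul', gfN, gfN, coeff_mk]
  split_ifs with h
  · rw [coeff_mk, Nat.card_congr (Equiv.subtypeEquivRight (q := fun i => δ i = j - a)
      fun i => by omega)]
  · have : IsEmpty {i // a + δ i = j} := ⟨fun i => h (by have := i.2; omega)⟩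
    simp

theorem gfN_sum {ι κ : Type} {δ : ι → ℕ} {ε : κ → ℕ} (hδ : ∀ j, Finite {i // δ i = j})
    (hε : ∀ j, Finite {i // ε i = j}) : gfN (Sum.elim δ ε) = gfN δ + gfN ε := by
  ext j
  have := hδ j
  have := hε j
  rw [map_add, gfN, gfN, gfN, coeff_mk, coeff_mk, coeff_mk, Nat.card_congr Equiv.subtypeSum]
  simp only [Sum.elim_inl, Sum.elim_inr, Nat.card_sum, Nat.cast_add]

theorem finite_shift {ι : Type} {δ : ι → ℕ} (hδ : ∀ j, Finite {i // δ i = j}) (a j : ℕ) :
    Finite {i // a + δ i = j} := by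
  have := hδ (j - a)
  exact Finite.of_injective (fun i => (⟨i.1, by have := i.2; omega⟩ : {i // δ i = j - a}))
    fun x y h => Subtype.ext (Subtype.mk.inj h)

theorem gfN_split {ι κ μ : Type} {δ : ι → ℕ} {ε : κ → ℕ} {θ : μ → ℕ}
    (hε : ∀ j, Finite {i // ε i = j}) (hθ : ∀ j, Finite {i // θ i = j}) (f : κ → ι) (g : μ → ι)
    (h : Function.Bijective (Sum.elim f g)) {a b : ℕ} (hf : ∀ k, δ (f k) = a + ε k)
    (hg : ∀ k, δ (g k) = b + θ k) : gfN δ = X ^ a * gfN ε + X ^ b * gfN θ := by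
  rw [← gfN_equiv (Equiv.ofBijective _ h), ← gfN_shift, ← gfN_shift,
    ← gfN_sum (finite_shift hε a) (finite_shift hθ b)]
  congr 1
  funext x
  cases x <;> simp [hf, hg]

theorem gfN_unique {ι : Type} [Unique ι] {δ : ι → ℕ} (h : δ default = 0) : gfN δ = 1 := by
  ext j
  rw [gfN, coeff_mk, coeff_one]
  have h1 : δ = fun _ => 0 := funext fun i => by rw [Subsingleton.elim i default, h]
  split_ifs with hj
  · simp [hj, h1]
  · simp [Ne.symm hj, h1]

theorem finite_pi {Γ : Type} [Fintype Γ] {ι : Γ → Type} {δ : ∀ γ, ι γ → ℕ}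
    (h : ∀ γ j, Finite {i // δ γ i = j}) (j : ℕ) :
    Finite {x : ∀ γ, ι γ // ∑ γ, δ γ (x γ) = j} := by
  have h1 : ∀ γ, {i | δ γ i ≤ j}.Finite := fun γ =>
    ((Set.finite_Iic j).biUnion fun k _ => (h γ k : {i | δ γ i = k}.Finite)).subset fun i hi =>
      Set.mem_biUnion hi rfl
  refine (?_ : {x : ∀ γ, ι γ | ∑ γ, δ γ (x γ) = j}.Finite)
  exact (Set.Finite.pi' h1).subset fun x hx γ =>
    (Finset.single_le_sum (f := fun γ => δ γ (x γ)) (fun _ _ => Nat.zero_le _)
      (Finset.mem_univ γ)).trans_eq hx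

theorem gfN_pi (Γ : Type) [Fintype Γ] : ∀ {ι : Γ → Type} {δ : ∀ γ, ι γ → ℕ},
    (∀ γ j, Finite {i // δ γ i = j}) →
      gfN (fun x : ∀ γ, ι γ => ∑ γ, δ γ (x γ)) = ∏ γ, gfN (δ γ) := by
  refine Fintype.induction_empty_option (P := fun Γ _ => ∀ {ι : Γ → Type} {δ : ∀ γ, ι γ → ℕ},
    (∀ γ j, Finite {i // δ γ i = j}) →
      gfN (fun x : ∀ γ, ι γ => ∑ γ, δ γ (x γ)) = ∏ γ, gfN (δ γ)) ?_ ?_ ?_ Γ
  · intro α β _ e ih ι δ h
    let := Fintype.ofEquiv β e.symm
    rw [← e.prod_comp, ← ih fun a => h (e a), ← gfN_equiv (Equiv.piCongrLeft ι e)]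
    congr 1
    funext x
    rw [← e.sum_comp]
    simp
  · intro ι δ _
    rw [Finset.univ_eq_empty, Finset.prod_empty]
    exact gfN_unique (by simp)
  · intro α _ ih ι δ h
    have h1 := gfN_prod (h none) (finite_pi fun a => h (some a)) 0
    rw [pow_zero, one_mul] at h1
    rw [Fintype.prod_option, ← ih fun a => h (some a), ← h1,
      ← gfN_equiv (Equiv.piOptionEquivProd (β := ι))]
    simp [Fintype.sum_option]

/-- multisets of a given size, without repetitions in the fermionic case -/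
abbrev MS (p : Prop) (e : ℕ) : Type := {m : Multiset ℕ // m.card = e ∧ (p → m.Nodup)}

theorem finite_MS (p : Prop) (e j : ℕ) : Finite {m : MS p e // m.1.sum = j} := by
  have := (Set.finite_Iic (e • Multiset.range (j + 1))).to_subtype
  refine Finite.of_injective (fun m => (⟨m.1.1, Multiset.le_iff_count.mpr fun a => ?_⟩ :
    Set.Iic (e • Multiset.range (j + 1)))) fun x y h =>
      Subtype.ext (Subtype.ext (Subtype.mk.inj h))
  by_cases ha : a ∈ m.1.1
  · have h1 := (Multiset.single_le_sum (fun _ _ => Nat.zero_le _) a ha).trans_eq m.2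
    rw [Multiset.count_nsmul, Multiset.count_eq_one_of_mem (Multiset.nodup_range _)
      (Multiset.mem_range.mpr (by omega)), mul_one]
    exact (Multiset.count_le_card _ _).trans_eq m.1.2.1
  · simp [ha]

theorem exists_map_succ {m : Multiset ℕ} (h : 0 ∉ m) : ∃ m' : Multiset ℕ, m'.map Nat.succ = m :=
  ⟨m.map Nat.pred, by
    rw [Multiset.map_map]
    exact (Multiset.map_congr rfl fun a ha => Nat.succ_pred fun h' => h (h' ▸ ha)).trans
      (Multiset.map_id m)⟩

theorem sum_map_succ (m : Multiset ℕ) : (m.map Nat.succ).sum = m.card + m.sum := by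
  simp [Nat.succ_eq_add_one, Multiset.sum_map_add, add_comm]

/-- shift of all elements -/
def up {p : Prop} {e : ℕ} (m : MS p e) : MS p e :=
  ⟨m.1.map Nat.succ, by rw [Multiset.card_map, m.2.1], fun h => (m.2.2 h).map Nat.succ_injective⟩

theorem bij_of {p : Prop} {e : ℕ} (f : MS p e → MS p (e + 1)) (hf : Function.Injective f)
    (h0 : ∀ m, 0 ∈ (f m).1) (h1 : ∀ m : MS p (e + 1), 0 ∈ m.1 → ∃ k, f k = m) :
    Function.Bijective (Sum.elim f up) := by
  refine ⟨hf.sumElim (fun x y h => Subtype.ext (Multiset.map_injective Nat.succ_injective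
    (congrArg Subtype.val h))) fun a b h => ?_, fun m => ?_⟩
  · have := h0 a
    rw [h] at this
    simp [up] at this
  · by_cases h : 0 ∈ m.1
    · obtain ⟨k, hk⟩ := h1 m h
      exact ⟨Sum.inl k, hk⟩
    · obtain ⟨m', hm⟩ := exists_map_succ h
      exact ⟨Sum.inr ⟨m', by rw [← m.2.1, ← hm, Multiset.card_map],
        fun hp => Multiset.Nodup.of_map _ (hm ▸ m.2.2 hp)⟩, Subtype.ext hm⟩

open Classical in
theorem gfN_MS_succ (p : Prop) (e : ℕ) : gfN (fun m : MS p (e + 1) => m.1.sum) =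
    X ^ (if p then e else 0) * gfN (fun m : MS p e => m.1.sum) +
      X ^ (e + 1) * gfN (fun m : MS p (e + 1) => m.1.sum) := by
  have hup : ∀ m : MS p (e + 1), (up m).1.sum = e + 1 + m.1.sum := fun m => by
    rw [up, sum_map_succ, m.2.1]
  split_ifs with hp
  · let f : MS p e → MS p (e + 1) := fun m => ⟨0 ::ₘ (up m).1, by
      rw [Multiset.card_cons, (up m).2.1], fun h => Multiset.nodup_cons.mpr
        ⟨by simp [up], (up m).2.2 h⟩⟩
    refine gfN_split (finite_MS p e) (finite_MS p _) f up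
      (bij_of f (fun x y h => ?_) (fun m => ?_) fun m hm => ?_) (fun m => ?_) hup
    · exact Subtype.ext (Multiset.map_injective Nat.succ_injective
        ((Multiset.cons_inj_right 0).mp (congrArg Subtype.val h)))
    · exact Multiset.mem_cons_self _ _
    · obtain ⟨t, ht⟩ := Multiset.exists_cons_of_mem hm
      obtain ⟨h1, h2⟩ := Multiset.nodup_cons.mp (ht ▸ m.2.2 hp)
      obtain ⟨m', rfl⟩ := exists_map_succ h1
      have h3 := m.2.1
      rw [ht, Multiset.card_cons, Multiset.card_map] at h3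
      exact ⟨⟨m', by omega, fun _ => Multiset.Nodup.of_map _ h2⟩, Subtype.ext ht.symm⟩
    · rw [Multiset.sum_cons, up, sum_map_succ, m.2.1, zero_add]
  · let f : MS p e → MS p (e + 1) := fun m => ⟨0 ::ₘ m.1, by
      rw [Multiset.card_cons, m.2.1], fun h => absurd h hp⟩
    refine gfN_split (finite_MS p e) (finite_MS p _) f up
      (bij_of f (fun x y h => ?_) (fun m => ?_) fun m hm => ?_) (fun m => ?_) hup
    · exact Subtype.ext ((Multiset.cons_inj_right 0).mp (congrArg Subtype.val h))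
    · exact Multiset.mem_cons_self _ _
    · obtain ⟨t, ht⟩ := Multiset.exists_cons_of_mem hm
      have h3 := m.2.1
      rw [ht, Multiset.card_cons] at h3
      exact ⟨⟨t, by omega, fun h => absurd h hp⟩, Subtype.ext ht.symm⟩
    · rw [Multiset.sum_cons]

open Classical in
theorem gfN_MS (p : Prop) (e : ℕ) : gfN (fun m : MS p e => m.1.sum) = psi (decide p) e := by
  have hne : ∀ e, constantCoeff (∏ i ∈ Finset.range e, (1 - X ^ (i + 1) : PowerSeries ℚ)) ≠ 0 :=
    fun e => by simp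
  have key : gfN (fun m : MS p e => m.1.sum) * ∏ i ∈ Finset.range e, (1 - X ^ (i + 1)) =
      if p then X ^ e.choose 2 else 1 := by
    induction e with
    | zero =>
      let : Unique (MS p 0) := ⟨⟨⟨0, rfl, fun _ => Multiset.nodup_zero⟩⟩,
        fun m => Subtype.ext (Multiset.card_eq_zero.mp m.2.1)⟩
      rw [gfN_unique rfl]
      simp
    | succ e ih =>
      have h := gfN_MS_succ p e
      rw [Finset.prod_range_succ, Nat.choose_succ_succ' e 1, Nat.choose_one_right, pow_add]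
      by_cases hp : p
      · simp only [if_pos hp] at h ih ⊢
        linear_combination (∏ i ∈ Finset.range e, (1 - X ^ (i + 1) : PowerSeries ℚ)) * h +
          X ^ e * ih
      · simp only [if_neg hp] at h ih ⊢
        linear_combination (∏ i ∈ Finset.range e, (1 - X ^ (i + 1) : PowerSeries ℚ)) * h + ih
  rw [psi, PowerSeries.eq_mul_inv_iff_mul_eq (hne e), key]
  simp

variable {Γ : Type} [Fintype Γ]

/-- assemble a configuration from its types -/
def asm (x : Γ → Multiset ℕ) : Multiset (Γ × ℕ) := ∑ γ, (x γ).map (Prod.mk γ)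

theorem count_asm [DecidableEq (Γ × ℕ)] (x : Γ → Multiset ℕ) (γ : Γ) (n : ℕ) :
    (asm x).count (γ, n) = (x γ).count n := by
  rw [asm, Multiset.count_sum', Finset.sum_eq_single γ (fun b _ hb => ?_) (by simp),
    Multiset.count_map_eq_count' _ _ (Prod.mk_right_injective γ)]
  simp [hb]

theorem sum_map_asm {M : Type} [AddCommMonoid M] (x : Γ → Multiset ℕ) (f : Γ × ℕ → M) :
    ((asm x).map f).sum = ∑ γ, ((x γ).map fun n => f (γ, n)).sum := by
  rw [asm, ← Multiset.coe_mapAddMonoidHom, map_sum, Multiset.sum_sum]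
  simp

theorem count_fst_asm [DecidableEq Γ] (x : Γ → Multiset ℕ) (γ : Γ) :
    ((asm x).map Prod.fst).count γ = (x γ).card := by
  rw [asm, ← Multiset.coe_mapAddMonoidHom, map_sum]
  simp [Multiset.count_sum', Multiset.count_replicate]

theorem asm_surjective : Function.Surjective (asm (Γ := Γ)) := by
  classical
  intro c
  induction c using Multiset.induction_on with
  | empty => exact ⟨0, by simp [asm]⟩
  | cons a c ih =>
    obtain ⟨x, rfl⟩ := ih
    refine ⟨Pi.single a.1 {a.2} + x, ?_⟩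
    simp only [asm, Pi.add_apply, Multiset.map_add, Finset.sum_add_distrib]
    rw [Finset.sum_eq_single a.1 (fun b _ hb => by simp [hb]) (by simp)]
    simp

end Gf

open Classical in
/-- `e γ` is the number of items of type `γ`. -/
theorem gfN_Conf {V Γ : Type} [Fintype V] [Fintype Γ] [DecidableEq Γ] (dg : Γ → V → ℕ)
    (hne : ∀ γ, dg γ ≠ 0) (fm : Γ → Prop) (kg : Γ → ℕ) (kp : (Γ → ℕ) → ℕ) (K : ℕ) (d : V → ℕ)
    (hd : ∀ v, d v ≤ K) (δ : Conf dg fm d → ℕ)
    (hδ : ∀ c, δ c = kp (fun γ => (c.1.map Prod.fst).count γ) +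
      (c.1.map fun x => kg x.1 + x.2).sum) :
    gfN δ = ∑ e ∈ (box Γ K).filter (fun e => ∑ γ, e γ • dg γ = d),
      PowerSeries.X ^ (kp e + ∑ γ, e γ * kg γ) * ∏ γ, psi (decide (fm γ)) (e γ) := by
  have hs : ∀ x : Γ → Multiset ℕ,
      ((Gf.asm x).map fun z => dg z.1).sum = ∑ γ, (x γ).card • dg γ := fun x => by
    simp [Gf.sum_map_asm]
  let Ψ : (Σ e : (box Γ K).filter (fun e => ∑ γ, e γ • dg γ = d), ∀ γ, Gf.MS (fm γ) (e.1 γ)) →
      Conf dg fm d := fun z => ⟨Gf.asm fun γ => (z.2 γ).1, by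
        simp only [hs, (z.2 _).2.1, (Finset.mem_filter.mp z.1.2).2], fun (a, n) ha => by
        simp only [Gf.count_asm]
        exact Multiset.nodup_iff_count_le_one.mp ((z.2 _).2.2 ha) _⟩
  have hΨ : Function.Bijective Ψ := by
    constructor
    · rintro ⟨e, x⟩ ⟨e', x'⟩ h
      have hx : ∀ γ, (x γ).1 = (x' γ).1 := fun γ => Multiset.ext.mpr fun n => by
        have := congrArg (fun c : Conf dg fm d => c.1.count (γ, n)) h
        simpa only [Ψ, Gf.count_asm] using this
      obtain rfl : e = e' := Subtype.ext (funext fun γ => by rw [← (x γ).2.1, hx, (x' γ).2.1])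
      exact congrArg _ (funext fun γ => Subtype.ext (hx γ))
    · rintro ⟨c, h1, h2⟩
      obtain ⟨x, rfl⟩ := Gf.asm_surjective c
      rw [hs] at h1
      refine ⟨⟨⟨fun γ => (x γ).card, Finset.mem_filter.mpr ⟨Fintype.mem_piFinset.mpr fun γ =>
        Finset.mem_range.mpr ?_, h1⟩⟩, fun γ => ⟨x γ, rfl, fun hγ =>
          Multiset.nodup_iff_count_le_one.mpr fun n => ?_⟩⟩, rfl⟩
      · obtain ⟨v, hv⟩ := Function.ne_iff.mp (hne γ)
        have h3 := Finset.single_le_sum (f := fun γ => (x γ).card • dg γ)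
          (fun _ _ => zero_le) (Finset.mem_univ γ) v
        rw [h1, Pi.smul_apply, smul_eq_mul] at h3
        exact Nat.lt_succ_of_le ((Nat.le_mul_of_pos_right _ (Nat.pos_of_ne_zero hv)).trans
          (h3.trans (hd v)))
      · simpa only [Gf.count_asm] using h2 (γ, n) hγ
  have h1 : (fun z => δ (Equiv.ofBijective Ψ hΨ z)) = fun z =>
      (kp z.1.1 + ∑ γ, z.1.1 γ * kg γ) + ∑ γ, (z.2 γ).1.sum := funext fun z => by
    rw [Equiv.ofBijective_apply, hδ, show (Ψ z).1 = Gf.asm fun γ => (z.2 γ).1 from rfl]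
    simp only [ Gf.count_fst_asm, Gf.sum_map_asm, (z.2 _).2.1,
      Multiset.sum_map_add, Multiset.map_const', Multiset.sum_replicate, smul_eq_mul,
      Multiset.map_id', add_assoc]
  rw [← gfN_equiv (Equiv.ofBijective Ψ hΨ), h1, ← Finset.sum_coe_sort ((box Γ K).filter _),
    gfN_sigma (δ := fun (e : (box Γ K).filter (fun e => ∑ γ, e γ • dg γ = d))
      (x : ∀ γ, Gf.MS (fm γ) (e.1 γ)) => (kp e.1 + ∑ γ, e.1 γ * kg γ) + ∑ γ, (x γ).1.sum)
      fun e => Gf.finite_shift (Gf.finite_pi fun γ => Gf.finite_MS _ _) _]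
  refine Finset.sum_congr rfl fun e _ => ?_
  rw [Gf.gfN_shift, Gf.gfN_pi Γ fun γ => Gf.finite_MS _ _]
  simp only [Gf.gfN_MS]

end
end Vale.Agent.P066
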