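import Vale.Agent.P066.CTens
import Vale.Agent.P066.CAlt

/-! Part C: the two block Harder-Narasimhan decomposition. -/

namespace Vale.Agent.P066
open MvPolynomial Equiv
noncomputable section
variable {V : Type} [Fintype V] [DecidableEq V] {K : ℕ}
variable (ar : V → V → ℕ) (η : Stab (V → ℤ))

namespace HN

/-- stability refined by the total dimension -/
def lt (d e : V → ℕ) : Prop :=
  η.pos (dz e - dz d) ∨ (η.zero (dz e - dz d) ∧ ∑ v, d v < ∑ v, e v)

omit [DecidableEq V] in
theorem lt_irrefl (d : V → ℕ) : ¬ lt η d d := by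
  simp [lt, η.not_pos_zero]

omit [DecidableEq V] in
theorem lt_trans {d e f : V → ℕ} (h : lt η d e) (h' : lt η e f) : lt η d f := by
  have e1 : dz f - dz d = (dz e - dz d) + (dz f - dz e) := by ring
  unfold lt
  rw [e1]
  rcases h with h | ⟨h, h1⟩ <;> rcases h' with h' | ⟨h', h2⟩
  · exact Or.inl (h.add h')
  · exact Or.inl (h.add_nn h'.1)
  · exact Or.inl (Stab.nn_add_pos h.1 h')
  · exact Or.inr ⟨h.add h', h1.trans h2⟩

theorem dz_sdiff {A T : Finset (Om V K)} (h : A ⊆ T) :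
    dz (dv (T \ A)) = dz (dv T) - dz (dv A) := by
  conv_rhs => rw [← Finset.union_sdiff_of_subset h, dv_union Finset.disjoint_sdiff, dz_add]
  ring

theorem lt_of_ssubset {A T : Finset (Om V K)} (h : A ⊆ T) (hne : A ≠ T)
    (hn : η.nn (dz (dv (T \ A)))) : lt η (dv A) (dv T) := by
  rw [dz_sdiff h] at hn
  by_cases hp : η.pos (dz (dv T) - dz (dv A))
  · exact Or.inl hp
  · refine Or.inr ⟨⟨hn, not_not.mp hp⟩, ?_⟩
    rw [card_dv, card_dv]
    exact Finset.card_lt_card (Finset.ssubset_iff_subset_ne.mpr ⟨h, hne⟩)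

open Classical in
/-- number of smaller classes -/
def rk (D d : V → ℕ) : ℕ := ((Finset.Iic D).filter fun e => lt η e d).card

theorem rk_lt {D d e : V → ℕ} (hd : d ≤ D) (h : lt η d e) : rk η D d < rk η D e := by
  classical
  refine Finset.card_lt_card (Finset.ssubset_iff_subset_ne.mpr ⟨fun f hf => ?_, fun h1 => ?_⟩)
  · rw [Finset.mem_filter] at hf ⊢
    exact ⟨hf.1, lt_trans η hf.2 h⟩
  · have h2 : d ∈ (Finset.Iic D).filter fun f => lt η f e :=
      Finset.mem_filter.mpr ⟨Finset.mem_Iic.mpr hd, h⟩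
    rw [← h1] at h2
    exact lt_irrefl η d (Finset.mem_filter.mp h2).2

omit [Fintype V] in
theorem dv_mono {A T : Finset (Om V K)} (h : A ⊆ T) : dv A ≤ dv T := fun _ =>
  Finset.card_le_card (Finset.filter_subset_filter _ h)

omit [Fintype V] [DecidableEq V] in
theorem kr_dvd {A A' B B' : Finset (Om V K)} (hA : A ⊆ A') (hB : B ⊆ B') :
    kr ar A B ∣ kr ar A' B' :=
  (Finset.prod_dvd_prod_of_dvd _ _ fun _ _ => Finset.prod_dvd_prod_of_subset _ _ _ hB).trans
    (Finset.prod_dvd_prod_of_subset _ _ _ hA)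

omit [Fintype V] in
theorem kr_union_left {A A' : Finset (Om V K)} (h : Disjoint A A') (B : Finset (Om V K)) :
    kr ar (A ∪ A') B = kr ar A B * kr ar A' B := Finset.prod_union h

omit [Fintype V] in
theorem kr_union_right (A : Finset (Om V K)) {B B' : Finset (Om V K)} (h : Disjoint B B') :
    kr ar A (B ∪ B') = kr ar A B * kr ar A B' := by
  simp only [kr, Finset.prod_union h, Finset.prod_mul_distrib]

/-- the ideal of the block decomposition -/
def aU (S U : Finset (Om V K)) : Ideal (PR V K) := Jnn ar η (S \ U) ⊔ Jneg ar η U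

theorem kr_mem_aU {S U T : Finset (Om V K)} (hU : U ⊆ S) (hT : T ⊆ S) (hne : U ≠ T)
    (h : ¬ lt η (dv T) (dv U)) : kr ar U (S \ U) ∈ aU ar η S T := by
  by_contra hk
  have h1 : η.nn (dz (dv (U \ T))) := by
    by_contra h1
    refine hk (Ideal.mem_sup_left (Ideal.mem_of_dvd _ (kr_dvd ar (A := U \ T)
      (B := (S \ T) \ (U \ T)) Finset.sdiff_subset fun s => ?_)
      (Ideal.subset_span ⟨_, Finset.sdiff_subset_sdiff hU le_rfl, h1, rfl⟩)))
    simp only [Finset.mem_sdiff]
    tauto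
  by_cases hTU : T ⊆ U
  · exact h (lt_of_ssubset η hTU hne.symm h1)
  have h2 : η.neg (dz (dv (T \ (T ∩ U)))) := fun h2 =>
    hk (Ideal.mem_sup_right (Ideal.mem_of_dvd _ (kr_dvd ar (A := T ∩ U) (B := T \ (T ∩ U))
      Finset.inter_subset_right fun s hs => by
        have := hT (Finset.mem_sdiff.mp hs).1
        simp only [Finset.mem_sdiff, Finset.mem_inter] at hs ⊢
        tauto)
      (Ideal.subset_span ⟨_, Finset.inter_subset_left,
        fun h3 => hTU (Finset.inter_eq_left.mp h3), h2, rfl⟩)))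
  refine h (Or.inl ?_)
  have h3 := Stab.nn_add_pos h1 (Stab.pos_neg_iff.2 h2)
  rw [← Finset.sdiff_inter_self_right, dz_sdiff Finset.inter_subset_right,
    dz_sdiff Finset.inter_subset_left] at h3
  rwa [show dz (dv U) - dz (dv T) =
    dz (dv U) - dz (dv (T ∩ U)) + -(dz (dv T) - dz (dv (T ∩ U))) by ring]

/-- the ideal of kernels of small rank -/
def In (S : Finset (Om V K)) (n : ℕ) : Ideal (PR V K) :=
  Ideal.span {k | ∃ U, U ⊆ S ∧ rk η (dv S) (dv U) < n ∧ k = kr ar U (S \ U)}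

theorem mul_mem_In {S T : Finset (Om V K)} (hT : T ⊆ S) {n : ℕ} (hn : rk η (dv S) (dv T) ≤ n)
    {q : PR V K} (hq : q ∈ aU ar η S T) : kr ar T (S \ T) * q ∈ In ar η S n := by
  have key : aU ar η S T ≤ (In ar η S n).colon {kr ar T (S \ T)} := by
    refine sup_le (Ideal.span_le.mpr ?_) (Ideal.span_le.mpr ?_)
    · rintro _ ⟨A, hA, h, rfl⟩
      have hd : Disjoint T A := Finset.disjoint_of_subset_right hA Finset.disjoint_sdiff
      have hs : T ∪ A ⊆ S := Finset.union_subset hT (hA.trans Finset.sdiff_subset)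
      refine Submodule.mem_colon_singleton.mpr (Ideal.mem_of_dvd _ ?_ (Ideal.subset_span
        ⟨T ∪ A, hs, (rk_lt η (dv_mono hs) (Or.inl ?_)).trans_le hn, rfl⟩))
      · rw [kr_union_left ar hd, smul_eq_mul, mul_comm, ← Finset.sup_eq_union, ← sdiff_sdiff_left]
        exact mul_dvd_mul_left _ (kr_dvd ar le_rfl Finset.sdiff_subset)
      · rw [dv_union hd, dz_add, sub_add_cancel_left]
        exact Stab.pos_neg_iff.2 h
    · rintro _ ⟨A, hA, hne, h, rfl⟩
      refine Submodule.mem_colon_singleton.mpr (Ideal.mem_of_dvd _ ?_ (Ideal.subset_span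
        ⟨A, hA.trans hT, (rk_lt η (dv_mono (hA.trans hT))
          (lt_of_ssubset η hA hne h)).trans_le hn, rfl⟩))
      rw [← Finset.sdiff_union_sdiff_cancel hT hA, Finset.union_comm, kr_union_right ar A
        (Finset.disjoint_of_subset_left Finset.sdiff_subset Finset.disjoint_sdiff), smul_eq_mul]
      exact mul_dvd_mul_left _ (kr_dvd ar hA le_rfl)
  rw [mul_comm]
  exact Submodule.mem_colon_singleton.mp (key hq)

omit [Fintype V] in
theorem mem_aU_of_mul {S T : Finset (Om V K)} {u : PR V K}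
    (h : kr ar T (S \ T) * u ∈ aU ar η S T) : u ∈ aU ar η S T := by
  let m := Ideal.Quotient.mkₐ ℚ (aU ar η S T)
  let φ : PR V K →ₐ[ℚ] Polynomial (PR V K ⧸ aU ar η S T) :=
    aeval fun s => Polynomial.C (m (X s)) + if s ∈ T then 0 else Polynomial.X
  have h1 : ∀ A B : Finset (Om V K), (∀ s ∈ A, ∀ s' ∈ B, s ∈ T ↔ s' ∈ T) →
      φ (kr ar A B) = Polynomial.C (m (kr ar A B)) := fun A B hAB => by
    simp only [kr, map_prod, map_pow, map_sub, φ, aeval_X]
    refine Finset.prod_congr rfl fun s hs => Finset.prod_congr rfl fun s' hs' => ?_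
    simp only [hAB s hs s' hs', add_sub_add_right_eq_sub]
  have h2 : aU ar η S T ≤ RingHom.ker φ := by
    refine sup_le (Ideal.span_le.mpr ?_) (Ideal.span_le.mpr ?_)
    · rintro _ ⟨A, hA, h, rfl⟩
      rw [SetLike.mem_coe, RingHom.mem_ker, h1 _ _ fun s hs s' hs' => iff_of_false
        (Finset.mem_sdiff.mp (hA hs)).2 (Finset.mem_sdiff.mp (Finset.mem_sdiff.mp hs').1).2,
        Polynomial.C_eq_zero]
      exact Ideal.Quotient.eq_zero_iff_mem.mpr
        (Ideal.mem_sup_left (Ideal.subset_span ⟨A, hA, h, rfl⟩))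
    · rintro _ ⟨A, hA, hne, h, rfl⟩
      rw [SetLike.mem_coe, RingHom.mem_ker, h1 _ _ fun s hs s' hs' => iff_of_true
        (hA hs) (Finset.mem_sdiff.mp hs').1, Polynomial.C_eq_zero]
      exact Ideal.Quotient.eq_zero_iff_mem.mpr
        (Ideal.mem_sup_right (Ideal.subset_span ⟨A, hA, hne, h, rfl⟩))
  have h3 : (φ (kr ar T (S \ T))).Monic := by
    simp only [kr, map_prod, map_pow, map_sub, φ, aeval_X]
    refine Polynomial.monic_prod_of_monic _ _ fun s hs =>
      Polynomial.monic_prod_of_monic _ _ fun s' hs' => Polynomial.Monic.pow ?_ _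
    rw [if_pos hs, if_neg (Finset.mem_sdiff.mp hs').2, add_zero, add_comm, add_sub_assoc,
      ← map_sub]
    exact Polynomial.monic_X_add_C _
  have h4 := h2 h
  rw [RingHom.mem_ker, map_mul, h3.mul_right_eq_zero_iff] at h4
  have h5 : ((Polynomial.aeval (0 : PR V K ⧸ aU ar η S T)).restrictScalars ℚ).comp φ = m := by
    ext s : 1
    by_cases hs : s ∈ T <;> simp [φ, hs]
  have h6 := DFunLike.congr_fun h5 u
  rw [AlgHom.comp_apply, h4, map_zero] at h6
  exact Ideal.Quotient.eq_zero_iff_mem.mp h6.symm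

omit [Fintype V] [DecidableEq V] in
theorem eq_of_RT {T : Finset (Om V K)} {φ ψ : PR V K →ₐ[ℚ] PR V K}
    (h : ∀ s ∈ T, φ (X s) = ψ (X s)) {f : PR V K} (hf : f ∈ RT T) : φ f = ψ f :=
  Algebra.adjoin_le (S := AlgHom.equalizer φ ψ) (by rintro _ ⟨s, hs, rfl⟩; exact h s hs) hf

omit [Fintype V] [DecidableEq V] in
theorem rename_eq_self {T : Finset (Om V K)} {π : Perm (Om V K)} (h : ∀ s ∈ T, π s = s)
    {f : PR V K} (hf : f ∈ RT T) : rename π f = f :=
  eq_of_RT (ψ := AlgHom.id ℚ _) (fun s hs => by simp [h s hs]) hf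

theorem rename_kr_GT {S U : Finset (Om V K)} {π : Perm (Om V K)} (hπ : π ∈ GT S) :
    rename π (kr ar U (S \ U)) = kr ar (U.image π) (S \ U.image π) := by
  rw [rename_kr ar (mem_GT.mp hπ).1, Finset.image_sdiff _ _ π.injective, image_GT hπ]

theorem GT_mono {S T : Finset (Om V K)} (h : T ⊆ S) : GT T ⊆ GT S := fun _ hπ =>
  mem_GT.mpr ⟨(mem_GT.mp hπ).1, fun s hs => (mem_GT.mp hπ).2 s fun h' => hs (h h')⟩

omit [Fintype V] in
theorem image_eq_self {T : Finset (Om V K)} {π : Perm (Om V K)} (h : ∀ s ∈ T, π s = s) :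
    T.image π = T := by
  rw [Finset.image_congr (g := id) h, Finset.image_id]

theorem sign_sq (π : Perm (Om V K)) :
    (((Perm.sign π : ℤˣ) : ℤ) : ℚ) * (((Perm.sign π : ℤˣ) : ℤ) : ℚ) = 1 := by
  rw [← Int.cast_mul, ← Units.val_mul, Int.units_mul_self]
  simp

theorem Alt_avg {S T : Finset (Om V K)} (hT : T ⊆ S) {k : PR V K}
    (hk : ∀ π ∈ GT T, rename π k = k) (h : PR V K) :
    Alt S (k * h) = ((GT T).card : ℚ)⁻¹ • Alt S (k * Alt T h) := by
  rw [eq_inv_smul_iff₀ (card_GT_ne_zero T), Alt_apply T, Finset.mul_sum, map_sum,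
    Nat.cast_smul_eq_nsmul, ← Finset.sum_const]
  refine Finset.sum_congr rfl fun π hπ => ?_
  conv_rhs => rw [mul_smul_comm, map_smul, ← hk π hπ, ← map_mul, Alt_rename _ (GT_mono hT hπ),
    smul_smul, sign_sq, one_smul]

theorem rename_mul_of_image {S U : Finset (Om V K)} {u v : PR V K} (hu : u ∈ Anti U)
    (hv : v ∈ Anti (S \ U)) {π : Perm (Om V K)} (hπ : π ∈ GT S) (h : U.image π = U) :
    rename π (u * v) = (((Perm.sign π : ℤˣ) : ℤ) : ℚ) • (u * v) := by
  refine rename_eq_sign_smul (Setoid.ker fun s : Om V K =>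
    (s.1, if s ∈ S then Sum.inl (decide (s ∈ U)) else Sum.inr s)) (fun s s' hne hr => ?_) fun s => ?_
  · obtain ⟨h1, h2⟩ := Prod.ext_iff.mp (Setoid.ker_def.mp hr)
    by_cases hs : s ∈ S <;> by_cases hs' : s' ∈ S <;>
      simp only [hs, hs', if_true, if_false, Sum.inl.injEq, Sum.inr.injEq, decide_eq_decide, hne,
        reduceCtorEq] at h2
    by_cases hsU : s ∈ U
    · rw [map_mul, hu.2 s hsU s' (h2.mp hsU) hne h1, rename_eq_self (fun t ht => ?_) hv.1, neg_mul]
      have ht' := (Finset.mem_sdiff.mp ht).2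
      exact swap_apply_of_ne_of_ne (fun e => ht' (e ▸ hsU)) fun e => ht' (e ▸ h2.mp hsU)
    · rw [map_mul, hv.2 s (Finset.mem_sdiff.mpr ⟨hs, hsU⟩) s'
        (Finset.mem_sdiff.mpr ⟨hs', fun h3 => hsU (h2.mpr h3)⟩) hne h1,
        rename_eq_self (fun t ht => ?_) hu.1, mul_neg]
      exact swap_apply_of_ne_of_ne (fun e => hsU (e ▸ ht)) fun e => hsU (h2.mpr (e ▸ ht))
  · have h1 : ∀ T : Finset (Om V K), T.image π = T → (π s ∈ T ↔ s ∈ T) := fun T hT => by
      conv_lhs => rw [← hT]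
      exact π.injective.mem_finset_image
    refine Setoid.ker_def.mpr (Prod.ext ((mem_GT.mp hπ).1 s) ?_)
    by_cases hs : s ∈ S
    · simp only [h1 S (image_GT hπ), h1 U h, hs, if_true]
    · simp only [(mem_GT.mp hπ).2 s hs]

/-- reduction of an antisymmetrised product modulo the block ideal -/
theorem Alt_sub_mem {S U T : Finset (Om V K)} (hU : U ⊆ S) (hT : T ⊆ S)
    (hlt : ¬ lt η (dv T) (dv U)) (hUT : dv U = dv T → U = T) {u v : PR V K} (hu : u ∈ Anti U)
    (hv : v ∈ Anti (S \ U)) :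
    Alt S (kr ar U (S \ U) * (u * v)) - kr ar T (S \ T) *
      (if U = T then (((GT S).filter fun π : Perm (Om V K) => T.image π = T).card : ℚ) • (u * v)
        else 0) ∈ aU ar η S T := by
  have h1 : ∀ π ∈ GT S, U.image π ≠ T →
      (((Perm.sign π : ℤˣ) : ℤ) : ℚ) • rename π (kr ar U (S \ U) * (u * v)) ∈ aU ar η S T := by
    intro π hπ hne
    rw [map_mul, rename_kr_GT ar hπ]
    refine Submodule.smul_of_tower_mem _ _ (Ideal.mul_mem_right _ _ (kr_mem_aU ar η ?_ hT hne ?_))
    · rw [← image_GT hπ]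
      exact Finset.image_subset_image hU
    · rwa [dv_image (mem_GT.mp hπ).1]
  rw [Alt_apply]
  split_ifs with h
  · subst h
    rw [← Finset.sum_filter_add_sum_filter_not _ fun π : Perm (Om V K) => U.image π = U,
      Finset.sum_congr rfl (g := fun _ => kr ar U (S \ U) * (u * v)) fun π hπ => ?_,
      Finset.sum_const, mul_smul_comm, Nat.cast_smul_eq_nsmul, add_sub_cancel_left]
    · exact Ideal.sum_mem _ fun π hπ => h1 π (Finset.mem_filter.mp hπ).1 (Finset.mem_filter.mp hπ).2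
    · obtain ⟨h2, h3⟩ := Finset.mem_filter.mp hπ
      rw [map_mul, rename_kr_GT ar h2, h3, rename_mul_of_image hu hv h2 h3, mul_smul_comm,
        smul_smul, sign_sq, one_smul]
  · rw [mul_zero, sub_zero]
    exact Ideal.sum_mem _ fun π hπ => h1 π hπ fun h2 =>
      h (hUT (by rw [← h2, dv_image (mem_GT.mp hπ).1]))

theorem Alt_mem_of_In {S : Finset (Om V K)} {W : Submodule ℚ (PR V K)}
    (hW : ∀ U ⊆ S, ∃ T ⊆ S, dv U = dv T ∧ ∃ P ≤ Anti T, ∃ Q ≤ Anti (S \ T),
      Anti T ≤ P ⊔ rs (Jneg ar η T) ∧ Anti (S \ T) ≤ Q ⊔ rs (Jnn ar η (S \ T)) ∧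
      ∀ p ∈ P, ∀ q ∈ Q, Alt S (kr ar T (S \ T) * (p * q)) ∈ W) (n : ℕ) :
    ∀ g ∈ RT S, g ∈ In ar η S n → Alt S g ∈ W := by
  let ρ : PR V K →ₐ[ℚ] PR V K := aeval fun s => if s ∈ S then X s else 0
  have hρ : ∀ f ∈ RT S, ρ f = f := fun f hf =>
    eq_of_RT (ψ := AlgHom.id ℚ _) (fun s hs => by simp [ρ, hs]) hf
  have hρ' : ∀ f, ρ f ∈ RT S := fun f => by
    induction f using MvPolynomial.induction_on with
    | C a => rw [algHom_C]; exact Subalgebra.algebraMap_mem _ a
    | add p q hp hq => rw [map_add]; exact add_mem hp hq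
    | mul_X p s hp =>
      rw [map_mul]
      refine RT_mul hp ?_
      by_cases hs : s ∈ S
      · simp only [ρ, aeval_X, hs, if_true]
        exact X_mem_supported.mpr hs
      · simp only [ρ, aeval_X, hs, if_false]
        exact zero_mem _
  induction n using Nat.strong_induction_on with
  | _ n ih =>
  have key : ∀ g ∈ In ar η S n, ∀ h, Alt S (ρ (h * g)) ∈ W := by
    intro g hg
    induction hg using Submodule.span_induction with
    | zero => simp
    | add a b _ _ ha hb => intro h; rw [mul_add, map_add, map_add]; exact add_mem (ha h) (hb h)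
    | smul c a _ ha => intro h; rw [smul_eq_mul, ← mul_assoc]; exact ha _
    | mem k hk =>
      obtain ⟨U, hU, hn, rfl⟩ := hk
      obtain ⟨T, hT, hUT, P, hP, Q, hQ, hP', hQ', hPQ⟩ := hW U hU
      have hk : kr ar T (S \ T) ∈ RT S := kr_mem_RT ar hT Finset.sdiff_subset
      have s1 : ∀ u ∈ Anti T, ∀ v ∈ Anti (S \ T), Alt S (kr ar T (S \ T) * (u * v)) ∈ W := by
        intro u hu v hv
        obtain ⟨p, hp, p', hp', rfl⟩ := Submodule.mem_sup.mp (hP' hu)
        obtain ⟨q, hq, q', hq', rfl⟩ := Submodule.mem_sup.mp (hQ' hv)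
        have m1 := RT_mul hk (RT_mul (RT_mono hT hu.1) (RT_mono Finset.sdiff_subset hv.1))
        have m2 := RT_mul hk (RT_mul (RT_mono hT (hP hp).1) (RT_mono Finset.sdiff_subset (hQ hq).1))
        have m3 := ih _ hn _ (sub_mem m1 m2) (by
          rw [← mul_sub, show (p + p') * (q + q') - p * q = p * q' + p' * (q + q') by ring]
          exact mul_mem_In ar η hT (by rw [hUT]) (add_mem (Ideal.mem_sup_left
            (Ideal.mul_mem_left _ _ hq')) (Ideal.mem_sup_right (Ideal.mul_mem_right _ _ hp'))))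
        rw [map_sub] at m3
        simpa using add_mem m3 (hPQ p hp q hq)
      have s2 : ∀ u ∈ RT T, ∀ v ∈ RT (S \ T), Alt S (kr ar T (S \ T) * (u * v)) ∈ W := by
        intro u hu v hv
        have f1 : ∀ π ∈ GT T, ∀ s ∈ S \ T, π s = s := fun π hπ s hs =>
          (mem_GT.mp hπ).2 s (Finset.mem_sdiff.mp hs).2
        have f2 : ∀ π ∈ GT (S \ T), ∀ s ∈ T, π s = s := fun π hπ s hs =>
          (mem_GT.mp hπ).2 s fun h' => (Finset.mem_sdiff.mp h').2 hs
        rw [mul_comm u, ← mul_assoc, Alt_avg hT fun π hπ => by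
          rw [map_mul, rename_kr_GT ar (GT_mono hT hπ), image_GT hπ, rename_eq_self (f1 π hπ) hv],
          mul_right_comm, Alt_avg (T := S \ T) Finset.sdiff_subset fun π hπ => by
          rw [map_mul, rename_kr_GT ar (GT_mono Finset.sdiff_subset hπ), image_eq_self (f2 π hπ),
            rename_eq_self (f2 π hπ) (Alt_mem_Anti hu).1], mul_assoc]
        exact W.smul_mem _ (W.smul_mem _ (s1 _ (Alt_mem_Anti hu) _ (Alt_mem_Anti hv)))
      have s3 : ∀ h ∈ RT S, Alt S (kr ar T (S \ T) * h) ∈ W := by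
        intro h hh
        rw [← Finset.union_sdiff_of_subset hT] at hh
        have hh' := RT_union_le _ _ hh
        clear hh
        induction hh' using Submodule.span_induction with
        | zero => simp
        | add a b _ _ ha hb => rw [mul_add, map_add]; exact add_mem ha hb
        | smul c a _ ha => rw [mul_smul_comm, map_smul]; exact W.smul_mem _ ha
        | mem k hk =>
          obtain ⟨u, hu, v, hv, rfl⟩ := hk
          exact s2 u hu v hv
      intro h
      obtain ⟨π, hπ, hπ'⟩ := exists_GT_image hU hT hUT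
      have s4 : rename π (ρ h) ∈ RT S := by
        rw [← image_GT hπ, ← map_RT (mem_GT.mp hπ).1]
        exact ⟨_, hρ' h, rfl⟩
      have s5 := W.smul_mem (((Perm.sign π : ℤˣ) : ℤ) : ℚ) (s3 _ s4)
      rwa [← hπ', ← rename_kr_GT ar hπ, ← map_mul, Alt_rename _ hπ, smul_smul, sign_sq, one_smul,
        ← hρ _ (kr_mem_RT ar hU Finset.sdiff_subset), ← map_mul, mul_comm] at s5
  intro g hg hg'
  simpa [hρ g hg] using key g hg' 1

theorem isBM {D : V → ℕ} (hD : ∀ v, D v ≤ K) {ι κ : Finset.Iic D → Type}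
    {u : ∀ d, ι d → PR V K} {v : ∀ d, κ d → PR V K}
    (hu : ∀ d, IsBM (u d) (Anti (std K d.1)) (rs (Jneg ar η (std K d.1))))
    (hv : ∀ d, IsBM (v d) (Anti (std K D \ std K d.1)) (rs (Jnn ar η (std K D \ std K d.1)))) :
    IsBM (fun x : Σ d, ι d × κ d => Alt (std K D)
      (kr ar (std K x.1.1) (std K D \ std K x.1.1) * (u x.1 x.2.1 * v x.1 x.2.2)))
      (Anti (std K D)) ⊥ := by
  classical
  have hs : ∀ d : Finset.Iic D, std K d.1 ⊆ std K D := fun d => std_mono (Finset.mem_Iic.mp d.2)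
  have hdv : ∀ d : Finset.Iic D, dv (std K d.1) = d.1 := fun d =>
    dv_std fun w => (Finset.mem_Iic.mp d.2 w).trans (hD w)
  refine ⟨fun x => Alt_mem_Anti (RT_mul (kr_mem_RT ar (hs _) Finset.sdiff_subset) (RT_mul
    (RT_mono (hs _) ((hu _).mem _).1) (RT_mono Finset.sdiff_subset ((hv _).mem _).1))),
    fun l hl => ?_, fun f hf => Submodule.mem_sup_left ?_⟩
  · by_contra h0
    obtain ⟨⟨d, i, j⟩, hx, hmax⟩ := l.support.exists_max_image (fun x => rk η D x.1.1)
      (Finsupp.support_nonempty_iff.mpr h0)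
    obtain ⟨l1, hl1, hl1'⟩ := (hu d).exists_dual i
    obtain ⟨l2, hl2, hl2'⟩ := (hv d).exists_dual j
    set N : ℚ := Nat.cast ((GT (std K D)).filter fun π : Perm (Om V K) =>
      (std K d.1).image π = std K d.1).card with hN
    have hinj : ∀ e : Finset.Iic D, dv (std K e.1) = dv (std K d.1) → e = d := fun e h =>
      Subtype.ext (by rwa [hdv, hdv] at h)
    have h1 := Ideal.sum_mem (aU ar η (std K D) (std K d.1)) fun x (hx' : x ∈ l.support) =>
      Submodule.smul_of_tower_mem _ (l x) (Alt_sub_mem ar η (hs x.1) (hs d)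
        (fun h => by
          rw [hdv, hdv] at h
          exact (hmax x hx').not_gt (rk_lt η (Finset.mem_Iic.mp d.2) h))
        (fun h => by rw [hinj _ h]) ((hu _).mem x.2.1) ((hv _).mem x.2.2))
    rw [Submodule.mem_bot, Finsupp.linearCombination_apply, Finsupp.sum] at hl
    simp only [smul_sub, Finset.sum_sub_distrib, hl, zero_sub, neg_mem_iff, ← mul_smul_comm,
      ← Finset.mul_sum, ← hN] at h1
    have hc : std K d.1 ⊆ (std K D \ std K d.1)ᶜ := fun s h => by simp [h]
    have h2 := hl1 _ (tens_mem_ideal (std K D \ std K d.1) l2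
      (by rintro _ ⟨A, hA, -, rfl⟩; exact kr_mem_RT ar hA Finset.sdiff_subset)
      (by rintro _ ⟨A, hA, -, -, rfl⟩; exact RT_mono hc (kr_mem_RT ar hA Finset.sdiff_subset))
      hl2 (mem_aU_of_mul ar η h1))
    rw [map_sum, map_sum, Finset.sum_eq_single_of_mem _ hx] at h2
    · rw [if_pos rfl, mul_comm, smul_mul_assoc, map_smul, map_smul, map_smul, map_smul,
        tens_mul _ _ ((hv d).mem j).1 (RT_mono hc ((hu d).mem i).1), map_smul, hl1', hl2',
        if_pos rfl, if_pos rfl] at h2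
      have h3 : N ≠ 0 := Nat.cast_ne_zero.mpr (Finset.card_ne_zero.mpr
        ⟨1, Finset.mem_filter.mpr ⟨one_mem_GT _, by simp⟩⟩)
      exact Finsupp.mem_support_iff.mp hx (by simpa [h3] using h2)
    · rintro ⟨e, i', j'⟩ - hne
      split_ifs with h
      · obtain rfl := hinj e (congrArg dv h)
        rw [mul_comm, smul_mul_assoc, map_smul, map_smul, map_smul, map_smul,
          tens_mul _ _ ((hv e).mem j').1 (RT_mono hc ((hu e).mem i').1), map_smul, hl1', hl2']
        split_ifs with h1 h2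
        · exact absurd (by rw [h1, h2]) hne
        all_goals simp
      · simp
  · have key := Alt_mem_of_In ar η (S := std K D) (W := Submodule.span ℚ (Set.range
      fun x : Σ d, ι d × κ d => Alt (std K D)
        (kr ar (std K x.1.1) (std K D \ std K x.1.1) * (u x.1 x.2.1 * v x.1 x.2.2))))
      (fun U hU => by
        let d : Finset.Iic D := ⟨dv U, Finset.mem_Iic.mpr ((dv_mono hU).trans_eq (dv_std hD))⟩
        refine ⟨std K d.1, hs d, (hdv d).symm, _, Submodule.span_le.mpr ?_, _,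
          Submodule.span_le.mpr ?_, (hu d).sp, (hv d).sp, fun p hp q hq => ?_⟩
        · rintro _ ⟨i, rfl⟩; exact (hu d).mem i
        · rintro _ ⟨i, rfl⟩; exact (hv d).mem i
        · obtain ⟨a, rfl⟩ := Finsupp.mem_span_range_iff_exists_finsupp.mp hp
          obtain ⟨b, rfl⟩ := Finsupp.mem_span_range_iff_exists_finsupp.mp hq
          rw [Finsupp.sum, Finsupp.sum, Finset.sum_mul_sum]
          simp only [Finset.mul_sum, map_sum, smul_mul_assoc, mul_smul_comm, map_smul]
          exact Submodule.sum_mem _ fun i _ => Submodule.sum_mem _ fun j _ => Submodule.smul_mem _ _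
            (Submodule.smul_mem _ _ (Submodule.subset_span ⟨⟨d, i, j⟩, rfl⟩)))
      _ f hf.1 (Ideal.mem_of_dvd _ (one_dvd f) (Ideal.subset_span
        ⟨∅, Finset.empty_subset _, Nat.lt_succ_self _, by simp [kr]⟩))
    rwa [Alt_of_mem_Anti hf, Submodule.smul_mem_iff _ (card_GT_ne_zero _)] at key

theorem hil_empty : hil (Anti (∅ : Finset (Om V K))) ⊥ = 1 := by
  have h : IsBM (fun _ : Unit => (1 : PR V K)) (Anti ∅) ⊥ := by
    refine ⟨fun _ => ⟨Subalgebra.one_mem _, by simp⟩, fun l hl => ?_, fun f hf => ?_⟩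
    · rw [Submodule.mem_bot, Finsupp.linearCombination_unique, smul_eq_zero_iff_left one_ne_zero]
        at hl
      exact Finsupp.ext fun _ => hl
    · have h1 := hf.1
      rw [RT, Finset.coe_empty, supported_empty, Subalgebra.mem_toSubmodule, Algebra.mem_bot] at h1
      obtain ⟨c, rfl⟩ := h1
      rw [Algebra.algebraMap_eq_smul_one]
      exact Submodule.mem_sup_left (Submodule.smul_mem _ _ (Submodule.subset_span ⟨(), rfl⟩))
  rw [(h.hil_eq (δ := fun _ => 0) (fun _ => isHomogeneous_one _ _) gr_bot).2]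
  ext j
  rw [gfN, PowerSeries.coeff_mk, PowerSeries.coeff_one]
  split_ifs with hj
  · simp [hj]
  · simp [Ne.symm hj]

omit [DecidableEq V] in
theorem std_zero : std K (0 : V → ℕ) = ∅ := by simp [std]

end HN

theorem hil_HN {d : V → ℕ} (hd : ∀ v, d v ≤ K) :
    hil (Anti (std K d)) ⊥ = ∑ d' ∈ Finset.Iic d, PowerSeries.X ^ aa ar d' (d - d') *
      hil (Anti (std K d')) (rs (Jneg ar η (std K d'))) *
      hil (Anti (std K (d - d'))) (rs (Jnn ar η (std K (d - d')))) := by
  choose ι u δ hδ hu using fun e : Finset.Iic d =>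
    exists_isBM (gr_Anti (std K e.1)) (gr_Jneg ar η (std K e.1))
  choose κ v ε hε hv using fun e : Finset.Iic d =>
    exists_isBM (gr_Anti (std K d \ std K e.1)) (gr_Jnn ar η (std K d \ std K e.1))
  have hdv : ∀ e : Finset.Iic d, dv (std K e.1) = e.1 := fun e =>
    dv_std fun w => (Finset.mem_Iic.mp e.2 w).trans (hd w)
  have hdv' : ∀ e : Finset.Iic d, dv (std K d \ std K e.1) = d - e.1 := fun e => by
    have h := dv_union (Finset.disjoint_sdiff (s := std K e.1) (t := std K d))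
    rw [Finset.union_sdiff_of_subset (std_mono (Finset.mem_Iic.mp e.2)), dv_std hd, hdv] at h
    funext w
    have := congrFun h w
    simp only [Pi.add_apply, Pi.sub_apply] at this ⊢
    omega
  obtain ⟨h1, h2⟩ := (HN.isBM ar η hd hu hv).hil_eq
    (δ := fun x : Σ e, ι e × κ e => aa ar x.1.1 (d - x.1.1) + δ x.1 x.2.1 + ε x.1 x.2.2) (fun x => by
      refine Alt_isHomogeneous _ ?_
      rw [add_assoc]
      refine IsHomogeneous.mul ?_ ((hδ _ _).mul (hε _ _))
      have := kr_isHomogeneous ar (std K x.1.1) (std K d \ std K x.1.1)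
      rwa [hdv, hdv'] at this) gr_bot
  rw [h2, gfN_sigma (δ := fun e (x : ι e × κ e) => aa ar e.1 (d - e.1) + δ e x.1 + ε e x.2)
    fun e j => ?_, ← Finset.sum_coe_sort (Finset.Iic d)]
  · refine Finset.sum_congr rfl fun e _ => ?_
    obtain ⟨h3, h4⟩ := (hu e).hil_eq (hδ e) (gr_Jneg ar η _)
    obtain ⟨h5, h6⟩ := (hv e).hil_eq (hε e) (gr_Jnn ar η _)
    rw [gfN_prod h3 h5, ← h4, ← h6, hil_Jnn_eq ar η (T' := std K (d - e.1))]
    rw [hdv', dv_std (d := d - e.1) fun w => (Nat.sub_le _ _).trans (hd w)]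
  · have := h1 j
    exact Finite.of_injective (fun x => (⟨⟨e, x.1⟩, x.2⟩ : {x : Σ e, ι e × κ e //
      aa ar x.1.1 (d - x.1.1) + δ x.1 x.2.1 + ε x.1 x.2.2 = j})) fun x y h =>
      Subtype.ext (sigma_mk_injective (β := fun e => ι e × κ e) (Subtype.ext_iff.mp h))

theorem hil_Jneg_zero : hil (Anti (std K (0 : V → ℕ))) (rs (Jneg ar η (std K 0))) = 1 := by
  have h : Jneg ar η (∅ : Finset (Om V K)) = ⊥ := Ideal.span_eq_bot.mpr (by
    rintro _ ⟨A, hA, hne, -⟩
    exact absurd (Finset.subset_empty.mp hA) hne)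
  rw [HN.std_zero, h]
  exact HN.hil_empty
theorem hil_Jnn_zero : hil (Anti (std K (0 : V → ℕ))) (rs (Jnn ar η (std K 0))) = 1 := by
  have h : Jnn ar η (∅ : Finset (Om V K)) = ⊥ := Ideal.span_eq_bot.mpr (by
    rintro _ ⟨A, hA, hne, -⟩
    rw [Finset.subset_empty.mp hA, dv_empty, dz_zero] at hne
    exact absurd hne η.not_neg_zero)
  rw [HN.std_zero, h]
  exact HN.hil_empty
theorem hil_Jneg_of_nn {d : V → ℕ} (hd : ∀ v, d v ≤ K) (h0 : d ≠ 0) (h : η.nn (dz d)) :
    hil (Anti (std K d)) (rs (Jneg ar η (std K d))) = 0 :=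
  hil_eq_zero fun f _ => Ideal.mem_of_dvd _ (one_dvd f) (Ideal.subset_span
    ⟨∅, Finset.empty_subset _, fun e => h0 (by rw [← dv_std hd, ← e, dv_empty]),
      by rwa [Finset.sdiff_empty, dv_std hd], by simp [kr]⟩)
theorem hil_Jnn_of_neg {d : V → ℕ} (hd : ∀ v, d v ≤ K) (h : η.neg (dz d)) :
    hil (Anti (std K d)) (rs (Jnn ar η (std K d))) = 0 :=
  hil_eq_zero fun f _ => Ideal.mem_of_dvd _ (one_dvd f) (Ideal.subset_span
    ⟨std K d, le_rfl, by rwa [dv_std hd], by simp [kr]⟩)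

end
end Vale.Agent.P066
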