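import Vale.Agent.P066.CPBW
import Vale.Agent.P066.CFin
import Vale.Agent.P066.CHN
import Vale.Agent.P066.CGf

/-! Part C: the final statement. -/

namespace Vale.Agent.P066
open MvPolynomial Equiv
noncomputable section
variable {V : Type} [Fintype V] [DecidableEq V] {K : ℕ}

namespace Fn

theorem sum_map_eq {Γ M : Type} [Fintype Γ] [DecidableEq Γ] [AddCommMonoid M]
    (c : Multiset (Γ × ℕ)) (f : Γ → M) :
    (c.map fun x => f x.1).sum = ∑ γ, (c.map Prod.fst).count γ • f γ := by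
  obtain ⟨x, rfl⟩ := Gf.asm_surjective c
  simp [Gf.sum_map_asm, Gf.count_fst_asm]

omit [DecidableEq V] in
theorem aa_add_left (ar : V → V → ℕ) (d d' e : V → ℕ) :
    aa ar (d + d') e = aa ar d e + aa ar d' e := by
  simp only [aa, Pi.add_apply, add_mul, Finset.sum_add_distrib]

omit [DecidableEq V] in
theorem aa_add_right (ar : V → V → ℕ) (d e e' : V → ℕ) :
    aa ar d (e + e') = aa ar d e + aa ar d e' := by
  simp only [aa, Pi.add_apply, add_mul, mul_add, Finset.sum_add_distrib]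

omit [DecidableEq V] in
theorem aa_smul (ar : V → V → ℕ) (n : ℕ) (d : V → ℕ) :
    aa ar (n • d) (n • d) = n * n * aa ar d d := by
  simp only [aa, Pi.smul_apply, smul_eq_mul, Finset.mul_sum]
  exact Finset.sum_congr rfl fun _ _ => Finset.sum_congr rfl fun _ _ => by ring

theorem parity {ar : V → V → ℕ} {η : Stab (V → ℤ)} (hs : Sym0 ar η) {Γ : Type} {dg : Γ → V → ℕ}
    (hz : ∀ γ, η.zero (dz (dg γ))) (e : Γ → ℕ) (s : Finset Γ) :
    η.zero (dz (∑ γ ∈ s, e γ • dg γ)) ∧ ∃ n, 2 * n + ∑ γ ∈ s, e γ * aa ar (dg γ) (dg γ) =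
      aa ar (∑ γ ∈ s, e γ • dg γ) (∑ γ ∈ s, e γ • dg γ) := by
  classical
  induction s using Finset.induction_on with
  | empty => exact ⟨by rw [Finset.sum_empty, dz_zero]; exact η.zero_zero, 0, by simp [aa]⟩
  | insert a s ha ih =>
    obtain ⟨h1, n, h2⟩ := ih
    have h3 : η.zero (dz (e a • dg a)) := by
      rw [show dz (e a • dg a) = (e a : ℤ) • dz (dg a) from funext fun v => by simp [dz]]
      exact (hz a).zsmul _
    obtain ⟨m, hm⟩ := Nat.even_mul_pred_self (e a)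
    have h4 : e a * e a = m + m + e a := by
      rw [← hm]
      cases e a <;> simp [Nat.mul_succ]
    rw [Finset.sum_insert ha, Finset.sum_insert ha, dz_add, aa_add_left, aa_add_right,
      aa_add_right, hs _ _ h1 h3, aa_smul, ← h2, h4]
    exact ⟨h3.add h1, n + m * aa ar (dg a) (dg a) + aa ar (e a • dg a) (∑ γ ∈ s, e γ • dg γ),
      by ring⟩

open Classical in
theorem hil_Jnn {ar : V → V → ℕ} {η : Stab (V → ℤ)} (hs : Sym0 ar η) {Γ : Type} [Fintype Γ]
    [DecidableEq Γ] (D : BD ar η K Γ) {kp : (Γ → ℕ) → ℕ}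
    (hkp : ∀ e : Γ → ℕ, 2 * kp e + ∑ γ, e γ * aa ar (D.dg γ) (D.dg γ) =
      aa ar (∑ γ, e γ • D.dg γ) (∑ γ, e γ • D.dg γ)) {d : V → ℕ} (hd : ∀ v, d v ≤ K)
    (hz : η.zero (dz d)) :
    hil (Anti (std K d)) (rs (Jnn ar η (std K d))) =
      ∑ e ∈ (box Γ K).filter (fun e => ∑ γ, e γ • D.dg γ = d),
        PowerSeries.X ^ (kp e + ∑ γ, e γ * D.kg γ) *
          ∏ γ, psi (decide (Ferm ar (D.dg γ))) (e γ) := by
  obtain ⟨F, δ, h1, h2, h3⟩ := D.pbw (T := std K d) hs (by rwa [dv_std hd])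
  rw [(h1.hil_eq h2 (gr_Jnn ar η _)).2, gfN_Conf D.dg D.ne _ D.kg kp K _ (dv_le _) δ fun c => ?_,
    dv_std hd]
  have h4 := h3 c
  have h5 := hkp fun γ => (c.1.map Prod.fst).count γ
  rw [sum_map_eq c.1 fun γ => aa ar (D.dg γ) (D.dg γ)] at h4
  rw [← sum_map_eq c.1 D.dg, c.2.1] at h5
  simp only [smul_eq_mul] at h4
  omega

/-- the trivial stability -/
abbrev η0 (V : Type) : Stab (V → ℤ) := Stab.ofHom 0

omit [Fintype V] in
theorem Jnn_zero (T : Finset (Om V K)) : Jnn 0 (η0 V) T = ⊥ := Ideal.span_eq_bot.mpr (by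
  rintro _ ⟨A, -, h, -⟩
  simp [Stab.ofHom_neg] at h)

theorem mem_Fil_zero {T : Finset (Om V K)} {w : ℕ} {f : PR V K} :
    f ∈ Fil 0 (η0 V) T w 2 ↔ ∀ (b : Om V K → ℕ) (c : ℕ → ℚ),
      sh (pt T b c) f ∈ mI V K ^ (if nb T b < 2 then w else w + 1) := by
  simp [mem_Fil, mem_OrdAt, IsEP, Stab.ofHom_zero, aI, Jnn_zero, kap]

theorem BPSk_eq {T : Finset (Om V K)} (hT : T.Nonempty) {k : ℕ} {f : PR V K}
    (hf : f ∈ BPSk 0 (η0 V) T k) : f = 0 ∨ (T.card = 1 ∧ k = 0) := by
  obtain ⟨⟨h1, h2⟩, h3⟩ := hf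
  replace h3 := mem_Fil_zero.mp h3
  by_cases hc1 : T.card = 1
  · refine or_iff_not_imp_right.mpr fun hk => MvPolynomial.funext fun x => ?_
    obtain ⟨s, rfl⟩ := Finset.card_eq_one.mp hc1
    have h4 := h3 0 fun _ => x s
    rw [sh_congr (c' := x) (fun t ht => by simp [pt, Finset.mem_singleton.mp ht]) h1.1] at h4
    have h5 : sh x f ∈ mI V K := Ideal.pow_le_self (by split_ifs <;> tauto) h4
    have h6 := sub_mem h5 (sh_sub_eval_mem x f)
    rw [sub_sub_cancel, ← pow_one (mI V K), mem_pow_idealOfVars_iff'] at h6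
    simpa using h6 0 (by simp)
  · have h4 := h3 (fun s => (Fintype.equivFin (Om V K) s).val) 0
    have h5 : ¬ nb T (fun s => (Fintype.equivFin (Om V K) s).val) < 2 := by
      rw [nb, Finset.card_image_of_injective _ fun _ _ h =>
        (Fintype.equivFin (Om V K)).injective (Fin.val_injective h)]
      have := hT.card_pos
      omega
    rw [if_neg h5, show pt T _ 0 = 0 from funext fun s => by simp [pt], sh_zero] at h4
    have h6 := (mem_sup_pow_succ_iff (I := ⊥) gr_bot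
      (Ideal.mem_sup_right (IsHomogeneous.mem_mI_pow h2))).mp (Ideal.mem_sup_right h4)
    rw [homogeneousComponent_of_mem h2, if_pos rfl] at h6
    exact Or.inl h6

/-- BPS data for the quiver without arrows -/
def D0 (hK : 1 ≤ K) : BD 0 (η0 V) K V where
  dg v := Pi.single v 1
  u _ := 1
  kg _ := 0
  ne v h := by simpa using congrFun h v
  le v w := by
    rw [Pi.single_apply]
    split_ifs <;> omega
  z _ := Stab.ofHom_zero.mpr rfl
  hom _ := isHomogeneous_one _ _
  bm d hd0 hd _ := by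
    have hne : (std K d).Nonempty := Finset.nonempty_iff_ne_empty.mpr fun h =>
      hd0 (by rw [← dv_std hd, h, dv_empty])
    refine ⟨fun γ => Submodule.mem_iSup_of_mem 0 ⟨⟨⟨Subalgebra.one_mem _, fun s hs s' hs' h _ =>
      absurd (Finset.card_le_one.mp ?_ s hs s' hs') h⟩, isHomogeneous_one _ _⟩,
      mem_Fil_zero.mpr fun b c => ?_⟩, fun l hl => Finsupp.ext fun γ => ?_, iSup_le fun k f hf => ?_⟩
    · rw [← card_dv, dv_std hd, ← γ.2]
      simp
    · have h1 : (std K d).card = 1 := by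
        rw [← card_dv, dv_std hd, ← γ.2]
        simp
      rw [if_pos (by have := nb_le_card (T := std K d) (b := b); omega)]
      simp
    · let : Unique {γ : V // Pi.single γ 1 = d} := ⟨⟨γ⟩, fun γ' => Subtype.ext (by
        simpa [Pi.single_apply] using congrFun (γ'.2.trans γ.2.symm) γ')⟩
      rw [Jnn_zero, Submodule.restrictScalars_mem, Submodule.mem_bot,
        Finsupp.linearCombination_unique, smul_eq_zero_iff_left one_ne_zero] at hl
      exact hl
    · rcases BPSk_eq hne hf with rfl | ⟨h1, rfl⟩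
      · exact zero_mem _
      · obtain ⟨s, hs⟩ := Finset.card_eq_one.mp h1
        have h2 : Pi.single s.1 1 = d := by
          rw [← dv_std hd, hs]
          funext v
          rw [dv, Finset.filter_singleton, Pi.single_apply]
          by_cases h : s.1 = v
          · simp [h]
          · simp [h, Ne.symm h]
        have h3 : f ∈ Hm V K 0 := hf.1.2
        rw [mem_homogeneousSubmodule, ← totalDegree_zero_iff_isHomogeneous,
          totalDegree_eq_zero_iff_eq_C] at h3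
        rw [h3, C_eq_smul_one]
        exact Submodule.mem_sup_left (Submodule.smul_mem _ _ (Submodule.subset_span ⟨⟨_, h2⟩, rfl⟩))

end Fn

/-- Hilbert series of the anti-invariants (PBW for the quiver without arrows). -/
theorem hil_Anti {d : V → ℕ} (hd : ∀ v, d v ≤ K) :
    hil (Anti (std K d)) ⊥ = ∏ v, psi true (d v) := by
  rcases Nat.eq_zero_or_pos K with rfl | hK
  · obtain rfl : d = 0 := funext fun v => Nat.le_zero.mp (hd v)
    rw [HN.std_zero, HN.hil_empty]
    simp [psi]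
  have h := Fn.hil_Jnn (fun _ _ _ _ => by simp [aa]) (Fn.D0 hK) (kp := fun _ => 0)
    (fun _ => by simp [aa]) hd (Stab.ofHom_zero.mpr rfl)
  have h1 : ∀ e : V → ℕ, ∑ γ, e γ • (Fn.D0 hK).dg γ = e := fun e => by
    funext v
    simp [Fn.D0, Pi.single_apply]
  have h2 : ∀ γ : V, Ferm 0 ((Fn.D0 hK).dg γ) := fun γ => by simp [Fn.D0, Ferm, aa]
  rw [Fn.Jnn_zero] at h
  simp only [h1, h2, Finset.filter_eq', decide_true] at h
  have h3 : d ∈ box V K :=
    Fintype.mem_piFinset.mpr fun v => Finset.mem_range.mpr (Nat.lt_succ_of_le (hd v))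
  rw [if_pos h3, Finset.sum_singleton] at h
  simpa [Fn.D0] using h

/-- Wall-crossing with integrality and positivity, in power series form. -/
theorem local_theorem (ar : V → V → ℕ) (η : Stab (V → ℤ)) (hs : Sym0 ar η) (K : ℕ) :
    ∃ (hN hZ : (V → ℕ) → PowerSeries ℚ) (Γ : Type) (_ : Fintype Γ) (_ : DecidableEq Γ)
      (dg : Γ → V → ℕ) (kg : Γ → ℕ) (fm : Γ → Bool) (kp : (Γ → ℕ) → ℕ),
      hN 0 = 1 ∧ hZ 0 = 1 ∧ (∀ d, d ≠ 0 → η.nn (dz d) → hN d = 0) ∧
      (∀ d, η.neg (dz d) → hZ d = 0) ∧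
      (∀ d : V → ℕ, (∀ v, d v ≤ K) → ∏ v, psi true (d v) =
        ∑ d' ∈ Finset.Iic d, PowerSeries.X ^ aa ar d' (d - d') * hN d' * hZ (d - d')) ∧
      (∀ γ, dg γ ≠ 0 ∧ η.zero (dz (dg γ))) ∧
      (∀ e : Γ → ℕ, 2 * kp e + ∑ γ, e γ * aa ar (dg γ) (dg γ) =
        aa ar (∑ γ, e γ • dg γ) (∑ γ, e γ • dg γ)) ∧
      ∀ d : V → ℕ, (∀ v, d v ≤ K) → η.zero (dz d) →
        hZ d = ∑ e ∈ (box Γ K).filter (fun e => ∑ γ, e γ • dg γ = d),
          PowerSeries.X ^ (kp e + ∑ γ, e γ * kg γ) * ∏ γ, psi (fm γ) (e γ) := by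
  classical
  obtain ⟨Γ, _, ⟨D⟩⟩ := exists_BD hs K
  choose kp hkp using fun e => (Fn.parity hs D.z e Finset.univ).2
  refine ⟨fun d => if ∀ v, d v ≤ K then hil (Anti (std K d)) (rs (Jneg ar η (std K d))) else 0,
    fun d => if ∀ v, d v ≤ K then hil (Anti (std K d)) (rs (Jnn ar η (std K d))) else 0,
    Γ, inferInstance, inferInstance, D.dg, D.kg, fun γ => decide (Ferm ar (D.dg γ)), kp, ?_, ?_,
    fun d h0 h => ?_, fun d h => ?_, fun d hd => ?_, fun γ => ⟨D.ne γ, D.z γ⟩, hkp,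
    fun d hd hz => ?_⟩
  · simp only [Pi.zero_apply, zero_le, implies_true, if_true, hil_Jneg_zero]
  · simp only [Pi.zero_apply, zero_le, implies_true, if_true, hil_Jnn_zero]
  · exact ite_eq_right_iff.mpr fun hd => hil_Jneg_of_nn ar η hd h0 h
  · exact ite_eq_right_iff.mpr fun hd => hil_Jnn_of_neg ar η hd h
  · rw [← hil_Anti hd, hil_HN ar η hd]
    refine Finset.sum_congr rfl fun e he => ?_
    beta_reduce
    rw [if_pos fun v => (Finset.mem_Iic.mp he v).trans (hd v),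
      if_pos (show ∀ v, (d - e) v ≤ K from fun v => (Nat.sub_le _ _).trans (hd v))]
  · exact (if_pos hd).trans (Fn.hil_Jnn hs D hkp hd hz)

end
end Vale.Agent.P066
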