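import Vale.Agent.P066.CDefs

/-! Part C, linear algebra: bases modulo a subspace, gradings, translations. -/

namespace Vale.Agent.P066
open MvPolynomial Equiv
noncomputable section
variable {V : Type} [Fintype V] [DecidableEq V] {K : ℕ}

section linear
set_option linter.unusedSectionVars false

theorem mem_of_forall_dual {Q : Submodule ℚ (PR V K)} {f : PR V K}
    (h : ∀ l : PR V K →ₗ[ℚ] ℚ, (∀ q ∈ Q, l q = 0) → l f = 0) : f ∈ Q := by
  by_contra hf
  obtain ⟨l, h1, h2⟩ := Submodule.exists_dual_map_eq_bot_of_notMem hf inferInstance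
  refine h1 (h l fun q hq => ?_)
  have : l q ∈ Q.map l := Submodule.mem_map_of_mem hq
  rwa [h2, Submodule.mem_bot] at this

theorem IsBM.linA_li {ι : Type} {u : ι → PR V K} {P Q : Submodule ℚ (PR V K)}
    (h : IsBM u P Q) : LinearIndependent ℚ (Q.mkQ ∘ u) := by
  rw [linearIndependent_iff]
  intro l hl
  rw [← Finsupp.apply_linearCombination, Submodule.mkQ_apply,
    Submodule.Quotient.mk_eq_zero] at hl
  exact h.li l hl

open Classical in
theorem IsBM.exists_dual {ι : Type} {u : ι → PR V K} {P Q : Submodule ℚ (PR V K)}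
    (h : IsBM u P Q) (i0 : ι) : ∃ l : PR V K →ₗ[ℚ] ℚ, (∀ q ∈ Q, l q = 0) ∧
      ∀ i, l (u i) = if i = i0 then 1 else 0 := by
  obtain ⟨g, hg⟩ := LinearMap.exists_extend ((Finsupp.lapply i0) ∘ₗ h.linA_li.repr)
  refine ⟨g ∘ₗ Q.mkQ, fun q hq => ?_, fun i => ?_⟩
  · rw [LinearMap.comp_apply, Submodule.mkQ_apply, (Submodule.Quotient.mk_eq_zero Q).mpr hq,
      map_zero]
  · have := LinearMap.congr_fun hg ⟨Q.mkQ (u i), Submodule.subset_span ⟨i, rfl⟩⟩
    rw [LinearMap.comp_apply, LinearMap.comp_apply, h.linA_li.repr_eq_single i _ rfl,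
      Finsupp.lapply_apply, Finsupp.single_apply] at this
    exact this

theorem IsBM.map {ι : Type} {u : ι → PR V K} {P Q : Submodule ℚ (PR V K)}
    (h : IsBM u P Q) (e : PR V K ≃ₗ[ℚ] PR V K) :
    IsBM (fun i => e (u i)) (P.map e.toLinearMap) (Q.map e.toLinearMap) := by
  refine ⟨fun i => Submodule.mem_map_of_mem (h.mem i), fun l hl => h.li l ?_, ?_⟩
  · have := Finsupp.apply_linearCombination ℚ e.toLinearMap u l
    obtain ⟨q, hq, hq2⟩ := hl
    have h3 : e q = e (Finsupp.linearCombination ℚ u l) := hq2.trans this.symm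
    rwa [← e.injective h3]
  · refine (Submodule.map_mono h.sp).trans ?_
    rw [Submodule.map_sup, Submodule.map_span, ← Set.range_comp]
    rfl

theorem IsBM.reindex {ι κ : Type} {u : ι → PR V K} {P Q : Submodule ℚ (PR V K)}
    (h : IsBM u P Q) (e : κ ≃ ι) : IsBM (fun i => u (e i)) P Q := by
  refine ⟨fun i => h.mem _, fun l hl => ?_, ?_⟩
  · have := h.li (Finsupp.mapDomain e l) (by rw [Finsupp.linearCombination_mapDomain]; exact hl)
    exact Finsupp.mapDomain_injective e.injective (by rw [this, Finsupp.mapDomain_zero])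
  · have : Set.range (fun i => u (e i)) = Set.range u := e.surjective.range_comp u
    rw [this]; exact h.sp

theorem linA_finite (P Q : Submodule ℚ (PR V K)) (j : ℕ) :
    Module.Finite ℚ ((P ⊓ Hm V K j).map Q.mkQ) := by
  have : Module.Finite ℚ (Hm V K j) := Module.Finite.iff_fg.mpr (homogeneousSubmodule_fg _ _ j)
  have : Module.Finite ℚ (P ⊓ Hm V K j : Submodule ℚ (PR V K)) :=
    Submodule.finiteDimensional_of_le inf_le_right
  infer_instance

theorem linA_mem_of_hc {G : Submodule ℚ (PR V K)} {f : PR V K} (h : ∀ j, hc j f ∈ G) : f ∈ G := by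
  rw [← sum_homogeneousComponent f]
  exact Submodule.sum_mem _ fun j _ => h j

/-- A homogeneous basis modulo a graded subspace computes the Hilbert series. -/
theorem IsBM.hil_eq {ι : Type} {u : ι → PR V K} {P Q : Submodule ℚ (PR V K)} {δ : ι → ℕ}
    (h : IsBM u P Q) (hu : ∀ i, (u i).IsHomogeneous (δ i)) (hQ : Gr Q) :
    (∀ j, Finite {i // δ i = j}) ∧ hil P Q = gfN δ := by
  have li : ∀ j, LinearIndependent ℚ (fun i : {i // δ i = j} => Q.mkQ (u i.1)) := fun j =>
    h.linA_li.comp Subtype.val Subtype.val_injective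
  have sp : ∀ j, Submodule.span ℚ (Set.range fun i : {i // δ i = j} => Q.mkQ (u i.1)) =
      (P ⊓ Hm V K j).map Q.mkQ := by
    intro j
    apply le_antisymm
    · rw [Submodule.span_le]
      rintro _ ⟨⟨i, rfl⟩, rfl⟩
      exact Submodule.mem_map_of_mem ⟨h.mem i, hu i⟩
    · rintro _ ⟨f, ⟨hf, hf'⟩, rfl⟩
      obtain ⟨s, hs, q, hq, rfl⟩ := Submodule.mem_sup.mp (h.sp hf)
      rw [← homogeneousComponent_eq_self hf', map_add, map_add, Submodule.mkQ_apply Q (hc j q),
        (Submodule.Quotient.mk_eq_zero Q).mpr (hQ q hq j), add_zero]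
      clear hf hf'
      induction hs using Submodule.span_induction with
      | mem x hx =>
        obtain ⟨i, rfl⟩ := hx
        rw [homogeneousComponent_of_mem (hu i)]
        split_ifs with hj
        · exact Submodule.subset_span ⟨⟨i, hj.symm⟩, rfl⟩
        · rw [map_zero]; exact Submodule.zero_mem _
      | zero => rw [map_zero, map_zero]; exact Submodule.zero_mem _
      | add x y _ _ hx hy => rw [map_add, map_add]; exact Submodule.add_mem _ hx hy
      | smul c x _ hx => rw [map_smul, map_smul]; exact Submodule.smul_mem _ _ hx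
  have fin : ∀ j, Finite {i // δ i = j} := by
    intro j
    have := linA_finite P Q j
    rw [← sp j] at this
    exact (linearIndependent_span (li j)).finite_of_isNoetherian
  refine ⟨fin, ?_⟩
  ext j
  have := Fintype.ofFinite {i // δ i = j}
  rw [hil, gfN, PowerSeries.coeff_mk, PowerSeries.coeff_mk, ← sp j, finrank_span_eq_card (li j),
    Nat.card_eq_fintype_card]

theorem exists_isBM {P Q : Submodule ℚ (PR V K)} (hP : Gr P) (hQ : Gr Q) :
    ∃ (ι : Type) (u : ι → PR V K) (δ : ι → ℕ), (∀ i, (u i).IsHomogeneous (δ i)) ∧ IsBM u P Q := by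
  classical
  have := linA_finite P Q
  let b := fun j => Module.finBasis ℚ ((P ⊓ Hm V K j).map Q.mkQ)
  choose u hu hu2 using
    fun i : (Σ j, Fin (Module.finrank ℚ ((P ⊓ Hm V K j).map Q.mkQ))) => (b i.1 i.2).2
  refine ⟨_, u, Sigma.fst, fun i => (hu i).2, fun i => (hu i).1, fun l hl => ?_, fun f hf => ?_⟩
  · ext ⟨j, k⟩
    obtain ⟨g, hg⟩ := LinearMap.exists_extend ((b j).coord k)
    have e1 : (g ∘ₗ Q.mkQ ∘ₗ hc j) (Finsupp.linearCombination ℚ u l) = 0 := by
      rw [LinearMap.comp_apply, LinearMap.comp_apply, Submodule.mkQ_apply,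
        (Submodule.Quotient.mk_eq_zero Q).mpr (hQ _ hl j), map_zero]
    have e2 : ∀ i, (g ∘ₗ Q.mkQ ∘ₗ hc j) (u i) = if i = ⟨j, k⟩ then 1 else 0 := by
      rintro ⟨j', k'⟩
      rw [LinearMap.comp_apply, LinearMap.comp_apply, homogeneousComponent_of_mem (hu _).2]
      by_cases hj : j = j'
      · subst hj
        have := LinearMap.congr_fun hg (b j k')
        rw [if_pos rfl, hu2]
        refine this.trans ?_
        rw [Module.Basis.coord_apply, Module.Basis.repr_self, Finsupp.single_apply]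
        simp
      · rw [if_neg hj, map_zero, map_zero, if_neg]
        intro h; exact hj (congrArg Sigma.fst h).symm
    rw [Finsupp.apply_linearCombination, Finsupp.linearCombination_apply,
      Finsupp.sum_eq_single ⟨j, k⟩] at e1
    · rw [Function.comp_apply, e2, if_pos rfl, smul_eq_mul, mul_one] at e1
      exact e1
    · intro i _ hi
      rw [Function.comp_apply, e2, if_neg hi, smul_zero]
    · intro _; rw [zero_smul]
  · refine linA_mem_of_hc fun j => ?_
    have hm : Q.mkQ (hc j f) ∈ (P ⊓ Hm V K j).map Q.mkQ :=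
      Submodule.mem_map_of_mem ⟨hP f hf j, homogeneousComponent_mem j f⟩
    have e := congrArg Subtype.val ((b j).sum_repr ⟨_, hm⟩)
    rw [Submodule.coe_sum] at e
    have e2 : Q.mkQ (∑ k, (b j).repr ⟨_, hm⟩ k • u ⟨j, k⟩) = Q.mkQ (hc j f) := by
      rw [map_sum]
      refine Eq.trans (Finset.sum_congr rfl fun k _ => ?_) e
      rw [map_smul, hu2, Submodule.coe_smul]
    replace e2 := (Submodule.Quotient.eq Q).mp e2.symm
    rw [← sub_add_cancel (hc j f) (∑ k, (b j).repr ⟨_, hm⟩ k • u ⟨j, k⟩)]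
    exact Submodule.add_mem _ (Submodule.mem_sup_right e2) (Submodule.mem_sup_left
      (Submodule.sum_mem _ fun k _ => Submodule.smul_mem _ _ (Submodule.subset_span ⟨_, rfl⟩)))

theorem hil_map_rename (P Q : Submodule ℚ (PR V K)) (π : Perm (Om V K)) :
    hil (P.map (rename π : PR V K →ₐ[ℚ] PR V K).toLinearMap)
      (Q.map (rename π : PR V K →ₐ[ℚ] PR V K).toLinearMap) = hil P Q := by
  ext j
  rw [hil, hil, PowerSeries.coeff_mk, PowerSeries.coeff_mk]
  let e : PR V K ≃ₗ[ℚ] PR V K := (renameEquiv ℚ π).toLinearEquiv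
  let E := Submodule.Quotient.equiv Q (Q.map (rename π : PR V K →ₐ[ℚ] PR V K).toLinearMap) e rfl
  rw [← E.finrank_map_eq]
  have : (P.map (rename π : PR V K →ₐ[ℚ] PR V K).toLinearMap ⊓ Hm V K j).map
      (Q.map (rename π : PR V K →ₐ[ℚ] PR V K).toLinearMap).mkQ =
      ((P ⊓ Hm V K j).map Q.mkQ).map E.toLinearMap := by
    ext x
    constructor
    · rintro ⟨_, ⟨⟨f, hf, rfl⟩, hf'⟩, rfl⟩
      exact ⟨Q.mkQ f, ⟨f, ⟨hf, (IsHomogeneous.rename_isHomogeneous_iff π.injective).mp hf'⟩, rfl⟩,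
        rfl⟩
    · rintro ⟨_, ⟨f, ⟨hf, hf'⟩, rfl⟩, rfl⟩
      exact ⟨rename π f, ⟨⟨f, hf, rfl⟩, IsHomogeneous.rename_isHomogeneous hf'⟩, rfl⟩
  rw [this]

theorem hil_eq_zero {P Q : Submodule ℚ (PR V K)} (h : P ≤ Q) : hil P Q = 0 := by
  ext j
  have : (P ⊓ Hm V K j).map Q.mkQ = ⊥ := by
    rw [eq_bot_iff]
    rintro _ ⟨f, hf, rfl⟩
    exact (Submodule.Quotient.mk_eq_zero Q).mpr (h hf.1)
  rw [hil, PowerSeries.coeff_mk, this]
  simp

/-- spans of homogeneous elements absorb homogeneous components -/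
theorem mem_span_sup_of_forall_pow {S : Set (PR V K)} {Q : Submodule ℚ (PR V K)} {f : PR V K}
    (hS : ∀ g ∈ S, ∃ j, g.IsHomogeneous j) (hQ : Gr Q)
    (h : ∀ w, f ∈ Submodule.span ℚ S ⊔ Q ⊔ rs (mI V K ^ w)) : f ∈ Submodule.span ℚ S ⊔ Q := by
  refine linA_mem_of_hc fun j => ?_
  obtain ⟨a, ha, m, hm, rfl⟩ := Submodule.mem_sup.mp (h (j + 1))
  obtain ⟨s, hs, q, hq, rfl⟩ := Submodule.mem_sup.mp ha
  have h1 : hc j m = 0 := homogeneousComponent_eq_zero' j m fun d hd => by
    have := (mem_pow_idealOfVars_iff (j + 1) m).mp hm d hd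
    omega
  rw [map_add, map_add, h1, add_zero]
  refine Submodule.add_mem _ (Submodule.mem_sup_left ?_) (Submodule.mem_sup_right (hQ q hq j))
  clear h ha
  induction hs using Submodule.span_induction with
  | mem x hx =>
    obtain ⟨i, hi⟩ := hS x hx
    rw [homogeneousComponent_of_mem hi]
    split_ifs
    · exact Submodule.subset_span hx
    · exact Submodule.zero_mem _
  | zero => rw [map_zero]; exact Submodule.zero_mem _
  | add x y _ _ hx hy => rw [map_add]; exact Submodule.add_mem _ hx hy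
  | smul c x _ hx => rw [map_smul]; exact Submodule.smul_mem _ _ hx

theorem gfN_equiv {ι κ : Type} (e : ι ≃ κ) (δ : κ → ℕ) : gfN (fun i => δ (e i)) = gfN δ := by
  ext j
  rw [gfN, gfN, PowerSeries.coeff_mk, PowerSeries.coeff_mk,
    Nat.card_congr (e.subtypeEquiv (q := fun i => δ i = j) fun _ => Iff.rfl)]

theorem gfN_prod {ι κ : Type} {δ : ι → ℕ} {ε : κ → ℕ} (hδ : ∀ j, Finite {i // δ i = j})
    (hε : ∀ j, Finite {i // ε i = j}) (a : ℕ) :
    gfN (fun x : ι × κ => a + δ x.1 + ε x.2) = PowerSeries.X ^ a * gfN δ * gfN ε := by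
  ext n
  rw [mul_assoc, PowerSeries.coeff_X_pow_mul', gfN, PowerSeries.coeff_mk]
  split_ifs with h
  · obtain ⟨m, rfl⟩ := Nat.exists_eq_add_of_le h
    rw [Nat.add_sub_cancel_left, PowerSeries.coeff_mul]
    let E : {x : ι × κ // a + δ x.1 + ε x.2 = a + m} ≃
        Σ p : Finset.HasAntidiagonal.antidiagonal m, {i // δ i = p.1.1} × {i // ε i = p.1.2} :=
      { toFun := fun x => ⟨⟨(δ x.1.1, ε x.1.2), Finset.HasAntidiagonal.mem_antidiagonal.mpr (by
          have := x.2; simp only; omega)⟩, ⟨x.1.1, rfl⟩, ⟨x.1.2, rfl⟩⟩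
        invFun := fun y => ⟨(y.2.1.1, y.2.2.1), by
          have h1 := Finset.HasAntidiagonal.mem_antidiagonal.mp y.1.2
          have h2 := y.2.1.2
          have h3 := y.2.2.2
          simp only; omega⟩
        left_inv := fun _ => rfl
        right_inv := by
          rintro ⟨⟨⟨p, q⟩, hp⟩, ⟨i, hi⟩, ⟨k, hk⟩⟩
          dsimp only at hi hk
          subst hi hk
          rfl }
    rw [Nat.card_congr E, Nat.card_sigma, ← Finset.sum_coe_sort (Finset.HasAntidiagonal.antidiagonal m)]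
    simp only [Nat.card_prod, gfN, PowerSeries.coeff_mk]
    push_cast
    rfl
  · have : IsEmpty {x : ι × κ // a + δ x.1 + ε x.2 = n} := ⟨fun x => by have := x.2; omega⟩
    simp

theorem gfN_sigma {A : Type} [Fintype A] {ι : A → Type} {δ : ∀ a, ι a → ℕ}
    (hδ : ∀ a j, Finite {i // δ a i = j}) :
    gfN (fun x : Σ a, ι a => δ x.1 x.2) = ∑ a, gfN (δ a) := by
  ext j
  let E : {x : Σ a, ι a // δ x.1 x.2 = j} ≃ Σ a, {i // δ a i = j} :=
    { toFun := fun x => ⟨x.1.1, x.1.2, x.2⟩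
      invFun := fun y => ⟨⟨y.1, y.2.1⟩, y.2.2⟩
      left_inv := fun _ => rfl
      right_inv := fun _ => rfl }
  rw [map_sum, gfN, PowerSeries.coeff_mk, Nat.card_congr E, Nat.card_sigma]
  simp only [gfN, PowerSeries.coeff_mk]
  push_cast
  rfl
end linear

section graded
/-- scaling of all variables -/
def scale (z : ℚ) : PR V K →ₐ[ℚ] PR V K := aeval fun s => C z * X s
theorem scale_of_isHomogeneous (z : ℚ) {f : PR V K} {j : ℕ} (hf : f.IsHomogeneous j) :
    scale z f = z ^ j • f := by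
  conv_lhs => rw [f.as_sum]
  conv_rhs => rw [f.as_sum]
  rw [map_sum, Finset.smul_sum]
  refine Finset.sum_congr rfl fun d hd => ?_
  have h1 : d.degree = j := by
    by_contra h
    exact mem_support_iff.1 hd (hf.coeff_eq_zero h)
  rw [scale, aeval_monomial, monomial_eq, ← h1, Finsupp.degree_apply, Finsupp.prod, Finsupp.prod,
    smul_eq_C_mul, algebraMap_eq]
  simp only [mul_pow, Finset.prod_mul_distrib, Finset.prod_pow_eq_pow_sum, map_pow]
  ring
theorem scale_eq_sum (z : ℚ) (f : PR V K) :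
    scale z f = ∑ j ∈ Finset.range (f.totalDegree + 1), z ^ j • hc j f := by
  conv_lhs => rw [← sum_homogeneousComponent f, map_sum]
  exact Finset.sum_congr rfl fun j _ =>
    scale_of_isHomogeneous z (homogeneousComponent_isHomogeneous j f)
theorem gr_iff_scale {Q : Submodule ℚ (PR V K)} : Gr Q ↔ ∀ z, ∀ f ∈ Q, scale z f ∈ Q := by
  refine ⟨fun h z f hf => ?_, fun h f hf j => mem_of_forall_dual fun l hl => ?_⟩
  · rw [scale_eq_sum]
    exact Q.sum_mem fun j _ => Q.smul_mem _ (h f hf j)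
  · have h1 : ∑ i ∈ Finset.range (f.totalDegree + 1), Polynomial.monomial i (l (hc i f)) = 0 := by
      refine Polynomial.funext fun z => ?_
      rw [Polynomial.eval_zero, ← hl _ (h z f hf), scale_eq_sum, map_sum, Polynomial.eval_finsetSum]
      refine Finset.sum_congr rfl fun i _ => ?_
      rw [Polynomial.eval_monomial, map_smul, smul_eq_mul, mul_comm]
    by_cases hj : j ∈ Finset.range (f.totalDegree + 1)
    · have h2 := congrArg (Polynomial.coeff · j) h1
      simpa only [Polynomial.finsetSum_coeff, Polynomial.coeff_monomial, Finset.sum_ite_eq', hj,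
        if_true, Polynomial.coeff_zero] using h2
    · rw [homogeneousComponent_eq_zero j f (by simpa using hj), map_zero]
theorem gr_ideal_iff {I : Ideal (PR V K)} : Gr (rs I) ↔ ∀ z, I ≤ I.comap (scale z) :=
  gr_iff_scale
theorem gr_bot : Gr (⊥ : Submodule ℚ (PR V K)) := by
  intro f hf j
  rw [(Submodule.mem_bot ℚ).1 hf, map_zero]
  exact Submodule.zero_mem _
theorem Gr.sup {P Q : Submodule ℚ (PR V K)} (hP : Gr P) (hQ : Gr Q) : Gr (P ⊔ Q) := by
  intro f hf j
  obtain ⟨p, hp, q, hq, rfl⟩ := Submodule.mem_sup.1 hf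
  rw [map_add]
  exact Submodule.add_mem_sup (hP p hp j) (hQ q hq j)
theorem Gr.inf {P Q : Submodule ℚ (PR V K)} (hP : Gr P) (hQ : Gr Q) : Gr (P ⊓ Q) :=
  fun f hf j => ⟨hP f hf.1 j, hQ f hf.2 j⟩
theorem gr_span {S : Set (PR V K)} (hS : ∀ g ∈ S, ∃ j, g.IsHomogeneous j) :
    Gr (Submodule.span ℚ S) := by
  intro f hf j
  refine Submodule.span_le (p := (Submodule.span ℚ S).comap (hc j)).2 (fun g hg => ?_) hf
  obtain ⟨i, hi⟩ := hS g hg
  change homogeneousComponent j g ∈ Submodule.span ℚ S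
  rw [homogeneousComponent_of_mem hi]
  split_ifs
  · exact Submodule.subset_span hg
  · exact Submodule.zero_mem _
theorem gr_ideal_span {S : Set (PR V K)} (hS : ∀ g ∈ S, ∃ j, g.IsHomogeneous j) :
    Gr (rs (Ideal.span S)) := by
  refine gr_ideal_iff.2 fun z => Ideal.span_le.2 fun g hg => ?_
  obtain ⟨i, hi⟩ := hS g hg
  change scale z g ∈ Ideal.span S
  rw [scale_of_isHomogeneous z hi, smul_eq_C_mul]
  exact Ideal.mul_mem_left _ _ (Ideal.subset_span hg)
theorem gr_ideal_sup {I J : Ideal (PR V K)} (hI : Gr (rs I)) (hJ : Gr (rs J)) :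
    Gr (rs (I ⊔ J)) := by
  intro f hf j
  obtain ⟨p, hp, q, hq, rfl⟩ := Submodule.mem_sup.1 (show f ∈ I ⊔ J from hf)
  rw [map_add]
  exact Submodule.add_mem_sup (S := I) (T := J) (hI p hp j) (hJ q hq j)
theorem gr_mI_pow (k : ℕ) : Gr (rs (mI V K ^ k)) := by
  intro f hf j
  refine (mem_pow_idealOfVars_iff' k _).2 fun d hd => ?_
  rw [coeff_homogeneousComponent, (mem_pow_idealOfVars_iff' k f).1 hf d hd, ite_self]
theorem X_mem_RT {T : Finset (Om V K)} {s : Om V K} (hs : s ∈ T) : X s ∈ RT T :=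
  X_mem_supported.2 hs
theorem algHom_mem_RT {T T' : Finset (Om V K)} (φ : PR V K →ₐ[ℚ] PR V K)
    (h : ∀ s ∈ T, φ (X s) ∈ RT T') {f : PR V K} (hf : f ∈ RT T) : φ f ∈ RT T' := by
  refine Algebra.adjoin_le (S := (supported ℚ (T' : Set (Om V K))).comap φ) ?_ hf
  rintro _ ⟨s, hs, rfl⟩
  exact h s hs
theorem gr_RT (T : Finset (Om V K)) : Gr (RT T) := by
  refine gr_iff_scale.2 fun z f hf => algHom_mem_RT _ (fun s hs => ?_) hf
  rw [scale, aeval_X, ← smul_eq_C_mul]
  exact Submodule.smul_mem _ _ (X_mem_RT hs)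
theorem gr_Anti (T : Finset (Om V K)) : Gr (Anti T) := by
  rintro f ⟨hf, hf'⟩ j
  refine ⟨gr_RT T f hf j, fun s hs s' hs' h1 h2 => ?_⟩
  rw [rename_homogeneousComponent, hf' s hs s' hs' h1 h2, map_neg]
theorem card_dv (T : Finset (Om V K)) : ∑ v, dv T v = T.card :=
  (Finset.card_eq_sum_card_fiberwise fun _ _ => Finset.mem_univ _).symm
theorem dv_union {A B : Finset (Om V K)} (h : Disjoint A B) : dv (A ∪ B) = dv A + dv B := by
  funext v
  rw [Pi.add_apply, dv, Finset.filter_union,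
    Finset.card_union_of_disjoint (Finset.disjoint_filter_filter h)]
  rfl
theorem dv_empty : dv (∅ : Finset (Om V K)) = 0 := rfl
theorem dv_eq_zero {T : Finset (Om V K)} (h : dv T = 0) : T = ∅ := by
  rw [← Finset.card_eq_zero, ← card_dv, h]
  simp
theorem dv_le (T : Finset (Om V K)) (v : V) : dv T v ≤ K := by
  refine (Finset.card_le_card_of_injOn (t := Finset.univ) Prod.snd (fun _ _ => Finset.mem_univ _)
    fun s hs s' hs' h => Prod.ext ?_ h).trans (by simp)
  exact (Finset.mem_filter.1 hs).2.trans (Finset.mem_filter.1 hs').2.symm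
theorem dz_add (d e : V → ℕ) : dz (d + e) = dz d + dz e := by
  funext v
  simp [dz]
theorem dz_zero : dz (0 : V → ℕ) = 0 := rfl
theorem dv_eq_sum_blk (T : Finset (Om V K)) (b : Om V K → ℕ) :
    dv T = ∑ i ∈ T.image b, dv (blk T b i) := by
  funext v
  rw [Finset.sum_apply, dv, Finset.card_eq_sum_card_fiberwise (f := b) (t := T.image b)
    fun s hs => Finset.mem_image_of_mem b (Finset.mem_filter.1 hs).1]
  exact Finset.sum_congr rfl fun i _ => by rw [Finset.filter_comm]; rfl
theorem sum_fst_eq (A : Finset (Om V K)) (g : V → ℕ) : ∑ s ∈ A, g s.1 = ∑ v, dv A v * g v := by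
  rw [← Finset.sum_fiberwise' A Prod.fst g]
  exact Finset.sum_congr rfl fun v _ => by rw [Finset.sum_const, smul_eq_mul]; rfl
theorem aa_dv (ar : V → V → ℕ) (A B : Finset (Om V K)) :
    aa ar (dv A) (dv B) = ∑ s ∈ A, ∑ s' ∈ B, ar s.1 s'.1 := by
  rw [sum_fst_eq A fun v => ∑ s' ∈ B, ar v s'.1, aa]
  refine Finset.sum_congr rfl fun v _ => ?_
  rw [sum_fst_eq B (ar v), Finset.mul_sum]
  exact Finset.sum_congr rfl fun w _ => mul_assoc _ _ _
theorem isHomogeneous_sub_pow (s s' : Om V K) (n : ℕ) :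
    ((X s' - X s : PR V K) ^ n).IsHomogeneous n := by
  simpa using ((isHomogeneous_X ℚ s').sub (isHomogeneous_X ℚ s)).pow n
theorem kr_isHomogeneous (ar : V → V → ℕ) (A B : Finset (Om V K)) :
    (kr ar A B).IsHomogeneous (aa ar (dv A) (dv B)) := by
  rw [aa_dv]
  exact IsHomogeneous.prod _ _ _ fun s _ =>
    IsHomogeneous.prod _ _ _ fun s' _ => isHomogeneous_sub_pow _ _ _
theorem kr_mem_RT (ar : V → V → ℕ) {A B T : Finset (Om V K)} (hA : A ⊆ T) (hB : B ⊆ T) :
    kr ar A B ∈ RT T :=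
  Subalgebra.prod_mem _ fun _ hs => Subalgebra.prod_mem _ fun _ hs' => Subalgebra.pow_mem _
    (Subalgebra.sub_mem _ (X_mem_RT (hB hs')) (X_mem_RT (hA hs))) _
theorem Kb_isHomogeneous (ar : V → V → ℕ) (T : Finset (Om V K)) (b : Om V K → ℕ) :
    (Kb ar T b).IsHomogeneous (kap ar T b) := by
  refine IsHomogeneous.prod _ _ _ fun s _ => IsHomogeneous.prod _ _ _ fun s' _ => ?_
  split_ifs
  · exact isHomogeneous_sub_pow _ _ _
  · exact isHomogeneous_one _ _
theorem Kb_mem_RT (ar : V → V → ℕ) (T : Finset (Om V K)) (b : Om V K → ℕ) :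
    Kb ar T b ∈ RT T := by
  refine Subalgebra.prod_mem _ fun s hs => Subalgebra.prod_mem _ fun s' hs' => ?_
  split_ifs
  · exact Subalgebra.pow_mem _ (Subalgebra.sub_mem _ (X_mem_RT hs') (X_mem_RT hs)) _
  · exact Subalgebra.one_mem _
theorem RT_mono {A B : Finset (Om V K)} (h : A ⊆ B) : RT A ≤ RT B :=
  fun _ hf => supported_mono (Finset.coe_subset.2 h) hf
theorem RT_mul {T : Finset (Om V K)} {f g : PR V K} (hf : f ∈ RT T) (hg : g ∈ RT T) :
    f * g ∈ RT T := Subalgebra.mul_mem _ hf hg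
theorem gr_Jnn (ar : V → V → ℕ) (η : Stab (V → ℤ)) (T : Finset (Om V K)) :
    Gr (rs (Jnn ar η T)) := by
  refine gr_ideal_span ?_
  rintro _ ⟨A, -, -, rfl⟩
  exact ⟨_, kr_isHomogeneous _ _ _⟩
theorem gr_Jneg (ar : V → V → ℕ) (η : Stab (V → ℤ)) (T : Finset (Om V K)) :
    Gr (rs (Jneg ar η T)) := by
  refine gr_ideal_span ?_
  rintro _ ⟨A, -, -, -, rfl⟩
  exact ⟨_, kr_isHomogeneous _ _ _⟩
theorem gr_aI (ar : V → V → ℕ) (η : Stab (V → ℤ)) (T : Finset (Om V K)) (b : Om V K → ℕ) :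
    Gr (rs (aI ar η T b)) :=
  gr_ideal_iff.2 fun z => iSup₂_le fun i hi => (gr_ideal_iff.1 (gr_Jnn ar η _) z).trans
    (Ideal.comap_mono (le_iSup₂ (f := fun i (_ : i ∈ T.image b) => Jnn ar η (blk T b i)) i hi))
theorem sh_scale (c : Om V K → ℚ) (z : ℚ) (f : PR V K) :
    sh c (scale z f) = scale z (sh (z • c) f) := by
  have h : (sh c).comp (scale z) = (scale z).comp (sh (z • c)) := by
    ext1 s
    simp [sh, scale, mul_add]
  exact DFunLike.congr_fun h f
/-- Hint: a subspace stable under all scalings `X s ↦ z * X s` is graded (use duality). -/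
theorem gr_OrdAt (ar : V → V → ℕ) (η : Stab (V → ℤ)) (T : Finset (Om V K)) (b : Om V K → ℕ)
    (k : ℕ) : Gr (rs (OrdAt ar η T b k)) := by
  refine gr_iff_scale.2 fun z f hf => ?_
  rw [Submodule.restrictScalars_mem, OrdAt, Ideal.mem_iInf] at hf ⊢
  intro c
  have h1 : z • pt T b c = pt T b (z • c) := by
    funext s
    simp [pt]
  have h2 := hf (z • c)
  rw [Ideal.mem_comap] at h2
  rw [Ideal.mem_comap, sh_scale, h1]
  exact gr_iff_scale.1 (gr_ideal_sup (gr_aI ar η T b) (gr_mI_pow k)) z _ h2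
theorem gr_Fil (ar : V → V → ℕ) (η : Stab (V → ℤ)) (T : Finset (Om V K)) (w r : ℕ) :
    Gr (rs (Fil ar η T w r)) := fun f hf j =>
  Ideal.mem_iInf.2 fun b => Ideal.mem_iInf.2 fun hb =>
    gr_OrdAt ar η T b _ f (Ideal.mem_iInf.1 (Ideal.mem_iInf.1 hf b) hb) j
theorem hc_mem_BPSk' (ar : V → V → ℕ) (η : Stab (V → ℤ)) (T : Finset (Om V K)) {f : PR V K}
    (hf : f ∈ BPS ar η T) (k : ℕ) : hc k f ∈ BPSk ar η T k := by
  refine iSup_le (a := (BPSk ar η T k).comap (hc k)) (fun i g hg => ?_) hf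
  change homogeneousComponent k g ∈ BPSk ar η T k
  rw [homogeneousComponent_of_mem hg.1.2]
  split_ifs with h
  · exact h ▸ hg
  · exact Submodule.zero_mem _
theorem gr_BPS (ar : V → V → ℕ) (η : Stab (V → ℤ)) (T : Finset (Om V K)) :
    Gr (BPS ar η T) := fun _ hf j => le_iSup (BPSk ar η T) j (hc_mem_BPSk' ar η T hf j)
theorem hc_mem_BPSk (ar : V → V → ℕ) (η : Stab (V → ℤ)) (T : Finset (Om V K)) {f : PR V K}
    (hf : f ∈ BPS ar η T) (k : ℕ) : hc k f ∈ BPSk ar η T k := hc_mem_BPSk' ar η T hf k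
/-- an element of `I ⊔ m ^ (k+1)` has its degree `k` component in `I` and conversely -/
theorem mem_sup_pow_succ_iff {I : Ideal (PR V K)} (hI : Gr (rs I)) {k : ℕ} {f : PR V K}
    (hf : f ∈ I ⊔ mI V K ^ k) : f ∈ I ⊔ mI V K ^ (k + 1) ↔ hc k f ∈ I := by
  constructor
  · intro h
    obtain ⟨g, hg, r, hr, rfl⟩ := Submodule.mem_sup.1 h
    rw [map_add, homogeneousComponent_eq_zero' k r fun d hd =>
      (Nat.lt_of_succ_le ((mem_pow_idealOfVars_iff _ _).1 hr d hd)).ne', add_zero]
    exact hI g hg k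
  · intro h
    obtain ⟨g, hg, r, hr, rfl⟩ := Submodule.mem_sup.1 hf
    rw [map_add] at h
    have h1 : hc k r ∈ I := (I.add_mem_iff_right (hI g hg k)).1 h
    refine Submodule.mem_sup.2 ⟨g + hc k r, I.add_mem hg h1, r - hc k r, ?_, by abel⟩
    refine (mem_pow_idealOfVars_iff' _ _).2 fun d hd => ?_
    rw [coeff_sub, coeff_homogeneousComponent]
    split_ifs with h2
    · exact sub_self _
    · rw [sub_zero, (mem_pow_idealOfVars_iff' _ _).1 hr d (by omega)]
theorem mem_of_forall_sup_pow {I : Ideal (PR V K)} (hI : Gr (rs I)) {f : PR V K}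
    (hf : ∀ k, f ∈ I ⊔ mI V K ^ k) : f ∈ I := by
  rw [← sum_homogeneousComponent f]
  exact I.sum_mem fun j _ => (mem_sup_pow_succ_iff hI (hf j)).1 (hf (j + 1))
theorem IsHomogeneous.mem_mI_pow {f : PR V K} {k : ℕ} (hf : f.IsHomogeneous k) :
    f ∈ mI V K ^ k := (mem_pow_idealOfVars_iff' _ _).2 fun _ hd => hf.coeff_eq_zero hd.ne
theorem sh_X (c : Om V K → ℚ) (s : Om V K) : sh c (X s) = X s + C (c s) := aeval_X _ _
theorem sh_C (c : Om V K → ℚ) (a : ℚ) : sh c (C a) = C a := aeval_C _ _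
theorem sh_zero (f : PR V K) : sh (0 : Om V K → ℚ) f = f := by
  have h : sh (0 : Om V K → ℚ) = AlgHom.id ℚ _ := by
    ext1 s
    simp [sh_X]
  exact DFunLike.congr_fun h f
theorem sh_sh (c c' : Om V K → ℚ) (f : PR V K) : sh c (sh c' f) = sh (c + c') f := by
  have h : (sh c).comp (sh c') = sh (c + c') := by
    ext1 s
    simp [sh_X, add_assoc]
  exact DFunLike.congr_fun h f
theorem sh_congr {T : Finset (Om V K)} {c c' : Om V K → ℚ} (h : ∀ s ∈ T, c s = c' s)
    {f : PR V K} (hf : f ∈ RT T) : sh c f = sh c' f := by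
  refine Algebra.adjoin_le (S := AlgHom.equalizer (sh c) (sh c')) ?_ hf
  rintro _ ⟨s, hs, rfl⟩
  change sh c (X s) = sh c' (X s)
  rw [sh_X, sh_X, h s hs]
theorem sh_mem_RT {T : Finset (Om V K)} (c : Om V K → ℚ) {f : PR V K} (hf : f ∈ RT T) :
    sh c f ∈ RT T := by
  refine algHom_mem_RT _ (fun s hs => ?_) hf
  rw [sh_X]
  exact Subalgebra.add_mem _ (X_mem_RT hs) (Subalgebra.algebraMap_mem _ _)
theorem sh_sub_eval_mem (c : Om V K → ℚ) (f : PR V K) : sh c f - C (eval c f) ∈ mI V K := by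
  induction f using MvPolynomial.induction_on with
  | C a => rw [sh_C, eval_C, sub_self]; exact Ideal.zero_mem _
  | add p q hp hq =>
    rw [map_add, map_add, map_add, add_sub_add_comm]
    exact Ideal.add_mem _ hp hq
  | mul_X p s hp =>
    have h : sh c (p * X s) - C (eval c (p * X s)) =
        (sh c p - C (eval c p)) * (X s + C (c s)) + C (eval c p) * X s := by
      rw [map_mul, map_mul, map_mul, sh_X, eval_X]
      ring
    rw [h]
    exact Ideal.add_mem _ (Ideal.mul_mem_right _ _ hp)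
      (Ideal.mul_mem_left _ _ (Ideal.subset_span ⟨s, rfl⟩))
theorem sh_kr (ar : V → V → ℕ) {A B : Finset (Om V K)} {c : Om V K → ℚ}
    (h : ∀ s ∈ A, ∀ s' ∈ B, c s = c s') : sh c (kr ar A B) = kr ar A B := by
  rw [kr, map_prod]
  refine Finset.prod_congr rfl fun s hs => ?_
  rw [map_prod]
  refine Finset.prod_congr rfl fun s' hs' => ?_
  rw [map_pow, map_sub, sh_X, sh_X, h s hs s' hs', add_sub_add_right_eq_sub]
theorem rename_sh (π : Perm (Om V K)) (c : Om V K → ℚ) (f : PR V K) :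
    sh c (rename π f) = rename π (sh (c ∘ π) f) := by
  have h : (sh c).comp (rename π) = (rename π).comp (sh (c ∘ π)) := by
    ext1 s
    simp [sh_X]
  exact DFunLike.congr_fun h f
theorem hc_succ_mul_X (k : ℕ) (p : PR V K) (s : Om V K) :
    hc (k + 1) (p * X s) = hc k p * X s := by
  induction p using MvPolynomial.induction_on' with
  | monomial d a =>
    have h := isHomogeneous_monomial (d := d) a rfl
    rw [homogeneousComponent_of_mem h, homogeneousComponent_of_mem (h.mul (isHomogeneous_X ℚ s))]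
    simp
  | add p q hp hq => rw [add_mul, map_add, map_add, hp, hq, add_mul]
theorem hc_sh_sub (c : Om V K → ℚ) (f : PR V K) :
    ∀ k j, k ≤ j → hc j (sh c (hc k f) - hc k f) = 0 := by
  induction f using MvPolynomial.induction_on with
  | C a =>
    intro k j _
    rw [homogeneousComponent_of_mem (isHomogeneous_C _ a)]
    split_ifs <;> simp
  | add p q hp hq =>
    intro k j h
    rw [map_add, map_add, add_sub_add_comm, map_add, hp k j h, hq k j h, add_zero]
  | mul_X p s hp =>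
    intro k j h
    cases k with
    | zero => simp
    | succ k =>
      obtain ⟨j, rfl⟩ : ∃ i, j = i + 1 := ⟨j - 1, by omega⟩
      have h1 : sh c (hc k p * X s) - hc k p * X s = (sh c (hc k p) - hc k p) * X s +
          C (c s) * (sh c (hc k p) - hc k p) + C (c s) * hc k p := by
        rw [map_mul, sh_X]
        ring
      rw [hc_succ_mul_X, h1, map_add, map_add, hc_succ_mul_X, hp k j (by omega),
        homogeneousComponent_C_mul, homogeneousComponent_C_mul, hp k (j + 1) (by omega),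
        homogeneousComponent_of_mem (homogeneousComponent_mem k p), if_neg (by omega)]
      simp
/-- a homogeneous polynomial differs from its translate in lower degrees only -/
theorem hc_sh_of_isHomogeneous {f : PR V K} {k : ℕ} (hf : f.IsHomogeneous k) (c : Om V K → ℚ) :
    hc k (sh c f) = f ∧ ∀ j, k < j → hc j (sh c f) = 0 := by
  have h := hc_sh_sub c f k
  rw [homogeneousComponent_eq_self hf] at h
  refine ⟨?_, fun j hj => ?_⟩
  · have h1 := h k le_rfl
    rwa [map_sub, homogeneousComponent_eq_self hf, sub_eq_zero] at h1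
  · have h1 := h j hj.le
    rwa [map_sub, homogeneousComponent_of_mem hf, if_neg hj.ne', sub_zero] at h1
end graded

end
end Vale.Agent.P066
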