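import Vale.Agent.P066.CSym

/-! Part C: block swaps and the sign of the stabiliser (auxiliary file for `CMatch`). -/

namespace Vale.Agent.P066
open MvPolynomial Equiv
noncomputable section
variable {V : Type} [Fintype V] [DecidableEq V] {K : ℕ}

omit [Fintype V] [DecidableEq V] in
theorem mb_rename_congr_RT {S : Finset (Om V K)} {f : PR V K} (hf : f ∈ RT S)
    {g g' : Om V K → Om V K} (h : ∀ s ∈ S, g s = g' s) : rename g f = rename g' f := by
  have hv : (f.vars : Set (Om V K)) ⊆ S := mem_supported.mp hf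
  refine hom_congr_vars (f₁ := (rename g : PR V K →ₐ[ℚ] PR V K).toRingHom)
    (f₂ := (rename g' : PR V K →ₐ[ℚ] PR V K).toRingHom) ?_ ?_ rfl
  · ext c
    simp
  · intro i hi _
    have := h i (hv hi)
    simp [this]

omit [Fintype V] [DecidableEq V] in
theorem mb_rename_fix_RT {S : Finset (Om V K)} {f : PR V K} (hf : f ∈ RT S)
    {g : Om V K → Om V K} (h : ∀ s ∈ S, g s = s) : rename g f = f := by
  rw [mb_rename_congr_RT hf (g' := id) h, rename_id]
  rfl

/-- the involution exchanging two disjoint images of the same set -/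
theorem mb_exists_swap_perm {α : Type} [Fintype α] [DecidableEq α] {S A B : Finset α}
    (m n : Perm α) (hA : S.image m = A) (hB : S.image n = B) (hd : Disjoint A B) :
    ∃ π : Perm α, (∀ s ∈ S, π (m s) = n s) ∧ (∀ s ∈ S, π (n s) = m s) ∧
      (∀ s, s ∉ A → s ∉ B → π s = s) ∧ Perm.sign π = (-1) ^ A.card := by
  have mA : ∀ s ∈ S, m s ∈ A := fun s hs => hA ▸ Finset.mem_image_of_mem _ hs
  have nB : ∀ s ∈ S, n s ∈ B := fun s hs => hB ▸ Finset.mem_image_of_mem _ hs
  have AB : ∀ s ∈ A, s ∉ B := fun s hs => Finset.disjoint_left.mp hd hs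
  have BA : ∀ s ∈ B, s ∉ A := fun s hs => Finset.disjoint_right.mp hd hs
  have exA : ∀ s ∈ A, ∃ t ∈ S, m t = s := fun s hs => by
    rw [← hA] at hs
    exact Finset.mem_image.mp hs
  have exB : ∀ s ∈ B, ∃ t ∈ S, n t = s := fun s hs => by
    rw [← hB] at hs
    exact Finset.mem_image.mp hs
  let f : α → α := fun s => if s ∈ A then n (m.symm s) else if s ∈ B then m (n.symm s) else s
  have f1 : ∀ s ∈ S, f (m s) = n s := fun s hs => by simp [f, mA s hs]
  have f2 : ∀ s ∈ S, f (n s) = m s := fun s hs => by simp [f, nB s hs, BA _ (nB s hs)]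
  have f3 : ∀ s, s ∉ A → s ∉ B → f s = s := fun s h1 h2 => by simp [f, h1, h2]
  have inv : Function.Involutive f := fun s => by
    by_cases h1 : s ∈ A
    · obtain ⟨t, ht, rfl⟩ := exA s h1
      rw [f1 t ht, f2 t ht]
    · by_cases h2 : s ∈ B
      · obtain ⟨t, ht, rfl⟩ := exB s h2
        rw [f2 t ht, f1 t ht]
      · rw [f3 s h1 h2, f3 s h1 h2]
  refine ⟨inv.toPerm f, f1, f2, f3, ?_⟩
  have sq : (inv.toPerm f) ^ 2 = 1 := Equiv.ext inv.toPerm_involutive
  have hc : B.card = A.card := by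
    rw [← hA, ← hB, Finset.card_image_of_injective _ m.injective,
      Finset.card_image_of_injective _ n.injective]
  have hsup : (inv.toPerm f).support = A ∪ B := by
    ext s
    rw [Perm.mem_support, Finset.mem_union]
    constructor
    · intro h
      by_contra hh
      rw [not_or] at hh
      exact h (f3 s hh.1 hh.2)
    · rintro (h | h)
      · obtain ⟨t, ht, rfl⟩ := exA s h
        intro e
        have e' : f (m t) = m t := e
        rw [f1 t ht] at e'
        exact AB _ h (e' ▸ nB t ht)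
      · obtain ⟨t, ht, rfl⟩ := exB s h
        intro e
        have e' : f (n t) = n t := e
        rw [f2 t ht] at e'
        exact BA _ h (e' ▸ mA t ht)
  rw [Perm.sign_of_pow_two_eq_one sq, Perm.card_fixedPoints, Perm.sum_cycleType, hsup,
    Finset.card_union_of_disjoint hd, hc]
  have hle : A.card + A.card ≤ Fintype.card α := by
    have := Finset.card_le_univ (A ∪ B)
    rwa [Finset.card_union_of_disjoint hd, hc] at this
  congr 1
  omega

variable {ar : V → V → ℕ} {η : Stab (V → ℤ)} {Γ : Type} (D : BD ar η K Γ)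
  {T : Finset (Om V K)} {b : Om V K → ℕ} {it : ℕ → Γ × ℕ}

theorem mb_GT_mem {π : Perm (Om V K)} (hπ : π ∈ GT T) {s : Om V K} (hs : s ∈ T) : π s ∈ T := by
  rw [← image_GT hπ]
  exact Finset.mem_image_of_mem _ hs

theorem mb_GT_symm_mem {π : Perm (Om V K)} (hπ : π ∈ GT T) {s : Om V K} (hs : s ∈ T) :
    π.symm s ∈ T := mb_GT_mem (inv_mem_GT hπ) hs

omit [Fintype V] [DecidableEq V] in
theorem mb_mem_blk {s : Om V K} {i : ℕ} : s ∈ blk T b i ↔ s ∈ T ∧ b s = i := Finset.mem_filter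

theorem mb_blk_image_of_label {π : Perm (Om V K)} (hπ : π ∈ GT T) {σ : Perm ℕ}
    (hσ : ∀ s ∈ T, b (π s) = σ (b s)) (k : ℕ) : (blk T b k).image π = blk T b (σ k) := by
  ext s
  rw [Finset.mem_image, mb_mem_blk]
  constructor
  · rintro ⟨t, ht, rfl⟩
    rw [mb_mem_blk] at ht
    exact ⟨mb_GT_mem hπ ht.1, by rw [hσ t ht.1, ht.2]⟩
  · rintro ⟨hs, hk⟩
    refine ⟨π.symm s, mb_mem_blk.mpr ⟨mb_GT_symm_mem hπ hs, ?_⟩, by simp⟩
    apply σ.injective
    rw [← hσ _ (mb_GT_symm_mem hπ hs), ← hk]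
    simp

theorem mb_rename_Kb_of_label {π : Perm (Om V K)} (hπ : π ∈ GT T) {σ : Perm ℕ}
    (hσ : ∀ s ∈ T, b (π s) = σ (b s)) :
    rename π (Kb ar T b) = Kb ar T (fun s => σ.symm (b s)) := by
  rw [rename_Kb ar (mem_GT.mp hπ).1, image_GT hπ]
  have e : ∀ s ∈ T, (b ∘ π.symm) s = σ.symm (b s) := fun s hs => by
    apply σ.injective
    rw [Function.comp_apply, ← hσ _ (mb_GT_symm_mem hπ hs)]
    simp
  unfold Kb
  refine Finset.prod_congr rfl fun s hs => Finset.prod_congr rfl fun s' hs' => ?_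
  rw [e s hs, e s' hs']

theorem mb_pl_mem_Anti (h : D.Valid T b it) {k : ℕ} (hk : k ∈ T.image b) :
    pl (blk T b k) (D.u (it k).1) ∈ Anti (blk T b k) := (D.pl_mem (h k hk)).1.1

theorem mb_valid_hw (h : D.Valid T b it) : ∀ i ∈ T.image b,
    pl (blk T b i) (D.u (it i).1) ∈ RT (blk T b i) ∧
      (pl (blk T b i) (D.u (it i).1)).IsHomogeneous (D.kg (it i).1) ∧
      pl (blk T b i) (D.u (it i).1) ∈ Fil ar η (blk T b i) (D.kg (it i).1) 2 := fun i hi =>
  ⟨(D.pl_mem (h i hi)).1.1.1, (D.pl_mem (h i hi)).1.2, (D.pl_mem (h i hi)).2⟩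

theorem mb_prod_swap_labels {M : Type} [CommMonoid M] {L : Finset ℕ} {i j : ℕ} (hi : i ∈ L)
    (hj : j ∈ L) (F : ℕ → M) : ∏ k ∈ L, F (swap i j k) = ∏ k ∈ L, F k := by
  refine Finset.prod_equiv (swap i j) (fun k => ?_) (fun _ _ => rfl)
  rw [swap_apply_def]
  split_ifs with h1 h2
  · simp [h1, hi, hj]
  · simp [h2, hi, hj]
  · rfl

theorem mb_exists_swap_aux (hs : Sym0 ar η) (hb : IsEP η T b) (h : D.Valid T b it) {i j : ℕ}
    (hi : i ∈ T.image b) (hj : j ∈ T.image b) (hij : i ≠ j) (he : it i = it j) :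
    ∃ π ∈ GT T, (∀ s ∈ T, b (π s) = swap i j (b s)) ∧
      rename π (D.Y T b it) - ((((Perm.sign π : ℤˣ) : ℤ) : ℚ) *
        (-1) ^ (∑ v, D.dg (it i).1 v + aa ar (D.dg (it i).1) (D.dg (it i).1))) • D.Y T b it ∈
        Fil ar η T (D.lev T b it) (nb T b) := by
  have di : D.dg (it i).1 = dv (blk T b i) := h i hi
  have dj : D.dg (it i).1 = dv (blk T b j) := he ▸ h j hj
  have hd : dv (blk T b i) = dv (blk T b j) := di ▸ dj
  obtain ⟨ci, mi⟩ := mv_spec (blk T b i)
  obtain ⟨cj, mj⟩ := mv_spec (blk T b j)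
  rw [← di] at mi
  rw [← dj] at mj
  have hdis : Disjoint (blk T b i) (blk T b j) := by
    rw [Finset.disjoint_left]
    intro s h1 h2
    exact hij ((mb_mem_blk.mp h1).2.symm.trans (mb_mem_blk.mp h2).2)
  obtain ⟨π, p1, p2, p3, psign⟩ := mb_exists_swap_perm _ _ mi mj hdis
  have exA : ∀ s ∈ blk T b i, ∃ t ∈ std K (D.dg (it i).1), mv (blk T b i) t = s :=
    fun s hs => by
      rw [← mi] at hs
      exact Finset.mem_image.mp hs
  have exB : ∀ s ∈ blk T b j, ∃ t ∈ std K (D.dg (it i).1), mv (blk T b j) t = s :=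
    fun s hs => by
      rw [← mj] at hs
      exact Finset.mem_image.mp hs
  have inA : ∀ t ∈ std K (D.dg (it i).1), mv (blk T b i) t ∈ blk T b i := fun t ht => by
    have := Finset.mem_image_of_mem (mv (blk T b i)) ht
    rwa [mi] at this
  have inB : ∀ t ∈ std K (D.dg (it i).1), mv (blk T b j) t ∈ blk T b j := fun t ht => by
    have := Finset.mem_image_of_mem (mv (blk T b j)) ht
    rwa [mj] at this
  have hπ : π ∈ GT T := by
    refine mem_GT.mpr ⟨fun s => ?_, fun s hs => p3 s (fun h1 => hs (mb_mem_blk.mp h1).1)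
      (fun h1 => hs (mb_mem_blk.mp h1).1)⟩
    by_cases h1 : s ∈ blk T b i
    · obtain ⟨t, ht, rfl⟩ := exA s h1
      rw [p1 t ht, ci t, cj t]
    · by_cases h2 : s ∈ blk T b j
      · obtain ⟨t, ht, rfl⟩ := exB s h2
        rw [p2 t ht, ci t, cj t]
      · rw [p3 s h1 h2]
  have hσ : ∀ s ∈ T, b (π s) = swap i j (b s) := fun s hsT => by
    by_cases h1 : s ∈ blk T b i
    · have e := (mb_mem_blk.mp h1).2
      obtain ⟨t, ht, rfl⟩ := exA s h1
      rw [p1 t ht, e, swap_apply_left, (mb_mem_blk.mp (inB t ht)).2]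
    · by_cases h2 : s ∈ blk T b j
      · have e := (mb_mem_blk.mp h2).2
        obtain ⟨t, ht, rfl⟩ := exB s h2
        rw [p2 t ht, e, swap_apply_right, (mb_mem_blk.mp (inA t ht)).2]
      · rw [p3 s h1 h2, swap_apply_of_ne_of_ne (fun e => h1 (mb_mem_blk.mpr ⟨hsT, e⟩))
          (fun e => h2 (mb_mem_blk.mpr ⟨hsT, e⟩))]
  refine ⟨π, hπ, hσ, ?_⟩
  have uR : D.u (it i).1 ∈ RT (std K (D.dg (it i).1)) := (D.u_mem _).1.1.1
  have its : ∀ k, it (swap i j k) = it k := fun k => by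
    rw [swap_apply_def]
    split_ifs with h1 h2
    · rw [h1, he]
    · rw [h2, he]
    · rfl
  have hw : ∀ k ∈ T.image b, rename π (pl (blk T b k) (D.u (it k).1)) =
      pl (blk T b (swap i j k)) (D.u (it (swap i j k)).1) := fun k hk => by
    rw [its]
    by_cases h1 : k = i
    · subst h1
      rw [swap_apply_left, pl, pl, rename_rename]
      exact mb_rename_congr_RT uR p1
    · by_cases h2 : k = j
      · subst h2
        rw [swap_apply_right, pl, pl, rename_rename, ← he]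
        exact mb_rename_congr_RT uR p2
      · rw [swap_apply_of_ne_of_ne h1 h2]
        refine mb_rename_fix_RT (mb_pl_mem_Anti D h hk).1 fun s hs => p3 s ?_ ?_
        · exact fun h3 => h1 ((mb_mem_blk.mp hs).2.symm.trans (mb_mem_blk.mp h3).2)
        · exact fun h3 => h2 ((mb_mem_blk.mp hs).2.symm.trans (mb_mem_blk.mp h3).2)
  have hp : ∀ k ∈ T.image b, rename π (pB (blk T b k) ^ (it k).2) =
      pB (blk T b (swap i j k)) ^ (it (swap i j k)).2 := fun k _ => by
    rw [map_pow, rename_pB (mem_GT.mp hπ).1, mb_blk_image_of_label hπ hσ, its]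
  have hY : rename π (D.Y T b it) = Kb ar T (fun s => swap i j (b s)) *
      (∏ k ∈ T.image b, pl (blk T b k) (D.u (it k).1)) *
      ∏ k ∈ T.image b, pB (blk T b k) ^ (it k).2 := by
    rw [BD.Y, map_mul, map_mul, mb_rename_Kb_of_label hπ hσ, symm_swap, map_prod, map_prod,
      Finset.prod_congr rfl hw, Finset.prod_congr rfl hp,
      mb_prod_swap_labels hi hj fun k => pl (blk T b k) (D.u (it k).1),
      mb_prod_swap_labels hi hj fun k => pB (blk T b k) ^ (it k).2]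
  have hsp : SameP T b (fun s => swap i j (b s)) :=
    ⟨fun s _ s' _ e => by simp only [e], fun s _ s' _ e => (swap i j).injective e⟩
  have key := reorder_of_eval hs hb (mb_valid_hw D h) (∏ k ∈ T.image b, pB (blk T b k) ^ (it k).2)
    hsp _ (eval_Kb_swap hs hb hi hj hij hd)
  have hsg : ((((Perm.sign π : ℤˣ) : ℤ) : ℚ) *
      (-1) ^ (∑ v, D.dg (it i).1 v + aa ar (D.dg (it i).1) (D.dg (it i).1))) =
      (-1) ^ aa ar (dv (blk T b i)) (dv (blk T b i)) := by
    rw [psign, di, card_dv, pow_add, ← mul_assoc]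
    push_cast
    rw [← mul_pow]
    simp
  rw [hY, hsg]
  exact key

omit [Fintype V] [DecidableEq V] in
open Classical in
theorem mb_exists_two_of_count {x : Γ × ℕ} (hc : 1 < (conf T b it).count x) :
    ∃ i ∈ T.image b, ∃ j ∈ T.image b, i ≠ j ∧ it i = x ∧ it j = x := by
  rw [conf, Multiset.count_map] at hc
  have hc' : 1 < ((T.image b).filter fun a => x = it a).card := hc
  obtain ⟨i, hi, j, hj, hij⟩ := Finset.one_lt_card.mp hc'
  rw [Finset.mem_filter] at hi hj
  exact ⟨i, hi.1, j, hj.1, hij, hi.2.symm, hj.2.symm⟩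

omit [Fintype V] [DecidableEq V] in
open Classical in
theorem mb_count_of_two {i j : ℕ} (hi : i ∈ T.image b) (hj : j ∈ T.image b) (hij : i ≠ j)
    (he : it i = it j) : 1 < (conf T b it).count (it i) := by
  rw [conf, Multiset.count_map]
  have : 1 < ((T.image b).filter fun a => it i = it a).card :=
    Finset.one_lt_card.mpr ⟨i, Finset.mem_filter.mpr ⟨hi, rfl⟩, j,
      Finset.mem_filter.mpr ⟨hj, he⟩, hij⟩
  exact this

theorem mb_sign_cast_sq (π : Perm (Om V K)) :
    (((Perm.sign π : ℤˣ) : ℤ) : ℚ) * (((Perm.sign π : ℤˣ) : ℤ) : ℚ) = 1 := by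
  rcases Int.units_eq_one_or (Perm.sign π) with h | h <;> simp [h]

open Classical in
theorem mb_Alt_odd_aux (hs : Sym0 ar η) (hb : IsEP η T b) (h : D.Valid T b it) {x : Γ × ℕ}
    (hx : Ferm ar (D.dg x.1)) (hc : 1 < (conf T b it).count x) :
    Alt T (D.Y T b it) ∈ Fil ar η T (D.lev T b it) (nb T b) := by
  obtain ⟨i, hi, j, hj, hij, e1, e2⟩ := mb_exists_two_of_count hc
  obtain ⟨π, hπ, -, key⟩ := mb_exists_swap_aux D hs hb h hi hj hij (e1.trans e2.symm)
  have k2 := Alt_mem_Fil ar η key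
  rw [e1, Odd.neg_one_pow hx, map_sub, map_smul, Alt_rename _ hπ, ← sub_smul] at k2
  have k3 := Submodule.smul_of_tower_mem _ ((((Perm.sign π : ℤˣ) : ℤ) : ℚ) / 2) k2
  rw [smul_smul] at k3
  have e : (((Perm.sign π : ℤˣ) : ℤ) : ℚ) / 2 *
      ((((Perm.sign π : ℤˣ) : ℤ) : ℚ) - (((Perm.sign π : ℤˣ) : ℤ) : ℚ) * -1) = 1 := by
    have := mb_sign_cast_sq π
    linarith
  rwa [e, one_smul] at k3

theorem mb_rename_Y_of_fix (h : D.Valid T b it) {π : Perm (Om V K)} (hπ : π ∈ GT T)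
    (hf : ∀ s ∈ T, b (π s) = b s) :
    rename π (D.Y T b it) = (((Perm.sign π : ℤˣ) : ℤ) : ℚ) • D.Y T b it := by
  let r : Setoid (Om V K) :=
    ⟨fun s s' => s = s' ∨ (s ∈ T ∧ s' ∈ T ∧ s.1 = s'.1 ∧ b s = b s'),
      ⟨fun _ => Or.inl rfl,
        by
          rintro s s' (e | ⟨h1, h2, h3, h4⟩)
          · exact Or.inl e.symm
          · exact Or.inr ⟨h2, h1, h3.symm, h4.symm⟩,
        by
          rintro s s' s'' (rfl | ⟨h1, h2, h3, h4⟩) (rfl | ⟨g1, g2, g3, g4⟩)
          · exact Or.inl rfl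
          · exact Or.inr ⟨g1, g2, g3, g4⟩
          · exact Or.inr ⟨h1, h2, h3, h4⟩
          · exact Or.inr ⟨h1, g2, h3.trans g3, h4.trans g4⟩⟩⟩
  refine rename_eq_sign_smul r (fun s s' hne hr => ?_) fun s => ?_
  · obtain e | ⟨h1, h2, h3, h4⟩ := hr
    · exact absurd e hne
    have hτ : swap s s' ∈ GT T := by
      refine mem_GT.mpr ⟨fun t => ?_, fun t ht => swap_apply_of_ne_of_ne
        (fun e => ht (e ▸ h1)) (fun e => ht (e ▸ h2))⟩
      rw [swap_apply_def]
      split_ifs with e1 e2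
      · rw [e1, h3]
      · rw [e2, h3]
      · rfl
    have hσ : ∀ t ∈ T, b (swap s s' t) = (1 : Perm ℕ) (b t) := fun t _ => by
      rw [swap_apply_def]
      split_ifs with e1 e2
      · rw [e1, h4]; rfl
      · rw [e2, h4]; rfl
      · rfl
    have hk : b s ∈ T.image b := Finset.mem_image_of_mem _ h1
    have hp : ∀ k ∈ T.image b, rename (swap s s') (pB (blk T b k) ^ (it k).2) =
        pB (blk T b k) ^ (it k).2 := fun k _ => by
      rw [map_pow, rename_pB (mem_GT.mp hτ).1, mb_blk_image_of_label hτ hσ]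
      rfl
    have hw : ∀ k ∈ (T.image b).erase (b s),
        rename (swap s s') (pl (blk T b k) (D.u (it k).1)) = pl (blk T b k) (D.u (it k).1) :=
      fun k hk' => by
        rw [Finset.mem_erase] at hk'
        refine mb_rename_fix_RT (mb_pl_mem_Anti D h hk'.2).1 fun t ht => swap_apply_of_ne_of_ne ?_ ?_
        · rintro rfl
          exact hk'.1 (mb_mem_blk.mp ht).2.symm
        · rintro rfl
          exact hk'.1 ((mb_mem_blk.mp ht).2.symm.trans h4.symm)
    have hw0 := (mb_pl_mem_Anti D h hk).2 s (mb_mem_blk.mpr ⟨h1, rfl⟩) s' (mb_mem_blk.mpr ⟨h2, h4.symm⟩)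
      hne h3
    have hK : rename (swap s s') (Kb ar T b) = Kb ar T b := mb_rename_Kb_of_label hτ hσ
    rw [BD.Y, ← Finset.mul_prod_erase _ _ hk, map_mul, map_mul, map_mul, hK, hw0, map_prod,
      map_prod, Finset.prod_congr rfl hw, Finset.prod_congr rfl hp]
    ring
  · by_cases hsT : s ∈ T
    · exact Or.inr ⟨mb_GT_mem hπ hsT, hsT, (mem_GT.mp hπ).1 s, hf s hsT⟩
    · exact Or.inl ((mem_GT.mp hπ).2 s hsT)

open Classical in
theorem mb_stab_sign_ind (hs : Sym0 ar η) (hb : IsEP η T b) (h : D.Valid T b it)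
    (hc : ∀ x, Ferm ar (D.dg x.1) → (conf T b it).count x ≤ 1) (n : ℕ) :
    ∀ π : Perm (Om V K), π ∈ GT T → (∀ s ∈ T, ∀ s' ∈ T, b (π s) = b (π s') ↔ b s = b s') →
      (∀ s ∈ T, it (b (π s)) = it (b s)) → (T.filter fun s => b (π s) ≠ b s).card = n →
      rename π (D.Y T b it) - (((Perm.sign π : ℤˣ) : ℤ) : ℚ) • D.Y T b it ∈
        Fil ar η T (D.lev T b it) (nb T b) := by
  induction n using Nat.strong_induction_on with
  | _ n ih =>
  intro π hπ hP hi hn
  by_cases h0 : ∀ s ∈ T, b (π s) = b s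
  · rw [mb_rename_Y_of_fix D h hπ h0, sub_self]
    exact Submodule.zero_mem _
  push Not at h0
  obtain ⟨s0, hs0, hne⟩ := h0
  have hi0 : b s0 ∈ T.image b := Finset.mem_image_of_mem _ hs0
  have hj0 : b (π s0) ∈ T.image b := Finset.mem_image_of_mem _ (mb_GT_mem hπ hs0)
  have he : it (b s0) = it (b (π s0)) := (hi s0 hs0).symm
  obtain ⟨ρ, hρ, hσ, key⟩ := mb_exists_swap_aux D hs hb h hi0 hj0 hne.symm he
  have hnf : ¬ Ferm ar (D.dg (it (b s0)).1) := fun hf =>
    absurd (hc _ hf) (not_le.mpr (mb_count_of_two hi0 hj0 hne.symm he))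
  rw [Even.neg_one_pow (Nat.not_odd_iff_even.mp hnf), mul_one] at key
  have its : ∀ k, it (swap (b s0) (b (π s0)) k) = it k := fun k => by
    rw [swap_apply_def]
    split_ifs with h1 h2
    · rw [h1, he]
    · rw [h2, he]
    · rfl
  have hlab : ∀ s ∈ T, b ((ρ * π) s) = swap (b s0) (b (π s0)) (b (π s)) := fun s hsT =>
    hσ _ (mb_GT_mem hπ hsT)
  have hlt : (T.filter fun s => b ((ρ * π) s) ≠ b s).card < n := by
    rw [← hn]
    refine Finset.card_lt_card ⟨fun s hsm => ?_, fun hsub => ?_⟩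
    · rw [Finset.mem_filter] at hsm ⊢
      refine ⟨hsm.1, fun e => hsm.2 ?_⟩
      rw [hlab s hsm.1, e]
      refine swap_apply_of_ne_of_ne (fun e1 => hne ?_) (fun e1 => hne ?_)
      · rw [← (hP s hsm.1 s0 hs0).mpr e1, e, e1]
      · rw [← e1, ← (hP s hsm.1 s0 hs0).mp (e.trans e1)]
    · have := hsub (Finset.mem_filter.mpr ⟨hs0, hne⟩)
      rw [Finset.mem_filter, hlab s0 hs0, swap_apply_right] at this
      exact this.2 rfl
  have ih1 := ih _ hlt (ρ * π) (mul_mem_GT hρ hπ)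
    (fun s h1 s' h2 => by
      rw [hlab s h1, hlab s' h2, (swap _ _).injective.eq_iff]
      exact hP s h1 s' h2)
    (fun s h1 => by rw [hlab s h1, its, hi s h1]) rfl
  have k1 := Submodule.sub_mem _ ih1
    (Submodule.smul_of_tower_mem _ (((Perm.sign π : ℤˣ) : ℤ) : ℚ) key)
  have k2 := rename_mem_Fil ar η (mem_GT.mp (inv_mem_GT hρ)).1 k1
  rw [image_GT (inv_mem_GT hρ)] at k2
  have e : rename (ρ * π) (D.Y T b it) - (((Perm.sign (ρ * π) : ℤˣ) : ℤ) : ℚ) • D.Y T b it -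
      (((Perm.sign π : ℤˣ) : ℤ) : ℚ) •
        (rename ρ (D.Y T b it) - (((Perm.sign ρ : ℤˣ) : ℤ) : ℚ) • D.Y T b it) =
      rename ρ (rename π (D.Y T b it) - (((Perm.sign π : ℤˣ) : ℤ) : ℚ) • D.Y T b it) := by
    rw [map_sub, map_smul, rename_rename, Perm.sign_mul, smul_sub, smul_smul, Units.val_mul,
      Int.cast_mul, mul_comm (((Perm.sign ρ : ℤˣ) : ℤ) : ℚ), Perm.coe_mul]
    abel
  rw [e, rename_rename, ← Perm.coe_mul, inv_mul_cancel, Perm.coe_one, rename_id] at k2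
  exact k2

open Classical in
theorem mb_stab_sign_aux (hs : Sym0 ar η) (hb : IsEP η T b) (h : D.Valid T b it)
    (hc : ∀ x, Ferm ar (D.dg x.1) → (conf T b it).count x ≤ 1) {π : Perm (Om V K)}
    (hπ : π ∈ GT T) (hP : SameP T (b ∘ π.symm) b) (hi : ∀ s ∈ T, it (b (π.symm s)) = it (b s)) :
    rename π (D.Y T b it) - (((Perm.sign π : ℤˣ) : ℤ) : ℚ) • D.Y T b it ∈
      Fil ar η T (D.lev T b it) (nb T b) := by
  refine mb_stab_sign_ind D hs hb h hc _ π hπ (fun s h1 s' h2 => ⟨fun e => ?_, fun e => ?_⟩)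
    (fun s h1 => ?_) rfl
  · simpa using hP.2 _ (mb_GT_mem hπ h1) _ (mb_GT_mem hπ h2) e
  · exact hP.1 _ (mb_GT_mem hπ h1) _ (mb_GT_mem hπ h2) (by simpa using e)
  · simpa using (hi _ (mb_GT_mem hπ h1)).symm

end
end Vale.Agent.P066
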