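import Vale.Agent.P066.CSym
import Vale.Agent.P066.CMatchAuxB

/-! Part C: placed products of BPS elements, signs. -/

namespace Vale.Agent.P066
open MvPolynomial Equiv
noncomputable section
variable {V : Type} [Fintype V] [DecidableEq V] {K : ℕ}
variable {ar : V → V → ℕ} {η : Stab (V → ℤ)} {Γ : Type} (D : BD ar η K Γ)
  {T : Finset (Om V K)} {b b' : Om V K → ℕ} {it it' : ℕ → Γ × ℕ}

theorem BD.Valid.isEP (h : D.Valid T b it) : IsEP η T b := fun i => by
  by_cases hi : i ∈ T.image b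
  · rw [← h i hi]
    exact D.z _
  · have : blk T b i = ∅ := Finset.filter_eq_empty_iff.2 fun s hs e =>
      hi (Finset.mem_image.2 ⟨s, hs, e⟩)
    rw [this, dv_empty, dz_zero]
    exact η.zero_zero
theorem BD.Valid.hw (h : D.Valid T b it) : ∀ i ∈ T.image b,
    pl (blk T b i) (D.u (it i).1) ∈ RT (blk T b i) ∧
      (pl (blk T b i) (D.u (it i).1)).IsHomogeneous (D.kg (it i).1) ∧
      pl (blk T b i) (D.u (it i).1) ∈ Fil ar η (blk T b i) (D.kg (it i).1) 2 := fun i hi =>
  ⟨(D.pl_mem (h i hi)).1.1.1, (D.pl_mem (h i hi)).1.2, (D.pl_mem (h i hi)).2⟩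
theorem BD.Y_mem_RT (h : D.Valid T b it) : D.Y T b it ∈ RT T :=
  RT_mul (RT_mul (Kb_mem_RT ar T b) ((supported ℚ (T : Set (Om V K))).prod_mem fun i hi =>
    RT_mono (Finset.filter_subset _ _) (h.hw D i hi).1))
    ((supported ℚ (T : Set (Om V K))).prod_mem fun _ _ => (supported ℚ (T : Set (Om V K))).pow_mem
      (RT_mono (Finset.filter_subset _ _) (pB_mem_RT _)) _)
theorem BD.Y_isHomogeneous (h : D.Valid T b it) :
    (D.Y T b it).IsHomogeneous (D.lev T b it + ∑ i ∈ T.image b, (it i).2) :=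
  ((Kb_isHomogeneous ar T b).mul (IsHomogeneous.prod _ _ _ fun i hi => (h.hw D i hi).2.1)).mul
    (IsHomogeneous.prod _ _ _ fun i _ => by simpa using (pB_isHomogeneous (blk T b i)).pow (it i).2)
theorem BD.Y_mem_Fil (hs : Sym0 ar η) (h : D.Valid T b it) :
    D.Y T b it ∈ Fil ar η T (D.lev T b it) (nb T b + 1) :=
  bound_mem_Fil hs (h.isEP D) (h.hw D) _
theorem BD.conf_sum (h : D.Valid T b it) :
    ((conf T b it).map fun x => D.dg x.1).sum = dv T := by
  rw [conf, Multiset.map_map, dv_eq_sum_blk T b]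
  exact Finset.sum_congr rfl h
theorem BD.Valid.image (h : D.Valid T b it) {π : Perm (Om V K)} (hπ : CP π) :
    D.Valid (T.image π) (b ∘ π.symm) it := fun i hi => by
  rw [labels_image hπ] at hi
  rw [blk_image hπ, dv_image hπ, h i hi]
theorem sign_mul_A {ε ε' : ℚ} (h : ε = 1 ∨ ε = -1) (h' : ε' = 1 ∨ ε' = -1) :
    ε * ε' = 1 ∨ ε * ε' = -1 := by
  rcases h with rfl | rfl <;> rcases h' with rfl | rfl <;> simp
theorem BD.rename_Y (h : D.Valid T b it) {π : Perm (Om V K)} (hπ : CP π) :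
    ∃ ε : ℚ, (ε = 1 ∨ ε = -1) ∧
      rename π (D.Y T b it) = ε • D.Y (T.image π) (b ∘ π.symm) it := by
  have key : ∀ i ∈ T.image b, ∃ ε : ℚ, (ε = 1 ∨ ε = -1) ∧ rename π (pl (blk T b i) (D.u (it i).1)) =
      ε • pl ((blk T b i).image π) (D.u (it i).1) := fun i hi =>
    rename_pl hπ _ (by rw [← h i hi]; exact (D.u_mem _).1.1)
  choose! ε h1 h2 using key
  refine ⟨∏ i ∈ T.image b, ε i, Finset.prod_induction _ (fun x => x = 1 ∨ x = -1)
    (fun _ _ => sign_mul_A) (Or.inl rfl) h1, ?_⟩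
  simp only [BD.Y, map_mul, map_prod, map_pow, rename_Kb ar hπ, rename_pB hπ, labels_image hπ,
    blk_image hπ]
  rw [Finset.prod_congr rfl h2, Finset.prod_smul, mul_smul_comm, smul_mul_assoc]
theorem BD.relabel (hs : Sym0 ar η) (h : D.Valid T b it) (hbb : SameP T b b')
    (hi : ∀ s ∈ T, it' (b' s) = it (b s)) : ∃ ε : ℚ, (ε = 1 ∨ ε = -1) ∧
      D.Y T b' it' - ε • D.Y T b it ∈ Fil ar η T (D.lev T b it) (nb T b) := by
  obtain ⟨ε, h1, h2⟩ := eval_Kb_sameP hs (h.isEP D) hbb
  refine ⟨ε, h1, ?_⟩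
  have e1 := hbb.prod_eq (fun i => pl (blk T b i) (D.u (it i).1))
    (fun i => pl (blk T b' i) (D.u (it' i).1)) fun s hs => by rw [hbb.blk_eq hs, hi s hs]
  have e2 := hbb.prod_eq (fun i => pB (blk T b i) ^ (it i).2)
    (fun i => pB (blk T b' i) ^ (it' i).2) fun s hs => by rw [hbb.blk_eq hs, hi s hs]
  rw [BD.Y, ← e1, ← e2]
  exact reorder_of_eval hs (h.isEP D) (h.hw D) _ hbb ε h2
theorem conf_eq_of_sameP (hbb : SameP T b b') (hi : ∀ s ∈ T, it' (b' s) = it (b s)) :
    conf T b' it' = conf T b it := by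
  have e : ∀ (b : Om V K → ℕ) (it : ℕ → Γ × ℕ), conf T b it = ∑ i ∈ T.image b, {it i} :=
    fun b it => by
      rw [conf, ← Multiset.sum_map_singleton (Multiset.map it _), Multiset.map_map]
      rfl
  rw [e, e]
  exact (hbb.prod_eq (fun i => Multiplicative.ofAdd ({it i} : Multiset (Γ × ℕ)))
    (fun i => Multiplicative.ofAdd ({it' i} : Multiset (Γ × ℕ))) fun s hs => by rw [hi s hs]).symm
theorem exists_bij_A {α : Type} {L L' : Finset ℕ} {f g : ℕ → α} (h : L.val.map f = L'.val.map g) :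
    ∃ σ : ℕ → ℕ, Set.BijOn σ L L' ∧ ∀ i ∈ L, g (σ i) = f i := by
  classical
  have key : ∀ x, Fintype.card {i : L // f i = x} = Fintype.card {i : L' // g i = x} := fun x => by
    have e : ∀ (L : Finset ℕ) (f : ℕ → α),
        Fintype.card {i : L // f i = x} = (L.val.map f).count x := fun L f => by
      rw [Fintype.card_subtype, Multiset.count_map, Finset.card_filter,
        Finset.sum_coe_sort L fun i => if f i = x then 1 else 0, ← Finset.card_filter]
      simp only [eq_comm (a := x)]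
      rfl
    rw [e, e, h]
  let e : L ≃ L' := Equiv.ofFiberEquiv (f := fun i : L => f i) (g := fun i : L' => g i)
    fun x => Fintype.equivOfCardEq (key x)
  have he : ∀ i : L, g (e i) = f i := fun i =>
    Equiv.ofFiberEquiv_map (fun x => Fintype.equivOfCardEq (key x)) i
  refine ⟨fun i => if hi : i ∈ L then e ⟨i, hi⟩ else 0, ⟨fun i hi => ?_, fun i hi j hj hij => ?_,
    fun j hj => ?_⟩, fun i hi => ?_⟩
  · simp only [Finset.mem_coe.1 hi, dif_pos]
    exact (e _).2
  · simp only [Finset.mem_coe.1 hi, Finset.mem_coe.1 hj, dif_pos] at hij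
    exact congrArg Subtype.val (e.injective (Subtype.ext hij))
  · exact ⟨e.symm ⟨j, hj⟩, (e.symm ⟨j, hj⟩).2, by simp⟩
  · simp only [hi, dif_pos, he]
/-- equal configurations are related by a colour preserving permutation -/
theorem BD.exists_match (h : D.Valid T b it) (h' : D.Valid T b' it')
    (hc : conf T b it = conf T b' it') : ∃ π ∈ GT T, SameP T (b ∘ π.symm) b' ∧
      ∀ s ∈ T, it' (b' s) = it (b (π.symm s)) := by
  obtain ⟨σ, hσ, hit⟩ := exists_bij_A hc
  have hm : ∀ s ∈ T, b s ∈ T.image b := fun s hs => Finset.mem_image_of_mem b hs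
  obtain ⟨π, hπ⟩ := exists_perm_of_card_fiber (X := V × (ℕ ⊕ Om V K))
    (fun s => (s.1, if s ∈ T then Sum.inl (σ (b s)) else Sum.inr s))
    (fun s => (s.1, if s ∈ T then Sum.inl (b' s) else Sum.inr s)) (by
      rintro ⟨v, j | t⟩
      · have e : ∀ c : Om V K → ℕ, (Finset.univ.filter fun s : Om V K =>
            (s.1, if s ∈ T then Sum.inl (c s) else Sum.inr s) =
              (v, (Sum.inl j : ℕ ⊕ Om V K))).card = dv (blk T c j) v := fun c => by
          rw [dv]
          congr 1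
          ext s
          by_cases hs : s ∈ T <;> simp [blk, hs, and_comm]
        rw [e fun s => σ (b s), e b']
        by_cases hj : j ∈ T.image b'
        · obtain ⟨i, hi, rfl⟩ := hσ.surjOn hj
          rw [← h' _ hj, hit i hi, h i hi]
          congr 1
          exact Finset.filter_congr fun s hs => hσ.injOn.eq_iff (hm s hs) hi
        · congr 1
          refine (Finset.filter_eq_empty_iff.2 fun s hs e => hj ?_).trans
            (Finset.filter_eq_empty_iff.2 fun s hs e => hj ?_).symm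
          · exact e ▸ hσ.mapsTo (hm s hs)
          · exact e ▸ Finset.mem_image_of_mem b' hs
      · congr 1
        ext s
        by_cases hs : s ∈ T <;> simp [hs])
  have hG : π ∈ GT T := mem_GT.2 ⟨fun s => (Prod.ext_iff.1 (hπ s)).1, fun s hs => by
    have := congrArg Prod.snd (hπ s)
    by_cases h1 : π s ∈ T <;> simp [hs, h1] at this
    exact this⟩
  have h1 : ∀ s ∈ T, π.symm s ∈ T := fun s hs => apply_mem_of_GT (inv_mem_GT hG) hs
  have h2 : ∀ s ∈ T, b' s = σ (b (π.symm s)) := fun s hs => by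
    have := congrArg Prod.snd (hπ (π.symm s))
    simpa [hs, h1 s hs] using this
  refine ⟨π, hG, ⟨fun s hs s' hs' e => ?_, fun s hs s' hs' e => ?_⟩, fun s hs => ?_⟩
  · rw [h2 s hs, h2 s' hs']
    exact congrArg σ e
  · rw [h2 s hs, h2 s' hs'] at e
    exact hσ.injOn (hm _ (h1 s hs)) (hm _ (h1 s' hs')) e
  · rw [h2 s hs, hit _ (hm _ (h1 s hs))]
theorem BD.lev_eq (hs : Sym0 ar η) (h : D.Valid T b it) (h' : D.Valid T b' it')
    (hc : conf T b it = conf T b' it') : D.lev T b it = D.lev T b' it' ∧ nb T b = nb T b' := by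
  obtain ⟨π, hπ, hP, -⟩ := D.exists_match h h' hc
  have h1 := (mem_GT.1 hπ).1
  have h2 := (h.isEP D).image η h1
  have h3 := kap_image ar h1 T b
  rw [image_GT hπ] at h2 h3
  have e : ∀ (b : Om V K → ℕ) (it : ℕ → Γ × ℕ), ∑ i ∈ T.image b, D.kg (it i).1 =
      ((conf T b it).map fun x => D.kg x.1).sum := fun b it => by
    rw [conf, Multiset.map_map]
    rfl
  refine ⟨by rw [BD.lev, BD.lev, ← h3, hP.kap_eq hs h2, e, e, hc], ?_⟩
  have h4 := congrArg Multiset.card hc
  rwa [conf, conf, Multiset.card_map, Multiset.card_map] at h4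
theorem BD.Alt_match (hs : Sym0 ar η) (h : D.Valid T b it) (h' : D.Valid T b' it')
    (hc : conf T b it = conf T b' it') : ∃ ε : ℚ, (ε = 1 ∨ ε = -1) ∧
      Alt T (D.Y T b' it') - ε • Alt T (D.Y T b it) ∈ Fil ar η T (D.lev T b it) (nb T b) := by
  obtain ⟨π, hπ, hP, hi⟩ := D.exists_match h h' hc
  have h1 := (mem_GT.1 hπ).1
  have h2 := h.image D h1
  obtain ⟨ε, hε, h3⟩ := D.rename_Y h h1
  have h4 := labels_image h1 T b
  rw [image_GT hπ] at h2 h3 h4
  obtain ⟨ε', hε', h5⟩ := D.relabel hs h2 hP hi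
  obtain ⟨h6, h7⟩ := D.lev_eq hs h h2 (by rw [conf, conf, h4])
  have h8 := Alt_mem_Fil ar η h5
  have h9 := Alt_rename (D.Y T b it) hπ
  have hεε : ε * ε = 1 := by rcases hε with rfl | rfl <;> simp
  rw [h3, map_smul] at h9
  have h10 : Alt T (D.Y T (b ∘ π.symm) it) =
      (ε * (((Perm.sign π : ℤˣ) : ℤ) : ℚ)) • Alt T (D.Y T b it) := by
    rw [mul_smul, ← h9, smul_smul, hεε, one_smul]
  rw [map_sub, map_smul, h10, smul_smul, ← h6, ← h7] at h8
  refine ⟨_, sign_mul_A hε' (sign_mul_A hε ?_), h8⟩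
  rcases Int.units_eq_one_or (Perm.sign π) with h | h <;> simp [h]
theorem BD.exists_place_A (x₀ : Γ × ℕ) (c : Multiset (Γ × ℕ)) : ∀ T : Finset (Om V K),
    (c.map fun x => D.dg x.1).sum = dv T → ∃ b it, D.Valid T b it ∧ conf T b it = c := by
  induction c using Multiset.induction_on with
  | empty =>
    intro T hc
    obtain rfl := dv_eq_zero (T := T) (by simpa using hc.symm)
    exact ⟨0, fun _ => x₀, fun i hi => by simp at hi, by simp [conf]⟩
  | cons x c ih =>
    intro T hc
    rw [Multiset.map_cons, Multiset.sum_cons] at hc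
    obtain ⟨h1, h2⟩ := mv_spec T
    set B := (std K (D.dg x.1)).image (mv T) with hB
    have hBT : B ⊆ T := by
      rw [← h2]
      exact Finset.image_subset_image (std_mono (hc ▸ le_self_add))
    have hd : dv B = D.dg x.1 := by rw [hB, dv_image h1, dv_std (D.le _)]
    obtain ⟨b, it, hv, rfl⟩ := ih (T \ B) (funext fun v => by
      have h3 := dv_sdiff hBT v
      have h4 := congrFun hc v
      rw [hd] at h3
      rw [Pi.add_apply] at h4
      omega)
    obtain ⟨n, hn⟩ := Infinite.exists_notMem_finset ((T \ B).image b)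
    obtain ⟨s₀, hs₀⟩ : B.Nonempty := Finset.nonempty_iff_ne_empty.2 fun e =>
      D.ne x.1 (by rw [← hd, e, dv_empty])
    have hne : ∀ s ∈ T, s ∉ B → b s ≠ n := fun s hs hs' e =>
      hn (Finset.mem_image.2 ⟨s, Finset.mem_sdiff.2 ⟨hs, hs'⟩, e⟩)
    have him : (T.image fun s => if s ∈ B then n else b s) = insert n ((T \ B).image b) := by
      ext i
      simp only [Finset.mem_image, Finset.mem_insert, Finset.mem_sdiff]
      constructor
      · rintro ⟨s, hs, rfl⟩
        by_cases h : s ∈ B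
        · exact Or.inl (if_pos h)
        · exact Or.inr ⟨s, ⟨hs, h⟩, (if_neg h).symm⟩
      · rintro (rfl | ⟨s, ⟨hs, h⟩, rfl⟩)
        · exact ⟨s₀, hBT hs₀, if_pos hs₀⟩
        · exact ⟨s, hs, if_neg h⟩
    refine ⟨fun s => if s ∈ B then n else b s, Function.update it n x, fun i hi => ?_, ?_⟩
    · rw [him] at hi
      rcases Finset.mem_insert.1 hi with rfl | hi
      · rw [Function.update_self, ← hd]
        congr 1
        ext s
        by_cases h : s ∈ B
        · simp [blk, h, hBT h]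
        · simpa [blk, h] using fun hs => hne s hs h
      · have hin : i ≠ n := fun e => hn (e ▸ hi)
        rw [Function.update_of_ne hin, hv i hi]
        congr 1
        ext s
        by_cases h : s ∈ B <;> simp [blk, h, hin.symm]
    · rw [conf, him, Finset.insert_val_of_notMem hn, Multiset.map_cons, Function.update_self, conf]
      congr 1
      exact Multiset.map_congr rfl fun i hi => Function.update_of_ne (fun e : i = n => hn (e ▸ hi)) _ _
theorem BD.exists_place (hne : T.Nonempty) {c : Multiset (Γ × ℕ)}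
    (hc : (c.map fun x => D.dg x.1).sum = dv T) :
    ∃ b it, D.Valid T b it ∧ conf T b it = c := by
  obtain ⟨x₀, -⟩ := Multiset.exists_mem_of_ne_zero (s := c) fun e =>
    hne.ne_empty (dv_eq_zero (by simpa [e] using hc.symm))
  exact D.exists_place_A x₀ c T hc

section signs
/-- exchanging two blocks that carry the same item -/
theorem BD.exists_swap (hs : Sym0 ar η) (h : D.Valid T b it) {i j : ℕ} (hi : i ∈ T.image b)
    (hj : j ∈ T.image b) (hij : i ≠ j) (he : it i = it j) :
    ∃ π ∈ GT T, (∀ s ∈ T, b (π s) = swap i j (b s)) ∧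
      rename π (D.Y T b it) - ((((Perm.sign π : ℤˣ) : ℤ) : ℚ) *
        (-1) ^ (∑ v, D.dg (it i).1 v + aa ar (D.dg (it i).1) (D.dg (it i).1))) • D.Y T b it ∈
        Fil ar η T (D.lev T b it) (nb T b) :=
  mb_exists_swap_aux D hs (h.isEP D) h hi hj hij he
open Classical in
theorem BD.Alt_odd (hs : Sym0 ar η) (h : D.Valid T b it) {x : Γ × ℕ} (hx : Ferm ar (D.dg x.1))
    (hc : 1 < (conf T b it).count x) :
    Alt T (D.Y T b it) ∈ Fil ar η T (D.lev T b it) (nb T b) :=
  mb_Alt_odd_aux D hs (h.isEP D) h hx hc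
open Classical in
/-- the stabiliser acts by the sign character -/
theorem BD.stab_sign (hs : Sym0 ar η) (h : D.Valid T b it)
    (hc : ∀ x, Ferm ar (D.dg x.1) → (conf T b it).count x ≤ 1) {π : Perm (Om V K)}
    (hπ : π ∈ GT T) (hP : SameP T (b ∘ π.symm) b) (hi : ∀ s ∈ T, it (b (π.symm s)) = it (b s)) :
    rename π (D.Y T b it) - (((Perm.sign π : ℤˣ) : ℤ) : ℚ) • D.Y T b it ∈
      Fil ar η T (D.lev T b it) (nb T b) :=
  mb_stab_sign_aux D hs (h.isEP D) h hc hπ hP hi
end signs

end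
end Vale.Agent.P066
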