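import Vale.Agent.P066.CPBWAuxB

/-! Part C: the PBW type basis of the semistable quotient. -/

namespace Vale.Agent.P066
open MvPolynomial Equiv
noncomputable section
variable {V : Type} [Fintype V] [DecidableEq V] {K : ℕ}
variable {ar : V → V → ℕ} {η : Stab (V → ℤ)} {Γ : Type} (D : BD ar η K Γ)
  {T : Finset (Om V K)}

section step
/-- one block structure: subtract products to kill the symbol at `b` -/
theorem BD.step_one (hs : Sym0 ar η) (hne : T.Nonempty) {b : Om V K → ℕ} (hb : IsEP η T b) {w : ℕ}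
    (hw : kap ar T b ≤ w) {f : PR V K} (hA : f ∈ Anti T) (hf : f ∈ Fil ar η T w (nb T b + 1)) :
    ∃ F ∈ Submodule.span ℚ {y | ∃ it, D.Valid T b it ∧ D.lev T b it = w ∧ y = D.Y T b it},
      f - F ∈ OrdAt ar η T b (w - kap ar T b + 1) := D.step_one' hs hne hb hw hA hf

theorem BD.step (hs : Sym0 ar η) (hne : T.Nonempty) {w r : ℕ} {f : PR V K} (hA : f ∈ Anti T)
    (hf : f ∈ Fil ar η T w (r + 1)) :
    ∃ F ∈ Submodule.span ℚ
      {y | ∃ b it, D.Valid T b it ∧ D.lev T b it = w ∧ nb T b = r ∧ y = D.Y T b it},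
      f - F ∈ Fil ar η T w r := D.step' hs hne hA hf
end step

section indep
open Classical in
/-- the test functional attached to a placed configuration -/
theorem BD.exists_test (hs : Sym0 ar η) {b : Om V K → ℕ} {it : ℕ → Γ × ℕ} (h : D.Valid T b it) :
    ∃ Θ : PR V K →ₗ[ℚ] ℚ, (∀ f ∈ Fil ar η T (D.lev T b it) (nb T b), Θ f = 0) ∧
      Θ (D.Y T b it) = 1 ∧ ∀ b' it', D.Valid T b' it' → D.lev T b' it' = D.lev T b it →
        nb T b' = nb T b → Θ (D.Y T b' it') ≠ 0 →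
        SameP T b' b ∧ ∀ s ∈ T, it' (b' s) = it (b s) := by
  have hb : IsEP η T b := h.isEP D
  set k : ℕ := ∑ i ∈ T.image b, D.kg (it i).1 with hk
  have hex : ∀ i, ∃ l : PR V K →ₗ[ℚ] ℚ, i ∈ T.image b →
      (∀ q ∈ Jnn ar η (blk T b i), l q = 0) ∧ ∀ γ, D.dg γ = dv (blk T b i) →
        l (pl (blk T b i) (D.u γ)) = if γ = (it i).1 then 1 else 0 := by
    intro i
    by_cases hi : i ∈ T.image b
    · obtain ⟨s, hs1, hs2⟩ := Finset.mem_image.1 hi
      obtain ⟨l, hl1, hl2⟩ := (D.bm_pl (B := blk T b i) ⟨s, Finset.mem_filter.2 ⟨hs1, hs2⟩⟩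
        (hb i)).exists_dual ⟨(it i).1, h i hi⟩
      refine ⟨l, fun _ => ⟨hl1, fun γ hγ => ?_⟩⟩
      rw [hl2 ⟨γ, hγ⟩]
      simp only [Subtype.mk.injEq]
    · exact ⟨0, fun h' => absurd h' hi⟩
  choose l hl using hex
  obtain ⟨Λ, hΛ1, hΛ2⟩ := exists_prod_dual (T.image b) (blk T b)
    (fun i => {q | ∃ A, A ⊆ blk T b i ∧ η.neg (dz (dv A)) ∧ q = kr ar A (blk T b i \ A)})
    (fun i _ j _ hij => Finset.disjoint_filter.2 fun s _ h1 h2 => hij (h1.symm.trans h2))
    (by
      rintro i _ q ⟨A, hA, _, rfl⟩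
      exact kr_mem_RT ar hA Finset.sdiff_subset) l (fun i hi => (hl i hi).1)
  obtain ⟨Θ₁, hΘ₁⟩ := exists_symbol_poly T b (Λ ∘ₗ hc k)
  have hkill : ∀ g ∈ aI ar η T b ⊔ mI V K ^ (k + 1), Λ (hc k g) = 0 := by
    intro g hg
    have h1 : aI ar η T b ⊔ mI V K ^ (k + 1) ≤ aI ar η T b ⊔ mI V K ^ k :=
      sup_le_sup_left (Ideal.pow_le_pow_right (Nat.le_succ k)) _
    exact hΛ1 _ ((mem_sup_pow_succ_iff (gr_aI ar η T b) (h1 hg)).1 hg)
  have hord : ∀ f ∈ OrdAt ar η T b (k + 1), Θ₁ f = 0 := by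
    intro f hf
    apply MvPolynomial.funext
    intro c
    rw [hΘ₁, map_zero]
    exact hkill _ (mem_OrdAt.1 hf c)
  obtain ⟨Li, hLi⟩ := LinearMap.exists_leftInverse_of_injective
    (LinearMap.mulLeft ℚ (Ktop ar T b))
    (LinearMap.ker_eq_bot.2 (mul_right_injective₀ Ktop_ne_zero))
  have hLi' : ∀ x, Li (Ktop ar T b * x) = x := fun x => LinearMap.congr_fun hLi x
  have hprop : ∀ {b' : Om V K → ℕ} {it' : ℕ → Γ × ℕ}, D.Valid T b' it' → ∀ i ∈ T.image b',
      pl (blk T b' i) (D.u (it' i).1) ∈ RT (blk T b' i) ∧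
      (pl (blk T b' i) (D.u (it' i).1)).IsHomogeneous (D.kg (it' i).1) ∧
      pl (blk T b' i) (D.u (it' i).1) ∈ Fil ar η (blk T b' i) (D.kg (it' i).1) 2 :=
    fun h' i hi => ⟨(D.pl_mem (h' i hi)).1.1.1, (D.pl_mem (h' i hi)).1.2, (D.pl_mem (h' i hi)).2⟩
  let Θ : PR V K →ₗ[ℚ] ℚ :=
    lcoeff ℚ (∑ i ∈ T.image b, Finsupp.single i (it i).2) ∘ₗ Li ∘ₗ Θ₁
  have hΘ0 : ∀ f ∈ OrdAt ar η T b (k + 1), Θ f = 0 := by
    intro f hf
    simp only [Θ, LinearMap.comp_apply, hord f hf, map_zero]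
  have key : ∀ it' : ℕ → Γ × ℕ, D.Valid T b it' → ∑ i ∈ T.image b, D.kg (it' i).1 = k →
      ∀ (K' : PR V K) (ε : ℚ), (∀ c, eval (pt T b c) K' = ε * eval (pt T b c) (Kb ar T b)) →
      Θ (K' * (∏ i ∈ T.image b, pl (blk T b i) (D.u (it' i).1)) *
        ∏ i ∈ T.image b, pB (blk T b i) ^ (it' i).2) =
      ε * (∏ i ∈ T.image b, if (it' i).1 = (it i).1 then 1 else 0) *
        if ∑ i ∈ T.image b, Finsupp.single i (it' i).2 =
          ∑ i ∈ T.image b, Finsupp.single i (it i).2 then 1 else 0 := by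
    intro it' h' hk' K' ε hε
    have hW : (∏ i ∈ T.image b, pl (blk T b i) (D.u (it' i).1)).IsHomogeneous k :=
      hk' ▸ IsHomogeneous.prod _ _ _ fun i hi => (hprop h' i hi).2.1
    have hΛW : Λ (∏ i ∈ T.image b, pl (blk T b i) (D.u (it' i).1)) =
        ∏ i ∈ T.image b, if (it' i).1 = (it i).1 then 1 else 0 := by
      rw [hΛ2 _ fun i hi => (hprop h' i hi).1]
      exact Finset.prod_congr rfl fun i hi => (hl i hi).2 _ (h' i hi)
    have e1 : Θ₁ (K' * (∏ i ∈ T.image b, pl (blk T b i) (D.u (it' i).1)) *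
        ∏ i ∈ T.image b, pB (blk T b i) ^ (it' i).2) = Ktop ar T b *
        monomial (∑ i ∈ T.image b, Finsupp.single i (it' i).2)
          (ε * ∏ i ∈ T.image b, if (it' i).1 = (it i).1 then 1 else 0) := by
      apply MvPolynomial.funext
      intro c
      have h1 := symbol_prod hs hb (hprop h')
        (K' * ∏ i ∈ T.image b, pB (blk T b i) ^ (it' i).2) c
      rw [hk'] at h1
      have h2 := hkill _ h1
      rw [map_sub, map_sub, map_smul, map_smul, homogeneousComponent_eq_self hW, hΛW,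
        sub_eq_zero] at h2
      have h3 : eval (pt T b c) (∏ i ∈ T.image b, pB (blk T b i) ^ (it' i).2) =
          eval c (monomial (∑ i ∈ T.image b, Finsupp.single i (it' i).2) (1 : ℚ)) := by
        rw [monomial_sum_one, map_prod, map_prod]
        refine Finset.prod_congr rfl fun i hi => ?_
        rw [map_pow, eval_pB hi, ← X_pow_eq_monomial, map_pow, eval_X]
      rw [hΘ₁, LinearMap.comp_apply, mul_comm K', mul_assoc, h2, map_mul, hε, h3, eval_Kb,
        map_mul, eval_monomial, eval_monomial, smul_eq_mul]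
      ring
    simp only [Θ, LinearMap.comp_apply, e1, hLi', lcoeff_apply, coeff_monomial]
    split_ifs <;> ring
  refine ⟨Θ, fun f hf => hΘ0 f ?_, ?_, fun b' it' h' hlev hnb hne => ?_⟩
  · have h1 := mem_Fil.1 hf b hb
    rw [if_neg (lt_irrefl _)] at h1
    have h2 : D.lev T b it + 1 - kap ar T b = k + 1 := by
      simp only [BD.lev]; omega
    rwa [h2] at h1
  · have h1 := key it h rfl (Kb ar T b) 1 fun c => (one_mul _).symm
    simp only [if_true, Finset.prod_const_one, mul_one] at h1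
    exact h1
  · have hb' : IsEP η T b' := h'.isEP D
    have hlev' : kap ar T b' + ∑ i ∈ T.image b', D.kg (it' i).1 = kap ar T b + k := hlev
    have hP : SameP T b' b := by
      by_contra hn
      rcases bound_other hs hb' (hprop h') (∏ i ∈ T.image b', pB (blk T b' i) ^ (it' i).2) hb
        hnb.symm hn with h1 | h1
      · rw [hlev', Nat.add_sub_cancel_left] at h1
        exact hne (hΘ0 _ h1)
      · omega
    refine ⟨hP, ?_⟩
    let it₂ : ℕ → Γ × ℕ := fun i =>
      if hi : ∃ s ∈ T, b s = i then it' (b' hi.choose) else it i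
    have hit : ∀ s ∈ T, it₂ (b s) = it' (b' s) := by
      intro s hs'
      have hi : ∃ t ∈ T, b t = b s := ⟨s, hs', rfl⟩
      simp only [it₂, dif_pos hi]
      rw [hP.2 _ hi.choose_spec.1 s hs' hi.choose_spec.2]
    have hv : D.Valid T b it₂ := by
      intro i hi
      obtain ⟨s, hs', rfl⟩ := Finset.mem_image.1 hi
      rw [hit s hs', h' _ (Finset.mem_image_of_mem _ hs'), hP.blk_eq hs']
    have hsum : ∑ i ∈ T.image b, D.kg (it₂ i).1 = k := by
      have h1 := hP.prod_eq (M := Multiplicative ℕ)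
        (fun i => Multiplicative.ofAdd (D.kg (it' i).1))
        (fun i => Multiplicative.ofAdd (D.kg (it₂ i).1)) fun s hs' => by rw [hit s hs']
      rw [← ofAdd_sum, ← ofAdd_sum] at h1
      have h2 := Multiplicative.ofAdd.injective h1
      have h3 := hP.kap_eq hs hb'
      omega
    obtain ⟨ε, _, hε⟩ := eval_Kb_sameP hs hb ⟨hP.2, hP.1⟩
    have hY : D.Y T b' it' = Kb ar T b' * (∏ i ∈ T.image b, pl (blk T b i) (D.u (it₂ i).1)) *
        ∏ i ∈ T.image b, pB (blk T b i) ^ (it₂ i).2 := by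
      unfold BD.Y
      rw [hP.prod_eq (fun i => pl (blk T b' i) (D.u (it' i).1))
        (fun i => pl (blk T b i) (D.u (it₂ i).1)) fun s hs' => by rw [hit s hs', hP.blk_eq hs'],
        hP.prod_eq (fun i => pB (blk T b' i) ^ (it' i).2)
        (fun i => pB (blk T b i) ^ (it₂ i).2) fun s hs' => by rw [hit s hs', hP.blk_eq hs']]
    rw [hY, key it₂ hv hsum _ ε hε] at hne
    intro s hs'
    have hi : b s ∈ T.image b := Finset.mem_image_of_mem _ hs'
    rw [← hit s hs']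
    refine Prod.ext ?_ ?_
    · by_contra hn
      exact hne (by rw [Finset.prod_eq_zero hi (if_neg hn), mul_zero, zero_mul])
    · have h1 : ∑ i ∈ T.image b, Finsupp.single i (it₂ i).2 =
          ∑ i ∈ T.image b, Finsupp.single i (it i).2 := by
        by_contra hn
        exact hne (by rw [if_neg hn, mul_zero])
      have h2 := DFunLike.congr_fun h1 (b s)
      simpa only [Finsupp.finsetSum_apply, Finsupp.single_apply, Finset.sum_ite_eq', if_pos hi]
        using h2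

theorem BD.indep (hs : Sym0 ar η)
    (b : Conf D.dg (fun γ => Ferm ar (D.dg γ)) (dv T) → Om V K → ℕ)
    (it : Conf D.dg (fun γ => Ferm ar (D.dg γ)) (dv T) → ℕ → Γ × ℕ)
    (h : ∀ c, D.Valid T (b c) (it c) ∧ conf T (b c) (it c) = c.1)
    (l : Conf D.dg (fun γ => Ferm ar (D.dg γ)) (dv T) →₀ ℚ)
    (hl : Finsupp.linearCombination ℚ (fun c => Alt T (D.Y T (b c) (it c))) l ∈ Jnn ar η T) :
    l = 0 := by
  classical
  by_contra hl0
  have hne : l.support.Nonempty := Finsupp.support_nonempty_iff.2 hl0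
  obtain ⟨c₁, hc₁, hmin⟩ := Finset.exists_min_image l.support (fun c => D.lev T (b c) (it c)) hne
  obtain ⟨c₀, hc₀, hmax⟩ := Finset.exists_max_image
    (l.support.filter fun c => D.lev T (b c) (it c) = D.lev T (b c₁) (it c₁))
    (fun c => nb T (b c)) ⟨c₁, Finset.mem_filter.2 ⟨hc₁, rfl⟩⟩
  obtain ⟨hc₀, hlev₀⟩ := Finset.mem_filter.1 hc₀
  obtain ⟨Θ, hΘ1, hΘ2, hΘ3⟩ := D.exists_test hs (h c₀).1
  have hterm : ∀ c, D.lev T (b c) (it c) = D.lev T (b c₀) (it c₀) → nb T (b c) = nb T (b c₀) →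
      ∀ π ∈ GT T, Θ (rename π (D.Y T (b c) (it c))) ≠ 0 →
      c = c₀ ∧ SameP T (b c ∘ π.symm) (b c₀) ∧ ∀ s ∈ T, it c (b c (π.symm s)) = it c₀ (b c₀ s) := by
    intro c h1 h2 π hπ h3
    have hCP := (mem_GT.1 hπ).1
    obtain ⟨ε, _, hε⟩ := D.rename_Y (h c).1 hCP
    have hv := (h c).1.image D hCP
    have hlab := labels_image hCP T (b c)
    have hkap := kap_image ar hCP T (b c)
    rw [image_GT hπ] at hε hv hlab hkap
    rw [hε, map_smul] at h3
    obtain ⟨h4, h5⟩ := hΘ3 _ _ hv (by rw [← h1]; unfold BD.lev; rw [hlab, hkap])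
      (by rw [← h2]; unfold nb; rw [hlab]) (right_ne_zero_of_smul h3)
    refine ⟨Subtype.ext ?_, h4, h5⟩
    have h6 := conf_eq_of_sameP (it := it c₀) (it' := it c) ⟨h4.2, h4.1⟩ h5
    rw [← (h c).2, ← (h c₀).2, ← h6]
    unfold conf
    rw [hlab]
  have hother : ∀ c ∈ l.support, c ≠ c₀ → Θ (Alt T (D.Y T (b c) (it c))) = 0 := by
    intro c hc hcc
    have h0 := D.Y_mem_Fil hs (h c).1
    rcases (hmin c hc).eq_or_lt with h1 | h1
    · have h1' : D.lev T (b c) (it c) = D.lev T (b c₀) (it c₀) := h1.symm.trans hlev₀.symm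
      rcases (hmax c (Finset.mem_filter.2 ⟨hc, h1.symm⟩)).eq_or_lt with h2 | h2
      · rw [Alt_apply, map_sum]
        refine Finset.sum_eq_zero fun π hπ => ?_
        by_cases h3 : Θ (rename π (D.Y T (b c) (it c))) = 0
        · rw [map_smul, h3, smul_zero]
        · exact absurd (hterm c h1' h2 π hπ h3).1 hcc
      · rw [h1'] at h0
        exact hΘ1 _ (Alt_mem_Fil ar η (Fil_mono_r h2 h0))
    · exact hΘ1 _ (Alt_mem_Fil ar η (Fil_le_of_lt (hlev₀ ▸ h1) h0))
  have hself : 0 < Θ (Alt T (D.Y T (b c₀) (it c₀))) := by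
    rw [Alt_apply, map_sum]
    refine Finset.sum_pos' (fun π hπ => ?_) ⟨1, one_mem_GT T, ?_⟩
    · rw [map_smul]
      by_cases h3 : Θ (rename π (D.Y T (b c₀) (it c₀))) = 0
      · rw [h3, smul_zero]
      · obtain ⟨_, h4, h5⟩ := hterm c₀ rfl rfl π hπ h3
        have h6 := hΘ1 _ (D.stab_sign hs (h c₀).1
          (fun x hx => by rw [(h c₀).2]; exact c₀.2.2 x hx) hπ h4 h5)
        rw [map_sub, map_smul, hΘ2, sub_eq_zero, smul_eq_mul, mul_one] at h6
        rw [h6, smul_eq_mul, sign_mul_self]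
        exact zero_le_one
    · rw [map_smul, Perm.sign_one, Perm.coe_one, rename_id_apply, hΘ2]
      simp
  have h1 := hΘ1 _ (Jnn_le_Fil _ _ hl)
  rw [Finsupp.linearCombination_apply, Finsupp.sum, map_sum,
    Finset.sum_eq_single_of_mem c₀ hc₀ fun c hc hcc => by rw [map_smul, hother c hc hcc, smul_zero],
    map_smul, smul_eq_mul] at h1
  exact mul_ne_zero (Finsupp.mem_support_iff.1 hc₀) hself.ne' h1
end indep

section main
/-- PBW theorem -/
theorem BD.pbw (hs : Sym0 ar η) (hT : η.zero (dz (dv T))) :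
    ∃ (F : Conf D.dg (fun γ => Ferm ar (D.dg γ)) (dv T) → PR V K)
      (δ : Conf D.dg (fun γ => Ferm ar (D.dg γ)) (dv T) → ℕ),
      IsBM F (Anti T) (rs (Jnn ar η T)) ∧ (∀ c, (F c).IsHomogeneous (δ c)) ∧
      ∀ c, 2 * δ c + (c.1.map fun x => aa ar (D.dg x.1) (D.dg x.1)).sum =
        aa ar (dv T) (dv T) + 2 * (c.1.map fun x => D.kg x.1 + x.2).sum := by
  rcases T.eq_empty_or_nonempty with rfl | hne
  · refine ⟨fun _ => 1, fun _ => 0, D.pbw_empty, fun _ => isHomogeneous_one _ _, fun c => ?_⟩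
    rw [D.conf_empty c]
    simp [aa, dv]
  · choose b it h using fun c : Conf D.dg (fun γ => Ferm ar (D.dg γ)) (dv T) =>
      D.exists_place hne c.2.1
    refine ⟨fun c => Alt T (D.Y T (b c) (it c)),
      fun c => D.lev T (b c) (it c) + ∑ i ∈ T.image (b c), (it c i).2,
      ⟨fun c => Alt_mem_Anti (D.Y_mem_RT (h c).1), D.indep hs b it h, D.sp hs hne b it h hT⟩,
      fun c => Alt_isHomogeneous T (D.Y_isHomogeneous (h c).1), fun c => ?_⟩
    rw [← (h c).2]
    exact D.deg_eq hs (h c).1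
end main

end
end Vale.Agent.P066
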