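import Vale.Agent.P066.CMatch

/-! Part C: auxiliary lemmas for the spanning half of the PBW theorem. -/

namespace Vale.Agent.P066
open MvPolynomial Equiv
noncomputable section
set_option linter.unusedSectionVars false
variable {V : Type} [Fintype V] [DecidableEq V] {K : ℕ}

/-- a spanning family contains a basis modulo `Q` -/
theorem exists_sub_isBM {ι : Type} (v : ι → PR V K) (Q : Submodule ℚ (PR V K)) :
    ∃ (κ : Type) (a : κ → ι), IsBM (fun i => v (a i)) (Submodule.span ℚ (Set.range v)) Q := by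
  obtain ⟨κ, a, -, h1, h2⟩ := exists_linearIndependent' ℚ (fun i => Q.mkQ (v i))
  refine ⟨κ, a, fun i => Submodule.subset_span ⟨a i, rfl⟩, fun l hl => ?_, ?_⟩
  · refine linearIndependent_iff.1 h2 l ?_
    have h3 : Q.mkQ (Finsupp.linearCombination ℚ (fun i => v (a i)) l) = 0 := by
      rwa [Submodule.mkQ_apply, Submodule.Quotient.mk_eq_zero]
    rw [Finsupp.apply_linearCombination] at h3
    exact h3
  · rw [Submodule.span_le]
    rintro _ ⟨i, rfl⟩
    have h3 : Q.mkQ (v i) ∈ Submodule.span ℚ (Set.range ((fun i => Q.mkQ (v i)) ∘ a)) := by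
      rw [h1]; exact Submodule.subset_span ⟨i, rfl⟩
    have h4 : Set.range ((fun i => Q.mkQ (v i)) ∘ a) = Q.mkQ '' Set.range (fun i => v (a i)) := by
      rw [← Set.range_comp]; rfl
    rw [h4, ← Submodule.map_span] at h3
    have h5 := Submodule.mem_comap.2 h3
    rwa [Submodule.comap_map_mkQ, sup_comm] at h5

/-- coordinates modulo a graded subspace for a family of polynomials of the same degree -/
theorem exists_fin_dual {ι : Type} (v : ι → PR V K) {k : ℕ} (hv : ∀ i, (v i).IsHomogeneous k)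
    {Q : Submodule ℚ (PR V K)} (hQ : Gr Q) :
    ∃ (κ : Type) (_ : Fintype κ) (a : κ → ι) (l : κ → PR V K →ₗ[ℚ] ℚ),
      (∀ j, ∀ q ∈ Q, l j q = 0) ∧
      ∀ g ∈ Submodule.span ℚ (Set.range v) ⊔ Q, g - ∑ j, l j g • v (a j) ∈ Q := by
  classical
  obtain ⟨κ, a, h⟩ := exists_sub_isBM v Q
  have h1 := (h.hil_eq (δ := fun _ => k) (fun i => hv (a i)) hQ).1 k
  have h2 : Finite κ := Finite.of_injective (fun i : κ => (⟨i, rfl⟩ : {_i : κ // k = k}))
    fun _ _ e => congrArg Subtype.val e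
  have _i := Fintype.ofFinite κ
  choose l hl1 hl2 using h.exists_dual
  refine ⟨κ, inferInstance, a, l, hl1, fun g hg => ?_⟩
  have h3 : g ∈ Submodule.span ℚ (Set.range fun i => v (a i)) ⊔ Q :=
    (sup_le h.sp le_sup_right : Submodule.span ℚ (Set.range v) ⊔ Q ≤ _) hg
  obtain ⟨x, hx, q, hq, rfl⟩ := Submodule.mem_sup.1 h3
  obtain ⟨c, rfl⟩ := (Submodule.mem_span_range_iff_exists_fun ℚ).1 hx
  have h4 : ∀ j, l j (∑ i, c i • v (a i) + q) = c j := by
    intro j
    rw [map_add, hl1 j q hq, add_zero, map_sum]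
    simp only [map_smul, hl2, smul_eq_mul, mul_ite, mul_one, mul_zero]
    simp
  simp only [h4]
  rwa [add_sub_cancel_left]

/-- products of elements of spans modulo an ideal -/
theorem prod_mem_span_sup {ι : Type} [DecidableEq ι] (J : Finset ι) (S : ι → Set (PR V K))
    (I : Ideal (PR V K)) (g : ι → PR V K)
    (hg : ∀ i ∈ J, g i ∈ Submodule.span ℚ (S i) ⊔ rs I) :
    ∏ i ∈ J, g i ∈ Submodule.span ℚ
      {h | ∃ x : ι → PR V K, (∀ i ∈ J, x i ∈ S i) ∧ h = ∏ i ∈ J, x i} ⊔ rs I := by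
  induction J using Finset.induction_on with
  | empty =>
    exact Submodule.mem_sup_left (Submodule.subset_span ⟨g, by simp, rfl⟩)
  | insert i J hi ih =>
    rw [Finset.prod_insert hi]
    obtain ⟨x, hx, q, hq, e1⟩ := Submodule.mem_sup.1 (hg i (Finset.mem_insert_self i J))
    obtain ⟨y, hy, q', hq', e2⟩ :=
      Submodule.mem_sup.1 (ih fun j hj => hg j (Finset.mem_insert_of_mem hj))
    rw [← e1, ← e2]
    have e3 : (x + q) * (y + q') = x * y + (q * (y + q') + x * q') := by ring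
    rw [e3]
    refine Submodule.add_mem_sup ?_ (I.add_mem (I.mul_mem_right _ hq) (I.mul_mem_left _ hq'))
    have h1 := Submodule.mul_mem_mul hx hy
    rw [Submodule.span_mul_span] at h1
    refine Submodule.span_mono ?_ h1
    rintro _ ⟨a, ha, _, ⟨z, hz, rfl⟩, rfl⟩
    refine ⟨Function.update z i a, fun j hj => ?_, ?_⟩
    · rcases Finset.mem_insert.1 hj with rfl | hj
      · rwa [Function.update_self]
      · rw [Function.update_of_ne (ne_of_mem_of_not_mem hj hi)]
        exact hz j hj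
    · rw [Finset.prod_insert hi, Function.update_self]
      refine congrArg (a * ·) (Finset.prod_congr rfl fun j hj => ?_)
      rw [Function.update_of_ne (ne_of_mem_of_not_mem hj hi)]

/-- homogeneous components of elements of the span of a homogeneous family -/
theorem hc_mem_span {ι : Type} {u : ι → PR V K} {δ : ι → ℕ} (hu : ∀ i, (u i).IsHomogeneous (δ i))
    (k : ℕ) {f : PR V K} (hf : f ∈ Submodule.span ℚ (Set.range u)) :
    hc k f ∈ Submodule.span ℚ {y | ∃ i, δ i = k ∧ y = u i} := by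
  have h1 : Submodule.span ℚ (Set.range u) ≤
      (Submodule.span ℚ {y | ∃ i, δ i = k ∧ y = u i}).comap (hc k) := by
    rw [Submodule.span_le]
    rintro _ ⟨i, rfl⟩
    refine Submodule.mem_comap.2 ?_
    rw [homogeneousComponent_of_mem (hu i)]
    split_ifs with h
    · exact Submodule.subset_span ⟨i, h.symm, rfl⟩
    · exact Submodule.zero_mem _
  exact h1 hf

variable {ar : V → V → ℕ} {η : Stab (V → ℤ)} {Γ : Type} (D : BD ar η K Γ)
  {T : Finset (Om V K)} {b : Om V K → ℕ}

theorem blk_nonempty {i : ℕ} (hi : i ∈ T.image b) : (blk T b i).Nonempty := by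
  obtain ⟨s, hs, e⟩ := Finset.mem_image.1 hi
  exact ⟨s, Finset.mem_filter.2 ⟨hs, e⟩⟩

theorem pB_blk_eq_zero {i : ℕ} (hi : i ∉ T.image b) : pB (blk T b i) = 0 := by
  have : blk T b i = ∅ :=
    Finset.filter_eq_empty_iff.2 fun s hs e => hi (Finset.mem_image.2 ⟨s, hs, e⟩)
  rw [this, pB, Finset.sum_empty, mul_zero]

theorem BD.BPSk_le {B : Finset (Om V K)} (hB : B.Nonempty) (hz : η.zero (dz (dv B))) {k : ℕ}
    {g : PR V K} (hg : g ∈ BPSk ar η B k) :
    g ∈ Submodule.span ℚ {y | ∃ γ, D.dg γ = dv B ∧ D.kg γ = k ∧ y = pl B (D.u γ)} ⊔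
      rs (Jnn ar η B) := by
  have h0 : g ∈ BPS ar η B := le_iSup (BPSk ar η B) k hg
  have h1 := (D.bm_pl hB hz).sp h0
  obtain ⟨x, hx, q, hq, e⟩ := Submodule.mem_sup.1 h1
  have h2 : hc k g = g := homogeneousComponent_eq_self hg.1.2
  rw [← h2, ← e, map_add]
  refine Submodule.add_mem_sup ?_ (gr_Jnn ar η B q hq k)
  have h3 : ∀ γ : {γ // D.dg γ = dv B}, (pl B (D.u γ.1)).IsHomogeneous (D.kg γ.1) :=
    fun γ => (D.pl_mem γ.2).1.2
  refine Submodule.span_mono ?_ (hc_mem_span h3 k hx)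
  rintro _ ⟨γ, h3, rfl⟩
  exact ⟨γ.1, γ.2, h3, rfl⟩

/-- tuples of basis elements placed on the blocks, of total degree `k` -/
def BD.Tup (D : BD ar η K Γ) (T : Finset (Om V K)) (b : Om V K → ℕ) (k : ℕ) : Type :=
  {α : ℕ → Γ // (∀ i ∈ T.image b, D.dg (α i) = dv (blk T b i)) ∧
    ∑ i ∈ T.image b, D.kg (α i) = k}

theorem BD.prod_BPS_mem (hne : T.Nonempty) (hb : IsEP η T b) {k0 : ℕ} {g : ℕ → PR V K}
    {k : ℕ → ℕ} (hg : ∀ i ∈ T.image b, g i ∈ BPSk ar η (blk T b i) (k i))
    (hk : ∑ i ∈ T.image b, k i = k0) :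
    ∏ i ∈ T.image b, g i ∈ Submodule.span ℚ (Set.range fun α : D.Tup T b k0 =>
      ∏ i ∈ T.image b, pl (blk T b i) (D.u (α.1 i))) ⊔ rs (aI ar η T b) := by
  have h1 := prod_mem_span_sup (T.image b)
    (fun i => {y | ∃ γ, D.dg γ = dv (blk T b i) ∧ D.kg γ = k i ∧ y = pl (blk T b i) (D.u γ)})
    (aI ar η T b) g fun i hi => by
      obtain ⟨x, hx, q, hq, e⟩ :=
        Submodule.mem_sup.1 (D.BPSk_le (blk_nonempty hi) (hb i) (hg i hi))
      rw [← e]
      exact Submodule.add_mem_sup hx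
        (le_iSup₂ (f := fun i (_ : i ∈ T.image b) => Jnn ar η (blk T b i)) i hi hq)
  obtain ⟨y, hy, q, hq, e⟩ := Submodule.mem_sup.1 h1
  rw [← e]
  refine Submodule.add_mem_sup (Submodule.span_mono ?_ hy) hq
  rintro _ ⟨x, hx, rfl⟩
  obtain ⟨s, hs⟩ := hne
  have _i : Nonempty Γ := ⟨(hx (b s) (Finset.mem_image_of_mem b hs)).choose⟩
  choose! α h2 h3 h4 using hx
  refine ⟨⟨α, h2, ?_⟩, (Finset.prod_congr rfl h4).symm⟩
  rw [← hk]
  exact Finset.sum_congr rfl h3

theorem BD.mul_aeval_mem {w : ℕ} (hw : kap ar T b ≤ w) (α : D.Tup T b (w - kap ar T b))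
    (H : MvPolynomial ℕ ℚ) :
    Kb ar T b * (∏ i ∈ T.image b, pl (blk T b i) (D.u (α.1 i))) *
      aeval (fun i => pB (blk T b i)) H ∈
      Submodule.span ℚ {y | ∃ it, D.Valid T b it ∧ D.lev T b it = w ∧ y = D.Y T b it} := by
  induction H using MvPolynomial.induction_on' with
  | add p q hp hq => rw [map_add, mul_add]; exact Submodule.add_mem _ hp hq
  | monomial m a =>
    rw [aeval_monomial, ← Algebra.smul_def, mul_smul_comm]
    refine Submodule.smul_mem _ _ ?_
    by_cases hm : m.support ⊆ T.image b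
    · rw [Finsupp.prod_of_support_subset _ hm _ fun _ _ => pow_zero _]
      refine Submodule.subset_span ⟨fun i => (α.1 i, m i), α.2.1, ?_, rfl⟩
      have := α.2.2
      simp only [BD.lev]
      omega
    · obtain ⟨i, hi, hi'⟩ := Finset.not_subset.1 hm
      rw [Finsupp.prod, Finset.prod_eq_zero hi, mul_zero]
      · exact Submodule.zero_mem _
      · rw [pB_blk_eq_zero hi', zero_pow (Finsupp.mem_support_iff.1 hi)]

theorem pt_restrict (c : ℕ → ℚ) :
    pt T b (fun i => if i ∈ T.image b then c i else 0) = pt T b c := by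
  funext s
  simp only [pt]
  split_ifs with h1 h2
  · rfl
  · exact absurd (Finset.mem_image_of_mem b h1) h2
  · rfl

theorem eval_Kb_mul_aeval (c : ℕ → ℚ) (H : MvPolynomial ℕ ℚ) :
    eval (pt T b c) (Kb ar T b * aeval (fun i => pB (blk T b i)) H) =
      eval (fun i => if i ∈ T.image b then c i else 0) (Ktop ar T b * H) := by
  rw [map_mul, map_mul, ← eval_Kb, pt_restrict]
  refine congrArg _ ?_
  have e2 : (fun i => if i ∈ T.image b then c i else 0) =
      fun i => eval (pt T b c) (pB (blk T b i)) := by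
    funext i
    split_ifs with h
    · exact (eval_pB h c).symm
    · rw [pB_blk_eq_zero h, map_zero]
  rw [e2]
  induction H using MvPolynomial.induction_on with
  | C a => simp
  | add p q hp hq => simp only [map_add, hp, hq]
  | mul_X p i hp => simp only [map_mul, hp, aeval_X, eval_X]

end
end Vale.Agent.P066
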