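import Vale.Agent.P066.CPBWAuxA

/-! Part C: the spanning half of the PBW theorem. -/

namespace Vale.Agent.P066
open MvPolynomial Equiv
noncomputable section
set_option linter.unusedSectionVars false
variable {V : Type} [Fintype V] [DecidableEq V] {K : ℕ}
variable {ar : V → V → ℕ} {η : Stab (V → ℤ)} {Γ : Type} (D : BD ar η K Γ)
  {T : Finset (Om V K)}

theorem BD.Tup.prop {b : Om V K → ℕ} {k : ℕ} (α : D.Tup T b k) :
    ∀ i ∈ T.image b, pl (blk T b i) (D.u (α.1 i)) ∈ RT (blk T b i) ∧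
      (pl (blk T b i) (D.u (α.1 i))).IsHomogeneous (D.kg (α.1 i)) ∧
      pl (blk T b i) (D.u (α.1 i)) ∈ Fil ar η (blk T b i) (D.kg (α.1 i)) 2 := fun i hi =>
  have h := D.pl_mem (α.2.1 i hi)
  ⟨h.1.1.1, h.1.2, h.2⟩

theorem BD.step_one' (hs : Sym0 ar η) (hne : T.Nonempty) {b : Om V K → ℕ} (hb : IsEP η T b)
    {w : ℕ} (hw : kap ar T b ≤ w) {f : PR V K} (hA : f ∈ Anti T)
    (hf : f ∈ Fil ar η T w (nb T b + 1)) :
    ∃ F ∈ Submodule.span ℚ {y | ∃ it, D.Valid T b it ∧ D.lev T b it = w ∧ y = D.Y T b it},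
      f - F ∈ OrdAt ar η T b (w - kap ar T b + 1) := by
  have hv : ∀ α : D.Tup T b (w - kap ar T b),
      (∏ i ∈ T.image b, pl (blk T b i) (D.u (α.1 i))).IsHomogeneous (w - kap ar T b) := by
    intro α
    have := IsHomogeneous.prod (T.image b) _ _ fun i hi => (α.prop D i hi).2.1
    rwa [α.2.2] at this
  obtain ⟨κ, _, a, l, hl, hg⟩ := exists_fin_dual _ hv (gr_aI ar η T b)
  choose Θ hΘ using fun j => exists_symbol_poly T b (l j ∘ₗ hc (w - kap ar T b))
  choose H hH using fun j => Ktop_dvd_symbol hs hb hw hf (l j) (hl j) (hΘ j f)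
  refine ⟨∑ j, Kb ar T b * (∏ i ∈ T.image b, pl (blk T b i) (D.u ((a j).1 i))) *
    aeval (fun i => pB (blk T b i)) (H j),
    Submodule.sum_mem _ fun j _ => D.mul_aeval_mem hw (a j) (H j), mem_OrdAt.2 fun c => ?_⟩
  have h0 : sh (pt T b c) f ∈ aI ar η T b ⊔ mI V K ^ (w - kap ar T b) := by
    have := mem_Fil.1 hf b hb
    rw [if_pos (Nat.lt_succ_self _)] at this
    exact mem_OrdAt.1 this c
  set g := hc (w - kap ar T b) (sh (pt T b c) f) with hgd
  have hgh : g.IsHomogeneous (w - kap ar T b) := homogeneousComponent_isHomogeneous _ _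
  have h1 : sh (pt T b c) f - g ∈ aI ar η T b ⊔ mI V K ^ (w - kap ar T b + 1) := by
    rw [mem_sup_pow_succ_iff (gr_aI ar η T b)
      (Ideal.sub_mem _ h0 (Ideal.mem_sup_right (IsHomogeneous.mem_mI_pow hgh))), map_sub,
      homogeneousComponent_eq_self hgh, sub_self]
    exact Ideal.zero_mem _
  have h2 : g - ∑ j, l j g • ∏ i ∈ T.image b, pl (blk T b i) (D.u ((a j).1 i)) ∈ aI ar η T b := by
    refine hg g ?_
    have h3 := symbol_mem_span hs hb hw hA (fun b' hb' _ => mem_Fil.1 hf b' hb') c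
    refine (sup_le ?_ le_sup_right : _ ≤ _ ⊔ rs (aI ar η T b)) h3
    rw [Submodule.span_le]
    rintro _ ⟨g', k', h4, h5, rfl⟩
    exact D.prod_BPS_mem hne hb h4 h5
  have h3 : ∀ j, sh (pt T b c) (Kb ar T b * (∏ i ∈ T.image b, pl (blk T b i) (D.u ((a j).1 i))) *
      aeval (fun i => pB (blk T b i)) (H j)) -
      l j g • ∏ i ∈ T.image b, pl (blk T b i) (D.u ((a j).1 i)) ∈
      aI ar η T b ⊔ mI V K ^ (w - kap ar T b + 1) := by
    intro j
    have h4 := symbol_prod hs hb ((a j).prop D)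
      (Kb ar T b * aeval (fun i => pB (blk T b i)) (H j)) c
    rw [(a j).2.2, eval_Kb_mul_aeval, ← hH, hΘ, pt_restrict, mul_left_comm, ← mul_assoc] at h4
    exact h4
  have h4 := Ideal.sub_mem _ (Ideal.add_mem _ h1 (Ideal.mem_sup_left h2))
    (Ideal.sum_mem _ fun j (_ : j ∈ Finset.univ) => h3 j)
  rw [Finset.sum_sub_distrib, ← map_sum, sub_add_sub_cancel, sub_sub_sub_cancel_right,
    ← map_sub] at h4
  exact h4

/-- the equivalence relation of a labelling, as a finite set of pairs -/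
def relP (T : Finset (Om V K)) (b : Om V K → ℕ) : Finset (Om V K × Om V K) :=
  (T ×ˢ T).filter fun p => b p.1 = b p.2

theorem relP_eq_iff {b b' : Om V K → ℕ} : relP T b = relP T b' ↔ SameP T b b' := by
  constructor
  · intro h
    have h1 : ∀ s ∈ T, ∀ s' ∈ T, (b s = b s' ↔ b' s = b' s') := fun s hs s' hs' => by
      have := Finset.ext_iff.1 h (s, s')
      simpa [relP, hs, hs'] using this
    exact ⟨fun s hs s' hs' => (h1 s hs s' hs').1, fun s hs s' hs' => (h1 s hs s' hs').2⟩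
  · intro h
    refine Finset.filter_congr fun p hp => ?_
    obtain ⟨h1, h2⟩ := Finset.mem_product.1 hp
    exact ⟨h.1 _ h1 _ h2, h.2 _ h1 _ h2⟩

theorem BD.Y_mem_other (hs : Sym0 ar η) {b b' : Om V K → ℕ} {it : ℕ → Γ × ℕ}
    (h : D.Valid T b it) (hb' : IsEP η T b') (hn : nb T b' = nb T b) (hne : ¬ SameP T b b')
    (hk : kap ar T b' ≤ D.lev T b it) :
    D.Y T b it ∈ OrdAt ar η T b' (D.lev T b it - kap ar T b' + 1) := by
  have h1 := bound_other hs h.isEP (BD.Tup.prop D (⟨fun i => (it i).1, h, rfl⟩ : D.Tup T b _))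
    (∏ i ∈ T.image b, pB (blk T b i) ^ (it i).2) hb' hn hne
  exact h1.resolve_right (not_lt.2 hk)

theorem BD.step' (hs : Sym0 ar η) (hne : T.Nonempty) {w r : ℕ} {f : PR V K} (hA : f ∈ Anti T)
    (hf : f ∈ Fil ar η T w (r + 1)) :
    ∃ F ∈ Submodule.span ℚ
      {y | ∃ b it, D.Valid T b it ∧ D.lev T b it = w ∧ nb T b = r ∧ y = D.Y T b it},
      f - F ∈ Fil ar η T w r := by
  have key : ∀ x : Finset (Om V K × Om V K), ∃ F ∈ Submodule.span ℚ
      {y | ∃ b it, D.Valid T b it ∧ D.lev T b it = w ∧ nb T b = r ∧ relP T b = x ∧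
        y = D.Y T b it}, ∀ b, IsEP η T b → nb T b = r → kap ar T b ≤ w → relP T b = x →
        f - F ∈ OrdAt ar η T b (w - kap ar T b + 1) := by
    intro x
    by_cases h : ∃ b, IsEP η T b ∧ nb T b = r ∧ kap ar T b ≤ w ∧ relP T b = x
    · obtain ⟨b0, h1, h2, h3, h4⟩ := h
      obtain ⟨F, hF, hF'⟩ := D.step_one' hs hne h1 h3 hA (h2.symm ▸ hf)
      refine ⟨F, Submodule.span_mono ?_ hF, fun b _ _ _ h8 => ?_⟩
      · rintro _ ⟨it, h5, h6, rfl⟩
        exact ⟨b0, it, h5, h6, h2, h4, rfl⟩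
      · have h9 : SameP T b0 b := relP_eq_iff.1 (h4.trans h8.symm)
        rw [← h9.OrdAt_eq, ← h9.kap_eq hs h1]
        exact hF'
    · exact ⟨0, Submodule.zero_mem _, fun b h1 h2 h3 h4 => absurd ⟨b, h1, h2, h3, h4⟩ h⟩
  choose F hF hF' using key
  have hsum : ∑ x, F x ∈ Submodule.span ℚ
      {y | ∃ b it, D.Valid T b it ∧ D.lev T b it = w ∧ nb T b = r ∧ y = D.Y T b it} := by
    refine Submodule.sum_mem _ fun x _ => Submodule.span_mono ?_ (hF x)
    rintro _ ⟨b, it, h1, h2, h3, -, rfl⟩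
    exact ⟨b, it, h1, h2, h3, rfl⟩
  refine ⟨∑ x, F x, hsum, mem_Fil_of_succ (Ideal.sub_mem _ hf ?_) fun b h1 h2 h3 => ?_⟩
  · refine (Submodule.span_le (p := rs (Fil ar η T w (r + 1)))).2 ?_ hsum
    rintro _ ⟨b, it, h1, rfl, rfl, rfl⟩
    exact D.Y_mem_Fil hs h1
  · rw [← Finset.add_sum_erase _ _ (Finset.mem_univ (relP T b)), ← sub_sub]
    refine Ideal.sub_mem _ (hF' _ b h1 h2 h3 rfl) (Ideal.sum_mem _ fun x hx => ?_)
    refine (Submodule.span_le (p := rs (OrdAt ar η T b (w - kap ar T b + 1)))).2 ?_ (hF x)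
    rintro _ ⟨b', it, h4, rfl, h6, rfl, rfl⟩
    exact D.Y_mem_other hs h4 h1 (h2.trans h6.symm)
      (fun h7 => Finset.ne_of_mem_erase hx (relP_eq_iff.2 h7)) h3

section sp
variable (hs : Sym0 ar η) (hne : T.Nonempty)
  (b : Conf D.dg (fun γ => Ferm ar (D.dg γ)) (dv T) → Om V K → ℕ)
  (it : Conf D.dg (fun γ => Ferm ar (D.dg γ)) (dv T) → ℕ → Γ × ℕ)
  (h : ∀ c, D.Valid T (b c) (it c) ∧ conf T (b c) (it c) = c.1)
include hs h

open Classical in
theorem BD.Alt_Y_mem {b' : Om V K → ℕ} {it' : ℕ → Γ × ℕ} (h' : D.Valid T b' it') :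
    Alt T (D.Y T b' it') ∈ Submodule.span ℚ (Set.range fun c => Alt T (D.Y T (b c) (it c))) ⊔
      rs (Fil ar η T (D.lev T b' it') (nb T b')) := by
  by_cases hc : ∀ x : Γ × ℕ, Ferm ar (D.dg x.1) → (conf T b' it').count x ≤ 1
  · let c : Conf D.dg (fun γ => Ferm ar (D.dg γ)) (dv T) := ⟨conf T b' it', D.conf_sum h', hc⟩
    obtain ⟨ε, -, h1⟩ := D.Alt_match hs (h c).1 h' (h c).2
    obtain ⟨h2, h3⟩ := D.lev_eq hs (h c).1 h' (h c).2
    rw [h2, h3] at h1
    rw [← add_sub_cancel (ε • Alt T (D.Y T (b c) (it c))) (Alt T (D.Y T b' it'))]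
    exact Submodule.add_mem_sup (Submodule.smul_mem _ _ (Submodule.subset_span ⟨c, rfl⟩)) h1
  · push Not at hc
    obtain ⟨x, hx, hx'⟩ := hc
    exact Submodule.mem_sup_right (D.Alt_odd hs h' hx hx')

include hne

theorem BD.sp_step (w r : ℕ) : Anti T ⊓ rs (Fil ar η T w (r + 1)) ≤
    Submodule.span ℚ (Set.range fun c => Alt T (D.Y T (b c) (it c))) ⊔
      Anti T ⊓ rs (Fil ar η T w r) := by
  rintro f ⟨hA, hf⟩
  obtain ⟨G, hG, hG'⟩ := D.step' hs hne hA hf
  have h1 : Alt T G ∈ Submodule.span ℚ (Set.range fun c => Alt T (D.Y T (b c) (it c))) ⊔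
      rs (Fil ar η T w r) := by
    refine Submodule.mem_comap.1 (Submodule.span_le.2 ?_ hG)
    rintro _ ⟨b', it', h', rfl, rfl, rfl⟩
    exact D.Alt_Y_mem hs b it h h'
  have h2 := Alt_mem_Fil ar η hG'
  rw [map_sub, Alt_of_mem_Anti hA] at h2
  have h3 := Submodule.smul_mem _ ((GT T).card : ℚ)⁻¹
    (Submodule.add_mem _ h1 (Submodule.mem_sup_right h2))
  rw [add_sub_cancel, smul_smul, inv_mul_cancel₀ (card_GT_ne_zero T), one_smul] at h3
  obtain ⟨x, hx, q, hq, e⟩ := Submodule.mem_sup.1 h3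
  have h4 : x ∈ Anti T := by
    refine Submodule.span_le.2 ?_ hx
    rintro _ ⟨c, rfl⟩
    exact Alt_mem_Anti (D.Y_mem_RT (h c).1)
  refine Submodule.mem_sup.2 ⟨x, hx, q, ⟨?_, hq⟩, e⟩
  rw [eq_sub_of_add_eq' e]
  exact Submodule.sub_mem _ hA h4

theorem BD.sp_row (w r : ℕ) : Anti T ⊓ rs (Fil ar η T w r) ≤
    Submodule.span ℚ (Set.range fun c => Alt T (D.Y T (b c) (it c))) ⊔
      Anti T ⊓ rs (Fil ar η T w 0) := by
  induction r with
  | zero => exact le_sup_right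
  | succ r ih => exact (D.sp_step hs hne b it h w r).trans (sup_le le_sup_left ih)

theorem BD.sp_all (w : ℕ) : Anti T ≤
    Submodule.span ℚ (Set.range fun c => Alt T (D.Y T (b c) (it c))) ⊔
      Anti T ⊓ rs (Fil ar η T w (T.card + 1)) := by
  induction w with
  | zero =>
    rw [Fil_top]
    exact fun f hf => Submodule.mem_sup_right ⟨hf, trivial⟩
  | succ w ih =>
    rw [← Fil_zero_eq]
    exact ih.trans (sup_le le_sup_left (D.sp_row hs hne b it h w _))

theorem BD.sp (hT : η.zero (dz (dv T))) : Anti T ≤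
    Submodule.span ℚ (Set.range fun c => Alt T (D.Y T (b c) (it c))) ⊔ rs (Jnn ar η T) := by
  intro f hf
  refine mem_span_sup_of_forall_pow ?_ (gr_Jnn ar η T) fun w => ?_
  · rintro _ ⟨c, rfl⟩
    exact ⟨_, Alt_isHomogeneous T (D.Y_isHomogeneous (h c).1)⟩
  · obtain ⟨x, hx, q, hq, e⟩ := Submodule.mem_sup.1 (D.sp_all hs hne b it h w hf)
    obtain ⟨y, hy, z, hz, e'⟩ := Submodule.mem_sup.1 (Fil_le_sup hT w _ hq.2)
    rw [← e, ← e', ← add_assoc]
    exact Submodule.add_mem_sup (Submodule.add_mem_sup hx hy) hz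

end sp

theorem BD.deg_eq (hs : Sym0 ar η) {b : Om V K → ℕ} {it : ℕ → Γ × ℕ} (h : D.Valid T b it) :
    2 * (D.lev T b it + ∑ i ∈ T.image b, (it i).2) +
      ((conf T b it).map fun x => aa ar (D.dg x.1) (D.dg x.1)).sum =
      aa ar (dv T) (dv T) + 2 * ((conf T b it).map fun x => D.kg x.1 + x.2).sum := by
  have h1 : ((conf T b it).map fun x => aa ar (D.dg x.1) (D.dg x.1)).sum =
      ∑ i ∈ T.image b, aa ar (dv (blk T b i)) (dv (blk T b i)) := by
    rw [conf, Multiset.map_map]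
    exact Finset.sum_congr rfl fun i hi => by simp only [Function.comp_apply, h i hi]
  have h2 : ((conf T b it).map fun x => D.kg x.1 + x.2).sum =
      ∑ i ∈ T.image b, D.kg (it i).1 + ∑ i ∈ T.image b, (it i).2 := by
    rw [conf, Multiset.map_map, ← Finset.sum_add_distrib]
    rfl
  have h3 := two_kap_add hs h.isEP
  rw [h1, h2, BD.lev]
  omega

theorem BD.conf_empty (c : Conf D.dg (fun γ => Ferm ar (D.dg γ)) (dv (∅ : Finset (Om V K)))) :
    c.1 = 0 := by
  refine Multiset.eq_zero_of_forall_notMem fun x hx => D.ne x.1 ?_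
  have h1 := c.2.1.trans dv_empty
  exact Multiset.sum_eq_zero_iff.1 h1 _ (Multiset.mem_map_of_mem _ hx)

theorem Jnn_empty : Jnn ar η (∅ : Finset (Om V K)) = ⊥ := by
  rw [Jnn, Ideal.span_eq_bot]
  rintro _ ⟨A, h1, h2, -⟩
  rw [Finset.subset_empty.1 h1, dv_empty, dz_zero] at h2
  exact absurd h2 η.not_neg_zero

theorem BD.pbw_empty : IsBM (fun _ : Conf D.dg (fun γ => Ferm ar (D.dg γ))
    (dv (∅ : Finset (Om V K))) => (1 : PR V K)) (Anti ∅) (rs (Jnn ar η ∅)) := by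
  let c0 : Conf D.dg (fun γ => Ferm ar (D.dg γ)) (dv (∅ : Finset (Om V K))) :=
    ⟨0, by simp [dv_empty], by simp⟩
  have hc : ∀ c, c = c0 := fun c => Subtype.ext (D.conf_empty c)
  refine ⟨fun _ => ⟨Subalgebra.one_mem _, by simp⟩, fun l hl => ?_, fun f hf => ?_⟩
  · have e : l = Finsupp.single c0 (l c0) := Finsupp.ext fun c => by rw [hc c]; simp
    rw [e, Finsupp.linearCombination_single, Jnn_empty] at hl
    have h1 : l c0 • (1 : PR V K) = 0 := hl
    rw [e, (smul_eq_zero.1 h1).resolve_right one_ne_zero, Finsupp.single_zero]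
  · have h1 : f ∈ supported ℚ ((∅ : Finset (Om V K)) : Set (Om V K)) := hf.1
    rw [Finset.coe_empty, supported_empty, Algebra.mem_bot] at h1
    obtain ⟨a, rfl⟩ := h1
    rw [Algebra.algebraMap_eq_smul_one]
    exact Submodule.mem_sup_left (Submodule.smul_mem _ _ (Submodule.subset_span ⟨c0, rfl⟩))

end
end Vale.Agent.P066
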