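import Vale.Agent.P066.CLin

/-! Part C: partial application of functionals (a substitute for tensor products). -/

set_option linter.unusedSectionVars false

namespace Vale.Agent.P066
open MvPolynomial Equiv
noncomputable section
variable {V : Type} [Fintype V] [DecidableEq V] {K : ℕ}

theorem ct_mem_RT {T : Finset (Om V K)} {f : PR V K} :
    f ∈ RT T ↔ ∀ m ∈ f.support, m.support ⊆ T := by
  rw [RT, Subalgebra.mem_toSubmodule, mem_supported]
  constructor
  · intro h m hm s hs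
    exact h ((mem_vars_iff_mem_support s).2 ⟨m, hm, hs⟩)
  · intro h s hs
    obtain ⟨m, hm, hs⟩ := (mem_vars_iff_mem_support s).1 hs
    exact h m hm hs

theorem ct_monomial_mem {T : Finset (Om V K)} {m : Om V K →₀ ℕ} (h : m.support ⊆ T) (r : ℚ) :
    monomial m r ∈ RT T :=
  ct_mem_RT.2 fun m' hm' => by
    rw [Finset.mem_singleton.1 (support_monomial_subset hm')]; exact h

theorem ct_as_sum (f : PR V K) : f = ∑ m ∈ f.support, coeff m f • monomial m (1 : ℚ) := by
  conv_lhs => rw [f.as_sum]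
  exact Finset.sum_congr rfl fun m _ => by rw [smul_monomial, smul_eq_mul, mul_one]

theorem ct_mem_of_monomial {Q : Submodule ℚ (PR V K)} {f : PR V K}
    (h : ∀ m ∈ f.support, monomial m (1 : ℚ) ∈ Q) : f ∈ Q := by
  rw [ct_as_sum f]
  exact Q.sum_mem fun m hm => Q.smul_mem _ (h m hm)

theorem ct_map_mem {Q : Submodule ℚ (PR V K)} (φ : PR V K →ₗ[ℚ] PR V K) {f : PR V K}
    (h : ∀ m ∈ f.support, φ (monomial m (1 : ℚ)) ∈ Q) : φ f ∈ Q :=
  ct_mem_of_monomial (Q := Q.comap φ) h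

theorem ct_tens_monomial (A : Finset (Om V K)) (ψ : PR V K →ₗ[ℚ] ℚ) (m : Om V K →₀ ℕ) :
    tens A ψ (monomial m 1) =
      ψ (monomial (m.filter fun s => s ∈ A) 1) • monomial (m.filter fun s => s ∉ A) 1 := by
  have : (monomial m (1 : ℚ) : PR V K) = basisMonomials (Om V K) ℚ m := by simp
  rw [this, tens, Module.Basis.constr_basis]

theorem ct_split (A : Finset (Om V K)) (m : Om V K →₀ ℕ) : (monomial m (1 : ℚ) : PR V K) =
    monomial (m.filter fun s => s ∈ A) 1 * monomial (m.filter fun s => s ∉ A) 1 := by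
  rw [monomial_mul, Finsupp.filter_add_filter_not, mul_one]

theorem tens_mul (A : Finset (Om V K)) (ψ : PR V K →ₗ[ℚ] ℚ) {f g : PR V K} (hf : f ∈ RT A)
    (hg : g ∈ RT Aᶜ) : tens A ψ (f * g) = ψ f • g := by
  rw [ct_as_sum f, ct_as_sum g, Finset.sum_mul_sum, map_sum, map_sum, Finset.sum_smul]
  refine Finset.sum_congr rfl fun m hm => ?_
  rw [map_sum, Finset.smul_sum]
  refine Finset.sum_congr rfl fun m' hm' => ?_
  have h1 := ct_mem_RT.1 hf m hm
  have h2 := ct_mem_RT.1 hg m' hm'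
  have e1 : ((m + m').filter fun s => s ∈ A) = m := by
    ext s
    rw [Finsupp.filter_apply, Finsupp.add_apply]
    split_ifs with h
    · rw [Finsupp.notMem_support_iff.1 fun h' => Finset.mem_compl.1 (h2 h') h, add_zero]
    · exact (Finsupp.notMem_support_iff.1 fun h' => h (h1 h')).symm
  have e2 : ((m + m').filter fun s => s ∉ A) = m' := by
    have := Finsupp.filter_add_filter_not (m + m') fun s => s ∈ A
    rw [e1] at this
    exact add_left_cancel this
  rw [smul_mul_smul_comm, monomial_mul, mul_one, map_smul, ct_tens_monomial, e1, e2, map_smul,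
    smul_smul, smul_smul, smul_eq_mul, mul_right_comm]

/-- every polynomial in the variables of `A ∪ B` is a sum of products -/
theorem RT_union_le (A B : Finset (Om V K)) :
    RT (A ∪ B) ≤ Submodule.span ℚ {h | ∃ f ∈ RT A, ∃ g ∈ RT B, h = f * g} := by
  intro f hf
  refine ct_mem_of_monomial fun m hm => Submodule.subset_span
    ⟨_, ct_monomial_mem ?_ 1, _, ct_monomial_mem ?_ 1, ct_split A m⟩
  · intro s hs
    rw [Finsupp.support_filter, Finset.mem_filter] at hs
    exact hs.2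
  · intro s hs
    rw [Finsupp.support_filter, Finset.mem_filter] at hs
    exact (Finset.mem_union.1 (ct_mem_RT.1 hf m hm hs.1)).resolve_left hs.2

theorem RT_univ (f : PR V K) : f ∈ RT (Finset.univ : Finset (Om V K)) :=
  ct_mem_RT.2 fun _ _ => Finset.subset_univ _

theorem ct_mono {A B : Finset (Om V K)} (h : A ⊆ B) : RT A ≤ RT B := fun _ hf =>
  ct_mem_RT.2 fun m hm => (ct_mem_RT.1 hf m hm).trans h

theorem ct_mul {T : Finset (Om V K)} {f g : PR V K} (hf : f ∈ RT T) (hg : g ∈ RT T) :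
    f * g ∈ RT T := Subalgebra.mul_mem _ hf hg

theorem ct_ext (A : Finset (Om V K)) {φ φ' : PR V K →ₗ[ℚ] PR V K}
    (h : ∀ f ∈ RT A, ∀ g ∈ RT Aᶜ, φ (f * g) = φ' (f * g)) (g : PR V K) : φ g = φ' g := by
  have hg := RT_union_le A Aᶜ (by rw [Finset.union_compl]; exact RT_univ g)
  refine LinearMap.eqOn_span' ?_ hg
  rintro _ ⟨f, hf, g, hg, rfl⟩
  exact h f hf g hg

theorem tens_mul_right (A : Finset (Om V K)) (ψ : PR V K →ₗ[ℚ] ℚ) (h : PR V K) {g : PR V K}
    (hg : g ∈ RT Aᶜ) : tens A ψ (g * h) = g * tens A ψ h := by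
  refine ct_ext A (φ := tens A ψ ∘ₗ LinearMap.mulLeft ℚ g)
    (φ' := LinearMap.mulLeft ℚ g ∘ₗ tens A ψ) (fun f hf f' hf' => ?_) h
  simp only [LinearMap.comp_apply, LinearMap.mulLeft_apply]
  rw [mul_left_comm, tens_mul A ψ hf (ct_mul hg hf'), tens_mul A ψ hf hf', mul_smul_comm]

theorem tens_mem_RT (A T : Finset (Om V K)) (ψ : PR V K →ₗ[ℚ] ℚ) {g : PR V K} (hg : g ∈ RT T) :
    tens A ψ g ∈ RT (T \ A) := by
  refine ct_map_mem _ fun m hm => ?_
  rw [ct_tens_monomial]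
  refine Submodule.smul_mem _ _ (ct_monomial_mem (fun s hs => ?_) 1)
  rw [Finsupp.support_filter, Finset.mem_filter] at hs
  exact Finset.mem_sdiff.2 ⟨ct_mem_RT.1 hg m hm hs.1, hs.2⟩

theorem ct_algHom_tens (A : Finset (Om V K)) (ψ : PR V K →ₗ[ℚ] ℚ) (φ : PR V K →ₐ[ℚ] PR V K)
    (h1 : ∀ s ∈ A, φ (X s) = X s) (h2 : ∀ s ∈ Aᶜ, φ (X s) ∈ RT Aᶜ) (g : PR V K) :
    φ (tens A ψ g) = tens A ψ (φ g) := by
  refine ct_ext A (φ := φ.toLinearMap ∘ₗ tens A ψ) (φ' := tens A ψ ∘ₗ φ.toLinearMap)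
    (fun f hf f' hf' => ?_) g
  have e1 : φ f = f := by
    have : supported ℚ (A : Set (Om V K)) ≤ AlgHom.equalizer φ (AlgHom.id ℚ _) := by
      rw [supported_eq_adjoin_X]
      refine Algebra.adjoin_le ?_
      rintro _ ⟨s, hs, rfl⟩
      exact h1 s hs
    exact this hf
  have e2 : φ f' ∈ RT Aᶜ := by
    have : supported ℚ ((Aᶜ : Finset _) : Set (Om V K)) ≤
        (supported ℚ ((Aᶜ : Finset _) : Set (Om V K))).comap φ := by
      conv_lhs => rw [supported_eq_adjoin_X]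
      refine Algebra.adjoin_le ?_
      rintro _ ⟨s, hs, rfl⟩
      exact h2 s hs
    exact this hf'
  simp only [LinearMap.comp_apply, AlgHom.toLinearMap_apply]
  rw [map_mul φ, e1, tens_mul A ψ hf e2, tens_mul A ψ hf hf', map_smul]

theorem ct_X_mem {T : Finset (Om V K)} {s : Om V K} (h : s ∈ T) : (X s : PR V K) ∈ RT T :=
  X_mem_supported.2 h

theorem sh_tens (A : Finset (Om V K)) (ψ : PR V K →ₗ[ℚ] ℚ) {c : Om V K → ℚ}
    (hc0 : ∀ s ∈ A, c s = 0) (g : PR V K) : sh c (tens A ψ g) = tens A ψ (sh c g) := by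
  refine ct_algHom_tens A ψ _ (fun s hs => by simp [sh, hc0 s hs]) (fun s hs => ?_) g
  rw [sh, aeval_X]
  exact add_mem (ct_X_mem hs) (Subalgebra.algebraMap_mem _ (c s))

theorem rename_tens (A : Finset (Om V K)) (ψ : PR V K →ₗ[ℚ] ℚ) {π : Perm (Om V K)}
    (hπ : ∀ s ∈ A, π s = s) (g : PR V K) :
    rename π (tens A ψ g) = tens A ψ (rename π g) := by
  refine ct_algHom_tens A ψ _ (fun s hs => by rw [rename_X, hπ s hs]) (fun s hs => ?_) g
  rw [rename_X]
  refine ct_X_mem (Finset.mem_compl.2 fun h => Finset.mem_compl.1 hs ?_)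
  rw [← π.injective (hπ _ h)]
  exact h

theorem ct_hc_monomial (j : ℕ) (m : Om V K →₀ ℕ) :
    hc j (monomial m (1 : ℚ) : PR V K) = if j = m.degree then monomial m 1 else 0 :=
  homogeneousComponent_of_mem (isHomogeneous_monomial 1 rfl)

theorem ct_degree (A : Finset (Om V K)) (m : Om V K →₀ ℕ) :
    (m.filter fun s => s ∈ A).degree + (m.filter fun s => s ∉ A).degree = m.degree := by
  rw [← map_add, Finsupp.filter_add_filter_not]

theorem tens_eq_sum_hc (A : Finset (Om V K)) (ψ : PR V K →ₗ[ℚ] ℚ) (g : PR V K) :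
    tens A ψ g = ∑ j ∈ Finset.range (g.totalDegree + 1), tens A (ψ ∘ₗ hc j) g := by
  rw [← LinearMap.sum_apply, ← sub_eq_zero, ← LinearMap.sub_apply, ← Submodule.mem_bot ℚ]
  refine ct_map_mem _ fun m hm => ?_
  have h1 : m.degree ≤ g.totalDegree := le_totalDegree hm
  have h2 := ct_degree A m
  rw [Submodule.mem_bot, LinearMap.sub_apply, sub_eq_zero, LinearMap.sum_apply,
    Finset.sum_eq_single (m.filter fun s => s ∈ A).degree]
  · rw [ct_tens_monomial, ct_tens_monomial, LinearMap.comp_apply, ct_hc_monomial, if_pos rfl]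
  · intro j _ hj
    rw [ct_tens_monomial, LinearMap.comp_apply, ct_hc_monomial, if_neg hj, map_zero, zero_smul]
  · intro h
    exact absurd (Finset.mem_range.2 (by omega)) h

theorem ct_tens_hc_mem (A : Finset (Om V K)) (ψ : PR V K →ₗ[ℚ] ℚ) (j : ℕ) {g : PR V K}
    {Q : Submodule ℚ (PR V K)} (h : ∀ m ∈ g.support, ∀ m' : Om V K →₀ ℕ,
      j + m'.degree = m.degree → monomial m' (1 : ℚ) ∈ Q) : tens A (ψ ∘ₗ hc j) g ∈ Q := by
  refine ct_map_mem _ fun m hm => ?_
  rw [ct_tens_monomial, LinearMap.comp_apply, ct_hc_monomial]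
  split_ifs with hj
  · exact Q.smul_mem _ (h m hm _ (by rw [hj, ct_degree]))
  · rw [map_zero, zero_smul]; exact Q.zero_mem

theorem tens_hc_mem_pow (A : Finset (Om V K)) (ψ : PR V K →ₗ[ℚ] ℚ) (j o : ℕ) {g : PR V K}
    (hg : g ∈ mI V K ^ o) : tens A (ψ ∘ₗ hc j) g ∈ mI V K ^ (o - j) := by
  refine ct_tens_hc_mem (Q := rs (mI V K ^ (o - j))) A ψ j fun m hm m' h => ?_
  have := (mem_pow_idealOfVars_iff o g).1 hg m hm
  exact (monomial_mem_pow_idealOfVars_iff _ _ one_ne_zero).2 (by omega)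

theorem tens_hc_isHomogeneous (A : Finset (Om V K)) (ψ : PR V K →ₗ[ℚ] ℚ) (j k : ℕ) {g : PR V K}
    (hg : g.IsHomogeneous k) :
    (tens A (ψ ∘ₗ hc j) g).IsHomogeneous (k - j) ∧ (k < j → tens A (ψ ∘ₗ hc j) g = 0) := by
  have h1 : ∀ m ∈ g.support, m.degree = k := fun m hm => by
    rw [Finsupp.degree_eq_weight_one]; exact hg (mem_support_iff.1 hm)
  refine ⟨ct_tens_hc_mem (Q := Hm V K (k - j)) A ψ j fun m hm m' h => ?_, fun hk => ?_⟩
  · have := h1 m hm
    exact isHomogeneous_monomial 1 (by omega)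
  · refine ct_tens_hc_mem (Q := ⊥) A ψ j fun m hm m' h => ?_
    have := h1 m hm
    omega

/-- generators inside `A` killed by `ψ` are killed, generators outside `A` are kept -/
theorem tens_mem_ideal (A : Finset (Om V K)) (ψ : PR V K →ₗ[ℚ] ℚ) {S S' : Set (PR V K)}
    (hS : ∀ k ∈ S, k ∈ RT A) (hS' : ∀ k ∈ S', k ∈ RT Aᶜ) (hψ : ∀ q ∈ Ideal.span S, ψ q = 0)
    {g : PR V K} (hg : g ∈ Ideal.span S ⊔ Ideal.span S') : tens A ψ g ∈ Ideal.span S' := by
  rw [← Ideal.span_union] at hg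
  suffices h : ∀ h, tens A ψ (g * h) ∈ Ideal.span S' by simpa using h 1
  induction hg using Submodule.span_induction with
  | mem k hk =>
    intro h
    rcases hk with hk | hk
    · have := ct_ext A (φ := tens A ψ ∘ₗ LinearMap.mulLeft ℚ k) (φ' := 0) (fun f hf f' hf' => by
        simp only [LinearMap.comp_apply, LinearMap.mulLeft_apply, LinearMap.zero_apply]
        rw [← mul_assoc, tens_mul A ψ (ct_mul (hS k hk) hf) hf',
          hψ _ (Ideal.mul_mem_right _ _ (Ideal.subset_span hk)), zero_smul]) h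
      rw [show tens A ψ (k * h) = 0 from this]
      exact zero_mem _
    · rw [tens_mul_right A ψ h (hS' k hk)]
      exact Ideal.mul_mem_right _ _ (Ideal.subset_span hk)
  | zero => intro h; rw [zero_mul, map_zero]; exact zero_mem _
  | add x y _ _ hx hy => intro h; rw [add_mul, map_add]; exact add_mem (hx h) (hy h)
  | smul a x _ hx => intro h; rw [smul_eq_mul, mul_comm a, mul_assoc]; exact hx _

theorem ct_basis (F Q : Submodule ℚ (PR V K)) :
    ∃ (κ : Type) (e : κ → PR V K) (ψ : κ → PR V K →ₗ[ℚ] ℚ), (∀ k, e k ∈ F) ∧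
      (∀ k, ∀ q ∈ Q, ψ k q = 0) ∧
      ∀ f ∈ F, ∃ s : Finset κ, ∀ t, s ⊆ t → f - ∑ k ∈ t, ψ k f • e k ∈ Q := by
  let b := Module.Basis.ofVectorSpace ℚ (F.map Q.mkQ)
  choose e he he' using fun k => (b k).2
  choose φ hφ using fun k => LinearMap.exists_extend (b.coord k)
  refine ⟨_, e, fun k => φ k ∘ₗ Q.mkQ, he, fun k q hq => ?_, fun f hf => ?_⟩
  · rw [LinearMap.comp_apply, Submodule.mkQ_apply, (Submodule.Quotient.mk_eq_zero Q).2 hq, map_zero]
  · let w : F.map Q.mkQ := ⟨Q.mkQ f, f, hf, rfl⟩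
    refine ⟨(b.repr w).support, fun t ht => ?_⟩
    have h1 : ∀ k, (φ k ∘ₗ Q.mkQ) f = b.repr w k := fun k => LinearMap.congr_fun (hφ k) w
    have h2 : ∑ k ∈ t, b.repr w k • b k = w := by
      conv_rhs => rw [← b.linearCombination_repr w, Finsupp.linearCombination_apply,
        Finsupp.sum_of_support_subset _ ht (fun i a => a • b i) (fun _ _ => zero_smul _ _)]
    refine (Submodule.Quotient.mk_eq_zero Q).1 ?_
    change Q.mkQ _ = 0
    rw [map_sub, map_sum, sub_eq_zero]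
    simp only [h1, map_smul, he']
    have h3 := congrArg Subtype.val h2
    rw [AddSubmonoidClass.coe_finsetSum] at h3
    exact h3.symm

theorem ct_dec (A : Finset (Om V K)) {F : Submodule ℚ (PR V K)} (hF : F ≤ RT A)
    {S : Set (PR V K)} (hS : ∀ k ∈ S, k ∈ RT A) {g : PR V K}
    (hg : g ∈ Submodule.span ℚ {h | ∃ f ∈ F, ∃ f' ∈ RT Aᶜ, h = f * f'} ⊔ rs (Ideal.span S)) :
    ∃ (κ : Type) (t : Finset κ) (e : κ → PR V K) (ψ : κ → PR V K →ₗ[ℚ] ℚ), (∀ k, e k ∈ F) ∧
      (∀ k, ∀ q ∈ Ideal.span S, ψ k q = 0) ∧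
      g - ∑ k ∈ t, e k * tens A (ψ k) g ∈ Ideal.span S := by
  classical
  obtain ⟨κ, e, ψ, h1, h2, h3⟩ := ct_basis F (rs (Ideal.span S))
  obtain ⟨g1, hg1, g2, hg2, rfl⟩ := Submodule.mem_sup.1 hg
  have h4 : ∃ s : Finset κ, ∀ t, s ⊆ t →
      g1 - ∑ k ∈ t, e k * tens A (ψ k) g1 ∈ rs (Ideal.span S) := by
    clear hg
    induction hg1 using Submodule.span_induction with
    | mem x hx =>
      obtain ⟨f, hf, f', hf', rfl⟩ := hx
      obtain ⟨s, hs⟩ := h3 f hf
      refine ⟨s, fun t ht => ?_⟩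
      have := Ideal.mul_mem_right f' _ (hs t ht)
      simp only [tens_mul A _ (hF hf) hf', mul_smul_comm]
      rwa [sub_mul, Finset.sum_mul, Finset.sum_congr rfl fun k _ => smul_mul_assoc _ _ _] at this
    | zero => exact ⟨∅, fun t _ => by simp⟩
    | add x y _ _ hx hy =>
      obtain ⟨s, hs⟩ := hx
      obtain ⟨s', hs'⟩ := hy
      refine ⟨s ∪ s', fun t ht => ?_⟩
      have := add_mem (hs t (Finset.subset_union_left.trans ht))
        (hs' t (Finset.subset_union_right.trans ht))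
      simp only [map_add, mul_add, Finset.sum_add_distrib]
      rwa [add_sub_add_comm]
    | smul a x _ hx =>
      obtain ⟨s, hs⟩ := hx
      refine ⟨s, fun t ht => ?_⟩
      have := Submodule.smul_mem _ a (hs t ht)
      simp only [map_smul, mul_smul_comm]
      rwa [← Finset.smul_sum, ← smul_sub]
  obtain ⟨s, hs⟩ := h4
  refine ⟨κ, s, e, ψ, h1, h2, ?_⟩
  have h5 : ∀ k, tens A (ψ k) g2 = 0 := fun k => by
    have := tens_mem_ideal A (ψ k) hS (S' := ∅) (by simp) (h2 k) (Ideal.mem_sup_left hg2)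
    simpa using this
  simp only [map_add, h5, add_zero]
  rw [add_sub_right_comm]
  exact add_mem (hs s subset_rfl) hg2

theorem ct_tens_tens {A B : Finset (Om V K)} (h : Disjoint A B) (l ψ : PR V K →ₗ[ℚ] ℚ)
    (g : PR V K) : tens Bᶜ ψ (tens A l g) = tens Bᶜ (ψ ∘ₗ tens A l) g := by
  refine ct_ext Bᶜ (φ := tens Bᶜ ψ ∘ₗ tens A l) (fun f hf f' hf' => ?_) g
  have h1 : f' ∈ RT Aᶜ := ct_mono (by
    rw [compl_compl]; exact Finset.subset_compl_iff_disjoint_left.2 h) hf'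
  rw [LinearMap.comp_apply, tens_mul _ _ hf hf', mul_comm, tens_mul_right A l f h1, mul_comm,
    tens_mul _ _ (ct_mono Finset.sdiff_subset (tens_mem_RT A _ l hf)) hf', LinearMap.comp_apply]

section products
variable {ι : Type} [DecidableEq ι] (J : Finset ι) (B : ι → Finset (Om V K))
  (Gen : ι → Set (PR V K))

omit [DecidableEq ι] in
theorem ct_iSup : ⨆ i ∈ J, Ideal.span (Gen i) = Ideal.span (⋃ i ∈ J, Gen i) :=
  (Submodule.span_iUnion₂ _).symm

omit [DecidableEq ι] in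
theorem ct_gen_compl {A : Finset (Om V K)} (hB : ∀ j ∈ J, Disjoint A (B j))
    (hG : ∀ j ∈ J, ∀ k ∈ Gen j, k ∈ RT (B j)) : ∀ k ∈ ⋃ j ∈ J, Gen j, k ∈ RT Aᶜ := by
  intro k hk
  obtain ⟨j, hj, hk⟩ := Set.mem_iUnion₂.1 hk
  exact ct_mono (Finset.subset_compl_iff_disjoint_left.2 (hB j hj)) (hG j hj k hk)

/-- product functionals -/
theorem exists_prod_dual (hB : ∀ i ∈ J, ∀ j ∈ J, i ≠ j → Disjoint (B i) (B j))
    (hG : ∀ i ∈ J, ∀ k ∈ Gen i, k ∈ RT (B i)) (l : ι → PR V K →ₗ[ℚ] ℚ)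
    (hl : ∀ i ∈ J, ∀ q ∈ Ideal.span (Gen i), l i q = 0) :
    ∃ Λ : PR V K →ₗ[ℚ] ℚ, (∀ q ∈ ⨆ i ∈ J, Ideal.span (Gen i), Λ q = 0) ∧
      ∀ w : ι → PR V K, (∀ i ∈ J, w i ∈ RT (B i)) → Λ (∏ i ∈ J, w i) = ∏ i ∈ J, l i (w i) := by
  induction J using Finset.induction_on with
  | empty => exact ⟨lcoeff ℚ 0, fun q hq => by simp at hq; simp [hq], fun w _ => by simp⟩
  | insert i J hi ih =>
    have m1 := Finset.mem_insert_self i J
    have m2 : ∀ j ∈ J, j ∈ insert i J := fun j hj => Finset.mem_insert_of_mem hj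
    have hd : ∀ j ∈ J, Disjoint (B i) (B j) := fun j hj =>
      hB i m1 j (m2 j hj) fun e => hi (e ▸ hj)
    obtain ⟨Λ, h1, h2⟩ := ih (fun a ha b hb => hB a (m2 a ha) b (m2 b hb))
      (fun a ha => hG a (m2 a ha)) fun a ha => hl a (m2 a ha)
    refine ⟨Λ ∘ₗ tens (B i) (l i), fun q hq => h1 _ ?_, fun w hw => ?_⟩
    · rw [Finset.iSup_insert, ct_iSup] at hq
      rw [ct_iSup]
      exact tens_mem_ideal _ _ (hG i m1) (ct_gen_compl J B Gen hd fun a ha => hG a (m2 a ha))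
        (hl i m1) hq
    · have : ∏ j ∈ J, w j ∈ RT (B i)ᶜ := Subalgebra.prod_mem _ fun j hj =>
        ct_mono (Finset.subset_compl_iff_disjoint_left.2 (hd j hj)) (hw j (m2 j hj))
      rw [Finset.prod_insert hi, Finset.prod_insert hi, LinearMap.comp_apply,
        tens_mul _ _ (hw i m1) this, map_smul, h2 w fun a ha => hw a (m2 a ha), smul_eq_mul]

/-- if all slices of `g` lie in `U i` modulo the `i`-th ideal then `g` is a sum of products -/
theorem mem_span_prod (hB : ∀ i ∈ J, ∀ j ∈ J, i ≠ j → Disjoint (B i) (B j))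
    (hG : ∀ i ∈ J, ∀ k ∈ Gen i, k ∈ RT (B i)) (U : ι → Submodule ℚ (PR V K))
    (hU : ∀ i ∈ J, U i ≤ RT (B i)) {g : PR V K} (hg : g ∈ RT (J.biUnion B))
    (hs : ∀ i ∈ J, ∀ ψ : PR V K →ₗ[ℚ] ℚ, (∀ q ∈ ⨆ j ∈ J.erase i, Ideal.span (Gen j), ψ q = 0) →
      tens (B i)ᶜ ψ g ∈ U i ⊔ rs (Ideal.span (Gen i))) :
    g ∈ Submodule.span ℚ {h | ∃ w : ι → PR V K, (∀ i ∈ J, w i ∈ U i) ∧ h = ∏ i ∈ J, w i} ⊔
      rs (⨆ i ∈ J, Ideal.span (Gen i)) := by
  induction J using Finset.induction_on generalizing g with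
  | empty =>
    refine Submodule.mem_sup_left (ct_mem_of_monomial fun m hm => Submodule.subset_span
      ⟨fun _ => 1, by simp, ?_⟩)
    have : m = 0 := by simpa using ct_mem_RT.1 hg m hm
    simp [this]
  | insert i J hi ih =>
    have m1 := Finset.mem_insert_self i J
    have m2 : ∀ j ∈ J, j ∈ insert i J := fun j hj => Finset.mem_insert_of_mem hj
    have hd : ∀ j ∈ J, Disjoint (B i) (B j) := fun j hj =>
      hB i m1 j (m2 j hj) fun e => hi (e ▸ hj)
    have hc := ct_gen_compl J B Gen hd fun a ha => hG a (m2 a ha)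
    obtain ⟨κ, t, e, ψ, a1, a2, a3⟩ := ct_dec (B i)ᶜ (F := RT (B i)ᶜ) le_rfl hc (g := g)
      (Submodule.mem_sup_left (RT_union_le _ _ (by rw [Finset.union_compl]; exact RT_univ g)))
    have a4 : ∑ k ∈ t, e k * tens (B i)ᶜ (ψ k) g ∈
        Submodule.span ℚ {h | ∃ f ∈ U i, ∃ f' ∈ RT (B i)ᶜ, h = f * f'} ⊔
          rs (Ideal.span (Gen i)) := by
      refine Submodule.sum_mem _ fun k _ => ?_
      obtain ⟨u, hu, q, hq, h⟩ := Submodule.mem_sup.1
        (hs i m1 (ψ k) (by rw [Finset.erase_insert hi, ct_iSup]; exact a2 k))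
      rw [← h, mul_add]
      exact Submodule.add_mem_sup (Submodule.subset_span ⟨u, hu, _, a1 k, mul_comm _ _⟩)
        (Ideal.mul_mem_left _ _ hq)
    obtain ⟨κ', t', u, l, b1, b2, b3⟩ := ct_dec (B i) (hU i m1) (hG i m1) a4
    set g' := ∑ k ∈ t, e k * tens (B i)ᶜ (ψ k) g
    have b4 : ∀ k, tens (B i) (l k) g ∈ Submodule.span ℚ
        {h | ∃ w : ι → PR V K, (∀ i ∈ J, w i ∈ U i) ∧ h = ∏ i ∈ J, w i} ⊔
        rs (⨆ i ∈ J, Ideal.span (Gen i)) := fun k => by
      refine ih (fun a ha b hb => hB a (m2 a ha) b (m2 b hb)) (fun a ha => hG a (m2 a ha))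
        (fun a ha => hU a (m2 a ha)) (ct_mono ?_ (tens_mem_RT _ _ _ hg)) fun j hj φ hφ => ?_
      · rw [Finset.biUnion_insert, Finset.union_sdiff_left]
        exact Finset.sdiff_subset
      · rw [ct_tens_tens (hd j hj)]
        refine hs j (m2 j hj) _ fun q hq => hφ _ ?_
        rw [Finset.erase_insert_of_ne (fun e => hi (by rw [e]; exact hj)), Finset.iSup_insert,
          ct_iSup] at hq
        rw [ct_iSup]
        exact tens_mem_ideal _ _ (hG i m1) (ct_gen_compl _ B Gen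
          (fun a ha => hd a (Finset.mem_of_mem_erase ha))
          fun a ha => hG a (m2 a (Finset.mem_of_mem_erase ha))) (b2 k) hq
    have e1 : g = ∑ k ∈ t', u k * tens (B i) (l k) g + ((g' - ∑ k ∈ t', u k * tens (B i) (l k) g')
        + ((g - g') - ∑ k ∈ t', u k * tens (B i) (l k) (g - g'))) := by
      simp only [map_sub, mul_sub, Finset.sum_sub_distrib]
      ring
    rw [Finset.iSup_insert]
    rw [e1]
    refine add_mem (Submodule.sum_mem _ fun k _ => ?_) (Submodule.mem_sup_right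
      (Submodule.add_mem_sup b3 ?_))
    · obtain ⟨p, hp, q, hq, h⟩ := Submodule.mem_sup.1 (b4 k)
      rw [← h, mul_add]
      refine Submodule.add_mem_sup ?_ (Ideal.mem_sup_right (Ideal.mul_mem_left _ _ hq))
      refine Submodule.mem_comap.1 ((Submodule.span_le
        (p := Submodule.comap (LinearMap.mulLeft ℚ (u k)) (Submodule.span ℚ
          {h | ∃ w : ι → PR V K, (∀ j ∈ insert i J, w j ∈ U j) ∧ h = ∏ j ∈ insert i J, w j}))).2
        ?_ hp)
      rintro _ ⟨w, hw, rfl⟩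
      refine Submodule.subset_span ⟨Function.update w i (u k), fun j hj => ?_, ?_⟩
      · rcases Finset.mem_insert.1 hj with rfl | hj
        · rw [Function.update_self]; exact b1 k
        · rw [Function.update_of_ne (fun e => hi (by rw [← e]; exact hj))]; exact hw j hj
      · rw [Finset.prod_insert hi, Function.update_self, Finset.prod_update_of_notMem hi]
        rfl
    · rw [ct_iSup]
      exact sub_mem a3 (Ideal.sum_mem _ fun k _ => Ideal.mul_mem_left _ _
        (tens_mem_ideal _ _ (hG i m1) hc (b2 k) (Ideal.mem_sup_right a3)))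
end products

end
end Vale.Agent.P066
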