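import Vale.Agent.P066.CFil
import Vale.Agent.P066.CTens
import Vale.Agent.P066.CAlt

/-! Part C: symbols are divisible by the kernel and their values are products of BPS elements. -/

namespace Vale.Agent.P066
open MvPolynomial Equiv
noncomputable section
variable {V : Type} [Fintype V] [DecidableEq V] {K : ℕ}
variable {ar : V → V → ℕ} {η : Stab (V → ℤ)} {T : Finset (Om V K)} {b : Om V K → ℕ}

omit [Fintype V] in
/-- the symbol as a polynomial in the block coordinates -/
theorem exists_symbol_poly (T : Finset (Om V K)) (b : Om V K → ℕ) (l : PR V K →ₗ[ℚ] ℚ) :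
    ∃ Θ : PR V K →ₗ[ℚ] MvPolynomial ℕ ℚ, ∀ f c, eval c (Θ f) = l (sh (pt T b c) f) := by
  let τ : PR V K →ₐ[ℚ] TensorProduct ℚ (PR V K) (MvPolynomial ℕ ℚ) :=
    aeval fun s => X s ⊗ₜ 1 + 1 ⊗ₜ (if s ∈ T then X (b s) else 0)
  refine ⟨(TensorProduct.lid ℚ _).toLinearMap ∘ₗ l.rTensor _ ∘ₗ τ.toLinearMap, fun f c => ?_⟩
  let ρ : TensorProduct ℚ (PR V K) (MvPolynomial ℕ ℚ) →ₐ[ℚ] PR V K :=
    Algebra.TensorProduct.productMap (AlgHom.id ℚ _) ((Algebra.ofId ℚ _).comp (aeval c))
  have h1 : ∀ t, eval c (TensorProduct.lid ℚ _ (l.rTensor _ t)) = l (ρ t) := by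
    intro t
    induction t with
    | zero => simp
    | tmul x y =>
      have : ρ (x ⊗ₜ y) = eval c y • x := by
        simp [ρ, Algebra.ofId_apply, mul_comm x, smul_eq_C_mul]
      simp [this, mul_comm]
    | add x y hx hy => simp only [map_add, hx, hy]
  have h2 : ρ.comp τ = sh (pt T b c) := by
    refine algHom_ext fun s => ?_
    by_cases hs : s ∈ T <;> simp [τ, ρ, sh, pt, hs, Algebra.ofId_apply]
  rw [← h2]
  exact h1 _

/-- vanishing to order `a` along the hyperplane `c i = c j` -/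
theorem pow_dvd_of_eval {Φ : MvPolynomial ℕ ℚ} {i j : ℕ} (hij : i ≠ j) (a : ℕ)
    (h : ∀ c : ℕ → ℚ, c i = c j → ∃ P : Polynomial ℚ, Polynomial.X ^ a ∣ P ∧
      ∀ u : ℚ, eval (c + Pi.single j u) Φ = P.eval u) : (X j - X i) ^ a ∣ Φ := by
  let φ : MvPolynomial ℕ ℚ →+* Polynomial (MvPolynomial ℕ ℚ) :=
    eval₂Hom (Polynomial.C.comp C) fun n =>
      if n = j then Polynomial.X + Polynomial.C (X i) else Polynomial.C (X n)
  have h1 : (Polynomial.evalRingHom (X j - X i)).comp φ = RingHom.id _ := by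
    refine ringHom_ext (fun r => by simp [φ]) fun n => ?_
    by_cases hn : n = j <;> simp [φ, hn]
  have h2 : Polynomial.X ^ a ∣ φ Φ := by
    refine Polynomial.X_pow_dvd_iff.2 fun d hd => MvPolynomial.funext fun c => ?_
    obtain ⟨P, hP, hP'⟩ := h (Function.update c j (c i)) (by simp [hij])
    have h3 : (φ Φ).map (eval c) = P := by
      refine Polynomial.funext fun u => ?_
      have h4 : (Polynomial.evalRingHom u).comp ((Polynomial.mapRingHom (eval c)).comp φ) =
          eval (Function.update c j (c i) + Pi.single j u) := by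
        refine ringHom_ext (fun r => by simp [φ]) fun n => ?_
        by_cases hn : n = j <;> simp [φ, hn, add_comm]
      rw [← hP', ← h4]
      rfl
    rw [← Polynomial.coeff_map, h3, Polynomial.X_pow_dvd_iff.1 hP d hd, map_zero]
  have h5 := map_dvd (Polynomial.evalRingHom (X j - X i)) h2
  rwa [map_pow, Polynomial.coe_evalRingHom, Polynomial.eval_X, ← Polynomial.coe_evalRingHom,
    ← RingHom.comp_apply, h1] at h5

namespace CSym

theorem dvd_iff {i j : ℕ} (hij : i ≠ j) (f : MvPolynomial ℕ ℚ) :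
    X j - X i ∣ f ↔ rename (Function.update id j i) f = 0 := by
  constructor
  · rintro ⟨g, rfl⟩
    simp [hij]
  · intro h
    have h1 : (Ideal.Quotient.mkₐ ℚ (Ideal.span {(X j - X i : MvPolynomial ℕ ℚ)})).comp
        (rename (Function.update id j i)) = Ideal.Quotient.mkₐ ℚ _ := by
      refine algHom_ext fun n => ?_
      by_cases hn : n = j
      · subst hn
        simp only [AlgHom.comp_apply, rename_X, Function.update_self, Ideal.Quotient.mkₐ_eq_mk]
        exact (Ideal.Quotient.eq.2 (Ideal.mem_span_singleton_self _)).symm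
      · simp [hn]
    have h2 := AlgHom.congr_fun h1 f
    rw [AlgHom.comp_apply, h, map_zero] at h2
    exact Ideal.mem_span_singleton.1 (Ideal.Quotient.eq_zero_iff_mem.1 h2.symm)

theorem prime_sub {i j : ℕ} (hij : i ≠ j) : Prime (X j - X i : MvPolynomial ℕ ℚ) := by
  refine ⟨sub_ne_zero.2 fun h => hij (X_injective h).symm, fun h => ?_, fun f g h => ?_⟩
  · simpa using (dvd_iff hij 1).1 h.dvd
  · simpa only [dvd_iff hij, map_mul, mul_eq_zero] using h

theorem not_dvd {i j i' j' : ℕ} (h : i < j) (h' : i' < j') (hne : (i, j) ≠ (i', j')) :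
    ¬ (X j - X i : MvPolynomial ℕ ℚ) ∣ X j' - X i' := by
  rw [dvd_iff h.ne, map_sub, rename_X, rename_X, sub_eq_zero]
  intro e
  have := X_injective e
  simp only [Function.update_apply, id, ne_eq, Prod.mk.injEq] at this hne
  split_ifs at this <;> omega

end CSym
open CSym

theorem Ktop_dvd_of_forall {Φ : MvPolynomial ℕ ℚ}
    (h : ∀ i ∈ T.image b, ∀ j ∈ T.image b, i < j →
      (X j - X i) ^ aa ar (dv (blk T b i)) (dv (blk T b j)) ∣ Φ) : Ktop ar T b ∣ Φ := by
  rw [Ktop, ← Finset.prod_product']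
  refine Finset.prod_dvd_of_isRelPrime (fun p _ p' _ hne => ?_) fun p hp => ?_
  · simp only [Function.onFun]
    split_ifs with h1 h2
    · exact ((prime_sub h1.ne).irreducible.isRelPrime_iff_not_dvd.2 (not_dvd h1 h2 hne)).pow
    · exact isRelPrime_one_right
    · exact isRelPrime_one_left
    · exact isRelPrime_one_left
  · split_ifs with h1
    · exact h _ (Finset.mem_product.1 hp).1 _ (Finset.mem_product.1 hp).2 h1
    · exact one_dvd _

namespace CSym

omit [Fintype V] [DecidableEq V] in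
theorem scl_monomial (u : ℚ) (m : Om V K →₀ ℕ) (c : ℚ) :
    aeval (fun s => C u * X s : Om V K → PR V K) (monomial m c) = u ^ m.degree • monomial m c := by
  rw [aeval_monomial, monomial_eq, smul_eq_C_mul]
  simp only [mul_pow, Finsupp.prod_mul, algebraMap_eq]
  rw [Finsupp.prod, Finset.prod_pow_eq_pow_sum, map_pow, Finsupp.degree_apply]
  ring

omit [Fintype V] [DecidableEq V] in
theorem hc_scl (u : ℚ) (k : ℕ) (h : PR V K) :
    hc k (aeval (fun s => C u * X s : Om V K → PR V K) h) = u ^ k • hc k h := by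
  induction h using MvPolynomial.induction_on' with
  | monomial m c =>
    rw [scl_monomial, map_smul, homogeneousComponent_of_mem (isHomogeneous_monomial c rfl)]
    split_ifs with h1
    · rw [h1]
    · simp
  | add p q hp hq => simp only [map_add, hp, hq, smul_add]

theorem hc_sh_smul (u : ℚ) (e : Om V K → ℚ) {k : ℕ} {m : Om V K →₀ ℕ} (hk : k ≤ m.degree)
    (c : ℚ) : hc k (sh (u • e) (monomial m c)) =
      u ^ (m.degree - k) • hc k (sh e (monomial m c)) := by
  rcases eq_or_ne u 0 with rfl | hu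
  · rw [zero_smul, sh_zero, homogeneousComponent_of_mem (isHomogeneous_monomial c rfl)]
    split_ifs with h1
    · rw [h1, (hc_sh_of_isHomogeneous (isHomogeneous_monomial c rfl) e).1]
      simp
    · rw [zero_pow (by omega), zero_smul]
  · have h1 : (aeval (fun s => C u * X s : Om V K → PR V K)).comp (sh (u • e)) =
        (sh e).comp (aeval (fun s => C u * X s : Om V K → PR V K)) := by
      refine algHom_ext fun s => ?_
      simp [sh, mul_add]
    have h2 := congrArg (hc k) (AlgHom.congr_fun h1 (monomial m c))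
    rw [AlgHom.comp_apply, AlgHom.comp_apply, hc_scl, scl_monomial, map_smul, map_smul] at h2
    refine smul_right_injective _ (pow_ne_zero k hu) ?_
    simp only
    rw [h2, smul_smul, ← pow_add, Nat.add_sub_cancel' hk]

theorem exists_poly (e : Om V K → ℚ) (l : PR V K →ₗ[ℚ] ℚ) {k a : ℕ} {ν : PR V K}
    (hν : ν ∈ mI V K ^ (k + a)) : ∃ P : Polynomial ℚ, Polynomial.X ^ a ∣ P ∧
      ∀ u : ℚ, l (hc k (sh (u • e) ν)) = P.eval u := by
  rw [mem_pow_idealOfVars_iff] at hν
  refine ⟨∑ m ∈ ν.support, Polynomial.X ^ (m.degree - k) *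
    Polynomial.C (l (hc k (sh e (monomial m (coeff m ν))))), Finset.dvd_sum fun m hm =>
      (pow_dvd_pow _ (by have := hν m hm; omega)).mul_right _, fun u => ?_⟩
  conv_lhs => rw [ν.as_sum]
  simp only [map_sum, Polynomial.eval_finsetSum]
  refine Finset.sum_congr rfl fun m hm => ?_
  rw [hc_sh_smul u e (by have := hν m hm; omega), map_smul, Polynomial.eval_mul,
    Polynomial.eval_C, Polynomial.eval_pow, Polynomial.eval_X, smul_eq_mul]

omit [Fintype V] [DecidableEq V] in
theorem mem_blk {i : ℕ} {s : Om V K} : s ∈ blk T b i ↔ s ∈ T ∧ b s = i := Finset.mem_filter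

omit [Fintype V] [DecidableEq V] in
theorem disjoint_blk {i j : ℕ} (h : i ≠ j) : Disjoint (blk T b i) (blk T b j) :=
  Finset.disjoint_left.2 fun _ h1 h2 => h ((mem_blk.1 h1).2.symm.trans (mem_blk.1 h2).2)

theorem zero_empty : η.zero (dz (dv (∅ : Finset (Om V K)))) := by
  rw [dv_empty, dz_zero]
  exact η.zero_zero

omit [Fintype V] [DecidableEq V] in
theorem sum_blk (i j : ℕ) (F : Om V K → Om V K → ℕ) :
    ∑ s ∈ blk T b i, ∑ s' ∈ blk T b j, F s s' =
      ∑ s ∈ T, ∑ s' ∈ T, if b s = i ∧ b s' = j then F s s' else 0 := by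
  simp only [blk, Finset.sum_filter]
  refine Finset.sum_congr rfl fun s _ => ?_
  split_ifs with h <;> simp [h]

theorem isEP_merge (hb : IsEP η T b) {i j : ℕ} (hij : i ≠ j) :
    IsEP η T fun s => if b s = j then i else b s := by
  intro n
  by_cases h1 : n = i
  · have : blk T (fun s => if b s = j then i else b s) n = blk T b i ∪ blk T b j := by
      ext s
      simp only [mem_blk, Finset.mem_union]
      grind
    rw [this, dv_union (disjoint_blk hij), dz_add]
    exact (hb i).add (hb j)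
  by_cases h2 : n = j
  · have : blk T (fun s => if b s = j then i else b s) n = ∅ := by
      ext s
      simp only [mem_blk, Finset.notMem_empty]
      grind
    rw [this]
    exact zero_empty
  · have : blk T (fun s => if b s = j then i else b s) n = blk T b n := by
      ext s
      simp only [mem_blk]
      grind
    rw [this]
    exact hb n

theorem kap_merge (hs : Sym0 ar η) (hb : IsEP η T b) {i j : ℕ} (hij : i ≠ j) :
    kap ar T (fun s => if b s = j then i else b s) + aa ar (dv (blk T b i)) (dv (blk T b j)) =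
      kap ar T b := by
  have h1 := two_kap hs hb
  have h2 := two_kap hs (isEP_merge hb hij)
  have h3 := hs _ _ (hb i) (hb j)
  have h4 := aa_dv ar (blk T b i) (blk T b j)
  have h5 := aa_dv ar (blk T b j) (blk T b i)
  rw [sum_blk] at h4 h5
  suffices 2 * kap ar T (fun s => if b s = j then i else b s) +
      (aa ar (dv (blk T b i)) (dv (blk T b j)) + aa ar (dv (blk T b j)) (dv (blk T b i))) =
      2 * kap ar T b by omega
  rw [h1, h2, h4, h5]
  simp only [← Finset.sum_add_distrib]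
  refine Finset.sum_congr rfl fun s _ => Finset.sum_congr rfl fun s' _ => ?_
  grind

end CSym

/-- divisibility of the symbol by the kernel (merge two blocks) -/
theorem Ktop_dvd_symbol (hs : Sym0 ar η) (hb : IsEP η T b) {w : ℕ} (hw : kap ar T b ≤ w)
    {f : PR V K} (hf : f ∈ Fil ar η T w (nb T b + 1)) (l : PR V K →ₗ[ℚ] ℚ)
    (hl : ∀ q ∈ aI ar η T b, l q = 0) {Φ : MvPolynomial ℕ ℚ}
    (hΦ : ∀ c, eval c Φ = l (hc (w - kap ar T b) (sh (pt T b c) f))) : Ktop ar T b ∣ Φ := by
  refine Ktop_dvd_of_forall fun i _ j _ hij => pow_dvd_of_eval hij.ne _ fun c hc0 => ?_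
  have hR : Refines T b fun s => if b s = j then i else b s := fun s _ s' _ e => by simp only [e]
  have h1 := mem_Fil.1 hf _ (isEP_merge hb hij.ne)
  have h2 := kap_merge hs hb hij.ne
  rw [if_pos (Nat.lt_succ_of_le hR.nb_le)] at h1
  have h3 := mem_OrdAt.1 (OrdAt_anti (k := w - kap ar T b + aa ar (dv (blk T b i)) (dv (blk T b j)))
    (by omega) h1) c
  have h4 : pt T (fun s => if b s = j then i else b s) c = pt T b c := by
    funext s
    simp only [pt]
    grind
  rw [h4] at h3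
  obtain ⟨α, hα, ν, hν, e⟩ := Submodule.mem_sup.1 h3
  obtain ⟨P, hP, hP'⟩ := exists_poly (pt T b (Pi.single j 1)) l hν
  refine ⟨P, hP, fun u => ?_⟩
  have h5 : pt T b (c + Pi.single j u) = pt T b (Pi.single j u) + pt T b c := by
    funext s
    by_cases h : s ∈ T <;> simp [pt, h, add_comm]
  have h6 : pt T b (Pi.single j u) = u • pt T b (Pi.single j 1) := by
    funext s
    by_cases h : s ∈ T <;> simp [pt, h, Pi.single_apply]
  rw [hΦ, h5, ← sh_sh, ← e, map_add, map_add, map_add,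
    hl _ (gr_aI ar η T b _ (sh_mem_aI hb hR _ hα) _), zero_add, h6, hP']

namespace CSym

/-- refine the block `i` of `b` according to `ρ` -/
def rf (b : Om V K → ℕ) (i : ℕ) (ρ : Om V K → ℕ) (s : Om V K) : ℕ :=
  Nat.pair (b s) (if b s = i then ρ s else 0)

variable {i : ℕ} {ρ : Om V K → ℕ}

omit [Fintype V] [DecidableEq V] in
theorem rf_eq_iff {s s' : Om V K} :
    rf b i ρ s = rf b i ρ s' ↔ b s = b s' ∧ (b s = i → ρ s = ρ s') := by
  simp only [rf, Nat.pair_eq_pair]
  grind

omit [Fintype V] [DecidableEq V] in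
theorem blk_rf_of_eq {s : Om V K} (h : b s = i) :
    blk T (rf b i ρ) (rf b i ρ s) = blk (blk T b i) ρ (ρ s) := by
  ext t
  simp only [mem_blk, rf_eq_iff]
  grind

omit [Fintype V] [DecidableEq V] in
theorem blk_rf_of_ne {s : Om V K} (h : b s ≠ i) :
    blk T (rf b i ρ) (rf b i ρ s) = blk T b (b s) := by
  ext t
  simp only [mem_blk, rf_eq_iff]
  grind

theorem isEP_rf (hb : IsEP η T b) (hρ : IsEP η (blk T b i) ρ) : IsEP η T (rf b i ρ) := by
  intro n
  rcases (blk T (rf b i ρ) n).eq_empty_or_nonempty with h | ⟨s, hs⟩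
  · rw [h]
    exact zero_empty
  · obtain ⟨-, rfl⟩ := mem_blk.1 hs
    by_cases h : b s = i
    · rw [blk_rf_of_eq h]
      exact hρ _
    · rw [blk_rf_of_ne h]
      exact hb _

theorem kap_rf (hs : Sym0 ar η) (hb : IsEP η T b) (hρ : IsEP η (blk T b i) ρ) :
    kap ar T (rf b i ρ) = kap ar T b + kap ar (blk T b i) ρ := by
  have h1 := two_kap hs hb
  have h2 := two_kap hs hρ
  have h3 := two_kap hs (isEP_rf hb hρ)
  rw [sum_blk] at h2
  suffices 2 * kap ar T (rf b i ρ) = 2 * kap ar T b + 2 * kap ar (blk T b i) ρ by omega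
  rw [h1, h2, h3]
  simp only [← Finset.sum_add_distrib, ne_eq, rf_eq_iff]
  refine Finset.sum_congr rfl fun s _ => Finset.sum_congr rfl fun s' _ => ?_
  grind

omit [Fintype V] [DecidableEq V] in
theorem refines_rf : Refines T (rf b i ρ) b := fun _ _ _ _ e => (rf_eq_iff.1 e).1

theorem nb_rf (h : nb T (rf b i ρ) ≤ nb T b) : nb (blk T b i) ρ < 2 := by
  have h1 := (refines_rf.sameP_of_nb h).2
  refine Nat.lt_succ_of_le (Finset.card_le_one.2 fun x hx y hy => ?_)
  obtain ⟨s, hs, rfl⟩ := Finset.mem_image.1 hx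
  obtain ⟨t, ht, rfl⟩ := Finset.mem_image.1 hy
  rw [mem_blk] at hs ht
  exact (rf_eq_iff.1 (h1 s hs.1 t ht.1 (hs.2.trans ht.2.symm))).2 hs.2

/-- the generators of `Jnn` -/
def Gen (ar : V → V → ℕ) (η : Stab (V → ℤ)) (B : Finset (Om V K)) : Set (PR V K) :=
  {k | ∃ A, A ⊆ B ∧ η.neg (dz (dv A)) ∧ k = kr ar A (B \ A)}

theorem Gen_mem_RT {B B' : Finset (Om V K)} (h : B ⊆ B') {k : PR V K} (hk : k ∈ Gen ar η B) :
    k ∈ RT B' := by
  obtain ⟨A, hA, -, rfl⟩ := hk
  exact kr_mem_RT ar (hA.trans h) (Finset.sdiff_subset.trans h)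

omit [Fintype V] in
theorem span_Gen (J : Finset ℕ) (B : ℕ → Finset (Om V K)) :
    Ideal.span (⋃ n ∈ J, Gen ar η (B n)) = ⨆ n ∈ J, Jnn ar η (B n) := by
  simp only [Ideal.span_iUnion]
  rfl

omit [Fintype V] in
theorem aI_rf_le : aI ar η T (rf b i ρ) ≤
    (⨆ n ∈ (T.image b).erase i, Jnn ar η (blk T b n)) ⊔ aI ar η (blk T b i) ρ := by
  refine iSup₂_le fun n hn => ?_
  obtain ⟨s, hs, rfl⟩ := Finset.mem_image.1 hn
  by_cases h : b s = i
  · rw [blk_rf_of_eq h]
    exact le_sup_of_le_right (le_iSup₂_of_le (ρ s)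
      (Finset.mem_image_of_mem _ (mem_blk.2 ⟨hs, h⟩)) le_rfl)
  · rw [blk_rf_of_ne h]
    exact le_sup_of_le_left (le_iSup₂_of_le (b s)
      (Finset.mem_erase.2 ⟨h, Finset.mem_image_of_mem _ hs⟩) le_rfl)

theorem gr_span_Gen (J : Finset ℕ) (B : ℕ → Finset (Om V K)) :
    Gr (rs (Ideal.span (⋃ n ∈ J, Gen ar η (B n)))) := by
  refine gr_ideal_span fun k hk => ?_
  obtain ⟨n, -, A, -, -, e⟩ := Set.mem_iUnion₂.1 hk
  exact ⟨_, e ▸ kr_isHomogeneous ar _ _⟩

theorem tens_mem_aI {ψ : PR V K →ₗ[ℚ] ℚ}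
    (hψ : ∀ q ∈ ⨆ j ∈ (T.image b).erase i, Jnn ar η (blk T b j), ψ q = 0) (j : ℕ) {α : PR V K}
    (hα : α ∈ aI ar η T (rf b i ρ)) :
    tens (blk T b i)ᶜ (ψ ∘ₗ hc j) α ∈ aI ar η (blk T b i) ρ := by
  have h1 := aI_rf_le hα
  rw [aI, ← span_Gen, ← span_Gen] at h1
  rw [← span_Gen] at hψ
  rw [aI, ← span_Gen]
  refine tens_mem_ideal _ _ (fun k hk => ?_) (fun k hk => ?_)
    (fun q hq => by exact hψ (hc j q) (gr_span_Gen _ _ q hq j)) h1
  · obtain ⟨n, hn, hk⟩ := Set.mem_iUnion₂.1 hk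
    exact Gen_mem_RT (Finset.subset_compl_iff_disjoint_right.2
      (disjoint_blk (Finset.ne_of_mem_erase hn))) hk
  · obtain ⟨n, hn, hk⟩ := Set.mem_iUnion₂.1 hk
    rw [compl_compl]
    exact Gen_mem_RT (Finset.filter_subset _ _) hk

theorem slice_mem (hs : Sym0 ar η) (hb : IsEP η T b) {w : ℕ} (hw : kap ar T b ≤ w)
    {f : PR V K} (hA : f ∈ Anti T)
    (hf : ∀ b', IsEP η T b' → Refines T b' b →
      f ∈ OrdAt ar η T b' ((if nb T b' < nb T b + 1 then w else w + 1) - kap ar T b'))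
    (c : ℕ → ℚ) {ψ : PR V K →ₗ[ℚ] ℚ}
    (hψ : ∀ q ∈ ⨆ j ∈ (T.image b).erase i, Jnn ar η (blk T b j), ψ q = 0) {j : ℕ}
    (hj : j ≤ w - kap ar T b) :
    tens (blk T b i)ᶜ (ψ ∘ₗ hc j) (hc (w - kap ar T b) (sh (pt T b c) f)) ∈
      BPSk ar η (blk T b i) (w - kap ar T b - j) := by
  refine ⟨⟨⟨?_, fun s h1 s' h2 hne e => ?_⟩,
    (tens_hc_isHomogeneous _ _ _ _ (homogeneousComponent_isHomogeneous _ _)).1⟩,
    mem_Fil.2 fun ρ hρ => mem_OrdAt.2 fun c' => ?_⟩
  · refine RT_mono (fun s h => ?_) (tens_mem_RT _ T _ (gr_RT T _ (sh_mem_RT _ hA.1) _))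
    simpa using (Finset.mem_sdiff.1 h).2
  · have h3 : pt T b c ∘ swap s s' = pt T b c := by
      funext t
      rw [mem_blk] at h1 h2
      simp only [Function.comp, swap_apply_def, pt]
      grind
    rw [rename_tens _ _ fun t ht => swap_apply_of_ne_of_ne
      (fun h => Finset.mem_compl.1 ht (h ▸ h1)) (fun h => Finset.mem_compl.1 ht (h ▸ h2)),
      rename_homogeneousComponent, ← h3, ← rename_sh,
      hA.2 s (mem_blk.1 h1).1 s' (mem_blk.1 h2).1 hne e, h3, map_neg, map_neg, map_neg]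
  · have h1 := gr_OrdAt ar η T _ _ _
      (sh_mem_OrdAt refines_rf c (hf _ (isEP_rf hb hρ) refines_rf)) (w - kap ar T b)
    have h2 := mem_OrdAt.1 h1 fun n => if n.unpair.1 = i then c' n.unpair.2 else 0
    have h3 : pt T (rf b i ρ) (fun n => if n.unpair.1 = i then c' n.unpair.2 else 0) =
        pt (blk T b i) ρ c' := by
      funext t
      simp only [pt, rf, Nat.unpair_pair, mem_blk]
      grind
    rw [h3] at h2
    obtain ⟨α, hα, ν, hν, e⟩ := Submodule.mem_sup.1 h2
    rw [sh_tens (c := pt (blk T b i) ρ c') _ _ fun t ht => if_neg (Finset.mem_compl.1 ht), ← e,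
      map_add]
    refine Submodule.add_mem_sup (tens_mem_aI hψ j hα)
      (Ideal.pow_le_pow_right ?_ (tens_hc_mem_pow _ ψ j _ hν))
    have h4 := kap_rf hs hb hρ
    have h5 := nb_rf (T := T) (b := b) (i := i) (ρ := ρ)
    split_ifs <;> omega

end CSym

/-- the values of the symbol are sums of products of BPS elements (refine one block) -/
theorem symbol_mem_span (hs : Sym0 ar η) (hb : IsEP η T b) {w : ℕ} (hw : kap ar T b ≤ w)
    {f : PR V K} (hA : f ∈ Anti T)
    (hf : ∀ b', IsEP η T b' → Refines T b' b →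
      f ∈ OrdAt ar η T b' ((if nb T b' < nb T b + 1 then w else w + 1) - kap ar T b'))
    (c : ℕ → ℚ) :
    hc (w - kap ar T b) (sh (pt T b c) f) ∈ Submodule.span ℚ {h | ∃ (g : ℕ → PR V K) (k : ℕ → ℕ),
      (∀ i ∈ T.image b, g i ∈ BPSk ar η (blk T b i) (k i)) ∧
        ∑ i ∈ T.image b, k i = w - kap ar T b ∧ h = ∏ i ∈ T.image b, g i} ⊔ rs (aI ar η T b) := by
  have h1 := mem_span_prod (T.image b) (blk T b)
    (fun i => Gen ar η (blk T b i)) (fun i _ j _ h => disjoint_blk h)
    (fun i _ k hk => Gen_mem_RT le_rfl hk)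
    (fun i => BPS ar η (blk T b i)) (fun i _ => iSup_le fun k g hg => hg.1.1.1)
    (g := hc (w - kap ar T b) (sh (pt T b c) f))
    (RT_mono (fun s h => Finset.mem_biUnion.2 ⟨b s, Finset.mem_image_of_mem _ h, mem_blk.2 ⟨h, rfl⟩⟩)
      (gr_RT T _ (sh_mem_RT _ hA.1) _))
    (fun i _ ψ hψ => Submodule.mem_sup_left (by
      rw [tens_eq_sum_hc]
      refine Submodule.sum_mem _ fun j _ => ?_
      rcases le_or_gt j (w - kap ar T b) with hj | hj
      · exact Submodule.mem_iSup_of_mem _ (slice_mem hs hb hw hA hf c hψ hj)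
      · rw [(tens_hc_isHomogeneous _ _ _ _ (homogeneousComponent_isHomogeneous _ _)).2 hj]
        exact Submodule.zero_mem _))
  obtain ⟨x, hx, y, hy, e⟩ := Submodule.mem_sup.1 h1
  rw [← homogeneousComponent_eq_self (homogeneousComponent_isHomogeneous (w - kap ar T b)
    (sh (pt T b c) f)), ← e, map_add]
  refine Submodule.add_mem_sup ?_ (gr_aI ar η T b y hy _)
  refine Submodule.mem_comap.1 (Submodule.span_le.2 ?_ hx)
  rintro _ ⟨g, hg, rfl⟩
  rw [SetLike.mem_coe, Submodule.mem_comap,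
    Finset.prod_congr rfl fun i _ => (sum_homogeneousComponent (g i)).symm, Finset.prod_sum,
    map_sum]
  refine Submodule.sum_mem _ fun p _ => ?_
  let k : ℕ → ℕ := fun i => if h : i ∈ T.image b then p i h else 0
  have h2 : ∏ x ∈ (T.image b).attach, hc (p x.1 x.2) (g x.1) = ∏ i ∈ T.image b, hc (k i) (g i) := by
    rw [← Finset.prod_attach (T.image b) fun i => hc (k i) (g i)]
    exact Finset.prod_congr rfl fun x _ => by simp only [k, dif_pos x.2]
  rw [h2, homogeneousComponent_of_mem (IsHomogeneous.prod _ _ k fun i _ =>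
    homogeneousComponent_isHomogeneous _ _)]
  split_ifs with h3
  · exact Submodule.subset_span ⟨_, k, fun i hi => hc_mem_BPSk _ _ _ (hg i hi) _, h3.symm, rfl⟩
  · exact Submodule.zero_mem _

end
end Vale.Agent.P066
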