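import Vale.Agent.P066.Defs

/-! Elementary symmetric functions: coefficients and linear independence. -/

namespace Vale.Agent.P066
noncomputable section

open Classical in
/-- number of zero-one matrices with row sums `α` and column sums `μ` -/
def cnt {n : ℕ} (α : ℕ →₀ ℕ) (μ : Fin n → ℕ) : ℕ :=
  ((Fintype.piFinset fun _ : Fin n => α.support.powerset).filter fun R =>
    (∀ c, (R c).card = μ c) ∧ ∑ c, ∑ i ∈ R c, Finsupp.single i 1 = α).card

/-- the square-free monomial of a finite set -/
def sqf (S : Finset ℕ) : ℕ →₀ ℕ := ∑ i ∈ S, Finsupp.single i 1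

theorem sqf_apply (S : Finset ℕ) (j : ℕ) : sqf S j = if j ∈ S then 1 else 0 := by
  simp [sqf, Finsupp.finsetSum_apply, Finsupp.single_apply]

theorem sqf_injective : Function.Injective sqf := fun S T h => by
  ext j
  have := DFunLike.congr_fun h j
  rw [sqf_apply, sqf_apply] at this
  by_cases h1 : j ∈ S <;> by_cases h2 : j ∈ T <;> simp_all

theorem sqf_degree (S : Finset ℕ) : (sqf S).degree = S.card := by
  simp [sqf, map_sum]

open Classical in
theorem coeff_esym (k : ℕ) (α : ℕ →₀ ℕ) :
    MvPowerSeries.coeff α (esym k) = if ∃ S : Finset ℕ, S.card = k ∧ sqf S = α then 1 else 0 := rfl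

theorem coeff_prod_esym {n : ℕ} (α : ℕ →₀ ℕ) (μ : Fin n → ℕ) :
    MvPowerSeries.coeff α (∏ c, esym (μ c)) = (cnt α μ : Polynomial ℤ) := by
  classical
  rw [MvPowerSeries.coeff_prod]
  have h0 : ∀ l : Fin n →₀ ℕ →₀ ℕ, ∏ c, MvPowerSeries.coeff (l c) (esym (μ c)) =
      if ∀ c, ∃ S : Finset ℕ, S.card = μ c ∧ sqf S = l c then 1 else 0 := fun l => by
    split_ifs with h
    · exact Finset.prod_eq_one fun c _ => by rw [coeff_esym, if_pos (h c)]
    · obtain ⟨c, hc⟩ := not_forall.1 h
      exact Finset.prod_eq_zero (Finset.mem_univ c) (by rw [coeff_esym, if_neg hc])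
  simp only [h0]
  rw [← Finset.sum_filter, Finset.sum_const, nsmul_one, cnt]
  congr 1
  symm
  refine Finset.card_bij (fun R _ => Finsupp.equivFunOnFinite.symm fun c => sqf (R c)) ?_ ?_ ?_
  · intro R hR
    simp only [Finset.mem_filter] at hR ⊢
    refine ⟨Finset.mem_finsuppAntidiag.2 ⟨hR.2.2, Finset.subset_univ _⟩, fun c => ?_⟩
    exact ⟨R c, hR.2.1 c, rfl⟩
  · intro R _ R' _ h
    funext c
    exact sqf_injective (congrFun (Finsupp.equivFunOnFinite.symm.injective h) c)
  · intro l hl
    simp only [Finset.mem_filter] at hl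
    obtain ⟨h1, h2⟩ := hl
    choose R hR using h2
    have h3 : ∑ c, sqf (R c) = α := by
      rw [← (Finset.mem_finsuppAntidiag.1 h1).1]
      exact Finset.sum_congr rfl fun c _ => (hR c).2
    refine ⟨R, ?_, ?_⟩
    · simp only [Finset.mem_filter, Fintype.mem_piFinset, Finset.mem_powerset]
      refine ⟨fun c j hj => ?_, fun c => (hR c).1, h3⟩
      rw [Finsupp.mem_support_iff, ← h3, Finsupp.finsetSum_apply]
      intro h0
      have := Finset.sum_eq_zero_iff.1 h0 c (Finset.mem_univ c)
      rw [sqf_apply, if_pos hj] at this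
      exact one_ne_zero this
    · ext c j
      simp [(hR c).2]

theorem esym_zero : esym 0 = 1 := by
  classical
  ext1 α
  rw [coeff_esym, MvPowerSeries.coeff_one]
  simp [sqf, eq_comm]

theorem prod_esym_filter (s : Multiset ℕ) :
    ((s.filter (· ≠ 0)).map esym).prod = (s.map esym).prod := by
  induction s using Multiset.induction_on with
  | empty => simp
  | cons a s ih =>
    by_cases ha : a = 0
    · rw [Multiset.filter_cons_of_neg _ (by simpa using ha), ih, Multiset.map_cons,
        Multiset.prod_cons, ha, esym_zero, one_mul]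
    · rw [Multiset.filter_cons_of_pos (p := (· ≠ 0)) _ ha, Multiset.map_cons, Multiset.map_cons,
        Multiset.prod_cons, Multiset.prod_cons, ih]

theorem epart_ofSums {n m : ℕ} (μ : Fin m → ℕ) (h : (Finset.univ.val.map μ).sum = n) :
    epart (Nat.Partition.ofSums n (Finset.univ.val.map μ) h) = ∏ c, esym (μ c) := by
  rw [epart, Nat.Partition.ofSums_parts, prod_esym_filter, Multiset.map_map]
  rfl

theorem degree_of_coeff_prod (s : Multiset ℕ) {α : ℕ →₀ ℕ}
    (h : MvPowerSeries.coeff α (s.map esym).prod ≠ 0) : α.degree = s.sum := by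
  classical
  induction s using Multiset.induction_on generalizing α with
  | empty =>
    rw [Multiset.map_zero, Multiset.prod_zero, MvPowerSeries.coeff_one] at h
    have : α = 0 := by by_contra h0; exact h (if_neg h0)
    simp [this]
  | cons a s ih =>
    rw [Multiset.map_cons, Multiset.prod_cons, MvPowerSeries.coeff_mul] at h
    obtain ⟨p, hp, h1⟩ := Finset.exists_ne_zero_of_sum_ne_zero h
    have h2 := ih (right_ne_zero_of_mul h1)
    have h3 := left_ne_zero_of_mul h1
    rw [coeff_esym] at h3
    obtain ⟨S, hS, hS'⟩ : ∃ S : Finset ℕ, S.card = a ∧ sqf S = p.1 := by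
      by_contra h0; exact h3 (if_neg h0)
    rw [← Finset.HasAntidiagonal.mem_antidiagonal.1 hp, map_add, h2, ← hS', sqf_degree, hS, Multiset.sum_cons]

theorem coeff_epart_of_ne {n : ℕ} (l : n.Partition) {α : ℕ →₀ ℕ} (h : α.degree ≠ n) :
    MvPowerSeries.coeff α (epart l) = 0 := by
  by_contra h0
  exact h ((degree_of_coeff_prod l.parts h0).trans l.parts_sum)

theorem coeff_chrom_of_ne {n : ℕ} (h : Fin n → Fin n) {α : ℕ →₀ ℕ} (hα : α.degree ≠ n) :
    MvPowerSeries.coeff α (chrom h) = 0 := by
  classical
  refine Finset.sum_eq_zero fun f hf => absurd ?_ hα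
  rw [← (Finset.mem_filter.1 hf).2.2]
  simp [map_sum]

/-- `β` is the lexicographically largest monomial of `f`, with coefficient one -/
def Top (f : MvPowerSeries ℕ (Polynomial ℤ)) (β : ℕ →₀ ℕ) : Prop :=
  MvPowerSeries.coeff β f = 1 ∧ ∀ α, MvPowerSeries.coeff α f ≠ 0 → toLex α ≤ toLex β

theorem Top.mul {f g : MvPowerSeries ℕ (Polynomial ℤ)} {β γ : ℕ →₀ ℕ} (hf : Top f β)
    (hg : Top g γ) : Top (f * g) (β + γ) := by
  classical
  constructor
  · rw [MvPowerSeries.coeff_mul, Finset.sum_eq_single (β, γ), hf.1, hg.1, one_mul]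
    · intro p hp hne
      by_contra h0
      have h1 := hf.2 _ (left_ne_zero_of_mul h0)
      have h2 := hg.2 _ (right_ne_zero_of_mul h0)
      have h3 : toLex p.1 + toLex p.2 = toLex β + toLex γ :=
        congrArg toLex (Finset.HasAntidiagonal.mem_antidiagonal.1 hp)
      obtain ⟨h4, h5⟩ := (add_eq_add_iff_eq_and_eq h1 h2).1 h3
      exact hne (Prod.ext (toLex.injective h4) (toLex.injective h5))
    · intro h
      exact absurd (by simp) h
  · intro α h
    rw [MvPowerSeries.coeff_mul] at h
    obtain ⟨p, hp, h0⟩ := Finset.exists_ne_zero_of_sum_ne_zero h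
    rw [← Finset.HasAntidiagonal.mem_antidiagonal.1 hp]
    exact add_le_add (hf.2 _ (left_ne_zero_of_mul h0)) (hg.2 _ (right_ne_zero_of_mul h0))

theorem top_esym (k : ℕ) : Top (esym k) (sqf (Finset.range k)) := by
  refine ⟨if_pos ⟨_, Finset.card_range k, rfl⟩, fun α h => ?_⟩
  rw [coeff_esym] at h
  obtain ⟨S, hS, rfl⟩ : ∃ S : Finset ℕ, S.card = k ∧ sqf S = α := by
    by_contra h0; exact h (if_neg h0)
  by_contra hlt
  obtain ⟨i, h1, h2⟩ := Finsupp.Lex.lt_iff.1 (not_le.1 hlt)
  simp only [ofLex_toLex, sqf_apply] at h1 h2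
  have hi : i ∈ S ∧ i ∉ Finset.range k := by
    by_cases a : i ∈ S <;> by_cases b : i ∈ Finset.range k <;> simp_all
  have hsub : insert i (Finset.range k) ⊆ S := by
    intro j hj
    rcases Finset.mem_insert.1 hj with rfl | hj
    · exact hi.1
    · have h3 := h1 j (by have := hi.2; rw [Finset.mem_range] at *; omega)
      rw [if_pos hj] at h3
      by_contra h4
      rw [if_neg h4] at h3
      exact one_ne_zero h3
  have := Finset.card_le_card hsub
  rw [Finset.card_insert_of_notMem hi.2, Finset.card_range] at this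
  omega

theorem top_prod (s : Multiset ℕ) :
    Top (s.map esym).prod (s.map fun k => sqf (Finset.range k)).sum := by
  classical
  induction s using Multiset.induction_on with
  | empty =>
    refine ⟨by simp, fun α h => ?_⟩
    rw [Multiset.map_zero, Multiset.prod_zero, MvPowerSeries.coeff_one] at h
    have : α = 0 := by by_contra h0; exact h (if_neg h0)
    simp [this]
  | cons a s ih =>
    rw [Multiset.map_cons, Multiset.prod_cons, Multiset.map_cons, Multiset.sum_cons]
    exact (top_esym a).mul ih

theorem conj_step (s : Multiset ℕ) (i : ℕ) :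
    (s.map fun k => sqf (Finset.range k)).sum i =
      (s.map fun k => sqf (Finset.range k)).sum (i + 1) + s.count (i + 1) := by
  induction s using Multiset.induction_on with
  | empty => simp
  | cons a s ih =>
    rw [Multiset.map_cons, Multiset.sum_cons, Finsupp.add_apply, Finsupp.add_apply, ih,
      Multiset.count_cons, sqf_apply, sqf_apply]
    simp only [Finset.mem_range]
    split_ifs <;> omega

theorem conj_injective {n : ℕ} {l m : n.Partition}
    (h : (l.parts.map fun k => sqf (Finset.range k)).sum =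
      (m.parts.map fun k => sqf (Finset.range k)).sum) : l = m := by
  ext k
  rcases k with _ | i
  · rw [Multiset.count_eq_zero.2 fun h0 => (l.parts_pos h0).ne rfl,
      Multiset.count_eq_zero.2 fun h0 => (m.parts_pos h0).ne rfl]
  · have h1 := conj_step l.parts i
    have h2 := conj_step m.parts i
    rw [h] at h1
    omega

/-- the expansion in the `e_λ` is unique -/
theorem epart_indep {n : ℕ} (c : n.Partition → Polynomial ℤ)
    (h : ∑ l, MvPowerSeries.C (c l) * epart l = 0) : c = 0 := by
  classical
  by_contra h0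
  obtain ⟨l₀, hl₀⟩ := Function.ne_iff.1 h0
  obtain ⟨l, hl, hmax⟩ := Finset.exists_max_image (Finset.univ.filter fun l => c l ≠ 0)
    (fun l => toLex (l.parts.map fun k => sqf (Finset.range k)).sum)
    ⟨l₀, Finset.mem_filter.2 ⟨Finset.mem_univ _, hl₀⟩⟩
  have h1 := congrArg (MvPowerSeries.coeff (l.parts.map fun k => sqf (Finset.range k)).sum) h
  rw [map_sum, map_zero, Finset.sum_eq_single l, MvPowerSeries.coeff_C_mul, epart,
    (top_prod l.parts).1, mul_one] at h1
  · exact (Finset.mem_filter.1 hl).2 h1
  · intro m _ hm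
    rw [MvPowerSeries.coeff_C_mul]
    by_contra h2
    have h3 := (top_prod m.parts).2 _ (right_ne_zero_of_mul h2)
    have h4 := hmax m (Finset.mem_filter.2 ⟨Finset.mem_univ _, left_ne_zero_of_mul h2⟩)
    exact hm (conj_injective (toLex.injective (le_antisymm h4 h3)))
  · intro h2
    exact absurd (Finset.mem_univ l) h2

end
end Vale.Agent.P066
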