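import Vale.Agent.P066.DNet
import Vale.Agent.P066.DSym

/-! Part D: colourings and zero-one matrices from the network. -/

namespace Vale.Agent.P066
noncomputable section
namespace Net
variable {N : ℕ}

/-- the path of the vertex `j`: up from circle `j` to circle `h j`, down the staircase `j` -/
def uv (h : Fin (N + 1) → Fin (N + 1)) (j : Fin (N + 1)) : NL N :=
  (1, fun k => (if k.1.val < j.val then 1 else 0) +
    if 1 ≤ k.2.val ∧ k.2.val ≤ j.val + 1 ∧ j.val ≤ k.1.val ∧ k.1.val < (h j).val then 1 else 0)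
/-- `μ c` particles on the circle `c`, no rungs -/
def zv (μ : Fin (N + 1) → ℕ) : NL N :=
  (∑ c, (μ c : ℤ), fun k => ∑ c, if k.1.val < c.val then (μ c : ℤ) else 0)
open Classical in
/-- number of edges -/
def nE {n : ℕ} (h : Fin n → Fin n) : ℕ :=
  (Finset.univ.filter fun e : Fin n × Fin n => Edge h e.1 e.2).card

section colour
section colourAux
variable (h : Fin (N + 1) → Fin (N + 1))

theorem colA_H (j : Fin (N + 1)) (i m : ℕ) (hm : m < N + 2) : H N i m (uv h j) =
    (if i < j.val then 1 else 0) +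
      if 1 ≤ m ∧ m ≤ j.val + 1 ∧ j.val ≤ i ∧ i < (h j).val then 1 else 0 := by
  have h1 := j.isLt
  have h2 := (h j).isLt
  unfold H
  by_cases hi : i < N
  · rw [dif_pos ⟨hi, hm⟩]
    rfl
  · rw [dif_neg fun hh => hi hh.1, if_neg (by omega), if_neg (by omega)]
    rfl

theorem colA_tot (j : Fin (N + 1)) : tot N (uv h j) = 1 := rfl

theorem colA_ac (j : Fin (N + 1)) (c : ℕ) : ac N c (uv h j) = if c = j.val then 1 else 0 := by
  unfold ac
  rw [AddMonoidHom.sub_apply, colA_H h j c 0 (by omega)]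
  by_cases hc : c = 0
  · rw [if_pos hc, colA_tot]
    split_ifs <;> omega
  · rw [if_neg hc, colA_H h j (c - 1) 0 (by omega)]
    split_ifs <;> omega

theorem colA_dd (j : Fin (N + 1)) (i m : ℕ) : dd N i m (uv h j) =
    if j.val ≤ i ∧ i < (h j).val ∧ m ≤ j.val then 1 else 0 := by
  have h1 := j.isLt
  unfold dd
  by_cases hm : m ≤ N
  · rw [if_pos hm, AddMonoidHom.sub_apply, colA_H h j i 0 (by omega),
      colA_H h j i (m + 1) (by omega)]
    split_ifs <;> omega
  · rw [if_neg hm, if_neg (by omega)]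
    rfl

theorem colA_dm (j : Fin (N + 1)) (c m : ℕ) : dm N c m (uv h j) =
    if j.val < c ∧ c ≤ (h j).val ∧ m ≤ j.val then 1 else 0 := by
  unfold dm
  by_cases hc : c = 0
  · rw [if_pos hc, if_neg (by omega)]
    rfl
  · rw [if_neg hc, colA_dd]
    split_ifs <;> omega

theorem colA_ff (j : Fin (N + 1)) (i m : ℕ) : ff N i m (uv h j) =
    if j.val ≤ i ∧ i < (h j).val ∧ m = j.val then 1 else 0 := by
  unfold ff
  rw [AddMonoidHom.sub_apply, colA_dd, colA_dd]
  split_ifs <;> omega

theorem colA_sum01 {ι : Type} (S : Finset ι) (P : ι → Prop) [DecidablePred P]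
    (hP : ∀ a ∈ S, ∀ b ∈ S, P a → P b → a = b) :
    (∑ j ∈ S, if P j then (1 : ℤ) else 0) = 0 ∨ (∑ j ∈ S, if P j then (1 : ℤ) else 0) = 1 := by
  rw [Finset.sum_boole]
  have : (S.filter fun x => P x).card ≤ 1 := Finset.card_le_one.2 fun a ha b hb =>
    hP a (Finset.mem_filter.1 ha).1 b (Finset.mem_filter.1 hb).1 (Finset.mem_filter.1 ha).2
      (Finset.mem_filter.1 hb).2
  omega

theorem colA_ac_sum (S : Finset (Fin (N + 1))) (c : Fin (N + 1)) :
    ac N c.val (∑ j ∈ S, uv h j) = if c ∈ S then 1 else 0 := by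
  rw [map_sum]
  simp only [colA_ac, Fin.val_inj]
  exact Finset.sum_ite_eq S c fun _ => 1

theorem colA_tot_sum (S : Finset (Fin (N + 1))) : tot N (∑ j ∈ S, uv h j) = S.card := by
  rw [map_sum]
  simp only [colA_tot]
  simp

theorem colA_inj : Function.Injective fun S : Finset (Fin (N + 1)) => ∑ j ∈ S, uv h j := by
  intro S S' hS
  ext c
  have h1 := colA_ac_sum h S c
  have h2 := colA_ac_sum h S' c
  simp only at hS
  rw [hS, h2] at h1
  by_cases a : c ∈ S <;> by_cases b : c ∈ S' <;> simp [a, b] at h1 ⊢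

theorem colA_ac_big (p : NL N) {c : ℕ} (hc : N < c) : ac N c p = 0 := by
  unfold ac H
  rw [if_neg (by omega), dif_neg (by omega), dif_neg (by omega)]
  rfl

theorem colA_tot_eq (p : NL N) : tot N p = ∑ c ∈ Finset.range (N + 1), ac N c p := by
  have key : ∀ n, ∑ c ∈ Finset.range (n + 1), ac N c p = tot N p - H N n 0 p := by
    intro n
    induction n with
    | zero => simp [ac]
    | succ n ih =>
      rw [Finset.sum_range_succ, ih]
      simp [ac]
  rw [key, H, dif_neg (by omega)]
  simp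

theorem colA_dd_big (p : NL N) (i : ℕ) {m : ℕ} (hm : N < m) : dd N i m p = 0 := by
  unfold dd
  rw [if_neg (by omega)]
  rfl

/-- the labels that can feed the rungs `F i m'`, `m ≤ m'` -/
def colR (i m : ℕ) (p : NL N) : ℤ :=
  ∑ j : Fin (N + 1), if j.val ≤ i ∧ i < (h j).val ∧ m ≤ j.val then ac N j.val p else 0

/-- the downward rungs lie on the staircases -/
def colSupp (p : NL N) : Prop :=
  ∀ i m, ff N i m p ≠ 0 → ∃ j : Fin (N + 1), j.val ≤ i ∧ i < (h j).val ∧ m = j.val

/-- the invariant of sums of good points -/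
def colQ (p : NL N) : Prop := (∀ c, 0 ≤ ac N c p) ∧ (∀ i m, 0 ≤ ff N i m p) ∧
  (colSupp h p → ∀ i m, dd N i m p ≤ colR h i m p)

theorem colA_R_add (i m : ℕ) (p q : NL N) :
    colR h i m (p + q) = colR h i m p + colR h i m q := by
  unfold colR
  rw [← Finset.sum_add_distrib]
  refine Finset.sum_congr rfl fun j _ => ?_
  split_ifs
  · exact map_add _ _ _
  · rfl

theorem colA_R_sum (S : Finset (Fin (N + 1))) (i m : ℕ) :
    colR h i m (∑ j ∈ S, uv h j) = dd N i m (∑ j ∈ S, uv h j) := by
  rw [map_sum, colR]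
  simp only [colA_dd, colA_ac_sum]
  rw [← Finset.sum_filter_add_sum_filter_not Finset.univ (fun j => j ∈ S)]
  rw [Finset.sum_eq_zero (s := Finset.univ.filter fun j => j ∉ S) fun j hj => by
    rw [if_neg (Finset.mem_filter.1 hj).2, ite_self], add_zero]
  exact Finset.sum_congr (by simp) fun j hj => by rw [if_pos hj]

theorem colA_supp_sum (S : Finset (Fin (N + 1))) : colSupp h (∑ j ∈ S, uv h j) := by
  intro i m hne
  rw [map_sum] at hne
  obtain ⟨j, _, hj⟩ := Finset.exists_ne_zero_of_sum_ne_zero hne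
  rw [colA_ff] at hj
  exact ⟨j, by by_contra hc; exact hj (if_neg hc)⟩

variable {h}

theorem colA_supp_add {p q : NL N} (hp : ∀ i m, 0 ≤ ff N i m p) (hq : ∀ i m, 0 ≤ ff N i m q)
    (hs : colSupp h (p + q)) : colSupp h p := fun i m hne => hs i m (by
  have h1 := hp i m
  have h2 := hq i m
  rw [map_add]
  omega)

theorem colA_Q_add {p q : NL N} (hp : colQ h p) (hq : colQ h q) : colQ h (p + q) := by
  refine ⟨fun c => ?_, fun i m => ?_, fun hs i m => ?_⟩
  · rw [map_add]
    exact add_nonneg (hp.1 c) (hq.1 c)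
  · rw [map_add]
    exact add_nonneg (hp.2.1 i m) (hq.2.1 i m)
  · rw [map_add, colA_R_add]
    exact add_le_add (hp.2.2 (colA_supp_add hp.2.1 hq.2.1 hs) i m)
      (hq.2.2 (colA_supp_add hq.2.1 hp.2.1 (by rwa [add_comm])) i m)

theorem colA_tail {p : NL N} (i : ℕ) : ∀ (k m : ℕ), N < m + k → 1 ≤ dd N i m p →
    ∃ m', m ≤ m' ∧ 1 ≤ dd N i m' p ∧ ff N i m' p ≠ 0 := by
  intro k
  induction k with
  | zero =>
    intro m hm h1
    rw [colA_dd_big p i (by omega)] at h1
    omega
  | succ k ih =>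
    intro m hm h1
    by_cases h0 : ff N i m p = 0
    · have : dd N i m p - dd N i (m + 1) p = 0 := h0
      obtain ⟨m', a1, a2⟩ := ih (m + 1) (by omega) (by omega)
      exact ⟨m', by omega, a2⟩
    · exact ⟨m, le_rfl, h1, h0⟩

theorem colA_le_R {p : NL N} (hp : ∀ c, 0 ≤ ac N c p) {i m : ℕ} {j : Fin (N + 1)}
    (hj : j.val ≤ i ∧ i < (h j).val ∧ m ≤ j.val) : ac N j.val p ≤ colR h i m p := by
  have := Finset.single_le_sum (s := Finset.univ) (f := fun j : Fin (N + 1) =>
    if j.val ≤ i ∧ i < (h j).val ∧ m ≤ j.val then ac N j.val p else 0)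
    (fun j _ => by
      split_ifs
      · exact hp _
      · exact le_rfl) (Finset.mem_univ j)
  rwa [if_pos hj] at this

theorem colA_Q_good (hm : Monotone h) {p : NL N} (hp : p ∈ Good N fun _ => 0) : colQ h p := by
  obtain ⟨g1, g2, g3, -, g5⟩ := (good_zero_iff N p).1 hp
  have a1 : ∀ c, 0 ≤ ac N c p := fun c => by have := g1 c; omega
  have a2 : ∀ i m, 0 ≤ ff N i m p := fun i m => by have := g3 i m; omega
  refine ⟨a1, a2, fun hs i m => ?_⟩
  have a3 : dd N i m p ≤ 1 := by
    have b1 := sum_ff N i m p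
    have b2 : 0 ≤ ∑ m' ∈ Finset.range m, ff N i m' p := Finset.sum_nonneg fun _ _ => a2 _ _
    have b3 := g2 i
    omega
  have a4 : ∀ m i, 1 ≤ dd N i m p → ∃ c, m ≤ c ∧ c ≤ i ∧ ac N c p = 1 := by
    intro m i
    induction i with
    | zero =>
      intro h1
      obtain ⟨m', b1, -, b3⟩ := colA_tail 0 (N + 1) m (by omega) h1
      obtain ⟨j, c1, -, c3⟩ := hs 0 m' b3
      have b4 := g5 0 m
      have b5 : dm N 0 m p = 0 := rfl
      have b6 := g1 0
      exact ⟨0, by omega, le_rfl, by omega⟩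
    | succ i ih =>
      intro h1
      obtain ⟨m', b1, -, b3⟩ := colA_tail (i + 1) (N + 1) m (by omega) h1
      obtain ⟨j, c1, -, c3⟩ := hs (i + 1) m' b3
      have b4 := g5 (i + 1) m
      have b5 : dm N (i + 1) m p = dd N i m p := rfl
      rcases g1 (i + 1) with b6 | b6
      · obtain ⟨c, d1, d2, d3⟩ := ih (by omega)
        exact ⟨c, d1, by omega, d3⟩
      · exact ⟨i + 1, by omega, le_rfl, b6⟩
  by_cases h1 : 1 ≤ dd N i m p
  · obtain ⟨m', b1, b2, b3⟩ := colA_tail i (N + 1) m (by omega) h1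
    obtain ⟨j, c1, c2, c3⟩ := hs i m' b3
    obtain ⟨c, d1, d2, d3⟩ := a4 m' i b2
    have e1 := (h j).isLt
    have e2 : h j ≤ h ⟨c, by omega⟩ := hm (by rw [Fin.le_def]; simp only; omega)
    rw [Fin.le_def] at e2
    have := colA_le_R (h := h) a1 (i := i) (m := m) (j := ⟨c, by omega⟩)
      ⟨d2, by omega, by simp only; omega⟩
    simp only at this
    omega
  · have : 0 ≤ colR h i m p := Finset.sum_nonneg fun j _ => by
      split_ifs
      · exact a1 _
      · exact le_rfl
    omega

theorem colA_Q_closure (hm : Monotone h) {q : NL N}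
    (hq : q ∈ AddSubmonoid.closure (Good N fun _ => 0)) : colQ h q := by
  induction hq using AddSubmonoid.closure_induction with
  | mem x hx => exact colA_Q_good hm hx
  | zero => exact ⟨fun _ => by simp, fun _ _ => by simp, fun _ _ _ => by simp [colR]⟩
  | add x y _ _ hx hy => exact colA_Q_add hx hy

end colourAux

variable {h : Fin (N + 1) → Fin (N + 1)} (hm : Monotone h) (hi : ∀ i, i ≤ h i)
include hm hi
theorem colA_second (j j' : Fin (N + 1)) (i m : ℕ) :
    (ac N i (uv h j) + dm N i m (uv h j) - dd N i m (uv h j)) * ff N i m (uv h j') = 0 := by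
  rw [colA_ff]
  split_ifs with h1
  · have h2 : j.val ≤ (h j).val := hi j
    have h3 : j'.val ≤ j.val → (h j').val ≤ (h j).val := fun hh => hm hh
    rw [colA_ac, colA_dm, colA_dd, mul_one]
    split_ifs <;> omega
  · exact mul_zero _

omit hm hi in
open Classical in
theorem colA_first (j j' : Fin (N + 1)) :
    ∑ i ∈ Finset.range N, dd N i 0 (uv h j) * ac N (i + 1) (uv h j') =
      if Edge h j j' then 1 else 0 := by
  have h1 := j'.isLt
  have h2 : Edge h j j' ↔ j.val < j'.val ∧ j'.val ≤ (h j).val := Iff.rfl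
  simp only [colA_dd, colA_ac]
  split_ifs with he
  · rw [h2] at he
    rw [Finset.sum_eq_single (j'.val - 1)]
    · rw [if_pos (by omega), if_pos (by omega), mul_one]
    · intro i _ hne
      rw [if_neg (show ¬ i + 1 = j'.val by omega), mul_zero]
    · intro hn
      exact absurd (Finset.mem_range.2 (by omega)) hn
  · rw [h2] at he
    refine Finset.sum_eq_zero fun i _ => ?_
    split_ifs <;> omega

open Classical in
theorem om_uv (j j' : Fin (N + 1)) : (om N).w (uv h j) (uv h j') =
    (if Edge h j j' then 1 else 0) - if Edge h j' j then 1 else 0 := by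
  rw [om_apply, Finset.sum_sub_distrib, colA_first, ← colA_first j' j,
    Finset.sum_eq_zero (s := Finset.range N) (f := fun i => ∑ m ∈ Finset.range (N + 1), _)
      fun i _ => Finset.sum_eq_zero fun m _ => by
        rw [colA_second hm hi, mul_comm, colA_second hm hi, sub_zero], add_zero]
  simp only [mul_comm]
theorem good_uv {S : Finset (Fin (N + 1))} (hS : ∀ a ∈ S, ∀ b ∈ S, ¬ Edge h a b) :
    ∑ j ∈ S, uv h j ∈ Good N fun _ => 0 := by
  have _ := hm
  have key : ∀ c : ℕ, ∀ a ∈ S, ∀ b ∈ S, a.val ≤ c ∧ c ≤ (h a).val → b.val ≤ c ∧ c ≤ (h b).val →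
      a = b := by
    intro c a ha b hb h1 h2
    rcases lt_trichotomy a b with h3 | h3 | h3
    · exact absurd ⟨h3, Fin.le_def.2 (by omega)⟩ (hS a ha b hb)
    · exact h3
    · exact absurd ⟨h3, Fin.le_def.2 (by omega)⟩ (hS b hb a ha)
  rw [good_zero_iff]
  simp only [map_sum, ← Finset.sum_add_distrib, colA_ac, colA_dd, colA_dm, colA_ff]
  refine ⟨fun c => colA_sum01 S _ fun a _ b _ h1 h2 => Fin.ext (h1.symm.trans h2),
    fun i => colA_sum01 S _ fun a ha b hb h1 h2 => key i a ha b hb (by omega) (by omega),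
    fun i m => colA_sum01 S _ fun a ha b hb h1 h2 => key i a ha b hb (by omega) (by omega),
    fun c => ?_, fun c m => Finset.sum_le_sum fun j _ => ?_⟩
  · have h1 := colA_sum01 S (fun j => j.val ≤ c ∧ c ≤ (h j).val) (key c)
    refine le_trans (Finset.sum_le_sum fun j _ => ?_)
      (show (∑ j ∈ S, if j.val ≤ c ∧ c ≤ (h j).val then (1 : ℤ) else 0) ≤ 1 by omega)
    have h2 : j.val ≤ (h j).val := hi j
    split_ifs <;> omega
  · split_ifs <;> omega
/-- rigidity of decompositions -/
theorem decomp_uv {T : Finset (Fin (N + 1))} {a q : NL N} (ha : a ∈ Good N fun _ => 0)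
    (hq : q ∈ AddSubmonoid.closure (Good N fun _ => 0)) (hs : a + q = ∑ j ∈ T, uv h j) :
    ∃ S, S ⊆ T ∧ (∀ x ∈ S, ∀ y ∈ S, ¬ Edge h x y) ∧ a = ∑ j ∈ S, uv h j := by
  have _ := hi
  have qa := colA_Q_good hm ha
  have qq := colA_Q_closure hm hq
  obtain ⟨g1, -, -, g4, -⟩ := (good_zero_iff N a).1 ha
  have s0 : colSupp h (a + q) := hs ▸ colA_supp_sum h T
  have e1 : ∀ i m, dd N i m a = colR h i m a := by
    intro i m
    have b1 := qa.2.2 (colA_supp_add qa.2.1 qq.2.1 s0) i m
    have b2 := qq.2.2 (colA_supp_add qq.2.1 qa.2.1 (by rwa [add_comm])) i m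
    have b3 := colA_R_sum h T i m
    rw [← hs, colA_R_add, map_add] at b3
    omega
  have e2 : ∀ c, ac N c a = ac N c (∑ j ∈ Finset.univ.filter
      (fun j : Fin (N + 1) => ac N j.val a = 1), uv h j) := by
    intro c
    by_cases hc : N < c
    · rw [colA_ac_big _ hc, colA_ac_big _ hc]
    · have b1 := colA_ac_sum h (Finset.univ.filter fun j : Fin (N + 1) => ac N j.val a = 1)
        ⟨c, by omega⟩
      simp only [Finset.mem_filter, Finset.mem_univ, true_and] at b1
      rw [b1]
      have := g1 c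
      split_ifs <;> omega
  refine ⟨Finset.univ.filter fun j => ac N j.val a = 1, fun j hj => ?_, fun x hx y hy he => ?_, ?_⟩
  · have b1 := (Finset.mem_filter.1 hj).2
    have b2 := colA_ac_sum h T j
    rw [← hs, map_add] at b2
    have b3 := qq.1 j.val
    by_contra hc
    rw [if_neg hc] at b2
    omega
  · have b1 := (Finset.mem_filter.1 hx).2
    have b2 := (Finset.mem_filter.1 hy).2
    have b3 : x.val < y.val ∧ y.val ≤ (h x).val := he
    have b4 := g4 y.val
    have b5 : dm N y.val 0 a = dd N (y.val - 1) 0 a := by rw [dm, if_neg (by omega)]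
    have b6 := colA_le_R (h := h) qa.1 (i := y.val - 1) (m := 0) (j := x) (by omega)
    have b7 := e1 (y.val - 1) 0
    omega
  · refine ext_of N ?_ e2 fun i m => ?_
    · rw [colA_tot_eq, colA_tot_eq]
      exact Finset.sum_congr rfl fun c _ => e2 c
    · rw [e1, ← colA_R_sum, colR, colR]
      exact Finset.sum_congr rfl fun j _ => by rw [← e2]

open Classical in
theorem colA_conv (k : ℕ) (l : List ℕ) (T : Finset (Fin (N + 1))) :
    fprod (om N) (tot N) (Good N fun _ => 0) (k :: l) (∑ j ∈ T, uv h j) =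
      ∑ S ∈ T.powerset.filter (fun S => (∀ x ∈ S, ∀ y ∈ S, ¬ Edge h x y) ∧ S.card = k),
        tt (∑ a ∈ S, ∑ b ∈ T \ S, (om N).w (uv h a) (uv h b)) *
          fprod (om N) (tot N) (Good N fun _ => 0) l (∑ j ∈ T \ S, uv h j) := by
  rw [fprod, conv, finsum_eq_sum_of_support_subset _ (s := (T.powerset.filter
    (fun S => (∀ x ∈ S, ∀ y ∈ S, ¬ Edge h x y) ∧ S.card = k)).image fun S => ∑ j ∈ S, uv h j),
    Finset.sum_image fun S _ S' _ hS => colA_inj h hS]
  · refine Finset.sum_congr rfl fun S hS => ?_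
    obtain ⟨h1, h2, h3⟩ := Finset.mem_filter.1 hS
    rw [Finset.mem_powerset] at h1
    rw [ind, if_pos ⟨good_uv hm hi h2, by rw [colA_tot_sum, h3]⟩, mul_one,
      ← Finset.sum_sdiff h1, add_sub_cancel_right, map_add, (om N).alt, add_zero]
    simp only [map_sum, AddMonoidHom.finsetSum_apply]
    rw [Finset.sum_comm]
  · intro a ha
    simp only [Function.mem_support, ne_eq, mul_eq_zero, not_or] at ha
    have h1 : a ∈ Good N (fun _ => 0) ∧ tot N a = k := by
      by_contra hc
      exact ha.1.2 (if_neg hc)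
    obtain ⟨S, b1, b2, b3⟩ := decomp_uv hm hi h1.1 (fprod_mem_closure _ ha.2).1
      (add_sub_cancel _ _)
    refine Finset.mem_coe.2 (Finset.mem_image.2 ⟨S, Finset.mem_filter.2
      ⟨Finset.mem_powerset.2 b1, b2, ?_⟩, b3.symm⟩)
    have b4 := h1.2
    rw [b3, colA_tot_sum] at b4
    exact_mod_cast b4

omit hm hi in
open Classical in
/-- colourings of `T` by the colours in `[s, s + r)`, prescribed outside `T` -/
def colSet (h : Fin (N + 1) → Fin (N + 1)) (α : ℕ → ℕ) (s r : ℕ) (T : Finset (Fin (N + 1)))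
    (g : Fin (N + 1) → ℕ) : Finset (Fin (N + 1) → ℕ) :=
  (Fintype.piFinset fun v => if v ∈ T then Finset.Ico s (s + r) else {g v}).filter fun f =>
    (∀ a ∈ T, ∀ b ∈ T, Edge h a b → f a ≠ f b) ∧
      ∀ c, s ≤ c → c < s + r → (T.filter fun v => f v = c).card = α c

omit hm hi in
theorem colA_mem {α : ℕ → ℕ} {s r : ℕ} {T : Finset (Fin (N + 1))} {g f : Fin (N + 1) → ℕ} :
    f ∈ colSet h α s r T g ↔ (∀ v ∈ T, s ≤ f v ∧ f v < s + r) ∧ (∀ v ∉ T, f v = g v) ∧
      (∀ a ∈ T, ∀ b ∈ T, Edge h a b → f a ≠ f b) ∧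
      ∀ c, s ≤ c → c < s + r → (T.filter fun v => f v = c).card = α c := by
  classical
  rw [colSet, Finset.mem_filter, Fintype.mem_piFinset]
  refine Iff.trans (and_congr_left fun _ => ?_) and_assoc
  refine ⟨fun hf => ⟨fun v hv => ?_, fun v hv => ?_⟩, fun hf v => ?_⟩
  · have := hf v
    rwa [if_pos hv, Finset.mem_Ico] at this
  · have := hf v
    rwa [if_neg hv, Finset.mem_singleton] at this
  · split_ifs with hv
    · exact Finset.mem_Ico.2 (hf.1 v hv)
    · exact Finset.mem_singleton.2 (hf.2 v hv)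

omit hm hi in
theorem colA_fiber {α : ℕ → ℕ} {s r : ℕ} {S T : Finset (Fin (N + 1))} (g : Fin (N + 1) → ℕ)
    (hST : S ⊆ T) (hS : ∀ x ∈ S, ∀ y ∈ S, ¬ Edge h x y) (hc : S.card = α s) :
    (colSet h α s (r + 1) T g).filter (fun f => T.filter (fun v => f v = s) = S) =
      colSet h α (s + 1) r (T \ S) fun v => if v ∈ S then s else g v := by
  ext f
  rw [Finset.mem_filter, colA_mem, colA_mem]
  have key : ∀ c, c ≠ s → (∀ v ∈ S, f v = s) →
      (T \ S).filter (fun v => f v = c) = T.filter fun v => f v = c := by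
    intro c hc' hf
    ext v
    simp only [Finset.mem_filter, Finset.mem_sdiff]
    exact ⟨fun hv => ⟨hv.1.1, hv.2⟩,
      fun hv => ⟨⟨hv.1, fun hvS => hc' (hv.2.symm.trans (hf v hvS))⟩, hv.2⟩⟩
  constructor
  · rintro ⟨⟨a1, a2, a3, a4⟩, a5⟩
    have b1 : ∀ v, v ∈ S ↔ v ∈ T ∧ f v = s := fun v => by rw [← a5, Finset.mem_filter]
    refine ⟨fun v hv => ?_, fun v hv => ?_, fun a ha b hb =>
      a3 a (Finset.mem_sdiff.1 ha).1 b (Finset.mem_sdiff.1 hb).1, fun c c1 c2 => ?_⟩
    · rw [Finset.mem_sdiff] at hv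
      have b2 := a1 v hv.1
      have b3 : f v ≠ s := fun hh => hv.2 ((b1 v).2 ⟨hv.1, hh⟩)
      omega
    · split_ifs with hvS
      · exact ((b1 v).1 hvS).2
      · exact a2 v fun hvT => hv (Finset.mem_sdiff.2 ⟨hvT, hvS⟩)
    · rw [key c (by omega) fun v hv => ((b1 v).1 hv).2]
      exact a4 c (by omega) (by omega)
  · rintro ⟨a1, a2, a3, a4⟩
    have b1 : ∀ v ∈ S, f v = s := fun v hv => by
      rw [a2 v fun hh => (Finset.mem_sdiff.1 hh).2 hv, if_pos hv]
    have b2 : ∀ v ∈ T, v ∉ S → s + 1 ≤ f v ∧ f v < s + 1 + r := fun v hv hv' =>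
      a1 v (Finset.mem_sdiff.2 ⟨hv, hv'⟩)
    have b3 : T.filter (fun v => f v = s) = S := by
      ext v
      rw [Finset.mem_filter]
      refine ⟨fun hv => ?_, fun hv => ⟨hST hv, b1 v hv⟩⟩
      by_contra hv'
      have := b2 v hv.1 hv'
      omega
    refine ⟨⟨fun v hv => ?_, fun v hv => ?_, fun a ha b hb he => ?_, fun c c1 c2 => ?_⟩, b3⟩
    · by_cases hv' : v ∈ S
      · have := b1 v hv'
        omega
      · have := b2 v hv hv'
        omega
    · rw [a2 v fun hh => hv (Finset.mem_sdiff.1 hh).1, if_neg fun hh => hv (hST hh)]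
    · by_cases ha' : a ∈ S <;> by_cases hb' : b ∈ S
      · exact absurd he (hS a ha' b hb')
      · have := b1 a ha'
        have := b2 b hb hb'
        omega
      · have := b1 b hb'
        have := b2 a ha ha'
        omega
      · exact a3 a (Finset.mem_sdiff.2 ⟨ha, ha'⟩) b (Finset.mem_sdiff.2 ⟨hb, hb'⟩) he
    · by_cases hcs : c = s
      · rw [hcs, b3, hc]
      · rw [← key c hcs b1]
        exact a4 c (by omega) (by omega)

omit hm hi in
theorem colA_wt {V : Type} [DecidableEq V] (e : V → V → ℤ) {S T : Finset V} (hST : S ⊆ T)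
    {f : V → ℕ} {s : ℕ} (h1 : ∀ v ∈ S, f v = s) (h2 : ∀ v ∈ T \ S, s + 1 ≤ f v) :
    (∑ a ∈ T, ∑ b ∈ T, if f a < f b then e a b else 0) = ∑ a ∈ S, ∑ b ∈ T \ S, e a b +
      ∑ a ∈ T \ S, ∑ b ∈ T \ S, if f a < f b then e a b else 0 := by
  rw [← Finset.sum_sdiff hST, add_comm]
  congr 1
  · refine Finset.sum_congr rfl fun a ha => ?_
    rw [← Finset.sum_sdiff hST, Finset.sum_eq_zero (s := S) fun b hb =>
      if_neg (by rw [h1 a ha, h1 b hb]; omega), add_zero]
    exact Finset.sum_congr rfl fun b hb => if_pos (by have := h2 b hb; rw [h1 a ha]; omega)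
  · refine Finset.sum_congr rfl fun a ha => ?_
    rw [← Finset.sum_sdiff hST, Finset.sum_eq_zero (s := S) fun b hb =>
      if_neg (by have := h2 a ha; rw [h1 b hb]; omega), add_zero]

theorem colA_main (α : ℕ → ℕ) (r : ℕ) : ∀ (s : ℕ) (T : Finset (Fin (N + 1)))
    (g : Fin (N + 1) → ℕ),
    fprod (om N) (tot N) (Good N fun _ => 0) ((List.range' s r).map α) (∑ j ∈ T, uv h j) =
      ∑ f ∈ colSet h α s r T g,
        tt (∑ a ∈ T, ∑ b ∈ T, if f a < f b then (om N).w (uv h a) (uv h b) else 0) := by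
  classical
  induction r with
  | zero =>
    intro s T g
    rw [List.range'_zero, List.map_nil, fprod, dlt]
    rcases T.eq_empty_or_nonempty with rfl | ⟨v, hv⟩
    · have : colSet h α s 0 ∅ g = {g} := by
        ext f
        rw [colA_mem, Finset.mem_singleton]
        refine ⟨fun hf => funext fun v => hf.2.1 v (Finset.notMem_empty v), ?_⟩
        rintro rfl
        exact ⟨by simp, fun _ _ => rfl, by simp, fun c c1 c2 => by omega⟩
      rw [this]
      simp [tt_zero]
    · have h1 : colSet h α s 0 T g = ∅ := Finset.eq_empty_of_forall_notMem fun f hf => by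
        have := (colA_mem.1 hf).1 v hv
        omega
      rw [h1, Finset.sum_empty, if_neg]
      intro h0
      have h2 := colA_tot_sum h T
      have h3 := Finset.card_pos.2 ⟨v, hv⟩
      rw [h0, map_zero] at h2
      omega
  | succ r ih =>
    intro s T g
    rw [List.range'_succ, List.map_cons, colA_conv hm hi,
      ← Finset.sum_fiberwise_of_maps_to (s := colSet h α s (r + 1) T g) (t := T.powerset.filter
        fun S => (∀ x ∈ S, ∀ y ∈ S, ¬ Edge h x y) ∧ S.card = α s)
        (g := fun f => T.filter fun v => f v = s)]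
    · refine Finset.sum_congr rfl fun S hS => ?_
      obtain ⟨h1, h2, h3⟩ := Finset.mem_filter.1 hS
      rw [Finset.mem_powerset] at h1
      rw [colA_fiber g h1 h2 h3, ih (s + 1) (T \ S) fun v => if v ∈ S then s else g v,
        Finset.mul_sum]
      refine Finset.sum_congr rfl fun f hf => ?_
      obtain ⟨a1, a2, -⟩ := colA_mem.1 hf
      rw [← tt_add, colA_wt _ h1 (s := s) (fun v hv => by
        rw [a2 v fun hh => (Finset.mem_sdiff.1 hh).2 hv, if_pos hv]) fun v hv => (a1 v hv).1]
    · intro f hf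
      obtain ⟨-, -, a3, a4⟩ := colA_mem.1 hf
      refine Finset.mem_filter.2 ⟨Finset.mem_powerset.2 (Finset.filter_subset _ _),
        fun x hx y hy he => ?_, a4 s le_rfl (by omega)⟩
      rw [Finset.mem_filter] at hx hy
      exact a3 x hx.1 y hy.1 he (hx.2.trans hy.2.symm)

theorem colA_weight {f : Fin (N + 1) → ℕ} (hf : Proper h f) :
    (∑ a, ∑ b, if f a < f b then (om N).w (uv h a) (uv h b) else 0) = 2 * asc h f - nE h := by
  classical
  have e1 : (asc h f : ℤ) = ∑ a, ∑ b, if Edge h a b ∧ f a < f b then 1 else 0 := by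
    rw [asc, Finset.card_filter, Fintype.sum_prod_type]
    push_cast
    exact Finset.sum_congr rfl fun a _ => Finset.sum_congr rfl fun b _ => if_congr Iff.rfl rfl rfl
  have e2 : (nE h : ℤ) = ∑ a, ∑ b, if Edge h a b then 1 else 0 := by
    rw [nE, Finset.card_filter, Fintype.sum_prod_type]
    push_cast
    exact Finset.sum_congr rfl fun a _ => Finset.sum_congr rfl fun b _ => if_congr Iff.rfl rfl rfl
  have e3 : (∑ a, ∑ b, if f a < f b then (om N).w (uv h a) (uv h b) else 0) =
      (∑ a, ∑ b, if Edge h a b ∧ f a < f b then (1 : ℤ) else 0) -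
        ∑ a, ∑ b, if Edge h b a ∧ f a < f b then (1 : ℤ) else 0 := by
    simp only [← Finset.sum_sub_distrib]
    refine Finset.sum_congr rfl fun a _ => Finset.sum_congr rfl fun b _ => ?_
    rw [om_uv hm hi]
    by_cases h1 : f a < f b <;> simp [h1]
  rw [e3, Finset.sum_comm (f := fun a b => if Edge h b a ∧ f a < f b then (1 : ℤ) else 0), e1, e2,
    two_mul, add_sub_assoc, sub_eq_add_neg]
  congr 1
  simp only [← Finset.sum_sub_distrib, ← Finset.sum_neg_distrib]
  refine Finset.sum_congr rfl fun a _ => Finset.sum_congr rfl fun b _ => ?_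
  by_cases h1 : Edge h a b
  · have := hf a b h1
    simp only [h1, true_and, if_true]
    split_ifs <;> omega
  · simp [h1]

open Classical in
theorem fprod_colour (α : ℕ →₀ ℕ) (r : ℕ) (hr : α.support ⊆ Finset.range r) :
    fprod (om N) (tot N) (Good N fun _ => 0) ((List.range r).map α) (∑ j, uv h j) =
      ∑ f ∈ (Fintype.piFinset fun _ : Fin (N + 1) => α.support).filter
        (fun f => Proper h f ∧ ∑ a, Finsupp.single (f a) 1 = α),
        tt (2 * asc h f - nE h) := by
  rw [List.range_eq_range', colA_main hm hi α r 0 Finset.univ fun _ => 0]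
  have key : ∀ (f : Fin (N + 1) → ℕ) (c : ℕ), (∑ a, Finsupp.single (f a) 1 : ℕ →₀ ℕ) c =
      (Finset.univ.filter fun v => f v = c).card := by
    intro f c
    rw [Finsupp.finsetSum_apply, Finset.card_filter]
    exact Finset.sum_congr rfl fun a _ => Finsupp.single_apply
  refine Finset.sum_congr ?_ fun f hf => by rw [colA_weight hm hi (Finset.mem_filter.1 hf).2.1]
  ext f
  rw [colA_mem, Finset.mem_filter, Fintype.mem_piFinset]
  constructor
  · rintro ⟨a1, -, a3, a4⟩
    refine ⟨fun v => ?_, fun a b => a3 a (Finset.mem_univ _) b (Finset.mem_univ _), ?_⟩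
    · have b1 := a1 v (Finset.mem_univ _)
      rw [Finsupp.mem_support_iff, ← a4 _ b1.1 b1.2]
      exact (Finset.card_pos.2 ⟨v, by simp⟩).ne'
    · ext c
      rw [key]
      by_cases hc : c < 0 + r
      · exact a4 c (Nat.zero_le _) hc
      · have b1 : α c = 0 := by
          by_contra hne
          have := Finset.mem_range.1 (hr (Finsupp.mem_support_iff.2 hne))
          omega
        rw [b1, Finset.card_eq_zero, Finset.filter_eq_empty_iff]
        intro v hv hvc
        have := a1 v hv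
        omega
  · rintro ⟨a1, a2, a3⟩
    refine ⟨fun v _ => ⟨Nat.zero_le _, ?_⟩, fun v hv => absurd (Finset.mem_univ v) hv,
      fun a _ b _ => a2 a b, fun c _ _ => by rw [← key, a3]⟩
    have := Finset.mem_range.1 (hr (a1 v))
    omega
theorem uv_cone : ∑ j, uv h j - (N + 1) • ((1, 0) : NL N) ∈ (s0 N).cone.S := by
  have h1 : ∑ j, uv h j - (N + 1) • ((1, 0) : NL N) = ∑ j, (uv h j - ((1, 0) : NL N)) := by
    rw [Finset.sum_sub_distrib, Finset.sum_const, Finset.card_univ, Fintype.card_fin]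
  rw [h1]
  refine sum_mem fun j _ => ?_
  have h2 := good_cone N (good_uv hm hi (S := {j}) fun a ha b hb he => by
    rw [Finset.mem_singleton] at ha hb
    exact he.1.ne (ha.trans hb.symm))
  rwa [Finset.sum_singleton, colA_tot, one_smul] at h2
end colour

section flat
theorem asc_le {n : ℕ} (h : Fin n → Fin n) (f : Fin n → ℕ) : asc h f ≤ nE h := by
  classical
  unfold asc nE
  refine Finset.card_le_card fun e he => ?_
  simp only [Finset.mem_filter] at he ⊢
  exact ⟨he.1, he.2.1⟩

theorem flat_tot (μ : Fin (N + 1) → ℕ) : tot N (zv μ) = ∑ c, (μ c : ℤ) := rfl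

theorem flat_H (μ : Fin (N + 1) → ℕ) (i : ℕ) {m : ℕ} (hm : m < N + 2) :
    H N i m (zv μ) = ∑ c : Fin (N + 1), if i < c.val then (μ c : ℤ) else 0 := by
  unfold H
  by_cases hi : i < N
  · rw [dif_pos ⟨hi, hm⟩]; rfl
  · rw [dif_neg fun h => hi h.1]
    exact (Finset.sum_eq_zero fun c _ => if_neg (by have := c.2; omega)).symm

theorem flat_dd (μ : Fin (N + 1) → ℕ) (i m : ℕ) : dd N i m (zv μ) = 0 := by
  unfold dd
  split_ifs with h
  · rw [AddMonoidHom.sub_apply, flat_H μ i (by omega), flat_H μ i (by omega), sub_self]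
  · rfl

theorem flat_dm (μ : Fin (N + 1) → ℕ) (i m : ℕ) : dm N i m (zv μ) = 0 := by
  unfold dm
  split_ifs with h
  · rfl
  · exact flat_dd μ _ _

theorem flat_ac (μ : Fin (N + 1) → ℕ) (c : ℕ) :
    ac N c (zv μ) = ∑ c' : Fin (N + 1), if c'.val = c then (μ c' : ℤ) else 0 := by
  unfold ac
  rw [AddMonoidHom.sub_apply, flat_H μ c (by omega)]
  split_ifs with h
  · rw [flat_tot, ← Finset.sum_sub_distrib]
    exact Finset.sum_congr rfl fun c' _ => by split_ifs <;> omega
  · rw [flat_H μ _ (by omega), ← Finset.sum_sub_distrib]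
    exact Finset.sum_congr rfl fun c' _ => by split_ifs <;> omega

theorem flat_ac_fin (μ : Fin (N + 1) → ℕ) (c : Fin (N + 1)) : ac N c.val (zv μ) = μ c := by
  rw [flat_ac]
  simp [Fin.val_inj]

theorem flat_ac_big (p : NL N) {c : ℕ} (hc : N < c) : ac N c p = 0 := by
  unfold ac H
  rw [if_neg (by omega), dif_neg (by omega), dif_neg (by omega)]
  rfl

theorem flat_sum_ac (p : NL N) (k : ℕ) :
    ∑ c ∈ Finset.range (k + 1), ac N c p = tot N p - H N k 0 p := by
  induction k with
  | zero => simp [ac]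
  | succ k ih => rw [Finset.sum_range_succ, ih]; simp [ac]

theorem flat_tot_eq (p : NL N) : tot N p = ∑ c : Fin (N + 1), ac N c.val p := by
  rw [← Finset.sum_range fun c => ac N c p, flat_sum_ac, H, dif_neg (by omega)]
  simp

theorem zv_injective : Function.Injective (zv : (Fin (N + 1) → ℕ) → NL N) := fun μ ν h => by
  funext c
  have h1 := flat_ac_fin μ c
  rw [h, flat_ac_fin] at h1
  exact_mod_cast h1.symm

theorem flat_zero : zv (0 : Fin (N + 1) → ℕ) = 0 := by
  refine Prod.ext ?_ (funext fun k => ?_) <;> simp [zv]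

theorem flat_add (μ ν : Fin (N + 1) → ℕ) : zv (μ + ν) = zv μ + zv ν := by
  refine Prod.ext ?_ (funext fun k => ?_)
  · simp [zv, Finset.sum_add_distrib]
  · simp only [zv, Prod.snd_add, Pi.add_apply, ← Finset.sum_add_distrib]
    exact Finset.sum_congr rfl fun c _ => by split_ifs <;> simp

/-- indicator function -/
def chf (S : Finset (Fin (N + 1))) : Fin (N + 1) → ℕ := fun c => if c ∈ S then 1 else 0

theorem chf_injective : Function.Injective (chf (N := N)) := fun S T h => by
  ext c
  have := congrFun h c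
  unfold chf at this
  by_cases h1 : c ∈ S <;> by_cases h2 : c ∈ T <;> simp_all

theorem tot_chf (S : Finset (Fin (N + 1))) : tot N (zv (chf S)) = S.card := by
  simp [flat_tot, chf]

theorem flat_iff (z : NL N) :
    z ∈ {z | z ∈ Good N (fun _ => 0) ∧ ∀ j : Fin N, dd N j.val 0 z = 0} ↔ ∃ S, z = zv (chf S) := by
  rw [Set.mem_ofPred_eq, good_zero_iff]
  constructor
  · rintro ⟨⟨h1, -, h3, -, -⟩, h6⟩
    have h7 : ∀ i, dd N i 0 z = 0 := fun i => by
      by_cases hi : i < N
      · exact h6 ⟨i, hi⟩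
      · unfold dd H
        rw [if_pos (Nat.zero_le N), dif_neg fun h => hi h.1, dif_neg fun h => hi h.1]
        rfl
    have h8 : ∀ i m, N < m → dd N i m z = 0 := fun i m hm => by
      unfold dd
      rw [if_neg (by omega)]
      rfl
    have h9 : ∀ i m, dd N i m z = 0 := fun i m => by
      by_cases hm : N < m
      · exact h8 i m hm
      · have e1 := sum_ff N i (N + 1) z
        rw [h7, h8 i _ (by omega), sub_zero,
          Finset.sum_eq_zero_iff_of_nonneg fun m' _ => by rcases h3 i m' with h | h <;> omega] at e1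
        have e2 := sum_ff N i m z
        rw [h7, Finset.sum_eq_zero fun m' hm' => e1 m' (by
          rw [Finset.mem_range] at hm' ⊢; omega)] at e2
        omega
    have ha : ∀ c : Fin (N + 1), ac N c.val z =
        ac N c.val (zv (chf (Finset.univ.filter fun c : Fin (N + 1) => ac N c.val z = 1))) :=
      fun c => by
        rw [flat_ac_fin]
        rcases h1 c.val with h | h <;> simp [chf, h]
    refine ⟨Finset.univ.filter fun c : Fin (N + 1) => ac N c.val z = 1,
      ext_of N ?_ (fun c => ?_) fun i m => by rw [h9, flat_dd]⟩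
    · rw [flat_tot_eq, flat_tot_eq]
      exact Finset.sum_congr rfl fun c _ => ha c
    · by_cases hc : N < c
      · rw [flat_ac_big _ hc, flat_ac_big _ hc]
      · exact ha ⟨c, by omega⟩
  · rintro ⟨S, rfl⟩
    have ha : ∀ c, ac N c (zv (chf S)) = 0 ∨ ac N c (zv (chf S)) = 1 := fun c => by
      by_cases hc : N < c
      · exact Or.inl (flat_ac_big _ hc)
      · have := flat_ac_fin (chf S) ⟨c, by omega⟩
        simp only [chf] at this
        split_ifs at this
        · exact Or.inr this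
        · exact Or.inl this
    refine ⟨⟨ha, fun i => Or.inl (flat_dd _ _ _), fun i m => Or.inl ?_, fun c => ?_,
      fun c m => ?_⟩, fun j => flat_dd _ _ _⟩
    · rw [ff, AddMonoidHom.sub_apply, flat_dd, flat_dd, sub_self]
    · rw [flat_dm]; rcases ha c with h | h <;> omega
    · rw [flat_dm, flat_dd]; rcases ha c with h | h <;> omega

theorem fprod_flat_supp {α : List ℕ} {p : NL N} (hp : fprod (om N) (tot N)
    {z | z ∈ Good N (fun _ => 0) ∧ ∀ j : Fin N, dd N j.val 0 z = 0} α p ≠ 0) :
    ∃ μ, p = zv μ ∧ ∑ c, μ c = α.sum := by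
  obtain ⟨h1, h2⟩ := fprod_mem_closure _ hp
  have h3 : ∃ μ, p = zv μ := by
    clear hp h2
    induction h1 using AddSubmonoid.closure_induction with
    | mem x hx => obtain ⟨S, hS⟩ := (flat_iff x).1 hx; exact ⟨_, hS⟩
    | zero => exact ⟨0, flat_zero.symm⟩
    | add x y _ _ hx hy =>
      obtain ⟨μ, rfl⟩ := hx
      obtain ⟨ν, rfl⟩ := hy
      exact ⟨μ + ν, (flat_add μ ν).symm⟩
  obtain ⟨μ, rfl⟩ := h3
  refine ⟨μ, rfl, ?_⟩
  rw [flat_tot] at h2
  exact_mod_cast h2

open Classical in
theorem flat_ofFn (r : ℕ) (a : Fin r → ℕ) (p : NL N) : fprod (om N) (tot N)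
    {z | z ∈ Good N (fun _ => 0) ∧ ∀ j : Fin N, dd N j.val 0 z = 0} (List.ofFn a) p =
      ∑ S : Fin r → Finset (Fin (N + 1)),
        if (∀ i, (S i).card = a i) ∧ p = zv (∑ i, chf (S i)) then 1 else 0 := by
  induction r generalizing p with
  | zero => simp [fprod, dlt, flat_zero]
  | succ r ih =>
    rw [List.ofFn_succ, fprod, conv, finsum_eq_sum_of_support_subset
      (s := Finset.univ.image fun S => zv (chf S)), Finset.sum_image
        fun S _ T _ h => chf_injective (zv_injective h),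
      ← (Fin.consEquiv fun _ : Fin (r + 1) => Finset (Fin (N + 1))).sum_comp,
      Fintype.sum_prod_type]
    · refine Finset.sum_congr rfl fun S _ => ?_
      rw [ih, Finset.mul_sum]
      refine Finset.sum_congr rfl fun T _ => ?_
      have e1 : p - zv (chf S) = zv (∑ i, chf (T i)) ↔ p = zv (chf S + ∑ i, chf (T i)) := by
        rw [flat_add, sub_eq_iff_eq_add']
      have e2 : ind (tot N) {z | z ∈ Good N (fun _ => 0) ∧ ∀ j : Fin N, dd N j.val 0 z = 0} (a 0)
          (zv (chf S)) = if S.card = a 0 then 1 else 0 := by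
        unfold ind
        by_cases h1 : S.card = a 0
        · rw [if_pos h1, if_pos ⟨(flat_iff _).2 ⟨S, rfl⟩, by rw [tot_chf, h1]⟩]
        · rw [if_neg h1]
          exact if_neg fun h => h1 (by have := h.2; rw [tot_chf] at this; exact_mod_cast this)
      simp only [e1, e2, Fin.consEquiv_apply, Fin.forall_fin_succ, Fin.sum_univ_succ,
        Fin.cons_zero, Fin.cons_succ]
      by_cases h1 : S.card = a 0
      · by_cases h2 : (∀ i, (T i).card = a i.succ) ∧ p = zv (chf S + ∑ i, chf (T i))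
        · rw [if_pos h1, if_pos h2, if_pos ⟨⟨h1, h2.1⟩, h2.2⟩, h2.2,
            om_flat N (fun i => flat_dd _ _ _) fun i m => flat_dd _ _ _, tt_zero, mul_one, mul_one]
        · rw [if_neg h2, mul_zero]
          exact (if_neg fun h => h2 ⟨h.1.2, h.2⟩).symm
      · rw [if_neg h1, mul_zero, zero_mul]
        exact (if_neg fun h => h1 h.1.1).symm
    · intro z hz
      have h1 := right_ne_zero_of_mul (left_ne_zero_of_mul hz)
      unfold ind at h1
      obtain ⟨S, rfl⟩ := (flat_iff z).1 (by by_contra h; exact h1 (if_neg fun h' => h h'.1))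
      exact Finset.mem_coe.2 (Finset.mem_image_of_mem _ (Finset.mem_univ S))

theorem fprod_flat (α : ℕ →₀ ℕ) (r : ℕ) (hr : α.support ⊆ Finset.range r) (μ : Fin (N + 1) → ℕ) :
    fprod (om N) (tot N) {z | z ∈ Good N (fun _ => 0) ∧ ∀ j : Fin N, dd N j.val 0 z = 0}
      ((List.range r).map α) (zv μ) = (cnt α μ : KK) := by
  classical
  have e0 : (List.range r).map α = List.ofFn fun i : Fin r => α i.val := by
    rw [List.ofFn_eq_map, ← List.map_coe_finRange_eq_range, List.map_map]
    rfl
  rw [e0, flat_ofFn, ← Finset.sum_filter, Finset.sum_const, nsmul_one, cnt]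
  congr 1
  have hmem : ∀ (S : Fin r → Finset (Fin (N + 1))) (c : Fin (N + 1)) (i : Fin r),
      i.val ∈ (Finset.univ.filter fun i => c ∈ S i).map Fin.valEmbedding ↔ c ∈ S i := by
    intro S c i
    simp [Fin.val_inj]
  have hsum : ∀ (R : Fin (N + 1) → Finset ℕ) (j : ℕ),
      (∑ c, ∑ i ∈ R c, Finsupp.single i 1 : ℕ →₀ ℕ) j =
        (Finset.univ.filter fun c => j ∈ R c).card := fun R j => by
    rw [Finsupp.finsetSum_apply, Finset.card_filter]
    exact Finset.sum_congr rfl fun c _ => sqf_apply (R c) j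
  refine Finset.card_nbij'
    (fun S c => (Finset.univ.filter fun i => c ∈ S i).map Fin.valEmbedding)
    (fun R i => Finset.univ.filter fun c => i.val ∈ R c) ?_ ?_ ?_ ?_
  · intro S hS
    simp only [Finset.coe_filter, Finset.mem_univ, true_and, Set.mem_ofPred_eq,
      Fintype.mem_piFinset, Finset.mem_powerset] at hS ⊢
    obtain ⟨h1, h2⟩ := hS
    refine ⟨fun c j hj => ?_, fun c => ?_, ?_⟩
    · obtain ⟨i, hi, rfl⟩ := Finset.mem_map.1 hj
      rw [Finsupp.mem_support_iff, Fin.valEmbedding_apply, ← h1]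
      exact Finset.card_ne_zero.2 ⟨c, (Finset.mem_filter.1 hi).2⟩
    · rw [Finset.card_map, zv_injective h2, Finset.sum_apply, Finset.card_filter]
      rfl
    · ext j
      rw [hsum]
      by_cases hj : j < r
      · rw [← h1 ⟨j, hj⟩]
        congr 1
        ext c
        rw [Finset.mem_filter, and_iff_right (Finset.mem_univ c)]
        exact hmem S c ⟨j, hj⟩
      · rw [Finsupp.notMem_support_iff.1 fun h => hj (Finset.mem_range.1 (hr h)),
          Finset.card_eq_zero, Finset.filter_eq_empty_iff]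
        intro c _ hc
        obtain ⟨i, -, rfl⟩ := Finset.mem_map.1 hc
        exact hj i.2
  · intro R hR
    simp only [Finset.coe_filter, Finset.mem_univ, true_and, Set.mem_ofPred_eq,
      Fintype.mem_piFinset, Finset.mem_powerset] at hR ⊢
    obtain ⟨h1, h2, h3⟩ := hR
    refine ⟨fun i => by rw [← h3, hsum], congrArg zv (funext fun c => ?_)⟩
    rw [Finset.sum_apply, ← h2 c]
    simp only [chf, Finset.mem_filter, Finset.mem_univ, true_and]
    rw [← Finset.sum_range fun i => if i ∈ R c then 1 else 0, ← Finset.card_filter,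
      Finset.filter_mem_eq_inter, Finset.inter_eq_right.2 ((h1 c).trans hr)]
  · intro S _
    funext i
    ext c
    rw [Finset.mem_filter, and_iff_right (Finset.mem_univ c)]
    exact hmem S c i
  · intro R hR
    simp only [Finset.coe_filter, Set.mem_ofPred_eq, Fintype.mem_piFinset,
      Finset.mem_powerset] at hR
    funext c
    ext j
    simp only [Finset.mem_map, Finset.mem_filter, Finset.mem_univ, true_and,
      Fin.valEmbedding_apply]
    constructor
    · rintro ⟨i, hi, rfl⟩
      exact hi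
    · intro hj
      exact ⟨⟨j, Finset.mem_range.1 (hr (hR.1 c hj))⟩, hj, rfl⟩
end flat

end Net
end
end Vale.Agent.P066
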