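import Vale.Agent.P066.QMut

/-! Part D, abstract: a mutation loop forces the asymptotic coefficients. -/

namespace Vale.Agent.P066
noncomputable section
variable {L : Type} [AddCommGroup L] {I : Type} [Fintype I] [DecidableEq I] (ω : Form L)

/-- how the sets of good points before and after a mutation at `y` are related -/
def LineRel (y : L) (G G' : Set L) : Prop := ∀ p,
  (ω.w y p = 0 → (p ∈ G ↔ p ∈ G')) ∧
  (ω.w y p = 1 → (p ∈ G' ↔ p ∈ G ∨ p - y ∈ G) ∧ ¬ (p ∈ G ∧ p - y ∈ G)) ∧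
  (ω.w y p = -1 → (p ∈ G ↔ p ∈ G' ∨ p - y ∈ G') ∧ ¬ (p ∈ G' ∧ p - y ∈ G')) ∧
  (2 ≤ |ω.w y p| → p ∉ G ∧ p ∉ G')

open Classical in
/-- the Hamiltonian of degree `k` -/
def ind (tot : L →+ ℤ) (G : Set L) (k : ℕ) : L → KK := fun p => if p ∈ G ∧ tot p = k then 1 else 0

/-- product of Hamiltonians -/
def fprod (tot : L →+ ℤ) (G : Set L) : List ℕ → L → KK
  | [] => dlt 0 1
  | k :: α => conv ω (ind tot G k) (fprod tot G α)

/-- one mutation step -/
def Step (Y : L → Prop) (x x' : Seed L I × Set L) : Prop :=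
  ∃ k, x'.1 = x.1.mutate ω k ∧ Y (x.1.e k) ∧ LineRel ω (x.1.e k) x.2 x'.2

section prod
theorem ind_ne_zero {tot : L →+ ℤ} {G : Set L} {k : ℕ} {p : L} (h : ind tot G k p ≠ 0) :
    p ∈ G ∧ tot p = k := by
  by_contra hc
  exact h (if_neg hc)
theorem ind_of_not_mem {tot : L →+ ℤ} {G : Set L} {k : ℕ} {p : L} (h : p ∉ G) :
    ind tot G k p = 0 := if_neg fun hc => h hc.1
theorem ind_finite {tot : L →+ ℤ} {G : Set L} (hG : ∀ k : ℕ, {p | p ∈ G ∧ tot p = k}.Finite)
    (k : ℕ) : (Function.support (ind tot G k)).Finite :=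
  (hG k).subset fun _ hp => ind_ne_zero hp
omit [AddCommGroup L] in
theorem dlt_ne_zero {a n : L} {c : KK} (h : dlt a c n ≠ 0) : n = a := by
  by_contra hc
  exact h (if_neg hc)
theorem fprod_finite {tot : L →+ ℤ} {G : Set L} (hG : ∀ k : ℕ, {p | p ∈ G ∧ tot p = k}.Finite)
    (α : List ℕ) : (Function.support (fprod ω tot G α)).Finite := by
  induction α with
  | nil => exact (Set.finite_singleton (0 : L)).subset fun n hn => dlt_ne_zero hn
  | cons k α ih =>
    refine ((ind_finite hG k).image2 (· + ·) ih).subset fun n hn => ?_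
    obtain ⟨a, h1, h2⟩ := conv_ne_zero ω hn
    exact ⟨a, h1, n - a, h2, by simp⟩
theorem fprod_mem_closure {tot : L →+ ℤ} {G : Set L} {α : List ℕ} {p : L}
    (h : fprod ω tot G α p ≠ 0) : p ∈ AddSubmonoid.closure G ∧ tot p = α.sum := by
  induction α generalizing p with
  | nil =>
    rw [dlt_ne_zero h]
    exact ⟨AddSubmonoid.zero_mem _, by simp⟩
  | cons k α ih =>
    obtain ⟨a, h1, h2⟩ := conv_ne_zero ω h
    obtain ⟨h3, h4⟩ := ind_ne_zero h1
    obtain ⟨h5, h6⟩ := ih h2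
    refine ⟨by simpa using AddSubmonoid.add_mem _ (AddSubmonoid.subset_closure h3) h5, ?_⟩
    rw [map_sub] at h6
    rw [List.sum_cons, Nat.cast_add]
    omega
theorem fprod_inC {C : Cone L} {tot : L →+ ℤ} {G : Set L} {ε : L}
    (hc : ∀ p ∈ G, p - tot p • ε ∈ C.S) (α : List ℕ) :
    InC C (α.sum • ε) (fprod ω tot G α) := by
  induction α with
  | nil =>
    intro n hn
    rw [dlt_ne_zero hn]
    simp
  | cons k α ih =>
    rw [List.sum_cons, add_nsmul]
    refine InC.conv (fun n hn => ?_) ih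
    obtain ⟨h1, h2⟩ := ind_ne_zero hn
    have h3 := hc n h1
    rwa [h2, natCast_zsmul] at h3
theorem LineRel.finite {y : L} {G G' : Set L} (h : LineRel ω y G G') {tot : L →+ ℤ}
    (hy : tot y = 0) (hG : ∀ k : ℕ, {p | p ∈ G ∧ tot p = k}.Finite) (k : ℕ) :
    {p | p ∈ G' ∧ tot p = k}.Finite := by
  refine ((hG k).union ((hG k).image (· + y))).subset ?_
  rintro p ⟨hp, ht⟩
  obtain ⟨h0, h1, h2, h3⟩ := h p
  have hw : ω.w y p = 0 ∨ ω.w y p = 1 ∨ ω.w y p = -1 ∨ 2 ≤ |ω.w y p| := by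
    rcases abs_cases (ω.w y p) with h | h <;> omega
  rcases hw with hw | hw | hw | hw
  · exact Or.inl ⟨(h0 hw).2 hp, ht⟩
  · rcases (h1 hw).1.1 hp with h4 | h4
    · exact Or.inl ⟨h4, ht⟩
    · exact Or.inr ⟨p - y, ⟨h4, by rw [map_sub, hy, ht, sub_zero]⟩, by simp⟩
  · exact Or.inl ⟨(h2 hw).1.2 (Or.inl hp), ht⟩
  · exact ((h3 hw).2 hp).elim
theorem pb_zero_zero : pb 0 0 = 1 := by simp [pb]
theorem pb_one_zero : pb 1 0 = 1 := by simp [pb]
theorem pb_one_one : pb 1 1 = 1 := by simp [pb, Polynomial.coeff_one, tt_zero]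
omit ω in
theorem ind_pair {tot : L →+ ℤ} {y p : L} (hy : tot y = 0) {G G' : Set L} (k : ℕ)
    (h : (p ∈ G' ↔ p ∈ G ∨ p - y ∈ G) ∧ ¬ (p ∈ G ∧ p - y ∈ G)) :
    ind tot G k p + ind tot G k (p - y) = ind tot G' k p := by
  have e : tot (p - y) = tot p := by rw [map_sub, hy, sub_zero]
  unfold ind
  rw [e]
  by_cases h1 : p ∈ G <;> by_cases h2 : p - y ∈ G <;> by_cases h3 : tot p = k <;>
    simp_all
/-- the values along a line through `p` in the direction `y` -/
theorem line_sum {tot : L →+ ℤ} {y p : L} (hy : tot y = 0) {G G' : Set L} (k b : ℕ)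
    (h0 : b = 0 → (p ∈ G ↔ p ∈ G'))
    (h1 : b = 1 → (p ∈ G' ↔ p ∈ G ∨ p - y ∈ G) ∧ ¬ (p ∈ G ∧ p - y ∈ G))
    (h2 : 2 ≤ b → p ∉ G' ∧ ∀ j : ℕ, p - j • y ∉ G) :
    ∑ j ∈ Finset.range (b + 1), pb b j * ind tot G k (p - j • y) = ind tot G' k p := by
  rcases Nat.lt_or_ge b 2 with hb | hb
  · interval_cases b
    · rw [Finset.sum_range_one, pb_zero_zero, one_mul, zero_nsmul, sub_zero]
      unfold ind
      rw [h0 rfl]
    · rw [Finset.sum_range_succ, Finset.sum_range_one, pb_one_zero, pb_one_one, one_mul, one_mul,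
        zero_nsmul, sub_zero, one_nsmul]
      exact ind_pair hy k (h1 rfl)
  · rw [ind_of_not_mem (h2 hb).1]
    exact Finset.sum_eq_zero fun j _ => by rw [ind_of_not_mem ((h2 hb).2 j), mul_zero]
theorem LineRel.conv_E_ind {C : Cone L} {y : L} (hC : y ∈ C.S) (h0 : y ≠ 0) {G G' : Set L}
    (h : LineRel ω y G G') {tot : L →+ ℤ} (hy : tot y = 0)
    (hG : ∀ k : ℕ, {p | p ∈ G ∧ tot p = k}.Finite) (k : ℕ) :
    conv ω (ind tot G k) (Efun y) = conv ω (Efun y) (ind tot G' k) := by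
  let u : QA ω C := QA.mk _ (adm_of_finite C (ind_finite hG k))
  let v : QA ω C := QA.mk _ (adm_of_finite C (ind_finite (h.finite ω hy hG) k))
  have hE : ∀ m, (EU ω C y : QA ω C).fn m ≠ 0 → ω.w y m = 0 := fun m hm => by
    obtain ⟨j, rfl⟩ := ((EU_mem ω hC h0).1 m hm).2
    simp [ω.alt]
  have hl : ∀ (p : L) (j : ℕ), ω.w y (p - j • y) = ω.w y p := fun p j => by simp [ω.alt]
  have key : u * EU ω C y = (EU ω C y : QA ω C) * v := by
    refine QA.ext fun n => ?_
    rw [← sub_eq_zero, ← QA.fn_sub]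
    by_contra hne
    rcases le_total 0 (ω.w y n) with hn | hn
    · obtain ⟨b, hb⟩ : ∃ b : ℕ, ω.w y n = b := ⟨(ω.w y n).toNat, by omega⟩
      have e2 : u * EU ω C y - (EU ω C y : QA ω C) * v = (EU ω C y : QA ω C) *
          ((((EU ω C y)⁻¹ : (QA ω C)ˣ) : QA ω C) * u * EU ω C y - v) := by
        rw [mul_sub, mul_assoc, Units.mul_inv_cancel_left]
      rw [e2, QA.fn_mul] at hne
      obtain ⟨a, ha, hx⟩ := conv_ne_zero ω hne
      have hp : ω.w y (n - a) = b := by rw [map_sub, hE a ha, hb, sub_zero]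
      generalize n - a = p at hx hp
      apply hx
      rw [QA.fn_sub, conj_E_nonneg ω hC h0 u hp, sub_eq_zero]
      refine line_sum hy k b (fun hb0 => (h p).1 (by omega)) (fun hb1 => (h p).2.1 (by omega))
        fun hb2 => ⟨((h p).2.2.2 (le_abs.2 (Or.inl (by omega)))).2, fun j =>
          ((h _).2.2.2 (le_abs.2 (Or.inl (by rw [hl]; omega)))).1⟩
    · obtain ⟨b, hb⟩ : ∃ b : ℕ, ω.w y n = -b := ⟨(-ω.w y n).toNat, by omega⟩
      have e2 : u * EU ω C y - (EU ω C y : QA ω C) * v =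
          (u - (EU ω C y : QA ω C) * v * ((EU ω C y)⁻¹ : (QA ω C)ˣ)) * EU ω C y := by
        rw [sub_mul, Units.inv_mul_cancel_right]
      rw [e2, QA.fn_mul] at hne
      obtain ⟨p, hx, ha⟩ := conv_ne_zero ω hne
      have hp : ω.w y p = -b := by
        have := hE _ ha
        rw [map_sub, hb] at this
        omega
      apply hx
      rw [QA.fn_sub, conj_E_nonpos ω hC h0 v hp, sub_eq_zero]
      refine (line_sum hy k b (fun hb0 => ((h p).1 (by omega)).symm)
        (fun hb1 => (h p).2.2.1 (by omega))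
        fun hb2 => ⟨((h p).2.2.2 (le_abs.2 (Or.inr (by omega)))).1, fun j =>
          ((h _).2.2.2 (le_abs.2 (Or.inr (by rw [hl]; omega)))).2⟩).symm
  have h1 := congrArg QA.fn key
  rwa [QA.fn_mul, QA.fn_mul, fn_EU ω hC h0] at h1
theorem LineRel.conv_E {C : Cone L} {y : L} (hC : y ∈ C.S) (h0 : y ≠ 0) {G G' : Set L}
    (h : LineRel ω y G G') {tot : L →+ ℤ} (hy : tot y = 0)
    (hG : ∀ k : ℕ, {p | p ∈ G ∧ tot p = k}.Finite) (α : List ℕ) :
    conv ω (fprod ω tot G α) (Efun y) = conv ω (Efun y) (fprod ω tot G' α) := by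
  have hG' := h.finite ω hy hG
  have hE : Adm C (Efun y) := (un_Efun hC h0).adm
  induction α with
  | nil =>
    funext n
    change conv ω (dlt 0 1) (Efun y) n = conv ω (Efun y) (dlt 0 1) n
    rw [conv_dlt_left, conv_dlt_right]
    simp [tt_zero]
  | cons k α ih =>
    have a1 := adm_of_finite C (ind_finite hG k)
    have a2 := adm_of_finite C (ind_finite hG' k)
    have a3 := adm_of_finite C (fprod_finite ω hG α)
    have a4 := adm_of_finite C (fprod_finite ω hG' α)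
    change conv ω (conv ω (ind tot G k) (fprod ω tot G α)) (Efun y) =
      conv ω (Efun y) (conv ω (ind tot G' k) (fprod ω tot G' α))
    rw [conv_assoc ω a1 a3 hE, ih, ← conv_assoc ω a1 hE a4, h.conv_E_ind ω hC h0 hy hG k,
      conv_assoc ω hE a2 a4]
theorem fprod_tr (D : L ≃+ L) (hω : ∀ a b, ω.w (D a) (D b) = ω.w a b) {tot : L →+ ℤ}
    (ht : ∀ p, tot (D p) = tot p) {G G' : Set L} (hG : ∀ p, D p ∈ G' ↔ p ∈ G) (α : List ℕ) :
    fprod ω tot G' α = fun m => fprod ω tot G α (D.symm m) := by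
  induction α with
  | nil =>
    funext m
    have : D.symm m = 0 ↔ m = 0 := D.symm.map_eq_zero_iff
    change dlt 0 1 m = dlt 0 1 (D.symm m)
    unfold dlt
    rw [this]
  | cons k α ih =>
    funext m
    have e : ind tot G' k = fun a => ind tot G k (D.symm a) := by
      funext a
      unfold ind
      rw [← hG, ← ht (D.symm a), D.apply_symm_apply]
    change conv ω (ind tot G' k) (fprod ω tot G' α) m =
      conv ω (ind tot G k) (fprod ω tot G α) (D.symm m)
    rw [conv_tr D hω, ih, e]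
end prod

section escape
theorem Tm_surjective (y : L) : Function.Surjective (Tm ω y) := fun q => by
  rcases le_total (ω.w y q) 0 with h | h
  · exact ⟨q, by rw [Tm, max_eq_right h, zero_smul, add_zero]⟩
  · refine ⟨q - ω.w y q • y, ?_⟩
    have e : ω.w y (q - ω.w y q • y) = ω.w y q := by simp [ω.alt]
    rw [Tm, e, max_eq_left h, sub_add_cancel]
theorem chain_summary {J : Type} [Fintype J] (tot : L →+ ℤ) (g b : J → L →+ ℤ) (Y : L → Prop)
    (hY : ∀ y, Y y → tot y = 0 ∧ (∀ j, 0 ≤ g j y) ∧ 0 < ∑ j, g j y ∧ ∀ j, b j y = 0)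
    {x x' : Seed L I × Set L} (hch : Relation.ReflTransGen (Step ω Y) x x')
    (hfin : ∀ k : ℕ, {p | p ∈ x.2 ∧ tot p = k}.Finite) :
    (∀ k : ℕ, {p | p ∈ x'.2 ∧ tot p = k}.Finite) ∧
    ∃ (T : L → L) (Ys : Set L), Function.Surjective T ∧ (∀ y ∈ Ys, Y y) ∧
      (∀ α p, cinf ω x'.1 (fprod ω tot x'.2 α) (T p) = cinf ω x.1 (fprod ω tot x.2 α) p) ∧
      (∀ p j, g j p ≤ g j (T p) ∧ b j (T p) = b j p) ∧
      (∀ p, ∑ j, g j (T p) = ∑ j, g j p → T p = p ∧ ∀ y ∈ Ys, ω.w y p ≤ 0) ∧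
      ∀ σ : Stab L, (∀ y ∈ Ys, σ.neg y) →
        (∀ α, uth ω x'.1 σ (fprod ω tot x'.2 α) = uth ω x.1 σ (fprod ω tot x.2 α)) ∧
        ∀ S : AddSubmonoid L, (∀ y ∈ Ys, y ∈ S) → (∀ n, lneg ω x.1 σ n ≠ 0 → n ∈ S) →
          ∀ n, lneg ω x'.1 σ n ≠ 0 → n ∈ S := by
  induction hch with
  | refl =>
    exact ⟨hfin, id, ∅, Function.surjective_id, fun _ h => h.elim, fun _ _ => rfl,
      fun _ _ => ⟨le_rfl, rfl⟩, fun _ _ => ⟨rfl, fun _ h => h.elim⟩,
      fun _ _ => ⟨fun _ => rfl, fun _ _ h => h⟩⟩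
  | @tail z z' _ hst ih =>
    obtain ⟨hf, T, Ys, h1, h2, h3, h4, h5, h6⟩ := ih
    obtain ⟨k, e1, e2, e3⟩ := hst
    obtain ⟨y1, y2, y3, y4⟩ := hY _ e2
    have hf' := e3.finite ω y1 hf
    have hE := fun α => e3.conv_E ω (z.1.e_mem k) (z.1.e_ne_zero k) y1 hf α
    have hg : ∀ j q, g j (Tm ω (z.1.e k) q) = g j q + max (ω.w (z.1.e k) q) 0 * g j (z.1.e k) :=
      fun j q => by rw [Tm, map_add, map_zsmul, smul_eq_mul]
    refine ⟨hf', Tm ω (z.1.e k) ∘ T, insert (z.1.e k) Ys, (Tm_surjective ω _).comp h1, ?_,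
      fun α p => ?_, fun p j => ⟨?_, ?_⟩, fun p hp => ?_, fun σ hσ => ⟨fun α => ?_, ?_⟩⟩
    · rintro y (rfl | hy)
      exacts [e2, h2 y hy]
    · rw [e1, Function.comp_apply,
        mut_cinf ω z.1 k (fprod_finite ω hf α) (fprod_finite ω hf' α) (hE α), h3]
    · rw [Function.comp_apply, hg]
      exact (h4 p j).1.trans (le_add_of_nonneg_right (mul_nonneg (le_max_right _ _) (y2 j)))
    · rw [Function.comp_apply, Tm, map_add, map_zsmul, y4, smul_zero, add_zero, (h4 p j).2]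
    · simp only [Function.comp_apply, hg, Finset.sum_add_distrib, ← Finset.mul_sum] at hp
      have a1 : ∑ j, g j p ≤ ∑ j, g j (T p) := Finset.sum_le_sum fun j _ => (h4 p j).1
      have a2 : 0 ≤ max (ω.w (z.1.e k) (T p)) 0 * ∑ j, g j (z.1.e k) :=
        mul_nonneg (le_max_right _ _) y3.le
      obtain ⟨a3, a4⟩ := h5 p (by omega)
      have a5 : max (ω.w (z.1.e k) (T p)) 0 = 0 :=
        (mul_eq_zero.1 (by omega : max (ω.w (z.1.e k) (T p)) 0 * ∑ j, g j (z.1.e k) = 0)).resolve_right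
          y3.ne'
      refine ⟨by rw [Function.comp_apply, Tm, a5, zero_smul, add_zero, a3], ?_⟩
      rintro y (rfl | hy)
      · rw [a3] at a5
        exact max_eq_right_iff.1 a5
      · exact a4 y hy
    · rw [e1, mut_uth ω z.1 k (fprod_finite ω hf α) (fprod_finite ω hf' α) (hE α)
        (hσ _ (Set.mem_insert _ _)), (h6 σ fun y hy => hσ y (Set.mem_insert_of_mem _ hy)).1]
    · intro S hS hl
      rw [e1]
      exact mut_lneg ω z.1 k (hσ _ (Set.mem_insert _ _)) S (hS _ (Set.mem_insert _ _))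
        ((h6 σ fun y hy => hσ y (Set.mem_insert_of_mem _ hy)).2 S
          (fun y hy => hS y (Set.mem_insert_of_mem _ hy)) hl)

omit ω [AddCommGroup L] in
/-- no infinite descent -/
theorem no_descent {P : L → Prop} (φ : L → ℤ) (B : ℤ) (hB : ∀ p, P p → B ≤ φ p)
    (h : ∀ p, P p → ∃ q, P q ∧ φ q < φ p) (p : L) : ¬ P p := by
  intro hp
  induction hk : (φ p - B).toNat using Nat.strong_induction_on generalizing p with
  | h k ih =>
    obtain ⟨q, hq, hlt⟩ := h p hp
    have := hB q hq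
    exact ih _ (by omega) q hq rfl
/-- the face where all `g j` vanish -/
def face {J : Type} (g : J → L →+ ℤ) : AddSubmonoid L where
  carrier := {m | ∀ j, g j m = 0}
  add_mem' ha hb j := by rw [map_add, ha j, hb j, add_zero]
  zero_mem' j := map_zero _
omit ω in
theorem mem_face {J : Type} {g : J → L →+ ℤ} {m : L} : m ∈ face g ↔ ∀ j, g j m = 0 := Iff.rfl
theorem trunc_conv {J : Type} (g : J → L →+ ℤ) {u v : L → KK} (hu : ∀ n, u n ≠ 0 → ∀ j, 0 ≤ g j n)
    (hv : ∀ n, v n ≠ 0 → ∀ j, 0 ≤ g j n) :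
    truncF (face g) (conv ω u v) = conv ω (truncF (face g) u) (truncF (face g) v) := by
  funext n
  by_cases hn : n ∈ face g
  · rw [truncF_of_mem hn]
    refine finsum_congr fun a => ?_
    by_cases h1 : u a = 0
    · simp [truncF, h1]
    by_cases h2 : v (n - a) = 0
    · simp [truncF, h2]
    have h3 : ∀ j, g j a = 0 ∧ g j (n - a) = 0 := fun j => by
      have a1 := hu a h1 j
      have a2 := hv _ h2 j
      have a3 := mem_face.1 hn j
      rw [map_sub] at a2 ⊢
      omega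
    rw [truncF_of_mem (mem_face.2 fun j => (h3 j).1), truncF_of_mem (mem_face.2 fun j => (h3 j).2)]
  · rw [truncF_of_not_mem hn]
    by_contra h
    obtain ⟨a, h1, h2⟩ := conv_ne_zero ω (Ne.symm h)
    have a1 : a ∈ face g := by
      by_contra hc
      exact h1 (truncF_of_not_mem hc)
    have a2 : n - a ∈ face g := by
      by_contra hc
      exact h2 (truncF_of_not_mem hc)
    exact hn (by simpa using (face g).add_mem a1 a2)
theorem fprod_nonneg {J : Type} (g : J → L →+ ℤ) {tot : L →+ ℤ} {G : Set L}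
    (hg : ∀ p ∈ G, ∀ j, 0 ≤ g j p) (α : List ℕ) (n : L) (hn : fprod ω tot G α n ≠ 0) (j : J) :
    0 ≤ g j n := by
  have h := (fprod_mem_closure ω hn).1
  clear hn
  induction h using AddSubmonoid.closure_induction with
  | mem x hx => exact hg x hx j
  | zero => simp
  | add a b _ _ ha hb => rw [map_add]; exact add_nonneg ha hb
theorem trunc_fprod {J : Type} (g : J → L →+ ℤ) {tot : L →+ ℤ} {G : Set L}
    (hg : ∀ p ∈ G, ∀ j, 0 ≤ g j p) (α : List ℕ) :
    truncF (face g) (fprod ω tot G α) = fprod ω tot {z | z ∈ G ∧ ∀ j, g j z = 0} α := by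
  induction α with
  | nil =>
    funext n
    change truncF (face g) (dlt 0 1) n = dlt 0 1 n
    by_cases hn : n ∈ face g
    · exact truncF_of_mem hn
    · rw [truncF_of_not_mem hn]
      by_contra h
      exact hn (dlt_ne_zero (Ne.symm h) ▸ (face g).zero_mem)
  | cons k α ih =>
    have e : truncF (face g) (ind tot G k) = ind tot {z | z ∈ G ∧ ∀ j, g j z = 0} k := by
      funext n
      by_cases hn : n ∈ face g
      · rw [truncF_of_mem hn]
        have h : n ∈ {z | z ∈ G ∧ ∀ j, g j z = 0} ↔ n ∈ G := ⟨fun h => h.1, fun h => ⟨h, hn⟩⟩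
        unfold ind
        rw [h]
      · rw [truncF_of_not_mem hn, ind_of_not_mem fun h => hn h.2]
    change truncF (face g) (conv ω (ind tot G k) (fprod ω tot G α)) = conv ω _ _
    rw [trunc_conv ω g (fun n hn => hg n (ind_ne_zero hn).1) (fprod_nonneg ω g hg α), ih, e]
/-- restriction to the face -/
theorem uth_face {J : Type} (g : J → L →+ ℤ) (s : Seed L I) (σ : Stab L) {f : L → KK}
    (hf : (Function.support f).Finite) (hf0 : ∀ n, f n ≠ 0 → ∀ j, 0 ≤ g j n)
    (hl : ∀ n, lneg ω s σ n ≠ 0 → ∀ j, 0 ≤ g j n) (hu : ∀ n, uth ω s σ f n ≠ 0 → n ∈ face g)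
    (hc : ∀ m ∈ s.cone.S, m ∈ face g → ∀ z, truncF (face g) f z ≠ 0 → ω.w m z = 0) :
    uth ω s σ f = truncF (face g) f := by
  have a1 := adm_of_finite s.cone hf
  have a2 : Adm s.cone (truncF (face g) f) := a1.mono fun n hn h => hn (by simp [truncF, h])
  have a3 := truncF_un (face g) (un_lneg ω s σ)
  obtain ⟨U, hU, e1⟩ : ∃ U : QA ω s.cone, U.fn = uth ω s σ f ∧
      (negP σ (clu ω s) : QA ω s.cone) * U = mkA ω s.cone f * negP σ (clu ω s) :=
    ⟨_, rfl, by simp only [mul_assoc, Units.mul_inv_cancel_left]⟩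
  have e2 : conv ω (lneg ω s σ) (uth ω s σ f) = conv ω f (lneg ω s σ) := by
    have := congrArg QA.fn e1
    rwa [QA.fn_mul, QA.fn_mul, fn_mkA ω a1, hU] at this
  have e3 : truncF (face g) (uth ω s σ f) = uth ω s σ f := by
    funext n
    by_cases hn : n ∈ face g
    · exact truncF_of_mem hn
    · rw [truncF_of_not_mem hn]
      by_contra h
      exact hn (hu n (Ne.symm h))
  have e4 := congrArg (truncF (face g)) e2
  rw [trunc_conv ω g hl (fun n hn j => (mem_face.1 (hu n hn) j).ge), trunc_conv ω g hf0 hl,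
    e3] at e4
  have e5 : (mkU ω s.cone (truncF (face g) (lneg ω s σ)) : QA ω s.cone) * U =
      QA.mk _ a2 * (mkU ω s.cone (truncF (face g) (lneg ω s σ)) : QA ω s.cone) :=
    QA.ext fun n => by rw [QA.fn_mul, QA.fn_mul, fn_mkU ω a3, hU, QA.fn_mk, e4]
  have e7 : (mkU ω s.cone (truncF (face g) (lneg ω s σ)) : QA ω s.cone) * QA.mk _ a2 =
      QA.mk _ a2 * (mkU ω s.cone (truncF (face g) (lneg ω s σ)) : QA ω s.cone) :=
    commute_of_orth fun a z ha hz => by
      rw [fn_mkU ω a3] at ha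
      exact hc a (a3.1 a ha).1 (a3.1 a ha).2 z hz
  have e6 := congrArg QA.fn ((Units.mul_right_inj _).1 (e5.trans e7.symm))
  rwa [hU, QA.fn_mk] at e6

open Classical in
theorem escape {J : Type} [Fintype J] (tot : L →+ ℤ) (g b : J → L →+ ℤ) (Y : L → Prop)
    {s₀ s₁ : Seed L I} {G₀ G₁ : Set L}
    (hch : Relation.ReflTransGen (Step ω Y) (s₀, G₀) (s₁, G₁))
    (hY : ∀ y, Y y → y ∈ s₀.cone.S ∧ tot y = 0 ∧ (∀ j, 0 ≤ g j y) ∧ 0 < ∑ j, g j y ∧
      ∀ j, b j y = 0)
    (D : L ≃+ L) (hω : ∀ a a', ω.w (D a) (D a') = ω.w a a') (π : I ≃ I)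
    (he : ∀ i, s₁.e i = D (s₀.e (π i))) (hG : ∀ p, D p ∈ G₁ ↔ p ∈ G₀)
    (ht : ∀ p, tot (D p) = tot p) (hgD : ∀ j m, g j (D m) = g j m)
    (hbD : ∀ j m, b j (D m) = b j m + g j m) (hfix : ∀ m, (∀ j, g j m = 0) → D m = m)
    (hDS : ∀ m ∈ s₀.cone.S, (∀ j, 0 ≤ g j m) → D m ∈ s₀.cone.S)
    (hb : ∀ j, ∀ m ∈ s₀.cone.S, 0 ≤ b j m)
    (hfin : ∀ k : ℕ, {p | p ∈ G₀ ∧ tot p = k}.Finite) (ε : L)
    (hc : ∀ p ∈ G₀, p - tot p • ε ∈ s₀.cone.S) (hg0 : ∀ p ∈ G₀, ∀ j, 0 ≤ g j p)
    (hcomm : ∀ m ∈ s₀.cone.S, (∀ j, g j m = 0) → ∀ z ∈ G₀, (∀ j, g j z = 0) → ω.w m z = 0) :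
    ∃ P : Set L, ∀ (α : List ℕ) (p : L), cinf ω s₀ (fprod ω tot G₀ α) p =
      if p ∈ P then fprod ω tot {z | z ∈ G₀ ∧ ∀ j, g j z = 0} α p else 0 := by
  have _ := hDS
  obtain ⟨-, T, Ys, h1, h2, h3, h4, h5, h6⟩ :=
    chain_summary ω tot g b Y (fun y hy => (hY y hy).2) hch hfin
  dsimp only at h3 h6
  refine ⟨{p | (∀ j, g j p = 0) ∧ ∀ y ∈ Ys, ω.w y p ≤ 0}, fun α p => ?_⟩
  have hff := fprod_finite ω hfin α
  have hadm := adm_of_finite s₀.cone hff
  have hlow : ∀ (σ : Stab L) (j : J) (n : L), uth ω s₀ σ (fprod ω tot G₀ α) n ≠ 0 →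
      b j (α.sum • ε) ≤ b j n := fun σ j n hn => by
    have := hb j _ (uth_inC ω s₀ σ (fprod_inC ω hc α) n hn)
    rw [map_sub] at this
    omega
  have hgS : ∀ j m, g j (D.symm m) = g j m := fun j m => by rw [← hgD, D.apply_symm_apply]
  have hbS : ∀ j m, b j (D.symm m) = b j m - g j m := fun j m => by
    have := hbD j (D.symm m)
    rw [D.apply_symm_apply, hgS] at this
    omega
  split_ifs with hp
  · obtain ⟨p1, p2⟩ := hp
    have hneg : ∀ y ∈ Ys, ((Stab.ofHom (ω.th p)).lex (Stab.ofHom (-∑ j, g j))).neg y :=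
      fun y hy => by
        rw [Stab.lex_neg, Stab.ofHom_neg, Stab.ofHom_zero, Stab.ofHom_neg, Form.th_apply,
          AddMonoidHom.neg_apply, AddMonoidHom.finsetSum_apply]
        have a1 := p2 y hy
        have a2 := (hY y (h2 y hy)).2.2.2.1
        omega
    have hσ : ((Stab.ofHom (ω.th p)).lex (Stab.ofHom (-∑ j, g j))).comap D.toAddMonoidHom =
        (Stab.ofHom (ω.th p)).lex (Stab.ofHom (-∑ j, g j)) := Stab.ext' fun a => by
      have a1 : ω.w (D a) p = ω.w a p := by rw [← hω a p, hfix p p1]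
      rw [Stab.comap_nn, Stab.lex_nn, Stab.lex_nn]
      simp only [Stab.ofHom_pos, Stab.ofHom_zero, Stab.ofHom_nn, Form.th_apply,
        AddMonoidHom.neg_apply, AddMonoidHom.finsetSum_apply, AddEquiv.toAddMonoidHom_eq_coe,
        AddMonoidHom.coe_coe, a1, hgD]
    rw [← uth_lex ω s₀ (Stab.ofHom (-∑ j, g j))]
    obtain ⟨u1, u2⟩ := h6 _ hneg
    generalize (Stab.ofHom (ω.th p)).lex (Stab.ofHom (-∑ j, g j)) = σ at hσ u1 u2
    have hinv : ∀ n, uth ω s₀ σ (fprod ω tot G₀ α) (D n) = uth ω s₀ σ (fprod ω tot G₀ α) n :=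
      fun n => by
        have a1 := nat_uth D hω π he σ hadm n
        rwa [hσ, ← fprod_tr ω D hω ht hG, u1] at a1
    have hu : ∀ n, uth ω s₀ σ (fprod ω tot G₀ α) n ≠ 0 → n ∈ face g := fun n hn j => by
      by_contra h0
      rcases lt_or_gt_of_ne h0 with h | h
      · refine no_descent (P := fun m => uth ω s₀ σ (fprod ω tot G₀ α) m ≠ 0 ∧ g j m < 0) (b j) _
          (fun m hm => hlow σ j m hm.1) (fun m hm => ⟨D m, ⟨?_, ?_⟩, ?_⟩) n ⟨hn, h⟩
        · rw [hinv]; exact hm.1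
        · rw [hgD]; exact hm.2
        · rw [hbD]; have := hm.2; omega
      · refine no_descent (P := fun m => uth ω s₀ σ (fprod ω tot G₀ α) m ≠ 0 ∧ 0 < g j m) (b j) _
          (fun m hm => hlow σ j m hm.1) (fun m hm => ⟨D.symm m, ⟨?_, ?_⟩, ?_⟩) n ⟨hn, h⟩
        · rw [← hinv, D.apply_symm_apply]; exact hm.1
        · rw [hgS]; exact hm.2
        · rw [hbS]; have := hm.2; omega
    have hl : ∀ n, lneg ω s₀ σ n ≠ 0 → ∀ j, 0 ≤ g j n := fun n hn j => by
      have key : ∀ N : ℕ, ∀ m, lneg ω s₀ σ m ≠ 0 → 0 ≤ b j m + N * g j m := fun N => by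
        induction N with
        | zero =>
          intro m hm
          simpa using hb j m ((un_lneg ω s₀ σ).1 m hm).1
        | succ N ih =>
          intro m hm
          let S : AddSubmonoid L :=
            { carrier := {m | 0 ≤ b j m + N * g j m}
              add_mem' := fun {x y} hx hy => by
                have := add_nonneg (show 0 ≤ b j x + N * g j x from hx)
                  (show 0 ≤ b j y + N * g j y from hy)
                change 0 ≤ b j (x + y) + N * g j (x + y)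
                rw [map_add, map_add]
                linarith
              zero_mem' := by simp }
          have a1 : D m ∈ S := u2 S (fun y hy => by
            obtain ⟨-, -, y2, -, y4⟩ := hY y (h2 y hy)
            change 0 ≤ b j y + N * g j y
            rw [y4, zero_add]
            exact mul_nonneg (Nat.cast_nonneg N) (y2 j)) ih (D m)
            (by rw [nat_lneg D hω π he, hσ]; exact hm)
          change 0 ≤ b j (D m) + N * g j (D m) at a1
          rw [hbD, hgD] at a1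
          push_cast
          linarith
      by_contra h
      have a1 := key ((b j n).toNat + 1) n hn
      have a2 : b j n ≤ (b j n).toNat := Int.self_le_toNat _
      have a3 : (((b j n).toNat + 1 : ℕ) : ℤ) * g j n ≤ (((b j n).toNat + 1 : ℕ) : ℤ) * (-1) :=
        mul_le_mul_of_nonneg_left (by omega) (Nat.cast_nonneg _)
      push_cast at a1 a3
      linarith
    rw [uth_face ω g s₀ σ hff (fprod_nonneg ω g hg0 α) hl hu, trunc_fprod ω g hg0]
    intro m hm hm0 z hz
    rw [trunc_fprod ω g hg0] at hz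
    have h := (fprod_mem_closure ω hz).1
    clear hz
    induction h using AddSubmonoid.closure_induction with
    | mem x hx => exact hcomm m hm hm0 x hx.1 hx.2
    | zero => simp
    | add a b _ _ ha hb => rw [map_add, ha, hb, add_zero]
  · have hτ : ∀ q, cinf ω s₀ (fprod ω tot G₀ α) (D.symm (T q)) = cinf ω s₀ (fprod ω tot G₀ α) q :=
      fun q => by
        rw [← h3 α q, fprod_tr ω D hω ht hG, ← nat_cinf D hω π he hadm, D.apply_symm_apply]
    have hz : ∀ n, cinf ω s₀ (fprod ω tot G₀ α) n ≠ 0 → ∀ j, g j n = 0 := fun n hn j => by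
      by_contra h0
      rcases lt_or_gt_of_ne h0 with h | h
      · refine no_descent (P := fun m => cinf ω s₀ (fprod ω tot G₀ α) m ≠ 0 ∧ g j m < 0) (b j) _
          (fun m hm => hlow _ j m hm.1) (fun m hm => ?_) n ⟨hn, h⟩
        obtain ⟨q, hq⟩ := h1 (D m)
        obtain ⟨a1, a2⟩ := h4 q j
        rw [hq, hgD] at a1
        rw [hq, hbD] at a2
        have a3 := hm.2
        refine ⟨q, ⟨?_, by omega⟩, by omega⟩
        rw [← hτ, hq, D.symm_apply_apply]
        exact hm.1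
      · refine no_descent (P := fun m => cinf ω s₀ (fprod ω tot G₀ α) m ≠ 0 ∧ 0 < g j m) (b j) _
          (fun m hm => hlow _ j m hm.1) (fun m hm => ⟨D.symm (T m), ⟨?_, ?_⟩, ?_⟩) n ⟨hn, h⟩
        · rw [hτ]; exact hm.1
        · rw [hgS]; exact hm.2.trans_le (h4 m j).1
        · rw [hbS, (h4 m j).2]
          have a1 := (h4 m j).1
          have a2 := hm.2
          omega
    by_contra h
    have a1 := hz p h
    have a2 := hz (D.symm (T p)) (by rw [hτ]; exact h)
    simp only [hgS] at a2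
    exact hp ⟨a1, (h5 p (by simp only [a1, a2])).2⟩
end escape

end
end Vale.Agent.P066
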