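import Vale.Agent.P066.DEsc

/-! Part D: the ladder network on `N + 1` circles. Layer `i < N` lies between the circles `i` and
`i + 1`; it has one upward rung `E i` and downward rungs `F i m`, `m ≤ N`. -/

namespace Vale.Agent.P066
noncomputable section

abbrev NI (N : ℕ) : Type := Fin N × Fin (N + 2)
abbrev NL (N : ℕ) : Type := ℤ × (NI N → ℤ)

namespace Net
variable (N : ℕ)

/-- total number of particles -/
def tot : NL N →+ ℤ := AddMonoidHom.fst _ _
/-- height of the face `m` in layer `i` -/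
def H (i m : ℕ) : NL N →+ ℤ :=
  if h : i < N ∧ m < N + 2 then
    (Pi.evalAddMonoidHom (fun _ : NI N => ℤ) (⟨i, h.1⟩, ⟨m, h.2⟩)).comp (AddMonoidHom.snd _ _)
  else 0
/-- sum of the labels of `F i m'`, `m ≤ m'` -/
def dd (i m : ℕ) : NL N →+ ℤ := if m ≤ N then H N i (m + 1) - H N i 0 else 0
/-- the same for the layer below circle `c` -/
def dm (c m : ℕ) : NL N →+ ℤ := if c = 0 then 0 else dd N (c - 1) m
/-- label of `F i m`; the label of `E i` is `dd N i 0` -/
def ff (i m : ℕ) : NL N →+ ℤ := dd N i m - dd N i (m + 1)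
/-- initial label of circle `c` -/
def ac (c : ℕ) : NL N →+ ℤ := (if c = 0 then tot N else H N (c - 1) 0) - H N c 0
/-- number of rungs `F i m` among the first `x` downward rungs
(`F i m` has number `m * N + (N - 1 - i)`) -/
def ps (i x : ℕ) : ℕ := ((Finset.range (N + 1)).filter fun m => m * N + (N - 1 - i) < x).card
/-- height in layer `i` after the rungs `E i'`, `i' < e`, and the first `x` downward rungs -/
def hg (i e x : ℕ) : NL N →+ ℤ :=
  H N i 0 + (if i < e then dd N i 0 else 0) - (dd N i 0 - dd N i (ps N i x))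
/-- label of circle `c` at the same time -/
def run (c e x : ℕ) : NL N →+ ℤ := (if c = 0 then tot N else hg N (c - 1) e x) - hg N c e x
/-- vertices of the lattice path in which `E i` comes after `κ i` downward rungs -/
def Vert (κ : ℕ → ℕ) (e x : ℕ) : Prop :=
  e ≤ N ∧ (if e = 0 then 0 else κ (e - 1)) ≤ x ∧ x ≤ (if e = N then N * (N + 1) else κ e)
/-- all labels are zero or one -/
def Good (κ : ℕ → ℕ) : Set (NL N) := {p | (∀ i, dd N i 0 p = 0 ∨ dd N i 0 p = 1) ∧
  (∀ i m, ff N i m p = 0 ∨ ff N i m p = 1) ∧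
  ∀ e x, Vert N κ e x → ∀ c, run N c e x p = 0 ∨ run N c e x p = 1}

/-- `φ ∧ ψ` -/
def wedge {L : Type} [AddCommGroup L] (φ ψ : L →+ ℤ) : L →+ L →+ ℤ :=
  ((AddMonoidHom.mul (R := ℤ)).compl₂ ψ).comp φ - ((AddMonoidHom.mul (R := ℤ)).compl₂ φ).comp ψ
theorem wedge_apply {L : Type} [AddCommGroup L] (φ ψ : L →+ ℤ) (p q : L) :
    wedge φ ψ p q = φ p * ψ q - ψ p * φ q := by simp [wedge]

/-- the skew form -/
def om : Form (NL N) where
  w := ∑ i ∈ Finset.range N, wedge (dd N i 0) (ac N (i + 1)) +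
    ∑ i ∈ Finset.range N, ∑ m ∈ Finset.range (N + 1),
      wedge (ac N i + dm N i m - dd N i m) (ff N i m)
  alt a := by
    simp only [AddMonoidHom.add_apply, AddMonoidHom.finsetSum_apply, wedge_apply, mul_comm,
      sub_self, Finset.sum_const_zero, add_zero]

/-- the initial seed -/
def s0 : Seed (NL N) (NI N) where
  e k := (0, Pi.single k 1)
  co k := (Pi.evalAddMonoidHom (fun _ : NI N => ℤ) k).comp (AddMonoidHom.snd _ _)
  dual i j := by simp [Pi.single_apply]

/-- the loop through `E i` and `F i m` -/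
def yv (i m : ℕ) : NL N := (0, fun k => if k.1.val = i ∧ 1 ≤ k.2.val ∧ k.2.val ≤ m + 1 then 1 else 0)

theorem H_apply (i m : ℕ) (p : NL N) :
    H N i m p = if h : i < N ∧ m < N + 2 then p.2 (⟨i, h.1⟩, ⟨m, h.2⟩) else 0 := by
  unfold H
  split_ifs <;> rfl
theorem H_coord (k : NI N) (p : NL N) : H N k.1.val k.2.val p = p.2 k := by
  rw [H_apply, dif_pos ⟨k.1.2, k.2.2⟩]
theorem H_of_le {i : ℕ} (hi : N ≤ i) (m : ℕ) (p : NL N) : H N i m p = 0 := by
  rw [H_apply, dif_neg fun h => by omega]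
theorem dd_apply (i m : ℕ) (p : NL N) :
    dd N i m p = if m ≤ N then H N i (m + 1) p - H N i 0 p else 0 := by
  unfold dd
  split_ifs <;> rfl
theorem dd_of_le {i : ℕ} (hi : N ≤ i) (m : ℕ) (p : NL N) : dd N i m p = 0 := by
  rw [dd_apply, H_of_le N hi, H_of_le N hi]
  simp
theorem dd_of_lt (i : ℕ) {m : ℕ} (hm : N < m) (p : NL N) : dd N i m p = 0 := by
  rw [dd_apply, if_neg (by omega)]
theorem dm_apply (c m : ℕ) (p : NL N) : dm N c m p = if c = 0 then 0 else dd N (c - 1) m p := by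
  unfold dm
  split_ifs <;> rfl
theorem dm_zero' (m : ℕ) (p : NL N) : dm N 0 m p = 0 := rfl
theorem dm_succ' (c m : ℕ) (p : NL N) : dm N (c + 1) m p = dd N c m p := rfl
theorem ff_apply (i m : ℕ) (p : NL N) : ff N i m p = dd N i m p - dd N i (m + 1) p := rfl
theorem ac_apply (c : ℕ) (p : NL N) :
    ac N c p = (if c = 0 then tot N p else H N (c - 1) 0 p) - H N c 0 p := by
  unfold ac
  split_ifs <;> rfl
theorem ac_zero' (p : NL N) : ac N 0 p = tot N p - H N 0 0 p := rfl
theorem ac_succ' (c : ℕ) (p : NL N) : ac N (c + 1) p = H N c 0 p - H N (c + 1) 0 p := rfl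
theorem dd_shift (p : NL N) (f : ℕ → ℤ) (i m : ℕ) :
    dd N i m (p.1, fun k => p.2 k + f k.1.val) = dd N i m p := by
  simp only [dd_apply, H_apply]
  split_ifs <;> first | rfl | omega

/-- the Dehn twist -/
def Dt : NL N ≃+ NL N where
  toFun p := (p.1, fun k => p.2 k + dd N k.1.val 0 p)
  invFun p := (p.1, fun k => p.2 k - dd N k.1.val 0 p)
  left_inv p := Prod.ext rfl (funext fun k => by
    simp only [dd_shift N p fun i => dd N i 0 p, add_sub_cancel_right])
  right_inv p := Prod.ext rfl (funext fun k => by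
    simp only [sub_eq_add_neg, dd_shift N p fun i => -dd N i 0 p, neg_add_cancel_right])
  map_add' p q := Prod.ext rfl (funext fun k => by
    simp only [map_add, Prod.snd_add, Pi.add_apply]
    ring)
theorem tot_Dt (p : NL N) : tot N (Dt N p) = tot N p := rfl
theorem Dt_coord (p : NL N) (k : NI N) : (Dt N p).2 k = p.2 k + dd N k.1.val 0 p := rfl
theorem dd_Dt (i m : ℕ) (p : NL N) : dd N i m (Dt N p) = dd N i m p :=
  dd_shift N p (fun i => dd N i 0 p) i m
theorem H_Dt (i : ℕ) {m : ℕ} (hm : m < N + 2) (p : NL N) :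
    H N i m (Dt N p) = H N i m p + dd N i 0 p := by
  by_cases hi : i < N
  · rw [H_apply, H_apply, dif_pos ⟨hi, hm⟩, dif_pos ⟨hi, hm⟩, Dt_coord]
  · rw [H_of_le N (by omega), H_of_le N (by omega), dd_of_le N (by omega), add_zero]
theorem dm_Dt (c m : ℕ) (p : NL N) : dm N c m (Dt N p) = dm N c m p := by
  rw [dm_apply, dm_apply, dd_Dt]
theorem ff_Dt (i m : ℕ) (p : NL N) : ff N i m (Dt N p) = ff N i m p := by
  rw [ff_apply, ff_apply, dd_Dt, dd_Dt]
theorem ac_Dt (c : ℕ) (p : NL N) : ac N c (Dt N p) = ac N c p + dm N c 0 p - dd N c 0 p := by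
  cases c with
  | zero => rw [ac_zero', ac_zero', dm_zero', tot_Dt, H_Dt N _ (by omega)]; ring
  | succ c => rw [ac_succ', ac_succ', dm_succ', H_Dt N _ (by omega), H_Dt N _ (by omega)]; ring
theorem tot_yv (i m : ℕ) : tot N (yv N i m) = 0 := rfl
theorem H_zero_yv (i m j : ℕ) : H N j 0 (yv N i m) = 0 := by
  rw [H_apply]
  split_ifs
  · simp [yv]
  · rfl
theorem dd_yv {i m : ℕ} (hi : i < N) (hm : m ≤ N) (i' m' : ℕ) :
    dd N i' m' (yv N i m) = if i' = i ∧ m' ≤ m then 1 else 0 := by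
  rw [dd_apply, H_zero_yv, H_apply]
  simp only [yv]
  split_ifs <;> omega
theorem dm_yv {i m : ℕ} (hi : i < N) (hm : m ≤ N) (i' m' : ℕ) :
    dm N i' m' (yv N i m) = if i' = i + 1 ∧ m' ≤ m then 1 else 0 := by
  rw [dm_apply, dd_yv N hi hm]
  split_ifs <;> omega
theorem ff_yv {i m : ℕ} (hi : i < N) (hm : m ≤ N) (i' m' : ℕ) :
    ff N i' m' (yv N i m) = if i' = i ∧ m' = m then 1 else 0 := by
  rw [ff_apply, dd_yv N hi hm, dd_yv N hi hm]
  split_ifs <;> omega
theorem ac_yv (i m c : ℕ) : ac N c (yv N i m) = 0 := by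
  rw [ac_apply, H_zero_yv, H_zero_yv, tot_yv]
  simp

/-- face coordinates for the path `κ` -/
def cok (κ : ℕ → ℕ) (k : NI N) : NL N →+ ℤ :=
  if k.2.val ≤ ps N k.1.val (κ k.1.val) then H N k.1.val 0 - dd N k.1.val 0 + dd N k.1.val k.2.val
  else H N k.1.val 0 + dd N k.1.val (k.2.val - 1)
/-- the seed `s` is the seed of the path `κ` -/
def Models (κ : ℕ → ℕ) (s : Seed (NL N) (NI N)) : Prop :=
  (∀ k, tot N (s.e k) = 0) ∧ (∀ k p, tot N p = 0 → s.co k p = cok N κ k p) ∧
    ∀ p, tot N p = 0 → p = ∑ k, s.co k p • s.e k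
/-- admissible paths -/
def Path (κ : ℕ → ℕ) : Prop :=
  (∀ i, i + 1 < N → κ i ≤ κ (i + 1)) ∧ ∀ i, i < N → κ i ≤ N * (N + 1)
/-- the mutated classes -/
def IsY (y : NL N) : Prop := ∃ i m, i < N ∧ m ≤ N ∧ y = yv N i m

section form
theorem om_apply (p q : NL N) : (om N).w p q =
    ∑ i ∈ Finset.range N, (dd N i 0 p * ac N (i + 1) q - ac N (i + 1) p * dd N i 0 q) +
    ∑ i ∈ Finset.range N, ∑ m ∈ Finset.range (N + 1),
      ((ac N i p + dm N i m p - dd N i m p) * ff N i m q -
        ff N i m p * (ac N i q + dm N i m q - dd N i m q)) := by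
  simp only [om, AddMonoidHom.add_apply, AddMonoidHom.finsetSum_apply, wedge_apply,
    AddMonoidHom.sub_apply]
theorem sum_ff (i m : ℕ) (p : NL N) :
    ∑ m' ∈ Finset.range m, ff N i m' p = dd N i 0 p - dd N i m p :=
  Finset.sum_range_sub' (fun m' => dd N i m' p) m
theorem sum_ff_le (i : ℕ) {m : ℕ} (hm : m ≤ N) (p : NL N) :
    ∑ m' ∈ Finset.range (N + 1), (if m' ≤ m then ff N i m' p else 0) =
      dd N i 0 p - dd N i (m + 1) p := by
  rw [← Finset.sum_filter, ← sum_ff]
  refine Finset.sum_congr ?_ fun _ _ => rfl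
  ext j
  simp only [Finset.mem_filter, Finset.mem_range]
  omega
theorem om_yv {i m : ℕ} (hi : i < N) (hm : m ≤ N) (p : NL N) :
    (om N).w (yv N i m) p = ac N (i + 1) p - ac N i p - dd N i 0 p + dd N i (m + 1) p +
      dd N (i + 1) 0 p - dd N (i + 1) (m + 1) p + dd N i m p - dm N i m p := by
  have h1 : ∀ i', dd N i' 0 (yv N i m) * ac N (i' + 1) p - ac N (i' + 1) (yv N i m) * dd N i' 0 p =
      if i' = i then ac N (i' + 1) p else 0 := fun i' => by
    rw [dd_yv N hi hm, ac_yv]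
    by_cases h : i' = i <;> simp [h]
  have h2 : ∀ i', ∑ m' ∈ Finset.range (N + 1),
      ((ac N i' (yv N i m) + dm N i' m' (yv N i m) - dd N i' m' (yv N i m)) * ff N i' m' p -
        ff N i' m' (yv N i m) * (ac N i' p + dm N i' m' p - dd N i' m' p)) =
      (if i' = i + 1 then dd N i' 0 p - dd N i' (m + 1) p else 0) -
      if i' = i then dd N i' 0 p - dd N i' (m + 1) p + (ac N i' p + dm N i' m p - dd N i' m p)
      else 0 := fun i' => by
    simp only [dd_yv N hi hm, dm_yv N hi hm, ff_yv N hi hm, ac_yv]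
    by_cases h : i' = i
    · have h3 := Finset.sum_ite_eq' (Finset.range (N + 1)) m
        fun m' => ac N i' p + dm N i' m' p - dd N i' m' p
      rw [if_pos (Finset.mem_range.2 (by omega))] at h3
      rw [if_neg (by omega), if_pos h, ← sum_ff_le N i' hm, ← h3, ← Finset.sum_add_distrib,
        zero_sub, ← Finset.sum_neg_distrib]
      refine Finset.sum_congr rfl fun m' _ => ?_
      have h4 : ¬ (i' = i + 1 ∧ m' ≤ m) := by omega
      simp only [h4, if_false, eq_true h, true_and]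
      split_ifs <;> ring
    · rw [if_neg h, sub_zero]
      by_cases h' : i' = i + 1
      · rw [if_pos h', ← sum_ff_le N i' hm]
        refine Finset.sum_congr rfl fun m' _ => ?_
        simp only [eq_false h, eq_true h', true_and, false_and, if_false]
        split_ifs <;> ring
      · rw [if_neg h']
        refine Finset.sum_eq_zero fun m' _ => ?_
        simp only [eq_false h, eq_false h', false_and, if_false]
        ring
  rw [om_apply]
  simp only [h1, h2, Finset.sum_sub_distrib, Finset.sum_ite_eq', Finset.mem_range, if_pos hi]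
  split_ifs with h
  · ring
  · rw [dd_of_le N (i := i + 1) (by omega), dd_of_le N (i := i + 1) (by omega)]
    ring
theorem om_Dt (p q : NL N) : (om N).w (Dt N p) (Dt N q) = (om N).w p q := by
  have h1 := Finset.sum_range_sub'
    (fun i => dm N i 0 p * dd N i 0 q - dd N i 0 p * dm N i 0 q) N
  simp only [dm_zero', dm_succ', dd_of_le N le_rfl, zero_mul, mul_zero, sub_self] at h1
  rw [om_apply, om_apply, ← sub_eq_zero, ← h1, ← Finset.sum_add_distrib, ← Finset.sum_add_distrib,
    ← Finset.sum_sub_distrib]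
  refine Finset.sum_congr rfl fun i _ => ?_
  have h2 := sum_ff N i (N + 1) p
  have h3 := sum_ff N i (N + 1) q
  rw [dd_of_lt N i (Nat.lt_succ_self N), sub_zero] at h2 h3
  have h4 : ∑ m ∈ Finset.range (N + 1),
      ((ac N i (Dt N p) + dm N i m (Dt N p) - dd N i m (Dt N p)) * ff N i m (Dt N q) -
        ff N i m (Dt N p) * (ac N i (Dt N q) + dm N i m (Dt N q) - dd N i m (Dt N q))) =
      ∑ m ∈ Finset.range (N + 1), ((ac N i p + dm N i m p - dd N i m p) * ff N i m q -
        ff N i m p * (ac N i q + dm N i m q - dd N i m q)) +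
      ((dm N i 0 p - dd N i 0 p) * ∑ m ∈ Finset.range (N + 1), ff N i m q -
        (∑ m ∈ Finset.range (N + 1), ff N i m p) * (dm N i 0 q - dd N i 0 q)) := by
    rw [Finset.mul_sum, Finset.sum_mul, ← Finset.sum_sub_distrib, ← Finset.sum_add_distrib]
    refine Finset.sum_congr rfl fun m _ => ?_
    simp only [ac_Dt, dm_Dt, dd_Dt, ff_Dt]
    ring
  rw [h4, h2, h3]
  simp only [ac_Dt, dd_Dt, dm_succ']
  ring
theorem om_flat {m z : NL N} (hm : ∀ i, dd N i 0 m = 0) (hz : ∀ i m', dd N i m' z = 0) :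
    (om N).w m z = 0 := by
  have h1 : ∀ i m', dm N i m' z = 0 := fun i m' => by rw [dm_apply, hz, ite_self]
  have h2 : ∀ i m', ff N i m' z = 0 := fun i m' => by rw [ff_apply, hz, hz, sub_self]
  rw [om_apply]
  simp only [hm, hz, h1, h2, zero_mul, mul_zero, sub_self, Finset.sum_const_zero,
    add_zero, sub_zero, zero_sub, Finset.sum_neg_distrib, ← Finset.sum_mul, sum_ff,
    dd_of_lt N _ (Nat.lt_succ_self N), neg_zero]
theorem ext_of {p q : NL N} (ht : tot N p = tot N q) (ha : ∀ c, ac N c p = ac N c q)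
    (hd : ∀ i m, dd N i m p = dd N i m q) : p = q := by
  have h0 : ∀ c, H N c 0 p = H N c 0 q := fun c => by
    induction c with
    | zero => have := ha 0; rw [ac_zero', ac_zero'] at this; omega
    | succ c ih => have := ha (c + 1); rw [ac_succ', ac_succ'] at this; omega
  refine Prod.ext ht (funext fun k => ?_)
  rw [← H_coord, ← H_coord]
  have hk := k.2.2
  generalize k.2.val = m at hk
  cases m with
  | zero => exact h0 _
  | succ m =>
    have h1 := hd k.1.val m
    rw [dd_apply, dd_apply, if_pos (by omega), if_pos (by omega), h0] at h1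
    omega
theorem dd_anti {p : NL N} (h : ∀ i m, ff N i m p = 0 ∨ ff N i m p = 1) (i : ℕ) {m m' : ℕ}
    (hm : m ≤ m') : dd N i m' p ≤ dd N i m p :=
  antitone_nat_of_succ_le (f := fun m => dd N i m p)
    (fun m => by have := h i m; rw [ff_apply] at this; omega) hm
theorem dd_nonneg {p : NL N} (h : ∀ i m, ff N i m p = 0 ∨ ff N i m p = 1) (i m : ℕ) :
    0 ≤ dd N i m p := by
  have := dd_anti N h i (Nat.le_add_right m (N + 1))
  rwa [dd_of_lt N i (by omega)] at this
theorem dm_anti {p : NL N} (h : ∀ i m, ff N i m p = 0 ∨ ff N i m p = 1) (c : ℕ) {m m' : ℕ}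
    (hm : m ≤ m') : dm N c m' p ≤ dm N c m p := by
  cases c with
  | zero => exact le_rfl
  | succ c => exact dd_anti N h c hm
theorem dm_nonneg {p : NL N} (h : ∀ i m, ff N i m p = 0 ∨ ff N i m p = 1) (c m : ℕ) :
    0 ≤ dm N c m p := by
  cases c with
  | zero => exact le_rfl
  | succ c => exact dd_nonneg N h c m
theorem ps_zero' (i : ℕ) : ps N i 0 = 0 := by simp [ps]
theorem ps_mul {i m : ℕ} (hi : i < N) (hm : m ≤ N + 1) : ps N i (m * N) = m := by
  unfold ps
  rw [← Finset.card_range m, Finset.card_range m]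
  refine Eq.trans (congrArg Finset.card ?_) (Finset.card_range m)
  ext j
  simp only [Finset.mem_filter, Finset.mem_range]
  constructor
  · rintro ⟨-, h⟩
    exact Nat.lt_of_mul_lt_mul_right (a := N) (by omega)
  · intro h
    have := Nat.mul_le_mul_right N (Nat.succ_le_of_lt h)
    rw [Nat.succ_mul] at this
    omega
theorem ps_pred_le (c x : ℕ) : ps N (c - 1) x ≤ ps N c x :=
  Finset.card_le_card fun j hj => by
    simp only [Finset.mem_filter, Finset.mem_range] at hj ⊢
    omega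
theorem hg_apply (i e x : ℕ) (p : NL N) : hg N i e x p =
    H N i 0 p + (if i < e then dd N i 0 p else 0) - (dd N i 0 p - dd N i (ps N i x) p) := by
  unfold hg
  split_ifs <;> rfl
theorem run_apply (c e x : ℕ) (p : NL N) :
    run N c e x p = (if c = 0 then tot N p else hg N (c - 1) e x p) - hg N c e x p := by
  unfold run
  split_ifs <;> rfl
theorem run_x_zero (c e : ℕ) (p : NL N) : run N c e 0 p =
    ac N c p + (if c ≤ e then dm N c 0 p else 0) - if c < e then dd N c 0 p else 0 := by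
  rw [run_apply, ac_apply, dm_apply, hg_apply, hg_apply, ps_zero', ps_zero']
  split_ifs <;> omega
theorem run_e_last (c x : ℕ) (p : NL N) : run N c N x p =
    ac N c p + dm N c (ps N (c - 1) x) p - dd N c (ps N c x) p := by
  have h : ∀ i, hg N i N x p = H N i 0 p + dd N i (ps N i x) p := fun i => by
    rw [hg_apply]
    split_ifs with hi
    · ring
    · rw [dd_of_le N (i := i) (by omega) 0]; ring
  rw [run_apply, ac_apply, dm_apply, h, h]
  split_ifs <;> ring
/-- closed form of the initial good set -/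
theorem good_zero_iff (p : NL N) : p ∈ Good N (fun _ => 0) ↔
    (∀ c, ac N c p = 0 ∨ ac N c p = 1) ∧ (∀ i, dd N i 0 p = 0 ∨ dd N i 0 p = 1) ∧
    (∀ i m, ff N i m p = 0 ∨ ff N i m p = 1) ∧ (∀ c, ac N c p + dm N c 0 p ≤ 1) ∧
    ∀ c m, dd N c m p ≤ ac N c p + dm N c m p := by
  constructor
  · rintro ⟨h1, h2, h3⟩
    have ha : ∀ c, ac N c p = 0 ∨ ac N c p = 1 := fun c => by
      have := h3 0 0 ⟨Nat.zero_le _, by simp, Nat.zero_le _⟩ c
      rw [run_x_zero] at this
      cases c with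
      | zero => simpa [dm_zero'] using this
      | succ c => simpa using this
    refine ⟨ha, h1, h2, fun c => ?_, fun c m => ?_⟩
    · by_cases hc : c ≤ N
      · have := h3 c 0 ⟨hc, by simp, Nat.zero_le _⟩ c
        rw [run_x_zero, if_pos le_rfl, if_neg (lt_irrefl c)] at this
        omega
      · have := ha c
        rw [dm_apply, dd_of_le N (by omega), ite_self]
        omega
    · have h4 := ha c
      have h5 := dm_nonneg N h2 c m
      by_cases hc : c < N
      · by_cases hm : m ≤ N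
        · have := h3 N (m * N) ⟨le_rfl, by simp, by
            rw [if_pos rfl, mul_comm]; exact Nat.mul_le_mul_left N (by omega)⟩ c
          rw [run_e_last, ps_mul N hc (by omega), ps_mul N (by omega) (by omega)] at this
          omega
        · rw [dd_of_lt N c (by omega)]
          omega
      · rw [dd_of_le N (by omega)]
        omega
  · rintro ⟨ha, h1, h2, h3, h4⟩
    refine ⟨h1, h2, fun e x hv c => ?_⟩
    have h5 := ha c
    have h6 := h3 c
    by_cases he : e = N
    · have h7 := dm_anti N h2 c (Nat.zero_le (ps N (c - 1) x))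
      have h8 := dm_anti N h2 c (ps_pred_le N c x)
      have h9 := h4 c (ps N c x)
      have h10 := dd_nonneg N h2 c (ps N c x)
      rw [he, run_e_last]
      omega
    · have hx : x = 0 := by
        have := hv.2.2
        rw [if_neg he] at this
        exact Nat.le_zero.1 this
      have h7 := h4 c 0
      have h8 := dd_nonneg N h2 c 0
      have h9 := dm_nonneg N h2 c 0
      rw [hx, run_x_zero]
      split_ifs <;> omega
end form

section chain
theorem ch_H_ge {i : ℕ} (hi : N ≤ i) (m : ℕ) : H N i m = 0 := by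
  rw [H, dif_neg (by omega)]
theorem ch_dd_ge {i : ℕ} (hi : N ≤ i) (m : ℕ) : dd N i m = 0 := by
  simp [dd, ch_H_ge N hi]
theorem ch_dd_top (i : ℕ) {m : ℕ} (hm : N < m) : dd N i m = 0 := by
  rw [dd, if_neg (by omega)]
theorem ch_dd_le (i : ℕ) {m : ℕ} (hm : m ≤ N) (p : NL N) :
    dd N i m p = H N i (m + 1) p - H N i 0 p := by
  rw [dd, if_pos hm]; rfl
theorem ch_H_lt {i m : ℕ} (hi : i < N) (hm : m < N + 2) (p : NL N) :
    H N i m p = p.2 (⟨i, hi⟩, ⟨m, hm⟩) := by
  rw [H, dif_pos ⟨hi, hm⟩]; rfl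
theorem ch_ps_mono (i : ℕ) {x x' : ℕ} (h : x ≤ x') : ps N i x ≤ ps N i x' :=
  Finset.card_le_card fun m hm => by
    simp only [Finset.mem_filter] at hm ⊢
    exact ⟨hm.1, lt_of_lt_of_le hm.2 h⟩
theorem ch_ps {l m r : ℕ} (hl : l < N) (hm : m ≤ N) (hr : r ≤ N) :
    ps N l (m * N + r) = m + if N ≤ r + l then 1 else 0 := by
  rw [ps, ← Finset.card_range (m + if N ≤ r + l then 1 else 0)]
  congr 1
  ext a
  simp only [Finset.mem_filter, Finset.mem_range]
  rcases lt_trichotomy a m with h | h | h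
  · have : (a + 1) * N ≤ m * N := Nat.mul_le_mul_right N h
    rw [add_mul, one_mul] at this
    split_ifs <;> omega
  · subst h
    split_ifs <;> omega
  · have : (m + 1) * N ≤ a * N := Nat.mul_le_mul_right N h
    rw [add_mul, one_mul] at this
    split_ifs <;> omega
theorem ch_ps_zero (l : ℕ) : ps N l 0 = 0 := by simp [ps]
theorem ch_ps_top {l : ℕ} (hl : l < N) : ps N l (N * (N + 1)) = N + 1 := by
  rw [mul_add, mul_one, ch_ps N hl le_rfl le_rfl, if_pos (by omega)]
theorem ch_hg (l e x : ℕ) (p : NL N) : hg N l e x p =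
    H N l 0 p + (if l < e then dd N l 0 p else 0) - (dd N l 0 p - dd N l (ps N l x) p) := by
  by_cases h : l < e <;> simp [hg, h]
theorem ch_run (c e x : ℕ) (p : NL N) : run N c e x p =
    (if c = 0 then tot N p else hg N (c - 1) e x p) - hg N c e x p := by
  by_cases h : c = 0 <;> simp [run, h]
theorem ch_ff (l n : ℕ) (p : NL N) : ff N l n p = dd N l n p - dd N l (n + 1) p := rfl
theorem ch_hg_E (l i x : ℕ) (p : NL N) :
    hg N l (i + 1) x p = hg N l i x p + if l = i then dd N i 0 p else 0 := by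
  rw [ch_hg, ch_hg]
  rcases lt_trichotomy l i with h | h | h
  · rw [if_pos h, if_pos (by omega), if_neg (by omega)]; ring
  · subst h; simp; ring
  · rw [if_neg (by omega), if_neg (by omega), if_neg (by omega)]; ring
theorem ch_hg_F {j m r : ℕ} (hm : m ≤ N) (hr : r + j + 1 = N) (l e : ℕ) (p : NL N) :
    hg N l e (m * N + r + 1) p = hg N l e (m * N + r) p - if l = j then ff N j m p else 0 := by
  rw [ch_hg, ch_hg]
  by_cases hl : l < N
  · rw [add_assoc (m * N), ch_ps N hl hm (by omega), ch_ps N hl hm (by omega)]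
    rcases lt_trichotomy l j with h | h | h
    · rw [if_neg (show ¬ N ≤ r + 1 + l by omega), if_neg (show ¬ N ≤ r + l by omega),
        if_neg (show l ≠ j by omega)]; ring
    · subst h
      rw [if_pos (show N ≤ r + 1 + l by omega), if_neg (show ¬ N ≤ r + l by omega), if_pos rfl,
        ch_ff, add_zero]; ring
    · rw [if_pos (show N ≤ r + 1 + l by omega), if_pos (show N ≤ r + l by omega),
        if_neg (show l ≠ j by omega)]; ring
  · rw [if_neg (show l ≠ j by omega)]
    simp [ch_dd_ge N (not_lt.1 hl)]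
theorem ch_run_E (c i x : ℕ) (p : NL N) : run N c (i + 1) x p = run N c i x p +
    (if c = i + 1 then dd N i 0 p else 0) - (if c = i then dd N i 0 p else 0) := by
  rw [ch_run, ch_run, ch_hg_E, ch_hg_E]
  split_ifs <;> omega
theorem ch_run_F {j m r : ℕ} (hm : m ≤ N) (hr : r + j + 1 = N) (c e : ℕ) (p : NL N) :
    run N c e (m * N + r + 1) p = run N c e (m * N + r) p -
      (if c = j + 1 then ff N j m p else 0) + (if c = j then ff N j m p else 0) := by
  rw [ch_run, ch_run, ch_hg_F N hm hr, ch_hg_F N hm hr]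
  split_ifs <;> omega
theorem ch_cok (κ : ℕ → ℕ) (k : NI N) (p : NL N) : cok N κ k p =
    if k.2.val ≤ ps N k.1.val (κ k.1.val) then
      H N k.1.val 0 p - dd N k.1.val 0 p + dd N k.1.val k.2.val p
    else H N k.1.val 0 p + dd N k.1.val (k.2.val - 1) p := by
  rw [cok]; split_ifs <;> rfl

theorem models_zero : Models N (fun _ => 0) (s0 N) := by
  refine ⟨fun k => rfl, fun k p _ => ?_, fun p hp => ?_⟩
  · obtain ⟨⟨i, hi⟩, ⟨m, hm⟩⟩ := k
    rw [ch_cok, ch_ps_zero]
    show p.2 _ = _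
    rw [← ch_H_lt N hi hm]
    rcases m with _ | m
    · simp
    · simp [ch_dd_le N i (show m ≤ N by omega)]
  · refine Prod.ext ?_ ?_
    · rw [Prod.fst_sum]
      simp only [s0, Prod.smul_fst, smul_zero, Finset.sum_const_zero]
      exact hp
    · rw [Prod.snd_sum]
      ext k
      simp [s0, Finset.sum_apply, Pi.single_apply]

theorem ch_path_mono {κ : ℕ → ℕ} (hκ : Path N κ) {a b : ℕ} (hab : a ≤ b) (hb : b < N) :
    κ a ≤ κ b := by
  induction b, hab using Nat.le_induction with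
  | base => exact le_rfl
  | succ b _ ih => exact (ih (by omega)).trans (hκ.1 b hb)

section vert
variable {N} {κ : ℕ → ℕ} (hκ : Path N κ) {i : ℕ} (hi : i < N)
  (hlt : κ i < if i + 1 = N then N * (N + 1) else κ (i + 1))
include hκ hi hlt

omit hκ in
theorem ch_vert_old (e x : ℕ) : Vert N κ e x ↔
    (Vert N κ e x ∧ Vert N (Function.update κ i (κ i + 1)) e x) ∨ (e = i + 1 ∧ x = κ i) := by
  simp only [Vert, Function.update_apply]
  by_cases h1 : e = i + 1
  · subst h1
    simp only [Nat.add_sub_cancel, true_and, if_true]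
    split_ifs at hlt ⊢ <;> omega
  · by_cases h2 : e = i
    · subst h2
      split_ifs <;> omega
    · split_ifs <;> omega

theorem ch_vert_new (e x : ℕ) : Vert N (Function.update κ i (κ i + 1)) e x ↔
    (Vert N κ e x ∧ Vert N (Function.update κ i (κ i + 1)) e x) ∨ (e = i ∧ x = κ i + 1) := by
  have h0 := ch_path_mono N hκ (Nat.sub_le i 1) hi
  simp only [Vert, Function.update_apply]
  by_cases h1 : e = i + 1
  · subst h1
    simp only [Nat.add_sub_cancel]
    split_ifs at hlt ⊢ <;> omega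
  · by_cases h2 : e = i
    · subst h2
      split_ifs <;> omega
    · split_ifs <;> omega

omit hlt in
theorem ch_vert_a : Vert N κ i (κ i) ∧ Vert N (Function.update κ i (κ i + 1)) i (κ i) := by
  have h0 := ch_path_mono N hκ (Nat.sub_le i 1) hi
  simp only [Vert, Function.update_apply]
  split_ifs <;> omega

omit hκ in
theorem ch_vert_b : Vert N κ (i + 1) (κ i + 1) ∧
    Vert N (Function.update κ i (κ i + 1)) (i + 1) (κ i + 1) := by
  simp only [Vert, Function.update_apply, Nat.add_sub_cancel]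
  split_ifs at hlt ⊢ <;> omega

theorem ch_vert_side {e x : ℕ} (h : Vert N κ e x ∧ Vert N (Function.update κ i (κ i + 1)) e x) :
    (e ≤ i ∧ x ≤ κ i) ∨ (i < e ∧ κ i + 1 ≤ x) := by
  simp only [Vert, Function.update_apply] at h
  by_cases h1 : e ≤ i
  · have := ch_path_mono N hκ h1 hi
    split_ifs at h <;> omega
  · by_cases h2 : e = i + 1
    · subst h2
      simp only [Nat.add_sub_cancel, if_true] at h
      have h' := h.2.2.1
      rw [if_neg (by omega)] at h'
      omega
    · have := ch_path_mono N hκ (show i + 1 ≤ e - 1 by omega) (by omega)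
      split_ifs at h hlt <;> omega

theorem ch_lt_top : κ i < N * (N + 1) := by
  split_ifs at hlt
  · exact hlt
  · exact lt_of_lt_of_le hlt (hκ.2 _ (by omega))

theorem ch_path_update : Path N (Function.update κ i (κ i + 1)) := by
  refine ⟨fun l hl => ?_, fun l hl => ?_⟩
  · have := hκ.1 l hl
    simp only [Function.update_apply]
    by_cases h1 : l = i
    · subst h1
      split_ifs at hlt ⊢ <;> omega
    · by_cases h2 : l + 1 = i
      · subst h2
        split_ifs <;> omega
      · split_ifs <;> omega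
  · have := hκ.2 l hl
    simp only [Function.update_apply]
    have := ch_lt_top hκ hi hlt
    split_ifs <;> omega

end vert

theorem ch_mutate_span {L : Type} [AddCommGroup L] {I : Type} [Fintype I] [DecidableEq I]
    (ω : Form L) (s : Seed L I) (k : I) {p : L} (hp : p = ∑ j, s.co j p • s.e j) :
    p = ∑ j, (s.mutate ω k).co j p • (s.mutate ω k).e j := by
  have h1 : ∀ j, (s.mutate ω k).co j p • (s.mutate ω k).e j = s.co j p • s.e j +
      (max (ω.w (s.e k) (s.e j)) 0 * s.co j p) • s.e k -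
      if j = k then (∑ l, max (ω.w (s.e k) (s.e l)) 0 * s.co l p) • s.e k else 0 := by
    intro j
    by_cases h : j = k
    · subst h
      simp [Seed.mutate, ω.alt, add_smul]
      abel
    · simp [Seed.mutate, h, smul_smul, mul_comm]
  simp only [h1, Finset.sum_sub_distrib, Finset.sum_add_distrib, Finset.sum_ite_eq',
    Finset.mem_univ, if_true, ← Finset.sum_smul, ← hp, add_sub_cancel_right]

theorem ch_H_yv {i m : ℕ} (hi : i < N) (hm : m ≤ N) (l n : ℕ) :
    H N l n (yv N i m) = if l = i ∧ 1 ≤ n ∧ n ≤ m + 1 then 1 else 0 := by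
  by_cases h : l < N ∧ n < N + 2
  · rw [ch_H_lt N h.1 h.2]; rfl
  · rw [H, dif_neg h, if_neg (by omega)]; rfl
theorem ch_dd_yv {i m : ℕ} (hi : i < N) (hm : m ≤ N) (l n : ℕ) :
    dd N l n (yv N i m) = if l = i ∧ n ≤ m then 1 else 0 := by
  by_cases h : n ≤ N
  · rw [ch_dd_le N l h, ch_H_yv N hi hm, ch_H_yv N hi hm]
    split_ifs <;> omega
  · rw [ch_dd_top N l (not_le.1 h), if_neg (by omega)]; rfl

/-- the conditions not affected by the move of `E i` past `F i m` -/
def ChBase (κ κ' : ℕ → ℕ) (i m : ℕ) (p : NL N) : Prop :=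
  (∀ l, l ≠ i → dd N l 0 p = 0 ∨ dd N l 0 p = 1) ∧
  (∀ l n, ¬ (l = i ∧ n = m) → ff N l n p = 0 ∨ ff N l n p = 1) ∧
  ∀ e x, Vert N κ e x ∧ Vert N κ' e x → ∀ c, run N c e x p = 0 ∨ run N c e x p = 1

theorem ch_good_iff {κ₀ κ κ' : ℕ → ℕ} (i m : ℕ) {e₀ x₀ : ℕ}
    (hv : ∀ e x, Vert N κ₀ e x ↔ (Vert N κ e x ∧ Vert N κ' e x) ∨ (e = e₀ ∧ x = x₀)) (p : NL N) :
    p ∈ Good N κ₀ ↔ ChBase N κ κ' i m p ∧ (dd N i 0 p = 0 ∨ dd N i 0 p = 1) ∧
      (ff N i m p = 0 ∨ ff N i m p = 1) ∧ ∀ c, run N c e₀ x₀ p = 0 ∨ run N c e₀ x₀ p = 1 := by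
  constructor
  · rintro ⟨h1, h2, h3⟩
    exact ⟨⟨fun l _ => h1 l, fun l n _ => h2 l n, fun e x h => h3 e x ((hv e x).2 (Or.inl h))⟩,
      h1 i, h2 i m, h3 _ _ ((hv _ _).2 (Or.inr ⟨rfl, rfl⟩))⟩
  · rintro ⟨⟨h1, h2, h3⟩, h4, h5, h6⟩
    refine ⟨fun l => ?_, fun l n => ?_, fun e x h => ?_⟩
    · by_cases h : l = i
      · rw [h]; exact h4
      · exact h1 l h
    · by_cases h : l = i ∧ n = m
      · rw [h.1, h.2]; exact h5
      · exact h2 l n h
    · rcases (hv e x).1 h with h | ⟨rfl, rfl⟩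
      · exact h3 e x h
      · exact h6

theorem ch_corner {a : ℕ → ℤ} {i : ℕ} {d : ℤ} (ha : ∀ c, a c = 0 ∨ a c = 1) :
    (∀ c, a c + (if c = i + 1 then d else 0) - (if c = i then d else 0) = 0 ∨
      a c + (if c = i + 1 then d else 0) - (if c = i then d else 0) = 1) ↔
    (a i - d = 0 ∨ a i - d = 1) ∧ (a (i + 1) + d = 0 ∨ a (i + 1) + d = 1) := by
  constructor
  · intro h
    have h1 := h i
    have h2 := h (i + 1)
    simp at h1 h2
    exact ⟨h1, h2⟩
  · intro h c
    have := ha c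
    split_ifs with h1 h2 h2
    · omega
    · subst h1; omega
    · subst h2; omega
    · omega

section move
variable {N} {κ : ℕ → ℕ} (hκ : Path N κ) {i : ℕ} (hi : i < N)
  (hlt : κ i < if i + 1 = N then N * (N + 1) else κ (i + 1)) {m r : ℕ} (hm : m ≤ N)
  (hx : κ i = m * N + r)
include hκ hi hlt hm hx

theorem ch_good_eq {j : ℕ} (hr : r + j + 1 = N) (hj : j ≠ i) :
    Good N (Function.update κ i (κ i + 1)) = Good N κ := by
  ext p
  have key : (∀ l, dd N l 0 p = 0 ∨ dd N l 0 p = 1) → (∀ l n, ff N l n p = 0 ∨ ff N l n p = 1) →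
      (∀ e x, Vert N κ e x ∧ Vert N (Function.update κ i (κ i + 1)) e x →
        ∀ c, run N c e x p = 0 ∨ run N c e x p = 1) →
      (∀ c, run N c (i + 1) (κ i) p = 0 ∨ run N c (i + 1) (κ i) p = 1) ∧
      ∀ c, run N c i (κ i + 1) p = 0 ∨ run N c i (κ i + 1) p = 1 := by
    intro h1 h2 h3
    have a1 := h3 _ _ (ch_vert_a hκ hi)
    have a2 := h3 _ _ (ch_vert_b hi hlt)
    have a3 := h1 i
    have a4 := h2 j m
    rw [hx] at a1 a2 ⊢
    refine ⟨fun c => ?_, fun c => ?_⟩
    · have b1 := a1 c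
      have b2 := a2 c
      rw [ch_run_F N hm hr, ch_run_E] at b2
      rw [ch_run_E]
      split_ifs at b2 ⊢ <;> omega
    · have b1 := a1 c
      have b2 := a2 c
      rw [ch_run_F N hm hr, ch_run_E] at b2
      rw [ch_run_F N hm hr]
      split_ifs at b2 ⊢ <;> omega
  constructor
  · rintro ⟨h1, h2, h3⟩
    refine ⟨h1, h2, fun e x h => ?_⟩
    rcases (ch_vert_old hi hlt e x).1 h with h | ⟨rfl, rfl⟩
    · exact h3 e x h.2
    · exact (key h1 h2 fun e x h => h3 e x h.2).1
  · rintro ⟨h1, h2, h3⟩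
    refine ⟨h1, h2, fun e x h => ?_⟩
    rcases (ch_vert_new hκ hi hlt e x).1 h with h | ⟨rfl, rfl⟩
    · exact h3 e x h.1
    · exact (key h1 h2 fun e x h => h3 e x h.1).2

theorem ch_run_yv (hr : r + i + 1 = N) {e x : ℕ}
    (h : Vert N κ e x ∧ Vert N (Function.update κ i (κ i + 1)) e x) (c : ℕ) :
    run N c e x (yv N i m) = 0 := by
  have p1 : ps N i (κ i) = m := by rw [hx, ch_ps N hi hm (by omega), if_neg (by omega), add_zero]
  have p2 : ps N i (κ i + 1) = m + 1 := by
    rw [hx, add_assoc, ch_ps N hi hm (by omega), if_pos (by omega)]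
  have key : ∀ l, hg N l e x (yv N i m) = 0 := by
    intro l
    rw [ch_hg, ch_H_yv N hi hm, ch_dd_yv N hi hm, ch_dd_yv N hi hm]
    by_cases hl : l = i
    · subst hl
      rcases ch_vert_side hκ hi hlt h with ⟨h1, h2⟩ | ⟨h1, h2⟩
      · have := ch_ps_mono N l h2
        split_ifs <;> omega
      · have := ch_ps_mono N l h2
        split_ifs <;> omega
    · simp [hl]
  rw [ch_run, key, key]
  split_ifs <;> rfl

omit hκ hlt in
theorem ch_om_run (hr : r + i + 1 = N) (p : NL N) : (om N).w (yv N i m) p =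
    run N (i + 1) i (κ i) p - run N i i (κ i) p + dd N i 0 p - ff N i m p := by
  have p1 : ps N i (κ i) = m := by rw [hx, ch_ps N hi hm (by omega), if_neg (by omega), add_zero]
  have p2 : dd N (i + 1) (ps N (i + 1) (κ i)) p = dd N (i + 1) (m + 1) p := by
    by_cases h : i + 1 < N
    · rw [hx, ch_ps N h hm (by omega), if_pos (by omega)]
    · simp [ch_dd_ge N (not_lt.1 h)]
  have p3 : ps N (i - 1) (κ i) = m := by
    rw [hx, ch_ps N (by omega) hm (by omega), if_neg (by omega), add_zero]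
  rw [om_yv N hi hm, ch_run, ch_run, ch_ff]
  simp only [ch_hg, p1, p2, p3, Nat.add_sub_cancel, ac, dm]
  by_cases h0 : i = 0
  · subst h0; simp; ring
  · have : i - 1 < i := by omega
    simp [h0, this]; ring

theorem ch_lineRel (hr : r + i + 1 = N) :
    LineRel (om N) (yv N i m) (Good N κ) (Good N (Function.update κ i (κ i + 1))) := by
  have g1 := ch_good_iff N i m (ch_vert_old hi hlt)
  have g2 := ch_good_iff N i m (ch_vert_new hκ hi hlt)
  have hy := @ch_run_yv N κ hκ i hi hlt m r hm hx hr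
  have hb : ∀ p, ChBase N κ (Function.update κ i (κ i + 1)) i m (p - yv N i m) ↔
      ChBase N κ (Function.update κ i (κ i + 1)) i m p := by
    intro p
    refine and_congr (forall₂_congr fun l hl => ?_) (and_congr (forall₃_congr fun l n hl => ?_)
      (forall₄_congr fun e x h c => ?_))
    · rw [map_sub, ch_dd_yv N hi hm, if_neg (by tauto), sub_zero]
    · have : ff N l n (yv N i m) = 0 := by
        rw [ch_ff, ch_dd_yv N hi hm, ch_dd_yv N hi hm]
        split_ifs <;> omega
      rw [map_sub, this, sub_zero]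
    · rw [map_sub, hy h, sub_zero]
  have g : ∀ p, ChBase N κ (Function.update κ i (κ i + 1)) i m p →
      (p ∈ Good N κ ↔ (dd N i 0 p = 0 ∨ dd N i 0 p = 1) ∧ (ff N i m p = 0 ∨ ff N i m p = 1) ∧
        (run N i i (κ i) p - dd N i 0 p = 0 ∨ run N i i (κ i) p - dd N i 0 p = 1) ∧
        (run N (i + 1) i (κ i) p + dd N i 0 p = 0 ∨ run N (i + 1) i (κ i) p + dd N i 0 p = 1)) ∧
      (p ∈ Good N (Function.update κ i (κ i + 1)) ↔
        (dd N i 0 p = 0 ∨ dd N i 0 p = 1) ∧ (ff N i m p = 0 ∨ ff N i m p = 1) ∧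
        (run N i i (κ i) p - -ff N i m p = 0 ∨ run N i i (κ i) p - -ff N i m p = 1) ∧
        (run N (i + 1) i (κ i) p + -ff N i m p = 0 ∨
          run N (i + 1) i (κ i) p + -ff N i m p = 1)) := by
    intro p hp
    have a1 := hp.2.2 _ _ (ch_vert_a hκ hi)
    rw [g1, g2, ← ch_corner a1, ← ch_corner a1]
    simp only [hp, true_and, ch_run_E]
    refine and_congr_right fun _ => and_congr_right fun _ => forall_congr' fun c => ?_
    rw [hx, ch_run_F N hm hr]
    split_ifs <;> omega
  intro p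
  by_cases hp : ChBase N κ (Function.update κ i (κ i + 1)) i m p
  · have a1 := hp.2.2 _ _ (ch_vert_a hκ hi)
    have a2 := hp.2.2 _ _ (ch_vert_b hi hlt)
    have b1 := a1 i
    have b2 := a1 (i + 1)
    have b3 := a2 i
    have b4 := a2 (i + 1)
    rw [hx, ch_run_F N hm hr, ch_run_E, ← hx] at b3 b4
    simp only [Nat.left_eq_add, Nat.add_eq_left, one_ne_zero, if_true, if_false] at b3 b4
    have c1 : dd N i 0 (yv N i m) = 1 := by rw [ch_dd_yv N hi hm, if_pos (by omega)]
    have c2 : ff N i m (yv N i m) = 1 := by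
      rw [ch_ff, ch_dd_yv N hi hm, ch_dd_yv N hi hm, if_pos (by omega), if_neg (by omega)]; rfl
    rw [(g p hp).1, (g p hp).2, (g _ ((hb p).2 hp)).1, (g _ ((hb p).2 hp)).2,
      ch_om_run hi hm hx hr, le_abs]
    simp only [map_sub, c1, c2, hy (ch_vert_a hκ hi), sub_zero]
    generalize run N i i (κ i) p = s at *
    generalize run N (i + 1) i (κ i) p = t at *
    generalize dd N i 0 p = e at *
    generalize ff N i m p = f at *
    clear * - b1 b2 b3 b4
    rcases b1 with rfl | rfl <;> rcases b2 with rfl | rfl <;> omega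
  · have n1 : p ∉ Good N κ := fun h => hp ((g1 p).1 h).1
    have n2 : p ∉ Good N (Function.update κ i (κ i + 1)) := fun h => hp ((g2 p).1 h).1
    have n3 : p - yv N i m ∉ Good N κ := fun h => hp ((hb p).1 ((g1 _).1 h).1)
    have n4 : p - yv N i m ∉ Good N (Function.update κ i (κ i + 1)) :=
      fun h => hp ((hb p).1 ((g2 _).1 h).1)
    simp [n1, n2, n3, n4]

omit hκ hlt in
theorem ch_e_eq (hr : r + i + 1 = N) {s : Seed (NL N) (NI N)} (hs : Models N κ s) :
    s.e (⟨i, hi⟩, ⟨m + 1, by omega⟩) = yv N i m := by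
  have p1 : ps N i (κ i) = m := by rw [hx, ch_ps N hi hm (by omega), if_neg (by omega), add_zero]
  have h1 : ∀ k, s.co k (yv N i m) = if k = (⟨i, hi⟩, ⟨m + 1, by omega⟩) then 1 else 0 := by
    rintro ⟨⟨l, hl⟩, ⟨n, hn⟩⟩
    rw [hs.2.1 _ _ rfl, ch_cok]
    simp only [ch_H_yv N hi hm, ch_dd_yv N hi hm, Prod.mk.injEq, Fin.mk.injEq]
    by_cases h : l = i
    · subst h
      rw [p1]
      split_ifs <;> omega
    · simp [h]
  rw [hs.2.2 (yv N i m) rfl]
  simp [h1]

theorem ch_models (hr : r + i + 1 = N) {s : Seed (NL N) (NI N)} (hs : Models N κ s) :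
    Models N (Function.update κ i (κ i + 1)) (s.mutate (om N) (⟨i, hi⟩, ⟨m + 1, by omega⟩)) := by
  have p1 : ps N i (κ i) = m := by rw [hx, ch_ps N hi hm (by omega), if_neg (by omega), add_zero]
  have p2 : ps N i (κ i + 1) = m + 1 := by
    rw [hx, add_assoc, ch_ps N hi hm (by omega), if_pos (by omega)]
  have he := ch_e_eq hi hm hx hr hs
  obtain ⟨k₂, hk₂, hc₂⟩ : ∃ k₂ : Fin (N + 2), (k₂.val = m + 2 ∨ (m = N ∧ k₂.val = 0)) ∧
      ∀ p, cok N κ (⟨i, hi⟩, k₂) p = H N i 0 p + dd N i (m + 1) p := by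
    by_cases h : m = N
    · refine ⟨0, Or.inr ⟨h, rfl⟩, fun p => ?_⟩
      rw [ch_cok, ch_dd_top N i (show N < m + 1 by omega)]
      simp
    · refine ⟨⟨m + 2, by omega⟩, Or.inl rfl, fun p => ?_⟩
      rw [ch_cok]
      simp [p1]
  have hc₁ : ∀ p, cok N κ (⟨i, hi⟩, ⟨m, by omega⟩) p = H N i 0 p - dd N i 0 p + dd N i m p := by
    intro p
    rw [ch_cok]
    simp [p1]
  have hc₀ : ∀ p, cok N κ (⟨i, hi⟩, ⟨m + 1, by omega⟩) p = H N i 0 p + dd N i m p := by
    intro p
    rw [ch_cok]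
    simp [p1]
  have hup : ∀ k, ∃ z : ℤ, (z = 0 ∨ (z = 1 ∧ k.1.val = i + 1)) ∧
      H N (i + 1) 0 (s.e k) - dd N (i + 1) 0 (s.e k) + dd N (i + 1) (m + 1) (s.e k) = z := by
    intro k
    by_cases h : i + 1 < N
    · have q1 : m + 1 ≤ ps N (i + 1) (κ (i + 1)) := by
        rw [if_neg (by omega)] at hlt
        refine le_trans ?_ (ch_ps_mono N (i + 1) hlt.le)
        rw [hx, ch_ps N h hm (by omega), if_pos (by omega)]
      have q2 := hs.2.1 (⟨i + 1, h⟩, ⟨m + 1, by omega⟩) _ (hs.1 k)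
      rw [ch_cok, if_pos q1, s.dual] at q2
      refine ⟨_, ?_, q2.symm⟩
      split_ifs with h'
      · subst h'; exact Or.inr ⟨rfl, rfl⟩
      · exact Or.inl rfl
    · exact ⟨0, Or.inl rfl, by simp [ch_dd_ge N (not_lt.1 h), ch_H_ge N (not_lt.1 h)]⟩
  have hdn : ∀ k, ∃ z : ℤ, (z = 0 ∨ (z = 1 ∧ k.1.val + 1 = i)) ∧
      (if i = 0 then 0 else H N (i - 1) 0 (s.e k) + dd N (i - 1) m (s.e k)) = z := by
    intro k
    by_cases h : i = 0
    · exact ⟨0, Or.inl rfl, if_pos h⟩
    · have q1 : ¬ m + 1 ≤ ps N (i - 1) (κ (i - 1)) := by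
        have := ch_ps_mono N (i - 1) (ch_path_mono N hκ (Nat.sub_le i 1) hi)
        rw [hx, ch_ps N (by omega) hm (by omega), if_neg (by omega)] at this
        omega
      have q2 := hs.2.1 (⟨i - 1, by omega⟩, ⟨m + 1, by omega⟩) _ (hs.1 k)
      rw [ch_cok, if_neg q1, s.dual] at q2
      refine ⟨_, ?_, (if_neg h).trans q2.symm⟩
      split_ifs with h'
      · subst h'; exact Or.inr ⟨rfl, by simp only; omega⟩
      · exact Or.inl rfl
  have hw : ∀ k, max ((om N).w (yv N i m) (s.e k)) 0 =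
      (if (⟨i, hi⟩, ⟨m, by omega⟩) = k then 1 else 0) + if (⟨i, hi⟩, k₂) = k then 1 else 0 := by
    intro k
    obtain ⟨z₁, a1, a2⟩ := hup k
    obtain ⟨z₂, b1, b2⟩ := hdn k
    have e1 : (om N).w (yv N i m) (s.e k) = s.co (⟨i, hi⟩, ⟨m, by omega⟩) (s.e k)
        + s.co (⟨i, hi⟩, k₂) (s.e k) - z₁ - z₂ := by
      rw [om_yv N hi hm, hs.2.1 _ _ (hs.1 k), hs.2.1 _ _ (hs.1 k), hc₁, hc₂, ← a2, ← b2]
      have := hs.1 k
      by_cases h0 : i = 0
      · subst h0; simp [ac, dm, this]; ring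
      · simp [ac, dm, h0]; ring
    rw [e1, s.dual, s.dual]
    split_ifs with h1 h2 h2
    · have : i = k.1.val := congrArg (fun k : NI N => k.1.val) h1
      omega
    · have : i = k.1.val := congrArg (fun k : NI N => k.1.val) h1
      omega
    · have : i = k.1.val := congrArg (fun k : NI N => k.1.val) h2
      omega
    · omega
  refine ⟨fun k => ?_, fun k p hp => ?_, fun p hp => ch_mutate_span _ _ _ (hs.2.2 p hp)⟩
  · simp only [Seed.mutate]
    split_ifs
    · rw [map_neg, hs.1, neg_zero]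
    · rw [map_add, map_zsmul, hs.1, hs.1, smul_zero, add_zero]
  · simp only [Seed.mutate]
    split_ifs with h
    · subst h
      rw [he]
      simp only [hw, AddMonoidHom.add_apply, AddMonoidHom.neg_apply, add_smul, ite_smul, one_smul, zero_smul, Finset.sum_add_distrib,
        Finset.sum_ite_eq, Finset.mem_univ, if_true, hs.2.1 _ _ hp, hc₀, hc₁, hc₂]
      rw [ch_cok]
      simp [p2]
      ring
    · rw [hs.2.1 _ _ hp, ch_cok, ch_cok]
      obtain ⟨⟨l, hl⟩, ⟨n, hn⟩⟩ := k
      simp only [Prod.mk.injEq, Fin.mk.injEq, Function.update_apply] at h ⊢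
      by_cases h' : l = i
      · subst h'
        simp only [if_true, p1, p2]
        split_ifs <;> omega
      · simp only [h', if_false]
end move

/-- moving `E i` past one downward rung -/
theorem step_path {κ : ℕ → ℕ} (hκ : Path N κ) {s : Seed (NL N) (NI N)} (hs : Models N κ s) {i : ℕ}
    (hi : i < N) (hlt : κ i < if i + 1 = N then N * (N + 1) else κ (i + 1)) :
    ∃ s', Models N (Function.update κ i (κ i + 1)) s' ∧
      Relation.ReflTransGen (Step (om N) (IsY N)) (s, Good N κ)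
        (s', Good N (Function.update κ i (κ i + 1))) := by
  have hN : 0 < N := by omega
  have hm : κ i / N ≤ N :=
    Nat.lt_succ_iff.1 (Nat.div_lt_of_lt_mul (ch_lt_top hκ hi hlt))
  have hx : κ i = κ i / N * N + κ i % N := (Nat.div_add_mod' _ _).symm
  have hr : κ i % N < N := Nat.mod_lt _ hN
  generalize κ i / N = m at hm hx
  generalize κ i % N = r at hr hx
  by_cases h : r + i + 1 = N
  · refine ⟨_, ch_models hκ hi hlt hm hx h hs, Relation.ReflTransGen.single
      ⟨(⟨i, hi⟩, ⟨m + 1, by omega⟩), rfl, ?_, ?_⟩⟩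
    · exact ⟨i, m, hi, hm, ch_e_eq hi hm hx h hs⟩
    · simp only [ch_e_eq hi hm hx h hs]
      exact ch_lineRel hκ hi hlt hm hx h
  · rw [ch_good_eq hκ hi hlt hm hx (j := N - 1 - r) (by omega) (by omega)]
    refine ⟨s, ⟨hs.1, fun k p hp => ?_, hs.2.2⟩, Relation.ReflTransGen.refl⟩
    have : ps N k.1.val (Function.update κ i (κ i + 1) k.1.val) = ps N k.1.val (κ k.1.val) := by
      rw [Function.update_apply]
      split_ifs with h'
      · rw [h', hx, add_assoc, ch_ps N hi hm (by omega), ch_ps N hi hm (by omega)]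
        split_ifs <;> omega
      · rfl
    rw [hs.2.1 k p hp, ch_cok, ch_cok, this]

theorem ch_chain (n : ℕ) : ∀ κ : ℕ → ℕ, ∑ i ∈ Finset.range N, (N * (N + 1) - κ i) = n →
    Path N κ → ∀ s, Models N κ s → ∃ s₁, Models N (fun _ => N * (N + 1)) s₁ ∧
      Relation.ReflTransGen (Step (om N) (IsY N)) (s, Good N κ)
        (s₁, Good N fun _ => N * (N + 1)) := by
  induction n with
  | zero =>
    intro κ h hκ s hs
    have h1 : ∀ i, i < N → κ i = N * (N + 1) := fun i hi => by
      have := Finset.sum_eq_zero_iff.1 h i (Finset.mem_range.2 hi)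
      have := hκ.2 i hi
      omega
    have h2 : Good N κ = Good N fun _ => N * (N + 1) := by
      have : ∀ e x, Vert N κ e x ↔ Vert N (fun _ => N * (N + 1)) e x := by
        intro e x
        simp only [Vert]
        refine and_congr_right fun he => ?_
        have a1 : e ≠ 0 → κ (e - 1) = N * (N + 1) := fun _ => h1 _ (by omega)
        have a2 : e ≠ N → κ e = N * (N + 1) := fun _ => h1 _ (by omega)
        split_ifs <;> simp_all
      simp only [Good, this]
    rw [h2]
    refine ⟨s, ⟨hs.1, fun k p hp => ?_, hs.2.2⟩, Relation.ReflTransGen.refl⟩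
    rw [hs.2.1 k p hp, ch_cok, ch_cok, h1 _ k.1.2]
  | succ n ih =>
    intro κ h hκ s hs
    have hne : ((Finset.range N).filter fun i => κ i < N * (N + 1)).Nonempty := by
      by_contra hc
      rw [Finset.not_nonempty_iff_eq_empty, Finset.filter_eq_empty_iff] at hc
      rw [Finset.sum_eq_zero fun i hi => Nat.sub_eq_zero_of_le (not_lt.1 (hc hi))] at h
      omega
    obtain ⟨i, hi, hmax⟩ := Finset.exists_max_image _ id hne
    simp only [Finset.mem_filter, Finset.mem_range, id] at hi hmax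
    have hlt : κ i < if i + 1 = N then N * (N + 1) else κ (i + 1) := by
      split_ifs with h'
      · exact hi.2
      · by_contra hc
        have := hmax (i + 1) ⟨by omega, by omega⟩
        omega
    obtain ⟨s', h1, h2⟩ := step_path N hκ hs hi.1 hlt
    obtain ⟨s₁, h3, h4⟩ := ih (Function.update κ i (κ i + 1)) (by
      have hi' := Finset.mem_range.2 hi.1
      rw [← Finset.add_sum_erase _ _ hi'] at h ⊢
      rw [Function.update_self, Finset.sum_congr rfl fun l hl => by
        rw [Function.update_of_ne (Finset.ne_of_mem_erase hl)]]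
      omega) (ch_path_update hκ hi.1 hlt) s' h1
    exact ⟨s₁, h3, h2.trans h4⟩

theorem exists_chain : ∃ s₁, Models N (fun _ => N * (N + 1)) s₁ ∧
    Relation.ReflTransGen (Step (om N) (IsY N)) (s0 N, Good N fun _ => 0)
      (s₁, Good N fun _ => N * (N + 1)) :=
  ch_chain N _ _ rfl ⟨fun _ _ => le_rfl, fun _ _ => Nat.zero_le _⟩ _ (models_zero N)

theorem ch_H_Dt (l : ℕ) {n : ℕ} (hn : n < N + 2) (p : NL N) :
    H N l n (Dt N p) = H N l n p + dd N l 0 p := by
  by_cases hl : l < N
  · rw [ch_H_lt N hl hn, ch_H_lt N hl hn]; rfl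
  · simp [ch_H_ge N (not_lt.1 hl), ch_dd_ge N (not_lt.1 hl)]
theorem ch_dd_Dt (l n : ℕ) (p : NL N) : dd N l n (Dt N p) = dd N l n p := by
  by_cases hn : n ≤ N
  · rw [ch_dd_le N l hn, ch_dd_le N l hn, ch_H_Dt N l (by omega), ch_H_Dt N l (by omega)]; ring
  · simp [ch_dd_top N l (not_le.1 hn)]

theorem good_Dt (p : NL N) : Dt N p ∈ Good N (fun _ => N * (N + 1)) ↔ p ∈ Good N fun _ => 0 := by
  have ht : tot N (Dt N p) = tot N p := rfl
  have h1 : ∀ c x, run N c 0 x (Dt N p) = run N c N x p := by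
    have : ∀ l x, hg N l 0 x (Dt N p) = hg N l N x p := by
      intro l x
      rw [ch_hg, ch_hg, ch_H_Dt N l (by omega), ch_dd_Dt, ch_dd_Dt]
      by_cases hl : l < N
      · simp [hl]
      · simp [hl, ch_dd_ge N (not_lt.1 hl)]
    intro c x
    rw [ch_run, ch_run, this, this, ht]
  have h2 : ∀ c e, run N c e (N * (N + 1)) (Dt N p) = run N c e 0 p := by
    have : ∀ l e, hg N l e (N * (N + 1)) (Dt N p) = hg N l e 0 p := by
      intro l e
      rw [ch_hg, ch_hg, ch_H_Dt N l (by omega), ch_dd_Dt, ch_dd_Dt, ch_ps_zero]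
      by_cases hl : l < N
      · rw [ch_ps_top N hl, ch_dd_top N l (Nat.lt_succ_self N)]
        simp; ring
      · simp [ch_dd_ge N (not_lt.1 hl)]
    intro c e
    rw [ch_run, ch_run, this, this, ht]
  simp only [Good, Set.mem_ofPred_eq, ch_ff, ch_dd_Dt]
  refine and_congr_right fun _ => and_congr_right fun _ => ⟨fun h e x hv c => ?_, fun h e x hv c => ?_⟩
  · obtain ⟨a1, -, a3⟩ := hv
    split_ifs at a3 with he
    · rw [he, ← h1]
      exact h 0 x ⟨by omega, by simp, by simpa using a3⟩ c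
    · obtain rfl : x = 0 := Nat.le_zero.1 a3
      rw [← h2]
      exact h e _ ⟨a1, by split_ifs <;> simp, by simp⟩ c
  · obtain ⟨a1, a2, a3⟩ := hv
    rw [ite_self] at a3
    split_ifs at a2 with he
    · rw [he, h1]
      exact h N x ⟨le_rfl, by simp, by simpa using a3⟩ c
    · obtain rfl : x = N * (N + 1) := le_antisymm a3 a2
      rw [h2]
      exact h e 0 ⟨a1, by simp, by simp⟩ c
theorem models_end {s : Seed (NL N) (NI N)} (hs : Models N (fun _ => N * (N + 1)) s) (k : NI N) :
    s.e k = Dt N ((s0 N).e (k.1, k.2 + 1)) := by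
  have h0 : tot N (Dt N ((s0 N).e (k.1, k.2 + 1))) = 0 := rfl
  have h1 : ∀ (k' : NI N) (q : NL N), cok N (fun _ => N * (N + 1)) k' (Dt N q)
      = q.2 (k'.1, k'.2 + 1) := by
    rintro ⟨⟨l, hl⟩, n⟩ q
    have hn := n.2
    rw [ch_cok, ch_ps_top N hl, if_pos (by omega), ch_H_Dt N _ (by omega), ch_dd_Dt, ch_dd_Dt]
    by_cases h : n.val ≤ N
    · have : n + 1 = ⟨n.val + 1, by omega⟩ := Fin.ext (Fin.val_add_one_of_lt (by
        rw [Fin.lt_def, Fin.val_last]; omega))
      rw [this, ch_dd_le N _ h, ← ch_H_lt N hl]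
      ring
    · have : n + 1 = ⟨0, by omega⟩ := by
        have h' : n = Fin.last (N + 1) := Fin.ext (by rw [Fin.val_last]; omega)
        exact (congrArg (· + 1) h').trans (Fin.last_add_one _)
      rw [this, ch_dd_top N _ (not_le.1 h), ← ch_H_lt N hl]
      simp
  have h2 : ∀ k', s.co k' (Dt N ((s0 N).e (k.1, k.2 + 1))) = if k' = k then 1 else 0 := by
    intro k'
    rw [hs.2.1 _ _ h0, h1]
    simp [s0, Pi.single_apply, Prod.ext_iff]
  rw [hs.2.2 _ h0]
  simp [h2]
end chain

section asympt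
theorem mem_cone_s0 {n : NL N} : n ∈ (s0 N).cone.S ↔ tot N n = 0 ∧ ∀ k, 0 ≤ n.2 k := by
  have h : ∑ k, (s0 N).co k n • (s0 N).e k = (0, n.2) := by
    refine Prod.ext ?_ ?_
    · simp [Prod.fst_sum, s0]
    · simp [Prod.snd_sum, s0, ← Pi.single_smul, Finset.univ_sum_single]
  refine (Seed.mem_closure _).trans ?_
  rw [h, and_comm]
  exact and_congr ⟨fun h => congrArg Prod.fst h, fun h => Prod.ext h rfl⟩ Iff.rfl
theorem good_coord {p : NL N} (hp : p ∈ Good N fun _ => 0) (k : NI N) :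
    0 ≤ p.2 k ∧ p.2 k ≤ tot N p + 1 := by
  obtain ⟨ha, h1, h2, -, -⟩ := (good_zero_iff N p).1 hp
  have h3 : Antitone fun i => H N i 0 p := antitone_nat_of_succ_le fun i => by
    have := ha (i + 1)
    rw [ac_succ'] at this
    omega
  have h4 : H N N 0 p ≤ H N k.1.val 0 p := h3 k.1.2.le
  have h5 : H N k.1.val 0 p ≤ H N 0 0 p := h3 (Nat.zero_le _)
  have h6 := ha 0
  rw [ac_zero'] at h6
  rw [H_of_le N le_rfl] at h4
  rw [← H_coord]
  have hk := k.2.2
  generalize k.2.val = m at hk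
  cases m with
  | zero => omega
  | succ m =>
    have h7 := dd_nonneg N h2 k.1.val m
    have h8 := dd_anti N h2 k.1.val (Nat.zero_le m)
    have h9 := h1 k.1.val
    rw [dd_apply N _ m, if_pos (by omega)] at h7 h8
    omega
theorem good_finite (k : ℕ) : {p | p ∈ Good N (fun _ => 0) ∧ tot N p = k}.Finite := by
  refine ((Set.finite_singleton (k : ℤ)).prod
    (Set.Finite.pi' fun _ : NI N => Set.finite_Icc (0 : ℤ) (k + 1))).subset ?_
  rintro p ⟨hp, hk⟩
  exact ⟨hk, fun j => ⟨(good_coord N hp j).1, hk ▸ (good_coord N hp j).2⟩⟩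
theorem good_cone {p : NL N} (hp : p ∈ Good N fun _ => 0) :
    p - tot N p • ((1, 0) : NL N) ∈ (s0 N).cone.S :=
  (mem_cone_s0 N).2 ⟨by simp [tot], fun k => by simpa using (good_coord N hp k).1⟩
open Classical in
/-- asymptotic coefficients of products of Hamiltonians -/
theorem cinf_net : ∃ P : Set (NL N), ∀ (α : List ℕ) (p : NL N),
    cinf (om N) (s0 N) (fprod (om N) (tot N) (Good N fun _ => 0) α) p =
      if p ∈ P then fprod (om N) (tot N)
        {z | z ∈ Good N (fun _ => 0) ∧ ∀ j : Fin N, dd N j.val 0 z = 0} α p else 0 := by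
  obtain ⟨s₁, hs₁, hch⟩ := exists_chain N
  have hall : ∀ m : NL N, (∀ j : Fin N, dd N j.val 0 m = 0) → ∀ i, dd N i 0 m = 0 :=
    fun m hm i => by
      by_cases hi : i < N
      · exact hm ⟨i, hi⟩
      · exact dd_of_le N (by omega) 0 m
  refine escape (om N) (tot N) (fun j : Fin N => dd N j.val 0) (fun j : Fin N => H N j.val 0)
    (IsY N) hch ?_ (Dt N) (om_Dt N) (Equiv.prodCongr (Equiv.refl _) (Equiv.addRight 1))
    (fun k => models_end N hs₁ k) (good_Dt N) (tot_Dt N) (fun j m => dd_Dt N _ _ m)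
    (fun j m => H_Dt N _ (by omega) m) (fun m hm => ?_) (fun m hm hg => ?_) (fun j m hm => ?_)
    (good_finite N) (1, 0) (fun p hp => good_cone N hp) (fun p hp j => dd_nonneg N hp.2.1 _ _)
    fun m _ hm z hz hz' => om_flat N (hall m hm) fun i m' => ?_
  · rintro y ⟨i, m, hi, hm, rfl⟩
    have h1 : ∀ j : Fin N, 0 ≤ dd N j.val 0 (yv N i m) := fun j => by
      rw [dd_yv N hi hm]
      split_ifs <;> omega
    refine ⟨(mem_cone_s0 N).2 ⟨rfl, fun k => ?_⟩, rfl, h1,
      Finset.sum_pos' (fun j _ => h1 j) ⟨⟨i, hi⟩, Finset.mem_univ _, ?_⟩,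
      fun j => H_zero_yv N i m _⟩
    · simp only [yv]
      split_ifs <;> omega
    · rw [dd_yv N hi hm, if_pos ⟨rfl, Nat.zero_le _⟩]
      exact one_pos
  · exact Prod.ext rfl (funext fun k => by rw [Dt_coord, hm k.1, add_zero])
  · obtain ⟨h1, h2⟩ := (mem_cone_s0 N).1 hm
    exact (mem_cone_s0 N).2 ⟨h1, fun k => by rw [Dt_coord]; exact add_nonneg (h2 k) (hg k.1)⟩
  · exact (H_coord N (j, 0) m).symm ▸ ((mem_cone_s0 N).1 hm).2 (j, 0)
  · have h1 := dd_nonneg N hz.2.1 i m'
    have h2 := dd_anti N hz.2.1 i (Nat.zero_le m')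
    rw [hall z hz' i] at h2
    omega
end asympt

end Net
end
end Vale.Agent.P066
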