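import Mathlib

/-! Statement level definitions for the Shareshian-Wachs conjecture. -/

namespace Vale.Agent.P066
noncomputable section

/-- `{a, b}` with `a < b` is an edge of the natural unit interval graph of `h` -/
def Edge {n : ℕ} (h : Fin n → Fin n) (a b : Fin n) : Prop := a < b ∧ b ≤ h a

/-- proper colourings -/
def Proper {n : ℕ} (h : Fin n → Fin n) (f : Fin n → ℕ) : Prop := ∀ a b, Edge h a b → f a ≠ f b

open Classical in
/-- number of ascents -/
def asc {n : ℕ} (h : Fin n → Fin n) (f : Fin n → ℕ) : ℕ :=
  (Finset.univ.filter fun e : Fin n × Fin n => Edge h e.1 e.2 ∧ f e.1 < f e.2).card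

open Classical in
/-- the chromatic quasisymmetric function: the coefficient of the monomial `x ^ α` is the sum of
`q ^ asc f` over the proper colourings `f` with `∏ a, x (f a) = x ^ α` -/
def chrom {n : ℕ} (h : Fin n → Fin n) : MvPowerSeries ℕ (Polynomial ℤ) := fun α =>
  ∑ f ∈ (Fintype.piFinset fun _ : Fin n => α.support).filter
    (fun f => Proper h f ∧ ∑ a, Finsupp.single (f a) 1 = α), Polynomial.X ^ asc h f

open Classical in
/-- the elementary symmetric function `e_k`, the sum of all products of `k` distinct variables -/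
def esym (k : ℕ) : MvPowerSeries ℕ (Polynomial ℤ) := fun α =>
  if ∃ S : Finset ℕ, S.card = k ∧ ∑ i ∈ S, Finsupp.single i 1 = α then 1 else 0

/-- `e_λ` -/
def epart {n : ℕ} (l : n.Partition) : MvPowerSeries ℕ (Polynomial ℤ) := (l.parts.map esym).prod

end
end Vale.Agent.P066
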