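import Vale.Agent.P066.QSer
import Vale.Agent.P066.CFinal

/-! The local theorem in the quantum torus. -/

namespace Vale.Agent.P066
noncomputable section
variable {L : Type} [AddCommGroup L] {ω : Form L} {C : Cone L}

section aux
variable {Γ : Type} [Fintype Γ] [DecidableEq Γ] (It : Items L Γ)

/-- total class of a multiplicity vector -/
def Items.qlN (d : Γ → ℕ) : L := ∑ γ, d γ • It.cl γ
/-- the class map on integer vectors -/
def Items.qlm : (Γ → ℤ) →+ L where
  toFun d := ∑ γ, d γ • It.cl γ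
  map_zero' := by simp
  map_add' a b := by simp [add_smul, Finset.sum_add_distrib]
/-- the quiver attached to the particles -/
def Items.qv (ω : Form L) (It : Items L Γ) : Γ → Γ → ℕ := fun v w =>
  if v = w then (if It.fm v then 0 else 1) else (max (ω.w (It.cl v) (It.cl w)) 0).toNat
def Items.qlin (ω : Form L) (It : Items L Γ) (d : Γ → ℕ) : ℤ :=
  ∑ v, (d v : ℤ) * (It.ex v + It.qv ω v v)
def Items.shf (ω : Form L) (It : Items L Γ) (d : Γ → ℕ) : ℤ := It.qlin ω d - aa (It.qv ω) d d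

omit [DecidableEq Γ] in
theorem Items.qlm_dz (d : Γ → ℕ) : It.qlm (dz d) = It.qlN d := by
  simp [Items.qlm, Items.qlN, dz]
omit [DecidableEq Γ] in
theorem Items.qlN_add (d e : Γ → ℕ) : It.qlN (d + e) = It.qlN d + It.qlN e := by
  simp [Items.qlN, add_smul, Finset.sum_add_distrib]
omit [DecidableEq Γ] in
theorem Items.qlN_zero : It.qlN 0 = 0 := by simp [Items.qlN]
omit [DecidableEq Γ] in
theorem Items.qlN_sum {Γ' : Type} [Fintype Γ'] (e : Γ' → ℕ) (dg : Γ' → Γ → ℕ) :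
    It.qlN (∑ γ, e γ • dg γ) = ∑ γ, e γ • It.qlN (dg γ) := by
  simp only [Items.qlN, Finset.sum_apply, Pi.smul_apply, smul_eq_mul, Finset.sum_smul,
    Finset.smul_sum, mul_smul]
  exact Finset.sum_comm
omit [DecidableEq Γ] in
theorem Items.qlN_mem (hI : It.OK C) (d : Γ → ℕ) : It.qlN d ∈ C.S :=
  C.S.sum_mem fun γ _ => C.S.nsmul_mem (hI γ).1 _
omit [DecidableEq Γ] in
theorem Items.le_deg_qlN (hI : It.OK C) (d : Γ → ℕ) (v : Γ) : (d v : ℤ) ≤ C.deg (It.qlN d) := by
  rw [Items.qlN, map_sum]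
  have h : ∀ γ, (d γ : ℤ) ≤ C.deg (d γ • It.cl γ) := fun γ => by
    rw [map_nsmul, nsmul_eq_mul]
    exact le_mul_of_one_le_right (Nat.cast_nonneg _) (C.pos _ (hI γ).1 (hI γ).2)
  exact (h v).trans (Finset.single_le_sum (f := fun γ => C.deg (d γ • It.cl γ))
    (fun γ _ => (Nat.cast_nonneg _).trans (h γ)) (Finset.mem_univ v))
omit [DecidableEq Γ] in
theorem Items.qlN_eq_zero (hI : It.OK C) {d : Γ → ℕ} (h : It.qlN d = 0) : d = 0 := by
  funext v
  have := It.le_deg_qlN hI d v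
  rw [h, map_zero] at this
  simpa using this
theorem ql_box_iff {K : ℕ} {d : Γ → ℕ} : d ∈ box Γ K ↔ ∀ v, d v ≤ K := by
  simp [box, Fintype.mem_piFinset]
theorem Items.ql_mem_box (hI : It.OK C) {K : ℕ} {d : Γ → ℕ} (h : C.deg (It.qlN d) ≤ K) :
    d ∈ box Γ K :=
  ql_box_iff.mpr fun v => by exact_mod_cast (It.le_deg_qlN hI d v).trans h

theorem Items.ql_aa_skew (d e : Γ → ℕ) :
    (aa (It.qv ω) d e : ℤ) - aa (It.qv ω) e d = ω.w (It.qlN d) (It.qlN e) := by
  have h : ∀ v w, (It.qv ω v w : ℤ) - It.qv ω w v = ω.w (It.cl v) (It.cl w) := fun v w => by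
    by_cases hv : v = w
    · subst hv; simp [ω.alt]
    · have := ω.skew (It.cl v) (It.cl w)
      simp only [Items.qv, if_neg hv, if_neg (Ne.symm hv)]
      omega
  have h2 : (aa (It.qv ω) e d : ℤ) = ∑ v, ∑ w, (d v : ℤ) * e w * It.qv ω w v := by
    simp only [aa]; push_cast
    rw [Finset.sum_comm]
    exact Finset.sum_congr rfl fun v _ => Finset.sum_congr rfl fun w _ => by ring
  rw [h2]
  simp only [aa, Items.qlN, map_sum, map_nsmul, AddMonoidHom.finsetSum_apply,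
    AddMonoidHom.nsmul_apply, nsmul_eq_mul, Finset.mul_sum]
  push_cast
  rw [← Finset.sum_sub_distrib, Finset.sum_comm (f := fun w v => _)]
  refine Finset.sum_congr rfl fun v _ => ?_
  rw [← Finset.sum_sub_distrib]
  refine Finset.sum_congr rfl fun w _ => ?_
  rw [← h]; ring

theorem Items.ql_aa_self (d : Γ → ℕ) :
    (aa (It.qv ω) d d : ℤ) = It.twist ω d + ∑ v, (d v : ℤ) * d v * It.qv ω v v := by
  simp only [aa, Items.twist]; push_cast
  rw [← Finset.sum_add_distrib]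
  refine Finset.sum_congr rfl fun v _ => ?_
  rw [← Finset.sum_erase_add _ _ (Finset.mem_univ v),
    ← Finset.sum_erase_add Finset.univ _ (Finset.mem_univ v)]
  simp only [ω.alt, max_self, mul_zero, add_zero]
  refine congrArg (· + _) (Finset.sum_congr rfl fun w hw => ?_)
  rw [Items.qv, if_neg (Finset.ne_of_mem_erase hw).symm, Int.toNat_of_nonneg (le_max_right _ _)]

omit [DecidableEq Γ] in
theorem ql_aa_add_add (ar : Γ → Γ → ℕ) (d e : Γ → ℕ) :
    aa ar (d + e) (d + e) = aa ar d d + aa ar d e + aa ar e d + aa ar e e := by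
  simp only [aa, Pi.add_apply, ← Finset.sum_add_distrib]
  exact Finset.sum_congr rfl fun v _ => Finset.sum_congr rfl fun w _ => by ring

theorem Items.shf_add (d e : Γ → ℕ) : It.shf ω (d + e) + 2 * aa (It.qv ω) d e =
    ω.w (It.qlN d) (It.qlN e) + It.shf ω d + It.shf ω e := by
  have h1 : It.qlin ω (d + e) = It.qlin ω d + It.qlin ω e := by
    simp [Items.qlin, add_mul, Finset.sum_add_distrib]
  rw [← It.ql_aa_skew]
  simp only [Items.shf, h1, ql_aa_add_add]
  push_cast; ring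

theorem Items.shf_zero : It.shf ω 0 = 0 := by simp [Items.shf, Items.qlin, aa]

theorem Items.qlin_sum {Γ' : Type} [Fintype Γ'] (e : Γ' → ℕ) (dg : Γ' → Γ → ℕ) :
    It.qlin ω (∑ γ, e γ • dg γ) = ∑ γ, e γ * It.qlin ω (dg γ) := by
  simp only [Items.qlin, Finset.sum_apply, Pi.smul_apply, smul_eq_mul, Finset.mul_sum]
  push_cast
  simp only [Finset.sum_mul, mul_assoc]
  exact Finset.sum_comm

theorem ql_tt_sum {ι : Type} (s : Finset ι) (f : ι → ℤ) : tt (∑ i ∈ s, f i) = ∏ i ∈ s, tt (f i) := by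
  classical
  induction s using Finset.induction_on with
  | empty => simp [tt_zero]
  | insert i s hi ih => rw [Finset.sum_insert hi, Finset.prod_insert hi, tt_add, ih]

theorem ql_Psi_X_pow (k : ℕ) : Psi (PowerSeries.X ^ k) = tt (2 * k) := by
  rw [map_pow, Psi_X, tt_pow]

theorem Items.ql_term_eq (d : Γ → ℕ) :
    tt (- It.twist ω d) * ∏ γ, phi (It.fm γ) (It.ex γ) (d γ) =
      tt (It.shf ω d) * Psi (∏ v, psi true (d v)) := by
  have h : ∀ v, phi (It.fm v) (It.ex v) (d v) =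
      tt ((d v : ℤ) * (It.ex v + It.qv ω v v) - (d v : ℤ) * d v * It.qv ω v v) *
        Psi (psi true (d v)) := fun v => by
    have hc : (2 : ℤ) * ((d v).choose 2 : ℕ) = d v * d v - d v := by
      induction d v with
      | zero => simp
      | succ k ih =>
        rw [Nat.choose_succ_succ' k 1, Nat.choose_one_right]; push_cast at ih ⊢
        linear_combination ih
    cases hf : It.fm v
    · simp only [phi, psi, Items.qv, hf, if_true, Bool.false_eq_true, if_false, one_mul, map_mul,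
        ql_Psi_X_pow, hc, ← mul_assoc, ← tt_add]
      refine congrArg (fun x => tt x * _) ?_
      push_cast; ring
    · simp only [phi, Items.qv, hf, if_true]
      refine congrArg (fun x => tt x * _) ?_
      push_cast; ring
  simp only [h, Finset.prod_mul_distrib, ← ql_tt_sum, map_prod, ← mul_assoc, ← tt_add]
  refine congrArg (fun x => tt x * _) ?_
  rw [Items.shf, It.ql_aa_self, Items.qlin, Finset.sum_sub_distrib]; ring

/-- a finite combination of monomials -/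
def Items.bx (ω : Form L) (C : Cone L) (It : Items L Γ) (K : ℕ) (F : (Γ → ℕ) → KK) : QA ω C :=
  ∑ d ∈ box Γ K, QA.mono (It.qlN d) (F d)

theorem Items.fn_bx (K : ℕ) (F : (Γ → ℕ) → KK) (n : L) :
    (It.bx ω C K F).fn n = ∑ d ∈ box Γ K, dlt (It.qlN d) (F d) n := QA.fn_sum _ _ _

theorem Items.bx_ne_zero {K : ℕ} {F : (Γ → ℕ) → KK} {n : L} (h : (It.bx ω C K F).fn n ≠ 0) :
    ∃ d, n = It.qlN d ∧ F d ≠ 0 := by
  rw [It.fn_bx] at h
  obtain ⟨d, -, hd⟩ := Finset.exists_ne_zero_of_sum_ne_zero h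
  refine ⟨d, ?_, ?_⟩
  · by_contra h'; exact hd (if_neg h')
  · intro h'; exact hd (by simp [dlt, h'])

theorem Items.un_bx (hI : It.OK C) (K : ℕ) {F : (Γ → ℕ) → KK} (h0 : F 0 = 1)
    {S : AddSubmonoid L} (hS : ∀ d, F d ≠ 0 → It.qlN d ∈ S) : Un C S (It.bx ω C K F).fn := by
  refine ⟨fun n hn => ?_, ?_⟩
  · obtain ⟨d, rfl, hd⟩ := It.bx_ne_zero hn
    exact ⟨It.qlN_mem hI d, hS d hd⟩
  · rw [It.fn_bx, Finset.sum_eq_single 0]
    · simp [dlt, It.qlN_zero, h0]
    · intro d _ hd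
      exact if_neg fun h => hd (It.qlN_eq_zero hI h.symm)
    · intro h; exact absurd (ql_box_iff.mpr fun v => Nat.zero_le _) h

omit [AddCommGroup L] in
theorem ql_dlt_sum {ι : Type} (s : Finset ι) (a n : L) (f : ι → KK) :
    dlt a (∑ i ∈ s, f i) n = ∑ i ∈ s, dlt a (f i) n := by
  by_cases h : n = a <;> simp [dlt, h]

theorem Items.bx_mul (hI : It.OK C) (K : ℕ) (F G : (Γ → ℕ) → KK) {n : L} (hn : C.deg n ≤ K) :
    (It.bx ω C K F * It.bx ω C K G).fn n = ∑ d ∈ box Γ K, dlt (It.qlN d)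
      (∑ d' ∈ Finset.Iic d, tt (ω.w (It.qlN d') (It.qlN (d - d'))) * F d' * G (d - d')) n := by
  classical
  simp only [Items.bx, Finset.sum_mul_sum, QA.mono_mul, QA.fn_sum, QA.fn_mono, ql_dlt_sum]
  rw [← Finset.sum_product', Finset.sum_sigma']
  simp only [dlt, ← Finset.sum_filter]
  refine Finset.sum_bij' (fun x _ => ⟨x.1 + x.2, x.1⟩) (fun y _ => (y.2, y.1 - y.2))
    ?_ ?_ ?_ ?_ ?_
  · rintro ⟨d, e⟩ hx
    simp only [Finset.mem_filter, Finset.mem_product, Finset.mem_sigma, Finset.mem_Iic] at hx ⊢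
    rw [← It.qlN_add] at hx
    exact ⟨⟨It.ql_mem_box hI (hx.2 ▸ hn), le_self_add⟩, hx.2⟩
  · rintro ⟨d, e⟩ hx
    simp only [Finset.mem_filter, Finset.mem_product, Finset.mem_sigma, Finset.mem_Iic,
      ql_box_iff] at hx ⊢
    refine ⟨⟨fun v => (hx.1.2 v).trans (hx.1.1 v), fun v => (Nat.sub_le _ _).trans (hx.1.1 v)⟩, ?_⟩
    rw [← It.qlN_add, add_tsub_cancel_of_le hx.1.2, hx.2]
  · rintro ⟨d, e⟩ _
    simp
  · rintro ⟨d, e⟩ hx
    simp only [Finset.mem_filter, Finset.mem_sigma, Finset.mem_Iic] at hx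
    simp [add_tsub_cancel_of_le hx.1.2]
  · rintro ⟨d, e⟩ _
    simp
end aux

theorem local_torus {Γ : Type} [Fintype Γ] [DecidableEq Γ] (It : Items L Γ) (hI : It.OK C)
    (σ : Stab L) (hσ : ∀ a ∈ C.S, ∀ b ∈ C.S, σ.zero a → σ.zero b → ω.w a b = 0) (K : ℕ) :
    ∃ (Γ' : Type) (_ : Fintype Γ') (_ : DecidableEq Γ') (It' : Items L Γ'), It'.OK C ∧
      (∀ γ, σ.zero (It'.cl γ)) ∧
      Agr {n | C.deg n ≤ K} (zeroP σ (mkU ω C (It.gam ω Finset.univ)) : QA ω C).fn
        (It'.gam ω Finset.univ) := by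
  classical
  have hs : Sym0 (It.qv ω) (σ.comap It.qlm) := fun d e hd he => by
    rw [Stab.comap_zero, It.qlm_dz] at hd he
    have := It.ql_aa_skew (ω := ω) d e
    rw [hσ _ (It.qlN_mem hI d) _ (It.qlN_mem hI e) hd he] at this
    omega
  obtain ⟨hN, hZ, Γ', _, _, dg, kg, fm, kp, hN0, hZ0, hN1, hZ1, hHN, hdg, hkp, hZ2⟩ :=
    local_theorem (It.qv ω) (σ.comap It.qlm) hs K
  simp only [Stab.comap_nn, Stab.comap_neg, Stab.comap_zero, It.qlm_dz] at hN1 hZ1 hdg hZ2
  let It' : Items L Γ' := ⟨fun γ => It.qlN (dg γ), fm, fun γ => 2 * kg γ + It.shf ω (dg γ)⟩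
  have hI' : It'.OK C := fun γ =>
    ⟨It.qlN_mem hI _, fun h => (hdg γ).1 (It.qlN_eq_zero hI h)⟩
  refine ⟨Γ', inferInstance, inferInstance, It', hI', fun γ => (hdg γ).2, fun n hn => ?_⟩
  by_cases hz : σ.zero n
  swap
  · have h1 : (zeroP σ (mkU ω C (It.gam ω Finset.univ)) : QA ω C).fn n = 0 := by
      by_contra h; exact hz ((zeroP_mem σ _).1 n h).2
    have h2 : It'.gam ω Finset.univ n = 0 := by
      by_contra h
      exact hz ((It'.un_gam hI' (ω := ω) Finset.univ (S := zeroM σ) fun γ _ => (hdg γ).2).1 n h).2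
    rw [h1, h2]
  have uN : Un C (negM σ) (It.bx ω C K fun d => tt (It.shf ω d) * Psi (hN d)).fn := by
    refine It.un_bx hI K (by simp [It.shf_zero, tt_zero, hN0]) fun d hd => ?_
    by_cases h0 : d = 0
    · rw [h0, It.qlN_zero]; exact (negM σ).zero_mem
    · exact Or.inl fun h => hd (by simp [hN1 d h0 h])
  have uZ : Un C ⊤ (It.bx ω C K fun d => tt (It.shf ω d) * Psi (hZ d)).fn :=
    It.un_bx hI K (by simp [It.shf_zero, tt_zero, hZ0]) fun _ _ => trivial
  have uG : Un C ⊤ (It.gam ω Finset.univ) := It.un_gam hI Finset.univ fun _ _ => trivial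
  have hagr := (fact_agr (lower_deg (C := C) (K : ℤ)) (σ := σ) (σ' := σ)
    (fun _ _ _ _ => ⟨Iff.rfl, Iff.rfl⟩) (mkU_mem ω uG)
    ((GS ω C ⊤).mul_mem (GS_top (mkU_mem ω uN)) (mkU_mem ω uZ)) (fun m hm => by
      rw [fn_mkU ω uG, Units.val_mul, QA.fn_mul, fn_mkU ω uN, fn_mkU ω uZ, ← QA.fn_mul,
        It.bx_mul hI K _ _ hm, It.gam_eq_sum_box hI K hm]
      refine Finset.sum_congr rfl fun d hd => ?_
      rw [It.ql_term_eq, hHN d (ql_box_iff.mp hd), map_sum, Finset.mul_sum]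
      refine congrArg (fun x => dlt _ x m) (Finset.sum_congr rfl fun d' hd' => ?_)
      have e1 := It.shf_add (ω := ω) d' (d - d')
      rw [add_tsub_cancel_of_le (Finset.mem_Iic.mp hd')] at e1
      have e2 := congrArg tt e1
      simp only [tt_add] at e2
      rw [map_mul, map_mul, ql_Psi_X_pow]
      linear_combination (Psi (hN d') * Psi (hZ (d - d'))) * e2)).2.1 n hn
  rw [hagr, zeroP_two_block (mkU_mem ω uN) (mkU_mem ω uZ) ?_ hz, fn_mkU ω uZ, It.fn_bx,
    It'.gam_eq_sum_box hI' K hn]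
  swap
  · intro m hm
    rw [fn_mkU ω uZ] at hm
    obtain ⟨d, rfl, hd⟩ := It.bx_ne_zero hm
    by_contra h
    exact hd (by simp [hZ1 d h])
  have htw : ∀ e, It'.twist ω e = 0 := fun e =>
    Finset.sum_eq_zero fun γ _ => Finset.sum_eq_zero fun γ' _ => by
      rw [hσ _ (hI' γ).1 _ (hI' γ').1 (hdg γ).2 (hdg γ').2]; simp
  have hterm : ∀ e : Γ' → ℕ, tt (- It'.twist ω e) * ∏ γ, phi (It'.fm γ) (It'.ex γ) (e γ) =
      tt (It.shf ω (∑ γ, e γ • dg γ)) *
        Psi (PowerSeries.X ^ (kp e + ∑ γ, e γ * kg γ) * ∏ γ, psi (fm γ) (e γ)) := fun e => by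
    simp only [htw, phi, Finset.prod_mul_distrib, ← ql_tt_sum, map_mul, map_prod, ql_Psi_X_pow,
      ← mul_assoc, ← tt_add]
    refine congrArg (fun x => tt x * _) ?_
    have h1 := congrArg (Nat.cast : ℕ → ℤ) (hkp e)
    have h2 : ∑ γ, It'.ex γ * e γ = 2 * ∑ γ, (e γ : ℤ) * kg γ + ∑ γ, e γ * It.qlin ω (dg γ) -
        ∑ γ, (e γ : ℤ) * aa (It.qv ω) (dg γ) (dg γ) := by
      rw [Finset.mul_sum, ← Finset.sum_add_distrib, ← Finset.sum_sub_distrib]
      exact Finset.sum_congr rfl fun γ _ => by simp only [It', Items.shf]; ring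
    rw [h2, Items.shf, It.qlin_sum, ← h1]
    push_cast; ring
  have hcl : ∀ e : Γ' → ℕ, ∑ γ, e γ • It'.cl γ = It.qlN (∑ γ, e γ • dg γ) := fun e =>
    (It.qlN_sum e dg).symm
  simp only [hterm, hcl, dlt, ← Finset.sum_filter]
  rw [← Finset.sum_fiberwise_of_maps_to (s := (box Γ' K).filter _)
    (t := (box Γ K).filter fun d => n = It.qlN d) (g := fun e => ∑ γ, e γ • dg γ)]
  · refine Finset.sum_congr rfl fun d hd => ?_
    rw [Finset.mem_filter] at hd
    rw [hZ2 d (ql_box_iff.mp hd.1) (hd.2 ▸ hz), map_sum, Finset.mul_sum, Finset.filter_filter]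
    refine Finset.sum_congr (Finset.filter_congr fun e _ => ?_) fun e he => ?_
    · exact ⟨fun h => ⟨by rw [h, hd.2], h⟩, fun h => h.2⟩
    · rw [(Finset.mem_filter.mp he).2.2]
  · intro e he
    rw [Finset.mem_filter] at he ⊢
    exact ⟨It.ql_mem_box hI (he.2 ▸ hn), he.2⟩

end
end Vale.Agent.P066
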