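import Vale.Agent.P066.QSeed
import Vale.Agent.P066.QLoc

/-! Part B: wall functions and broken lines. -/

namespace Vale.Agent.P066
noncomputable section
variable {L : Type} [AddCommGroup L] {I : Type} [Fintype I] [DecidableEq I] (ω : Form L)

/-- the neutral elements of `σ` form the line through `n₀` -/
def Line (σ : Stab L) (n₀ : L) : Prop :=
  σ.zero n₀ ∧ ∀ a, σ.zero a → ∃ k : ℕ, 0 < k ∧ ∃ x : ℤ, k • a = x • n₀
/-- only torsion elements are neutral -/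
def Gen (σ : Stab L) : Prop := ∀ a, σ.zero a → ∃ k : ℕ, 0 < k ∧ k • a = 0
/-- `σ` and `w` have opposite signs at `n` -/
def Dis (σ : Stab L) (w : L →+ ℤ) (n : L) : Prop := (σ.neg n ∧ 0 < w n) ∨ (σ.pos n ∧ w n < 0)
/-- the point of the flow `σ + s w` where `n₁` becomes neutral -/
def flow (σ : Stab L) (w : L →+ ℤ) (n₁ : L) : Stab L :=
  σ.comap (|w n₁| • AddMonoidHom.id L - (w n₁).sign • (zmultiplesHom L n₁).comp w)

section flow
theorem flow_nn (σ : Stab L) (w : L →+ ℤ) (n₁ n : L) :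
    (flow σ w n₁).nn n ↔ σ.nn (|w n₁| • n - ((w n₁).sign * w n) • n₁) := by
  simp [flow, Stab.comap_nn, mul_smul]
theorem flow_nn_neg (σ : Stab L) (w : L →+ ℤ) (n₁ n : L) :
    (flow σ w n₁).nn (-n) ↔ σ.nn (-(|w n₁| • n - ((w n₁).sign * w n) • n₁)) := by
  rw [flow_nn, map_neg, smul_neg, mul_neg, neg_smul, neg_sub, sub_neg_eq_add, neg_add_eq_sub]
theorem exists_min_rel {α : Type} (P : α → Prop) (R : α → α → Prop)
    (htot : ∀ a b, R a b ∨ R b a) (htr : ∀ a b c, P b → R a b → R b c → R a c) (s : Finset α)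
    (hs : s.Nonempty) (hP : ∀ a ∈ s, P a) : ∃ a ∈ s, ∀ b ∈ s, R a b := by
  induction hs using Finset.Nonempty.cons_induction with
  | singleton a => exact ⟨a, by simp, fun b hb => by
      rw [Finset.mem_singleton.1 hb]; exact (htot a a).elim id id⟩
  | cons a s ha _ ih =>
    obtain ⟨m, hm, hm'⟩ := ih fun b hb => hP b (Finset.mem_cons_of_mem hb)
    rcases htot a m with h | h
    · refine ⟨a, Finset.mem_cons_self a s, fun b hb => ?_⟩
      rcases Finset.mem_cons.1 hb with rfl | hb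
      · exact (htot b b).elim id id
      · exact htr a m b (hP m (Finset.mem_cons_of_mem hm)) h (hm' b hb)
    · refine ⟨m, Finset.mem_cons_of_mem hm, fun b hb => ?_⟩
      rcases Finset.mem_cons.1 hb with rfl | hb
      · exact h
      · exact hm' b hb
/-- first wall crossed by the flow -/
theorem exists_first_wall (σ : Stab L) (w : L →+ ℤ) (hw : ∀ a, σ.zero a → w a = 0) (F : Finset L)
    (hF : ∃ n ∈ F, Dis σ w n) : ∃ n₁ ∈ F, Dis σ w n₁ ∧ (flow σ w n₁).zero n₁ ∧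
      (∀ n ∈ F, ((flow σ w n₁).neg n → σ.neg n) ∧ ((flow σ w n₁).pos n → σ.pos n)) ∧
      ¬ Dis ((flow σ w n₁).lex (Stab.ofHom w)) w n₁ ∧
      ∀ n ∈ F, Dis ((flow σ w n₁).lex (Stab.ofHom w)) w n → Dis σ w n := by
  classical
  obtain ⟨n₁, hn₁, hmin⟩ := exists_min_rel (fun n => w n ≠ 0)
    (fun a b => σ.nn (|w a| • (-(w b).sign • b) - |w b| • (-(w a).sign • a)))
    (fun a b => by
      rcases σ.total (|w a| • (-(w b).sign • b) - |w b| • (-(w a).sign • a)) with h | h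
      · exact Or.inl h
      · exact Or.inr (by rwa [neg_sub] at h))
    (fun a b c hb h1 h2 => by
      refine (Stab.nn_zsmul_iff (abs_pos.2 hb)).1 ?_
      have h3 := σ.nn_add (Stab.nn_zsmul h2 (abs_nonneg (w a)))
        (Stab.nn_zsmul h1 (abs_nonneg (w c)))
      rwa [show |w a| • (|w b| • (-(w c).sign • c) - |w c| • (-(w b).sign • b)) +
        |w c| • (|w a| • (-(w b).sign • b) - |w b| • (-(w a).sign • a)) =
        |w b| • (|w a| • (-(w c).sign • c) - |w c| • (-(w a).sign • a)) by module] at h3)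
    (F.filter (Dis σ w)) (by obtain ⟨n, h1, h2⟩ := hF; exact ⟨n, Finset.mem_filter.2 ⟨h1, h2⟩⟩)
    (fun a ha => by
      rcases (Finset.mem_filter.1 ha).2 with h | h
      exacts [h.2.ne', h.2.ne])
  obtain ⟨hn₁F, hd⟩ := Finset.mem_filter.1 hn₁
  have hv : σ.nn (-(w n₁).sign • n₁) := by
    rcases hd with h | h
    · rw [Int.sign_eq_one_of_pos h.2, neg_smul, one_smul]; exact h.1.nn_neg
    · rw [Int.sign_eq_neg_one_of_neg h.2, neg_neg, one_smul]; exact h.1.nn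
  have hzero : (flow σ w n₁).zero n₁ := by
    have e : |w n₁| • n₁ - ((w n₁).sign * w n₁) • n₁ = 0 := by
      rw [Int.sign_mul_self_eq_abs, sub_self]
    exact ⟨by rw [flow_nn, e]; exact σ.nn_zero, by rw [flow_nn_neg, e, neg_zero]; exact σ.nn_zero⟩
  have h2 : ∀ n ∈ F, ((flow σ w n₁).neg n → σ.neg n) ∧ ((flow σ w n₁).pos n → σ.pos n) := by
    intro n hn
    constructor
    · intro hneg hnn
      apply hneg
      rw [flow_nn]
      rcases le_or_gt 0 (w n) with h | h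
      · have h3 := σ.nn_add (Stab.nn_zsmul hnn (abs_nonneg (w n₁))) (Stab.nn_zsmul hv h)
        rwa [show |w n₁| • n + w n • (-(w n₁).sign • n₁) =
          |w n₁| • n - ((w n₁).sign * w n) • n₁ by module] at h3
      · have hp : σ.pos n := fun h' => h.ne (hw n ⟨hnn, h'⟩)
        have h3 := hmin n (Finset.mem_filter.2 ⟨hn, Or.inr ⟨hp, h⟩⟩)
        rw [Int.sign_eq_neg_one_of_neg h, abs_of_neg h] at h3
        rwa [show |w n₁| • (-(-1 : ℤ) • n) - -w n • (-(w n₁).sign • n₁) =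
          |w n₁| • n - ((w n₁).sign * w n) • n₁ by module] at h3
    · intro hpos hnn
      apply hpos
      rw [flow_nn_neg]
      rcases le_or_gt (w n) 0 with h | h
      · have h3 := σ.nn_add (Stab.nn_zsmul hnn (abs_nonneg (w n₁)))
          (Stab.nn_zsmul hv (neg_nonneg.2 h))
        rwa [show |w n₁| • -n + -w n • (-(w n₁).sign • n₁) =
          -(|w n₁| • n - ((w n₁).sign * w n) • n₁) by module] at h3
      · have hp : σ.neg n := fun h' => h.ne' (hw n ⟨h', hnn⟩)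
        have h3 := hmin n (Finset.mem_filter.2 ⟨hn, Or.inl ⟨hp, h⟩⟩)
        rw [Int.sign_eq_one_of_pos h, abs_of_pos h] at h3
        rwa [show |w n₁| • (-(1 : ℤ) • n) - w n • (-(w n₁).sign • n₁) =
          -(|w n₁| • n - ((w n₁).sign * w n) • n₁) by module] at h3
  refine ⟨n₁, hn₁F, hd, hzero, h2, ?_, fun n hn => ?_⟩
  · rintro (⟨h, h'⟩ | ⟨h, h'⟩)
    · rcases Stab.lex_neg.1 h with h | h
      · exact h.not_zero hzero
      · have := Stab.ofHom_neg.1 h.2; omega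
    · rcases Stab.lex_pos.1 h with h | h
      · exact h.not_zero hzero
      · have := Stab.ofHom_pos.1 h.2; omega
  · rintro (⟨h, h'⟩ | ⟨h, h'⟩)
    · rcases Stab.lex_neg.1 h with h | h
      · exact Or.inl ⟨(h2 n hn).1 h, h'⟩
      · have := Stab.ofHom_neg.1 h.2; omega
    · rcases Stab.lex_pos.1 h with h | h
      · exact Or.inr ⟨(h2 n hn).2 h, h'⟩
      · have := Stab.ofHom_pos.1 h.2; omega
theorem no_dis_lex (σ : Stab L) (w : L →+ ℤ) (hw : ∀ a, σ.zero a → w a = 0) {n : L}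
    (h : ¬ Dis σ w n) : (σ.neg n ↔ ((Stab.ofHom w).lex σ).neg n) ∧
      (σ.pos n ↔ ((Stab.ofHom w).lex σ).pos n) := by
  rw [Stab.lex_neg, Stab.lex_pos, Stab.ofHom_neg, Stab.ofHom_pos, Stab.ofHom_zero]
  have h1 : σ.neg n → w n ≤ 0 := fun a => not_lt.1 fun b => h (Or.inl ⟨a, b⟩)
  have h2 : σ.pos n → 0 ≤ w n := fun a => not_lt.1 fun b => h (Or.inr ⟨a, b⟩)
  refine ⟨⟨fun a => ?_, ?_⟩, ⟨fun a => ?_, ?_⟩⟩
  · rcases (h1 a).lt_or_eq with b | b
    exacts [Or.inl b, Or.inr ⟨b, a⟩]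
  · rintro (a | a)
    · rcases σ.tri n with b | b | b
      · exact b
      · exact (a.ne (hw n b)).elim
      · exact (not_le.2 a (h2 b)).elim
    · exact a.2
  · rcases (h2 a).lt_or_eq with b | b
    exacts [Or.inl b, Or.inr ⟨b.symm, a⟩]
  · rintro (a | a)
    · rcases σ.tri n with b | b | b
      · exact (not_le.2 a (h1 b)).elim
      · exact (a.ne' (hw n b)).elim
      · exact b
    · exact a.2
end flow

section plane
theorem plane_form {a b n₀ n₁ : L} {k k' : ℕ} {x y x' y' : ℤ} (ha : k • a = x • n₀ + y • n₁)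
    (hb : k' • b = x' • n₀ + y' • n₁) :
    (k : ℤ) * k' * ω.w a b = (y * x' - x * y') * ω.w n₁ n₀ := by
  have h := congrArg₂ (fun u v => ω.w u v) ha hb
  simp only [map_add, map_nsmul, map_zsmul, AddMonoidHom.add_apply, AddMonoidHom.smul_apply,
    nsmul_eq_mul, smul_eq_mul, ω.alt, ω.skew n₀ n₁] at h
  linear_combination h
theorem plane_deg (d : L →+ ℤ) {a n₀ n₁ : L} {k : ℕ} {x y : ℤ} (ha : k • a = x • n₀ + y • n₁) :
    (k : ℤ) * d a = x * d n₀ + y * d n₁ := by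
  simpa only [map_add, map_nsmul, map_zsmul, nsmul_eq_mul, smul_eq_mul] using congrArg d ha
variable {C : Cone L} {η : Stab L} {n₀ n₁ : L} (h01 : ω.w n₁ n₀ ≠ 0)
  (hP : ∀ a, η.zero a → ∃ k : ℕ, 0 < k ∧ ∃ x y : ℤ, k • a = x • n₀ + y • n₁)
include hP
theorem plucker {a b n : L} (ha : η.zero a) (hb : η.zero b) (hn : η.zero n) :
    C.deg n * ω.w a b + C.deg a * ω.w b n + C.deg b * ω.w n a = 0 := by
  obtain ⟨ka, hka, xa, ya, ea⟩ := hP a ha
  obtain ⟨kb, hkb, xb, yb, eb⟩ := hP b hb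
  obtain ⟨kn, hkn, xn, yn, en⟩ := hP n hn
  have hk : (ka : ℤ) * kb * kn ≠ 0 := by positivity
  refine (mul_eq_zero.1 ?_).resolve_left hk
  have e : (ka : ℤ) * kb * kn * (C.deg n * ω.w a b + C.deg a * ω.w b n + C.deg b * ω.w n a) =
      (kn * C.deg n) * (ka * kb * ω.w a b) + (ka * C.deg a) * (kb * kn * ω.w b n) +
        (kb * C.deg b) * (kn * ka * ω.w n a) := by ring
  rw [e, plane_form ω ea eb, plane_form ω eb en, plane_form ω en ea, plane_deg C.deg ea,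
    plane_deg C.deg eb, plane_deg C.deg en]
  ring
include h01
theorem plane_prop (d : L →+ ℤ) {a n : L} (ha : η.zero a) (hn : η.zero n) (h : ω.w a n = 0) :
    ∃ k : ℕ, 0 < k ∧ (k * d n) • a = (k * d a) • n := by
  obtain ⟨ka, hka, xa, ya, ea⟩ := hP a ha
  obtain ⟨kn, hkn, xn, yn, en⟩ := hP n hn
  have e1 := plane_form ω ea en
  rw [h, mul_zero] at e1
  have e2 : ya * xn = xa * yn := sub_eq_zero.1 ((mul_eq_zero.1 e1.symm).resolve_right h01)
  refine ⟨ka * kn, Nat.mul_pos hka hkn, ?_⟩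
  have l1 : (((ka * kn : ℕ) : ℤ) * d n) • a = ((kn : ℤ) * d n) • (ka • a) := by
    push_cast; module
  have l2 : (((ka * kn : ℕ) : ℤ) * d a) • n = ((ka : ℤ) * d a) • (kn • n) := by
    push_cast; module
  rw [l1, l2, plane_deg d ea, plane_deg d en, ea, en, smul_add, smul_add, smul_smul, smul_smul,
    smul_smul, smul_smul]
  have c1 : (xn * d n₀ + yn * d n₁) * xa = (xa * d n₀ + ya * d n₁) * xn := by
    linear_combination (-d n₁) * e2
  have c2 : (xn * d n₀ + yn * d n₁) * ya = (xa * d n₀ + ya * d n₁) * yn := by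
    linear_combination (d n₀) * e2
  rw [c1, c2]
theorem plane_line {n : L} (hn : n ∈ C.S) (h0 : n ≠ 0) (hz : η.zero n) :
    Line (η.lex (Stab.ofHom (ω.th n))) n := by
  refine ⟨Stab.lex_zero.2 ⟨hz, Stab.ofHom_zero.2 (ω.alt n)⟩, fun a ha => ?_⟩
  obtain ⟨h1, h2⟩ := Stab.lex_zero.1 ha
  obtain ⟨k, hk, e⟩ := plane_prop ω h01 hP C.deg h1 hz ((Stab.ofHom_zero (θ := ω.th n)).1 h2)
  have hd := C.pos n hn h0
  obtain ⟨j, hj⟩ := Int.eq_ofNat_of_zero_le hd.le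
  refine ⟨k * j, Nat.mul_pos hk (by omega), k * C.deg a, ?_⟩
  rw [← e, hj, ← natCast_zsmul, Nat.cast_mul]
theorem plane_ray {a m : L} (ha : a ∈ C.S) (ha0 : a ≠ 0) (hza : η.zero a) (hm : m ∈ C.S)
    (hm0 : m ≠ 0) (hzm : η.zero m) (h : ω.w m a = 0) :
    Stab.ofHom (ω.th a) = Stab.ofHom (ω.th m) := by
  obtain ⟨k, hk, e⟩ := plane_prop ω h01 hP C.deg hzm hza h
  have h1 : 0 < (k : ℤ) * C.deg a := mul_pos (by exact_mod_cast hk) (C.pos a ha ha0)
  have h2 : 0 < (k : ℤ) * C.deg m := mul_pos (by exact_mod_cast hk) (C.pos m hm hm0)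
  refine Stab.ext' fun u => ?_
  have e2 := congrArg (ω.w u) e
  rw [map_zsmul, map_zsmul, smul_eq_mul, smul_eq_mul] at e2
  rw [Stab.ofHom_nn, Stab.ofHom_nn, Form.th_apply, Form.th_apply,
    ← mul_nonneg_iff_of_pos_left h2, ← e2, mul_nonneg_iff_of_pos_left h1]
omit h01 in
theorem plane_zeroP {Γ : Type} [Fintype Γ] [DecidableEq Γ] (It : Items L Γ) (hI : It.OK C)
    (hz : ∀ γ, η.zero (It.cl γ)) {n : L} (hn : n ∈ C.S) (h0 : n ≠ 0) (hzn : η.zero n) :
    (zeroP (Stab.ofHom (ω.th n)) (mkU ω C (It.gam ω Finset.univ)) : QA ω C).fn =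
      It.gam ω (Finset.univ.filter fun γ => ω.w (It.cl γ) n = 0) := by
  have key : ∀ γ γ', ω.w (It.cl γ) n ≤ 0 → 0 ≤ ω.w (It.cl γ') n →
      ω.w (It.cl γ) (It.cl γ') ≤ 0 := fun γ γ' h1 h2 => by
    have e := plucker ω (C := C) hP (hz γ) (hz γ') hzn
    rw [ω.skew n] at e
    have a1 := mul_nonneg (C.deg_nonneg (hI γ).1) h2
    have a2 := mul_nonneg (C.deg_nonneg (hI γ').1) (neg_nonneg.2 h1)
    by_contra hc
    have a3 := mul_pos (C.pos n hn h0) (not_le.1 hc)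
    omega
  set s1 := Finset.univ.filter fun γ => ω.w (It.cl γ) n < 0 with hs1
  set s2 := Finset.univ.filter fun γ => ω.w (It.cl γ) n = 0 with hs2
  set s3 := Finset.univ.filter fun γ => 0 < ω.w (It.cl γ) n with hs3
  have m1 : ∀ γ, γ ∈ s1 ↔ ω.w (It.cl γ) n < 0 := fun γ => by simp [hs1]
  have m2 : ∀ γ, γ ∈ s2 ↔ ω.w (It.cl γ) n = 0 := fun γ => by simp [hs2]
  have m3 : ∀ γ, γ ∈ s3 ↔ 0 < ω.w (It.cl γ) n := fun γ => by simp [hs3]
  have hu : Finset.univ = s1 ∪ s2 ∪ s3 := by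
    ext γ
    simp only [Finset.mem_univ, Finset.mem_union, m1, m2, m3, true_iff]
    omega
  have u1 : Un C (negM (Stab.ofHom (ω.th n))) (It.gam ω s1) :=
    It.un_gam hI s1 fun γ hγ => Or.inl (Stab.ofHom_neg.2 ((m1 γ).1 hγ))
  have u2 : Un C (zeroM (Stab.ofHom (ω.th n))) (It.gam ω s2) :=
    It.un_gam hI s2 fun γ hγ => Stab.ofHom_zero.2 ((m2 γ).1 hγ)
  have u3 : Un C (posM (Stab.ofHom (ω.th n))) (It.gam ω s3) :=
    It.un_gam hI s3 fun γ hγ => Or.inl (Stab.ofHom_pos.2 ((m3 γ).1 hγ))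
  have u0 : Un C ⊤ (It.gam ω Finset.univ) := It.un_gam hI _ fun _ _ => trivial
  have e : mkU ω C (It.gam ω Finset.univ) =
      mkU ω C (It.gam ω s1) * mkU ω C (It.gam ω s2) * mkU ω C (It.gam ω s3) := by
    refine Units.ext (QA.ext fun m => ?_)
    rw [fn_mul3, fn_mkU ω u0, fn_mkU ω u1, fn_mkU ω u2, fn_mkU ω u3, hu, It.gam_union hI,
      It.gam_union hI]
    · exact Finset.disjoint_left.2 fun γ a b => by
        have := (m1 γ).1 a; have := (m2 γ).1 b; omega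
    · exact fun γ a γ' b => key γ γ' ((m1 γ).1 a).le ((m2 γ').1 b).ge
    · exact Finset.disjoint_left.2 fun γ a b => by
        have := (m3 γ).1 b
        rcases Finset.mem_union.1 a with a | a
        · have := (m1 γ).1 a; omega
        · have := (m2 γ).1 a; omega
    · refine fun γ a γ' b => key γ γ' ?_ ((m3 γ').1 b).le
      rcases Finset.mem_union.1 a with a | a
      exacts [((m1 γ).1 a).le, ((m2 γ).1 a).le]
  rw [e, (fact_unique (mkU_mem ω u1) (mkU_mem ω u2) (mkU_mem ω u3)).2.1, fn_mkU ω u2]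
/-- In a plane an element is rebuilt from its attractor data. -/
theorem plane_rebuild {h : (QA ω C)ˣ} (hh : h ∈ GS ω C (zeroM η)) {Λ : Set L} (hΛ : Lower C Λ)
    (K : ℤ) (hK : ∀ n ∈ Λ, C.deg n ≤ K)
    (hray : ∀ n ∈ C.S, n ≠ 0 → η.zero n → ∃ (Γ : Type) (_ : Fintype Γ) (_ : DecidableEq Γ)
      (It : Items L Γ), It.OK C ∧ (∀ γ, η.zero (It.cl γ) ∧ ω.w (It.cl γ) n = 0) ∧
      Agr Λ (zeroP (Stab.ofHom (ω.th n)) h : QA ω C).fn (It.gam ω Finset.univ)) :
    ∃ (Γ : Type) (_ : Fintype Γ) (_ : DecidableEq Γ) (It : Items L Γ), It.OK C ∧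
      (∀ γ, η.zero (It.cl γ)) ∧ Agr Λ (h : QA ω C).fn (It.gam ω Finset.univ) := by
  classical
  let P : L → Prop := fun m => m ∈ C.S ∧ m ≠ 0 ∧ η.zero m
  let R : L → L → Prop := fun a m => P m ∧ ω.w m a = 0
  let rp : L → L := fun a => Classical.epsilon (R a)
  have hray0 : ∀ a m, P a → P m → ω.w m a = 0 → ∀ u, ω.w u a = 0 ↔ ω.w u m = 0 :=
    fun a m ha hm e u => by
      have e2 := plane_ray ω h01 hP ha.1 ha.2.1 ha.2.2 hm.1 hm.2.1 hm.2.2 e
      rw [← Form.th_apply, ← Form.th_apply, ← Stab.ofHom_zero, ← Stab.ofHom_zero, e2]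
  have hrp : ∀ a, P a → R a (rp a) := fun a ha => Classical.epsilon_spec ⟨a, ha, ω.alt a⟩
  have hrp2 : ∀ a m, P a → P m → ω.w m a = 0 → rp a = rp m := fun a m ha hm e => by
    have : R a = R m := funext fun u => propext (and_congr_right fun _ => hray0 a m ha hm e u)
    simp only [rp, this]
  let T : Finset L := ((C.fin K).toFinset.filter P).image rp
  have hT : ∀ ρ : T, P ρ ∧ rp ρ = ρ := fun ρ => by
    obtain ⟨m, hm, e⟩ := Finset.mem_image.1 ρ.2
    have hm' := (Finset.mem_filter.1 hm).2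
    rw [← e]
    exact ⟨(hrp m hm').1, (hrp2 m _ hm' (hrp m hm').1 (hrp m hm').2).symm⟩
  choose Γ iF iD It hOK hcl hagr using
    fun ρ : T => hray ρ (hT ρ).1.1 (hT ρ).1.2.1 (hT ρ).1.2.2
  let J : Items L (Σ ρ : T, Γ ρ) :=
    ⟨fun x => (It x.1).cl x.2, fun x => (It x.1).fm x.2, fun x => (It x.1).ex x.2⟩
  have hJ : J.OK C := fun x => hOK x.1 x.2
  have hJz : ∀ x, η.zero (J.cl x) := fun x => (hcl x.1 x.2).1
  refine ⟨Σ ρ : T, Γ ρ, inferInstance, inferInstance, J, hJ, hJz, ?_⟩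
  have uJ : Un C (zeroM η) (J.gam ω Finset.univ) := J.un_gam hJ _ fun x _ => hJz x
  have key : ∀ n ∈ C.S, n ∈ Λ → (h : QA ω C).fn n = J.gam ω Finset.univ n := by
    refine Cone.induction fun n hn ih hΛn => ?_
    by_cases h0 : n = 0
    · rw [h0, hh.2, uJ.2]
    by_cases hz : η.zero n
    swap
    · rw [(mem_GS.1 hh).eq_zero_of_not_mem hz, uJ.eq_zero_of_not_mem hz]
    have hPn : P n := ⟨hn, h0, hz⟩
    let ρ₀ : T := ⟨rp n, Finset.mem_image_of_mem rp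
      (Finset.mem_filter.2 ⟨(C.fin K).mem_toFinset.2 ⟨hn, hK n hΛn⟩, hPn⟩)⟩
    have e1 := zeroP_first_order (σ := Stab.ofHom (ω.th n)) (GS_top hh) (GS_top (mkU_mem ω uJ))
      hn h0 (Stab.ofHom_zero.2 (ω.alt n))
      (by rw [fn_mkU ω uJ]; exact fun m hm => ih m hm (hΛ.below_subset hΛn hm))
    have e2 : Stab.ofHom (ω.th n) = Stab.ofHom (ω.th ρ₀) :=
      plane_ray ω h01 hP hn h0 hz (hrp n hPn).1.1 (hrp n hPn).1.2.1 (hrp n hPn).1.2.2 (hrp n hPn).2
    have e3 : (Finset.univ.filter fun x => ω.w (J.cl x) n = 0) =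
        Finset.univ.map (Function.Embedding.sigmaMk ρ₀) := by
      ext ⟨ρ, γ⟩
      have hPγ : P ((It ρ).cl γ) := ⟨(hOK ρ γ).1, (hOK ρ γ).2, (hcl ρ γ).1⟩
      simp only [Finset.mem_filter, Finset.mem_univ, true_and, Finset.mem_map]
      constructor
      · intro e
        have : ρ = ρ₀ := Subtype.ext (by
          rw [← (hT ρ).2, hrp2 _ _ (hT ρ).1 hPγ (hcl ρ γ).2]
          exact (hrp2 _ _ hPn hPγ e).symm)
        subst this
        exact ⟨γ, rfl⟩
      · rintro ⟨γ', e⟩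
        rw [← e]
        exact (hray0 n _ hPn (hrp n hPn).1 (hrp n hPn).2 _).2 (hcl ρ₀ γ').2
    rw [plane_zeroP ω hP J hJ hJz hn h0 hz, e3,
      ← J.gam_emb hJ (It ρ₀) (Function.Embedding.sigmaMk ρ₀) (fun _ => rfl) (fun _ => rfl)
        (fun _ => rfl), e2, hagr ρ₀ n hΛn, sub_self, fn_mkU ω uJ] at e1
    exact sub_eq_zero.1 e1.symm
  intro n hn
  by_cases hC : n ∈ C.S
  · exact key n hC hn
  · rw [(mem_GS.1 hh).eq_zero_of_not_memC hC, uJ.eq_zero_of_not_memC hC]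
end plane

section walls
omit [Fintype I] [DecidableEq I] in
theorem line_orth {σ : Stab L} {n₀ : L} (hl : Line σ n₀) {a b : L} (ha : σ.zero a)
    (hb : σ.zero b) : ω.w a b = 0 := by
  obtain ⟨k, hk, x, hx⟩ := hl.2 a ha
  obtain ⟨l, hl', y, hy⟩ := hl.2 b hb
  have h : ω.w (k • a) (l • b) = 0 := by
    rw [hx, hy]
    simp [ω.alt]
  simp only [map_nsmul, AddMonoidHom.nsmul_apply, nsmul_eq_mul, mul_eq_zero, Nat.cast_eq_zero] at h
  omega

omit [Fintype I] [DecidableEq I] in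
theorem agr_of_zero {C : Cone L} {σ : Stab L} {Λ : Set L} {u v : L → KK} (hu : Un C (zeroM σ) u)
    (hv : Un C (zeroM σ) v) (h : ∀ n ∈ Λ, n ∈ C.S → n ≠ 0 → σ.zero n → u n = v n) : Agr Λ u v := by
  intro n hn
  by_cases h0 : n = 0
  · rw [h0, hu.2, hv.2]
  by_cases hC : n ∈ C.S
  · by_cases hz : σ.zero n
    · exact h n hn hC h0 hz
    · rw [hu.eq_zero_of_not_mem hz, hv.eq_zero_of_not_mem hz]
  · rw [hu.eq_zero_of_not_memC hC, hv.eq_zero_of_not_memC hC]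

omit [Fintype I] [DecidableEq I] in
theorem coef_pos {C : Cone L} {n n₀ : L} (hn : n ∈ C.S) (h0 : n ≠ 0) (hn₀ : n₀ ∈ C.S) {k : ℕ}
    (hk : 0 < k) {x : ℤ} (h : k • n = x • n₀) : 0 < x := by
  have h1 := congrArg C.deg h
  rw [map_nsmul, map_zsmul, nsmul_eq_mul, smul_eq_mul] at h1
  have h2 : 0 < (k : ℤ) * C.deg n := mul_pos (by exact_mod_cast hk) (C.pos n hn h0)
  rw [h1] at h2
  by_contra h3
  exact absurd h2 (not_lt.2 (mul_nonpos_of_nonpos_of_nonneg (not_lt.1 h3) (C.deg_nonneg hn₀)))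

omit [Fintype I] [DecidableEq I] in
theorem flow_plane {σ : Stab L} {n₀ n₁ : L} (hl : Line σ n₀) (h01 : ω.w n₁ n₀ ≠ 0) :
    (flow σ (ω.th n₀) n₁).zero n₀ ∧ ∀ a, (flow σ (ω.th n₀) n₁).zero a →
      ∃ k : ℕ, 0 < k ∧ ∃ x y : ℤ, k • a = x • n₀ + y • n₁ := by
  have key : ∀ a, (flow σ (ω.th n₀) n₁).zero a ↔
      σ.zero (|ω.th n₀ n₁| • a - ((ω.th n₀ n₁).sign * ω.th n₀ a) • n₁) := fun a => by
    unfold Stab.zero
    rw [flow_nn, flow_nn, map_neg, mul_neg, neg_smul, smul_neg, neg_sub, neg_sub_neg]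
  constructor
  · rw [key, Form.th_apply ω n₀ n₀, ω.alt, mul_zero, zero_smul, sub_zero]
    exact hl.1.zsmul _
  · intro a ha
    obtain ⟨k, hk, x, hx⟩ := hl.2 _ ((key a).1 ha)
    refine ⟨k * (ω.th n₀ n₁).natAbs, Nat.mul_pos hk (Int.natAbs_pos.2 h01), x,
      k * ((ω.th n₀ n₁).sign * ω.th n₀ a), ?_⟩
    rw [← hx, mul_smul, mul_smul (k : ℤ), natCast_zsmul, smul_sub, sub_add_cancel,
      ← natCast_zsmul a, Int.natCast_natAbs]

theorem wall_end (s : Seed L I) {σ : Stab L} {n₀ : L} (hn : n₀ ∈ s.cone.S) (h0 : n₀ ≠ 0)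
    (hl : Line σ n₀) :
    ∃ (Γ : Type) (_ : Fintype Γ) (_ : DecidableEq Γ) (It : Items L Γ), It.OK s.cone ∧
      (∀ γ, σ.zero (It.cl γ)) ∧
      (zeroP ((Stab.ofHom (ω.th n₀)).lex σ) (clu ω s) : QA ω s.cone).fn =
        It.gam ω Finset.univ := by
  rcases zeroP_attractor ω s hn h0 hl.1 hl.2 with h | ⟨i, hi, h⟩
  · refine ⟨Empty, inferInstance, inferInstance, ⟨fun e => e.elim, fun e => e.elim,
      fun e => e.elim⟩, fun e => e.elim, fun e => e.elim, ?_⟩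
    rw [h, Finset.univ_eq_empty, Items.gam_empty (C := s.cone) _ fun e => e.elim]
    rfl
  · have hI : (⟨fun _ => s.e i, fun _ => true, fun _ => 1⟩ : Items L Unit).OK s.cone :=
      fun _ => ⟨s.e_mem i, s.e_ne_zero i⟩
    refine ⟨Unit, inferInstance, inferInstance, _, hI, fun _ => hi, ?_⟩
    rw [h, Finset.univ_unique, Items.gam_singleton _ hI, EU,
      fn_mkU ω (un_Efun (s.e_mem i) (s.e_ne_zero i))]
    rfl

/-- every wall function is a product of dilogarithms -/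
theorem wall_function (s : Seed L I) (K : ℕ) (σ : Stab L) (n₀ : L) (hn : n₀ ∈ s.cone.S)
    (h0 : n₀ ≠ 0) (hl : Line σ n₀) :
    ∃ (Γ : Type) (_ : Fintype Γ) (_ : DecidableEq Γ) (It : Items L Γ), It.OK s.cone ∧
      (∀ γ, σ.zero (It.cl γ)) ∧
      Agr {n | s.cone.deg n ≤ K} (zeroP σ (clu ω s) : QA ω s.cone).fn (It.gam ω Finset.univ) := by
  classical
  have hg : clu ω s ∈ GS ω s.cone ⊤ := (clu_spec ω s).1
  induction K generalizing σ n₀ with
  | zero =>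
    have hI : (⟨fun e => e.elim, fun e => e.elim, fun e => e.elim⟩ : Items L Empty).OK s.cone :=
      fun e => e.elim
    refine ⟨Empty, inferInstance, inferInstance, _, hI, fun e => e.elim,
      agr_of_zero (zeroP_mem σ _) (Items.un_gam _ hI _ fun e => e.elim) fun n h1 h2 h3 _ => ?_⟩
    have := s.cone.pos n h2 h3
    simp only [Set.mem_ofPred_eq, Nat.cast_zero] at h1
    omega
  | succ K ihK =>
    obtain ⟨F, hF⟩ : ∃ F : Finset L, ∀ n, n ∈ F ↔
        n ∈ s.cone.S ∧ n ≠ 0 ∧ s.cone.deg n ≤ ((K + 1 : ℕ) : ℤ) :=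
      ⟨(s.cone.fin ((K + 1 : ℕ) : ℤ)).toFinset.filter (· ≠ 0), fun n => by
        simp only [Finset.mem_filter, Set.Finite.mem_toFinset, Set.mem_ofPred_eq]
        tauto⟩
    induction hc : (F.filter (Dis σ (ω.th n₀))).card using Nat.strong_induction_on
      generalizing σ with
    | h c ihc =>
    have hw : ∀ a, σ.zero a → ω.th n₀ a = 0 := fun a ha => line_orth ω hl ha hl.1
    by_cases hd : ∃ n ∈ F, Dis σ (ω.th n₀) n
    swap
    · obtain ⟨Γ, i1, i2, It, h1, h2, h3⟩ := wall_end ω s hn h0 hl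
      refine ⟨Γ, i1, i2, It, h1, h2, ?_⟩
      rw [← h3]
      exact (fact_agr (lower_deg _) (fun n a1 a2 a3 => no_dis_lex σ _ hw
        fun h => hd ⟨n, (hF n).2 ⟨a2, a3, a1⟩, h⟩) hg hg fun _ _ => rfl).2.1
    obtain ⟨n₁, m1, m2, -, m4, m5, m6⟩ := exists_first_wall σ _ hw F hd
    have h01 : ω.w n₁ n₀ ≠ 0 := by
      rcases m2 with h | h
      exacts [h.2.ne', h.2.ne]
    obtain ⟨hz₀, hP⟩ := flow_plane ω hl h01
    generalize flow σ (ω.th n₀) n₁ = η at m4 m5 m6 hz₀ hP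
    have hl₀ := plane_line ω h01 hP hn h0 hz₀
    have hΛ : Lower s.cone
        {n | s.cone.deg n ≤ K ∨ (s.cone.deg n ≤ ((K + 1 : ℕ) : ℤ) ∧ σ.zero n)} := by
      intro n hn' m hm hnm
      by_cases e : m = n
      · exact e ▸ hn'
      · have := Below.deg_lt (show m ∈ Below s.cone n from ⟨hm, hnm, e⟩)
        refine Or.inl ?_
        rcases hn' with h | h
        · omega
        · have := h.1
          omega
    obtain ⟨Γ, i1, i2, It, h1, -, h3⟩ := plane_rebuild ω h01 hP (zeroP_mem η (clu ω s)) hΛ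
      ((K + 1 : ℕ) : ℤ) (fun n hn' => by
        rcases hn' with h | h
        · omega
        · exact h.1) (fun n a1 a2 a3 => by
        rw [← zeroP_lex _ _ hg]
        by_cases e : ω.w n n₀ = 0
        · obtain ⟨k, hk, x, hx⟩ := hl₀.2 n (Stab.lex_zero.2 ⟨a3, Stab.ofHom_zero.2 e⟩)
          have hx0 := coef_pos a1 a2 hn hk hx
          have he : Stab.ofHom (ω.th n) = Stab.ofHom (ω.th n₀) := Stab.ext' fun a => by
            have h := congrArg (ω.w a) hx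
            rw [map_nsmul, map_zsmul, nsmul_eq_mul, smul_eq_mul] at h
            rw [Stab.ofHom_nn, Stab.ofHom_nn, Form.th_apply, Form.th_apply,
              ← mul_nonneg_iff_of_pos_left (show (0 : ℤ) < k by exact_mod_cast hk), h,
              mul_nonneg_iff_of_pos_left hx0]
          obtain ⟨Γ, i1, i2, It, b1, b2, b3⟩ := ihc _ (hc ▸ Finset.card_lt_card
            ⟨fun m hm => Finset.mem_filter.2 ⟨(Finset.mem_filter.1 hm).1,
              m6 m (Finset.mem_filter.1 hm).1 (Finset.mem_filter.1 hm).2⟩,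
            fun h => m5 (Finset.mem_filter.1 (h (Finset.mem_filter.2 ⟨m1, m2⟩))).2⟩) _ hl₀ rfl
          rw [← he] at b2 b3
          refine ⟨Γ, i1, i2, It, b1, fun γ => ⟨(Stab.lex_zero.1 (b2 γ)).1,
            (Stab.ofHom_zero (θ := ω.th n)).1 (Stab.lex_zero.1 (b2 γ)).2⟩, fun m hm => b3 m ?_⟩
          rcases hm with h | h
          · rw [Set.mem_ofPred_eq]
            omega
          · exact h.1
        · obtain ⟨Γ, i1, i2, It, b1, b2, b3⟩ := ihK _ n a1 a2 (plane_line ω h01 hP a1 a2 a3)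
          refine ⟨Γ, i1, i2, It, b1, fun γ => ⟨(Stab.lex_zero.1 (b2 γ)).1,
            (Stab.ofHom_zero (θ := ω.th n)).1 (Stab.lex_zero.1 (b2 γ)).2⟩,
            agr_of_zero (zeroP_mem _ _) (Items.un_gam _ b1 _ fun γ _ => b2 γ)
              fun m hm c1 c2 c3 => ?_⟩
          rcases hm with h | h
          · exact b3 m h
          · obtain ⟨k, hk, x, hx⟩ := hl.2 m h.2
            have hx0 := coef_pos c1 c2 hn hk hx
            have c4 : ω.w m n = 0 := (Stab.ofHom_zero (θ := ω.th n)).1 (Stab.lex_zero.1 c3).2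
            have c5 := congrArg (ω.w n) hx
            rw [map_nsmul, map_zsmul, ω.skew n m, c4, neg_zero, smul_zero, smul_eq_mul] at c5
            exact (mul_ne_zero hx0.ne' e c5.symm).elim)
    have hu : Un s.cone ⊤ (It.gam ω Finset.univ) := Items.un_gam _ h1 _ fun _ _ => trivial
    obtain ⟨Γ', j1, j2, It', k1, k2, k3⟩ := local_torus (ω := ω) It h1 σ
      (fun a _ b _ ha hb => line_orth ω hl ha hb) (K + 1)
    refine ⟨Γ', j1, j2, It', k1, k2, agr_of_zero (zeroP_mem σ _)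
      (Items.un_gam _ k1 _ fun γ _ => k2 γ) fun n a1 a2 a3 a4 => ?_⟩
    have e1 := (fact_agr (σ := σ) (σ' := η.lex σ) (lower_deg ((K + 1 : ℕ) : ℤ))
      (fun m b1 b2 b3 => by
        have := m4 m ((hF m).2 ⟨b2, b3, b1⟩)
        have := η.tri m
        have := @Stab.neg.not_pos _ _ σ m
        rw [Stab.lex_neg, Stab.lex_pos]
        tauto) hg hg fun _ _ => rfl).2.1 n a1
    have e2 := (fact_agr (σ := σ) (σ' := σ) hΛ (fun _ _ _ _ => ⟨Iff.rfl, Iff.rfl⟩)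
      (GS_top (zeroP_mem η (clu ω s))) (mkU_mem ω hu) (by rw [fn_mkU ω hu]; exact h3)).2.1 n
      (Or.inr ⟨a1, a4⟩)
    rw [e1, zeroP_lex _ _ hg, e2]
    exact k3 n a1
end walls

section broken
theorem Dis.ne_zero {σ : Stab L} {w : L →+ ℤ} {n : L} (h : Dis σ w n) : w n ≠ 0 := by
  rcases h with h | h <;> have := h.2 <;> omega
theorem flow_line {σ : Stab L} (hσ : Gen σ) {w : L →+ ℤ} {n₁ : L} (h : w n₁ ≠ 0) :
    Line (flow σ w n₁) n₁ := by
  have e : ∀ a, (flow σ w n₁).zero a ↔ σ.zero (|w n₁| • a - ((w n₁).sign * w a) • n₁) := by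
    intro a
    rw [Stab.zero, Stab.zero, flow_nn, flow_nn, map_neg, smul_neg, mul_neg, neg_smul, neg_sub,
      neg_sub_neg]
  refine ⟨?_, fun a ha => ?_⟩
  · rw [e, Int.sign_mul_self_eq_abs, sub_self]
    exact σ.zero_zero
  · obtain ⟨k, hk, hk'⟩ := hσ _ ((e a).1 ha)
    refine ⟨k * (w n₁).natAbs, Nat.mul_pos hk (Int.natAbs_pos.2 h), k * ((w n₁).sign * w a), ?_⟩
    rw [smul_sub, sub_eq_zero] at hk'
    rw [mul_smul, mul_smul, natCast_zsmul, ← hk', ← natCast_zsmul a, Int.natCast_natAbs]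
theorem Line.pos {C : Cone L} {η : Stab L} {n₁ a : L} (hl : Line η n₁) (hn : n₁ ∈ C.S)
    (ha : a ∈ C.S) (h0 : a ≠ 0) (hz : η.zero a) :
    ∃ k : ℕ, 0 < k ∧ ∃ x : ℤ, 0 < x ∧ k • a = x • n₁ := by
  obtain ⟨k, hk, x, hx⟩ := hl.2 a hz
  refine ⟨k, hk, x, ?_, hx⟩
  have e := congrArg C.deg hx
  rw [map_nsmul, map_zsmul, nsmul_eq_mul, smul_eq_mul] at e
  have h1 := C.pos a ha h0
  have h2 := C.deg_nonneg hn
  have h3 : (0 : ℤ) < k * C.deg a := mul_pos (by exact_mod_cast hk) h1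
  by_contra hc
  have := mul_nonpos_of_nonpos_of_nonneg (not_lt.1 hc) h2
  omega
theorem Line.neg_iff {C : Cone L} {η : Stab L} {n₁ a : L} (hl : Line η n₁) (hn : n₁ ∈ C.S)
    (ha : a ∈ C.S) (h0 : a ≠ 0) (hz : η.zero a) (τ : Stab L) :
    (τ.neg a ↔ τ.neg n₁) ∧ (τ.pos a ↔ τ.pos n₁) := by
  obtain ⟨k, hk, x, hx, e⟩ := hl.pos hn ha h0 hz
  refine ⟨not_congr ?_, not_congr ?_⟩
  · rw [← Stab.nn_nsmul_iff hk, e, Stab.nn_zsmul_iff hx]
  · rw [← Stab.nn_nsmul_iff hk, smul_neg, e, ← smul_neg, Stab.nn_zsmul_iff hx]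
theorem Line.negP_of_neg {C : Cone L} {η τ : Stab L} {n₁ : L} (hl : Line η n₁) (hn : n₁ ∈ C.S)
    {z : (QA ω C)ˣ} (hz : z ∈ GS ω C (zeroM η)) (h : τ.neg n₁) : negP τ z = z := by
  have h1 : z ∈ GS ω C (negM τ) := ⟨fun n hn' => ⟨(hz.1 n hn').1, by
    by_cases h0 : n = 0
    · exact Or.inr h0
    · exact Or.inl ((hl.neg_iff hn (hz.1 n hn').1 h0 (hz.1 n hn').2 τ).1.2 h)⟩, hz.2⟩
  simpa only [mul_one] using (fact_unique h1 (one_mem _) (one_mem _)).1
theorem Line.negP_of_pos {C : Cone L} {η τ : Stab L} {n₁ : L} (hl : Line η n₁) (hn : n₁ ∈ C.S)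
    {z : (QA ω C)ˣ} (hz : z ∈ GS ω C (zeroM η)) (h : τ.pos n₁) : negP τ z = 1 := by
  have h1 : z ∈ GS ω C (posM τ) := ⟨fun n hn' => ⟨(hz.1 n hn').1, by
    by_cases h0 : n = 0
    · exact Or.inr h0
    · exact Or.inl ((hl.neg_iff hn (hz.1 n hn').1 h0 (hz.1 n hn').2 τ).2.2 h)⟩, hz.2⟩
  simpa only [one_mul] using (fact_unique (one_mem _) (one_mem _) h1).1
theorem Line.orth {η : Stab L} {n₁ a b : L} (hl : Line η n₁) (ha : η.zero a) (hb : η.zero b) :
    ω.w a b = 0 := by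
  obtain ⟨k, hk, x, hx⟩ := hl.2 a ha
  obtain ⟨l, hl', y, hy⟩ := hl.2 b hb
  have e : ω.w (k • a) (l • b) = 0 := by
    rw [hx, hy]
    simp [ω.alt]
  simp only [map_nsmul, AddMonoidHom.nsmul_apply, nsmul_eq_mul, mul_eq_zero, Nat.cast_eq_zero] at e
  omega
theorem uth_agr (s : Seed L I) {σ σ' : Stab L} {p₀ p : L}
    (h : ∀ n ∈ s.cone.S, n ≠ 0 → s.cone.deg n ≤ s.cone.deg (p - p₀) →
      (σ.neg n ↔ σ'.neg n) ∧ (σ.pos n ↔ σ'.pos n)) {f : L → KK} (hf : InC s.cone p₀ f) :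
    uth ω s σ f p = uth ω s σ' f p := by
  have hg := (clu_spec ω s).1
  have h1 := (fact_agr (lower_deg (C := s.cone) (s.cone.deg (p - p₀)))
    (fun n hn hC h0 => h n hC h0 hn) hg hg fun _ _ => rfl).1
  have m1 := GS_top (negP_mem σ (clu ω s))
  have m2 := GS_top (negP_mem σ' (clu ω s))
  refine sandwich_agr (p₀ := p₀) ?_ (Un.inC (inv_mem m1)) (Un.inC (inv_mem m2)) (Un.inC m1)
    (Un.inC m2) (agr_inv (lower_deg _) m1 m2 h1) h1
  rwa [fn_mkA ω (adm_of_supp _ p₀ hf)]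
theorem un_tw {C : Cone L} (b : L →+ ℤ) {g : (QA ω C)ˣ} (hg : g ∈ GS ω C ⊤) :
    Un C ⊤ (tw b (g : QA ω C)).fn :=
  ⟨fun n hn => hg.1 n (right_ne_zero_of_mul hn), by rw [fn_tw, map_zero, tt_zero, one_mul, hg.2]⟩
/-- one wall crossing of a broken line -/
theorem cross_wall (s : Seed L I) {σ : Stab L} (hσ : Gen σ) {p₀ p n₁ : L} (hn : n₁ ∈ s.cone.S)
    (h0 : n₁ ≠ 0) (hd : Dis σ (ω.th p) n₁)
    (hF : ∀ n ∈ s.cone.S, n ≠ 0 → s.cone.deg n ≤ s.cone.deg (p - p₀) →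
      ((flow σ (ω.th p) n₁).neg n → σ.neg n) ∧ ((flow σ (ω.th p) n₁).pos n → σ.pos n)) :
    ∃ ρ : L → KK, Un s.cone ⊤ ρ ∧ (∀ m, ρ m ∈ PosK) ∧ ∀ f, InC s.cone p₀ f →
      uth ω s σ f p =
        ∑ᶠ m, ρ m * uth ω s ((flow σ (ω.th p) n₁).lex (Stab.ofHom (ω.th p))) f (p - m) := by
  have hl := flow_line hσ hd.ne_zero
  set η := flow σ (ω.th p) n₁ with hη
  have hg := (clu_spec ω s).1
  have hz := zeroP_mem η (clu ω s)
  obtain ⟨Γ, _, _, It, hI, hcl, hag⟩ :=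
    wall_function ω s (s.cone.deg (p - p₀)).toNat η n₁ hn h0 hl
  have hun : Un s.cone ⊤ (It.gam ω Finset.univ) := It.un_gam hI _ fun _ _ => trivial
  have hγ := mkU_mem ω hun
  have ha1 : Agr {n | s.cone.deg n ≤ s.cone.deg (p - p₀)} (zeroP η (clu ω s) : QA ω s.cone).fn
      (mkU ω s.cone (It.gam ω Finset.univ) : QA ω s.cone).fn := fun n hn' => by
    rw [fn_mkU ω hun]
    exact hag n (le_trans hn' (Int.self_le_toNat _))
  have ha2 := agr_inv (lower_deg _) (GS_top hz) hγ ha1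
  have horth : ∀ γ γ', ω.w (It.cl γ) (It.cl γ') = 0 := fun γ γ' => hl.orth ω (hcl γ) (hcl γ')
  have hsg := fun γ => hl.neg_iff hn (hI γ).1 (hI γ).2 (hcl γ) (Stab.ofHom (ω.th p))
  have hlex : ∀ f, InC s.cone p₀ f → uth ω s σ f p = uth ω s (η.lex σ) f p := fun f hf => by
    refine uth_agr ω s (fun n hC hn0 hdeg => ?_) hf
    obtain ⟨h1, h2⟩ := hF n hC hn0 hdeg
    rw [Stab.lex_neg, Stab.lex_pos]
    refine ⟨⟨fun h => ?_, fun h => h.elim h1 fun h => h.2⟩,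
      ⟨fun h => ?_, fun h => h.elim h2 fun h => h.2⟩⟩
    · rcases η.tri n with h' | h' | h'
      exacts [Or.inl h', Or.inr ⟨h', h⟩, (h.not_pos (h2 h')).elim]
    · rcases η.tri n with h' | h' | h'
      exacts [((h1 h').not_pos h).elim, Or.inr ⟨h', h⟩, Or.inl h']
  rcases hd with ⟨hs, hw⟩ | ⟨hs, hw⟩
  · have hb : ∀ γ, 0 < ω.th p (It.cl γ) := fun γ =>
      Stab.ofHom_pos.1 ((hsg γ).2.2 (Stab.ofHom_pos.2 hw))
    refine ⟨_, (un_tw ω _ hγ).conv (un_tw ω _ (inv_mem hγ)),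
      fun m => (It.wall_pos hI horth (ω.th p) hb m).1, fun f hf => ?_⟩
    have hu := uth_inC ω s (η.lex (Stab.ofHom (ω.th p))) hf
    rw [hlex f hf]
    unfold uth at hu ⊢
    rw [negP_lex η σ hg, hl.negP_of_neg ω hn hz hs]
    rw [negP_lex η _ hg, hl.negP_of_pos ω hn hz (Stab.ofHom_pos.2 hw), mul_one] at hu ⊢
    refine Eq.trans ?_ (sandwich _ _ _ p)
    rw [← sandwich_agr hu (Un.inC (inv_mem (GS_top hz))) (Un.inC (inv_mem hγ))
      (Un.inC (GS_top hz)) (Un.inC hγ) ha2 ha1]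
    simp only [mul_inv_rev, Units.val_mul, mul_assoc]
  · have hb : ∀ γ, 0 < (-ω.th p) (It.cl γ) := fun γ => by
      have := Stab.ofHom_neg.1 ((hsg γ).1.2 (Stab.ofHom_neg.2 hw))
      rw [AddMonoidHom.neg_apply]
      omega
    refine ⟨_, (un_tw ω (-ω.th p) (inv_mem hγ)).conv (ω := ω) (un_tw ω (ω.th p) hγ),
      fun m => ?_, fun f hf => ?_⟩
    · have := (It.wall_pos hI horth (-ω.th p) hb m).2
      rwa [neg_neg] at this
    have hu := uth_inC ω s (η.lex (Stab.ofHom (ω.th p))) hf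
    rw [hlex f hf]
    unfold uth at hu ⊢
    rw [negP_lex η σ hg, hl.negP_of_pos ω hn hz hs, mul_one]
    rw [negP_lex η _ hg, hl.negP_of_neg ω hn hz (Stab.ofHom_neg.2 hw)] at hu ⊢
    refine Eq.trans ?_ (sandwich _ _ _ p)
    rw [← sandwich_agr hu (Un.inC (GS_top hz)) (Un.inC hγ) (Un.inC (inv_mem (GS_top hz)))
      (Un.inC (inv_mem hγ)) ha1 ha2]
    simp only [mul_inv_rev, Units.val_mul, mul_assoc, Units.mul_inv, mul_one,
      Units.mul_inv_cancel_left]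
omit [AddCommGroup L] in
theorem broken_collect {c : (L → KK) → L → KK} {P : (L → KK) → Prop} (M : Finset L) {ρ : L → KK}
    (hρ : ∀ m, ρ m ∈ PosK) {φ : L → (L → KK) → KK}
    (h : ∀ m ∈ M, ∃ (F : Finset L) (N : L → KK), (∀ q, N q ∈ PosK) ∧
      ∀ f, P f → φ m f = ∑ q ∈ F, N q * c f q) :
    ∃ (F : Finset L) (N : L → KK), (∀ q, N q ∈ PosK) ∧
      ∀ f, P f → ∑ m ∈ M, ρ m * φ m f = ∑ q ∈ F, N q * c f q := by
  classical
  choose! F N hN hF using h
  refine ⟨M.biUnion F, fun q => ∑ m ∈ M, if q ∈ F m then ρ m * N m q else 0, fun q => ?_,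
    fun f hf => ?_⟩
  · refine PosK.sum_mem fun m hm => ?_
    split_ifs
    exacts [mul_mem_PosK (hρ m) (hN m hm q), PosK.zero_mem]
  · simp only [Finset.sum_mul]
    rw [Finset.sum_comm]
    refine Finset.sum_congr rfl fun m hm => ?_
    simp only [ite_mul, zero_mul]
    rw [← Finset.sum_filter, Finset.filter_mem_eq_inter,
      Finset.inter_eq_right.2 (Finset.subset_biUnion_of_mem F hm), hF m hm f hf, Finset.mul_sum]
    exact Finset.sum_congr rfl fun q _ => (mul_assoc _ _ _).symm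
theorem broken_lines (s : Seed L I) (p₀ p : L) (σ : Stab L) (hσ : Gen σ) :
    ∃ (F : Finset L) (N : L → KK), (∀ q, N q ∈ PosK) ∧
      ∀ f, InC s.cone p₀ f → uth ω s σ f p = ∑ q ∈ F, N q * cinf ω s f q := by
  classical
  induction hk : (s.cone.deg (p - p₀)).toNat using Nat.strong_induction_on generalizing p σ with
  | h k ih =>
  set M := (s.cone.fin (s.cone.deg (p - p₀))).toFinset with hM
  have hMm : ∀ n, n ∈ M ↔ n ∈ s.cone.S ∧ s.cone.deg n ≤ s.cone.deg (p - p₀) := fun n =>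
    Set.Finite.mem_toFinset _
  induction hj : ((M.erase 0).filter (Dis σ (ω.th p))).card using Nat.strong_induction_on
    generalizing σ with
  | h j ih' =>
  have hw : ∀ a, σ.zero a → ω.th p a = 0 := fun a ha => by
    obtain ⟨k, hk, e⟩ := hσ a ha
    have e' := congrArg (ω.th p) e
    rw [map_nsmul, map_zero, nsmul_eq_mul, mul_eq_zero, Nat.cast_eq_zero] at e'
    omega
  by_cases hD : ∃ n ∈ M.erase 0, Dis σ (ω.th p) n
  · obtain ⟨n₁, hn₁, hd, -, h1, h2, h3⟩ := exists_first_wall σ (ω.th p) hw _ hD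
    have hn₁' := Finset.mem_erase.1 hn₁
    obtain ⟨ρ, hρ, hρ', hc⟩ := cross_wall ω s hσ (p₀ := p₀) ((hMm _).1 hn₁'.2).1 hn₁'.1 hd
      fun n hC h0 hdeg => h1 n (Finset.mem_erase.2 ⟨h0, (hMm n).2 ⟨hC, hdeg⟩⟩)
    set σ' := (flow σ (ω.th p) n₁).lex (Stab.ofHom (ω.th p)) with hσ'
    have hG : Gen σ' := fun a ha => by
      obtain ⟨a1, a2⟩ := Stab.lex_zero.1 ha
      obtain ⟨k, hk, x, e⟩ := (flow_line hσ hd.ne_zero).2 a a1
      have e' := congrArg (ω.th p) e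
      rw [map_nsmul, map_zsmul, Stab.ofHom_zero.1 a2, smul_zero, smul_eq_mul, eq_comm,
        mul_eq_zero] at e'
      exact ⟨k, hk, by rw [e, e'.resolve_right hd.ne_zero, zero_smul]⟩
    obtain ⟨F, N, hN, hF⟩ := broken_collect (c := cinf ω s) (P := InC s.cone p₀) M hρ'
      (φ := fun m f => uth ω s σ' f (p - m)) fun m hm => by
        by_cases h0 : m = 0
        · rw [h0, sub_zero]
          refine ih' _ ?_ σ' hG rfl
          rw [← hj]
          refine Finset.card_lt_card ⟨fun n hn => ?_, fun h => ?_⟩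
          · exact Finset.mem_filter.2 ⟨(Finset.mem_filter.1 hn).1,
              h3 n (Finset.mem_filter.1 hn).1 (Finset.mem_filter.1 hn).2⟩
          · exact h2 (Finset.mem_filter.1 (h (Finset.mem_filter.2 ⟨hn₁, hd⟩))).2
        · refine ih _ ?_ (p - m) σ' hG rfl
          have a1 := s.cone.pos m ((hMm m).1 hm).1 h0
          have a2 := ((hMm m).1 hm).2
          rw [← hk]
          simp only [map_sub] at a2 ⊢
          omega
    refine ⟨F, N, hN, fun f hf => ?_⟩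
    rw [hc f hf, ← hF f hf]
    refine finsum_eq_sum_of_support_subset _ fun m hm => ?_
    have a1 := s.cone.deg_nonneg (uth_inC ω s σ' hf _ (right_ne_zero_of_mul hm))
    refine Finset.mem_coe.2 ((hMm m).2 ⟨(hρ.1 m (left_ne_zero_of_mul hm)).1, ?_⟩)
    simp only [map_sub] at a1 ⊢
    omega
  · refine ⟨{p}, fun _ => 1, fun _ => one_mem_PosK, fun f hf => ?_⟩
    rw [Finset.sum_singleton, one_mul, ← uth_lex ω s σ]
    exact uth_agr ω s (fun n hC h0 hdeg => no_dis_lex σ _ hw fun h =>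
      hD ⟨n, Finset.mem_erase.2 ⟨h0, (hMm n).2 ⟨hC, hdeg⟩⟩, h⟩) hf
/-- expansion in theta functions has positive structure -/
theorem theta_pos (s : Seed L I) (hG : ∃ σ : Stab L, Gen σ) (p₀ p : L) :
    ∃ (F : Finset L) (N : L → KK), (∀ q, N q ∈ PosK) ∧
      ∀ f, InC s.cone p₀ f → f p = ∑ q ∈ F, N q * cinf ω s f q := by
  obtain ⟨σ, hσ⟩ := hG
  obtain ⟨F, N, hN, hF⟩ := broken_lines ω s p₀ p ((Stab.ofHom s.cone.deg).lex σ)
    fun a ha => hσ a (Stab.lex_zero.1 ha).2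
  refine ⟨F, N, hN, fun f hf => ?_⟩
  rw [← hF f hf, uth_of_pos ω s (fun n hn h0 => Stab.lex_pos.2
    (Or.inl (Stab.ofHom_pos.2 (s.cone.pos n hn h0)))) (adm_of_supp _ p₀ hf)]
theorem exists_stab_ker {J : Type} (θ : J → L →+ ℤ) (T : Finset J) :
    ∃ σ : Stab L, ∀ a, σ.zero a → ∀ j ∈ T, θ j a = 0 := by
  classical
  induction T using Finset.induction_on with
  | empty => exact ⟨Stab.ofHom 0, by simp⟩
  | insert i T _ ih =>
    obtain ⟨σ, hσ⟩ := ih
    refine ⟨(Stab.ofHom (θ i)).lex σ, fun a ha j hj => ?_⟩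
    rcases Finset.mem_insert.1 hj with rfl | hj
    exacts [Stab.ofHom_zero.1 (Stab.lex_zero.1 ha).1, hσ a (Stab.lex_zero.1 ha).2 j hj]
theorem exists_gen (J : Type) [Fintype J] : ∃ σ : Stab (ℤ × (J → ℤ)), Gen σ := by
  obtain ⟨σ, hσ⟩ := exists_stab_ker (L := ℤ × (J → ℤ)) (fun j : J =>
    (Pi.evalAddMonoidHom (fun _ : J => ℤ) j).comp (AddMonoidHom.snd ℤ (J → ℤ))) Finset.univ
  refine ⟨(Stab.ofHom (AddMonoidHom.fst ℤ (J → ℤ))).lex σ, fun a ha => ⟨1, one_pos, ?_⟩⟩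
  rw [one_smul]
  exact Prod.ext (Stab.ofHom_zero.1 (Stab.lex_zero.1 ha).1)
    (funext fun j => hσ a (Stab.lex_zero.1 ha).2 j (Finset.mem_univ j))
end broken

end
end Vale.Agent.P066
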