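import Vale.Agent.P066.DCol
import Vale.Agent.P066.QWall

/-! Final assembly. -/

namespace Vale.Agent.P066
noncomputable section
open Net

theorem list_sum_range (α : ℕ →₀ ℕ) (r : ℕ) (hr : α.support ⊆ Finset.range r) :
    ((List.range r).map α).sum = α.degree := by
  rw [Finsupp.degree_apply, Finset.sum_subset hr fun x _ hx => by simpa using hx]
  rfl

open Classical in
theorem key_identity {N : ℕ} (h : Fin (N + 1) → Fin (N + 1)) (hm : Monotone h)
    (hi : ∀ i, i ≤ h i) : ∃ (A : Finset (NL N)) (Nf : NL N → KK) (mu : NL N → Fin (N + 1) → ℕ),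
      (∀ q, Nf q ∈ PosK) ∧ (∀ q, ∑ c, mu q c = N + 1) ∧ ∀ α : ℕ →₀ ℕ, α.degree = N + 1 →
        ∑ f ∈ (Fintype.piFinset fun _ : Fin (N + 1) => α.support).filter
          (fun f => Proper h f ∧ ∑ a, Finsupp.single (f a) 1 = α), tt (2 * asc h f - nE h) =
        ∑ q ∈ A, Nf q * (cnt α (mu q) : KK) := by
  obtain ⟨P, hP⟩ := cinf_net N
  obtain ⟨F, Nf, hN, hF⟩ := theta_pos (om N) (s0 N) (exists_gen (NI N))
    ((N + 1) • ((1, 0) : NL N)) (∑ j, uv h j)
  refine ⟨F.filter fun q => q ∈ P ∧ ∃ μ, q = zv μ ∧ ∑ c, μ c = N + 1, Nf,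
    fun q => if hq : ∃ μ, q = zv μ ∧ ∑ c, μ c = N + 1 then hq.choose else fun _ => 1, hN,
    fun q => ?_, fun α hα => ?_⟩
  · by_cases hq : ∃ μ, q = zv μ ∧ ∑ c, μ c = N + 1
    · simp only [dif_pos hq]; exact hq.choose_spec.2
    · simp only [dif_neg hq]; simp
  · obtain ⟨r, hr⟩ : ∃ r, α.support ⊆ Finset.range r := Finset.exists_nat_subset_range _
    have hs := list_sum_range α r hr
    have hin := fprod_inC (om N) (C := (s0 N).cone) (tot := tot N) (G := Good N fun _ => 0)
      (ε := ((1, 0) : NL N)) (fun p hp => good_cone N hp) ((List.range r).map α)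
    rw [hs, hα] at hin
    rw [← fprod_colour hm hi α r hr, hF _ hin, Finset.sum_filter]
    refine Finset.sum_congr rfl fun q _ => ?_
    rw [hP]
    by_cases hq : ∃ μ, q = zv μ ∧ ∑ c, μ c = N + 1
    · by_cases hqP : q ∈ P
      · rw [if_pos hqP, if_pos ⟨hqP, hq⟩]
        simp only [dif_pos hq]
        rw [← fprod_flat α r hr hq.choose, ← hq.choose_spec.1]
      · rw [if_neg hqP, if_neg fun hh => hqP hh.1, mul_zero]
    · rw [if_neg fun hh : q ∈ P ∧ _ => hq hh.2]
      by_cases hqP : q ∈ P
      · rw [if_pos hqP]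
        by_contra hne
        obtain ⟨μ, h1, h2⟩ := fprod_flat_supp (right_ne_zero_of_mul hne)
        exact hq ⟨μ, h1, by rw [h2, hs, hα]⟩
      · rw [if_neg hqP, mul_zero]

theorem exists_expansion {N : ℕ} (h : Fin (N + 1) → Fin (N + 1)) (hm : Monotone h)
    (hi : ∀ i, i ≤ h i) : ∃ c : (N + 1).Partition → Polynomial ℤ,
      (∀ l k, 0 ≤ (c l).coeff k) ∧ chrom h = ∑ l, MvPowerSeries.C (c l) * epart l := by
  classical
  obtain ⟨A, Nf, mu, hN, hmu, hkey⟩ := key_identity h hm hi
  choose nq hnq using fun q j => PosK_coeff (hN q) j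
  have hmu' : ∀ q, (Finset.univ.val.map (mu q)).sum = N + 1 := hmu
  let part : NL N → (N + 1).Partition := fun q => Nat.Partition.ofSums _ _ (hmu' q)
  let poly : NL N → Polynomial ℤ := fun q =>
    ∑ j ∈ Finset.range (nE h + 1), Polynomial.monomial j (nq q (2 * j - nE h) : ℤ)
  have hpoly : ∀ q k, (poly q).coeff k = if k ≤ nE h then (nq q (2 * k - nE h) : ℤ) else 0 := by
    intro q k
    simp only [poly, Polynomial.finsetSum_coeff, Polynomial.coeff_monomial]
    rw [Finset.sum_ite_eq']
    simp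
  refine ⟨fun l => ∑ q ∈ A.filter fun q => part q = l, poly q, fun l k => ?_, ?_⟩
  · rw [Polynomial.finsetSum_coeff]
    refine Finset.sum_nonneg fun q _ => ?_
    rw [hpoly]; split_ifs <;> simp
  · ext1 α
    rw [map_sum]
    simp only [MvPowerSeries.coeff_C_mul]
    by_cases hα : α.degree = N + 1
    swap
    · rw [coeff_chrom_of_ne h hα]
      exact (Finset.sum_eq_zero fun l _ => by rw [coeff_epart_of_ne l hα, mul_zero]).symm
    have e1 : ∑ l, (∑ q ∈ A.filter fun q => part q = l, poly q) *
        MvPowerSeries.coeff α (epart l) = ∑ q ∈ A, poly q * (cnt α (mu q) : Polynomial ℤ) := by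
      rw [← Finset.sum_fiberwise A part]
      refine Finset.sum_congr rfl fun l _ => ?_
      rw [Finset.sum_mul]
      refine Finset.sum_congr rfl fun q hq => ?_
      rw [← (Finset.mem_filter.1 hq).2, epart_ofSums, coeff_prod_esym]
    rw [e1]
    ext k
    have e2 : (MvPowerSeries.coeff α (chrom h)).coeff k =
        ∑ f ∈ (Fintype.piFinset fun _ : Fin (N + 1) => α.support).filter
          (fun f => Proper h f ∧ ∑ a, Finsupp.single (f a) 1 = α),
          if k = asc h f then (1 : ℤ) else 0 := by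
      change (chrom h α).coeff k = _
      simp only [chrom, Polynomial.finsetSum_coeff, Polynomial.coeff_X_pow]
    rw [e2, Polynomial.finsetSum_coeff]
    simp only [Polynomial.coeff_mul_natCast, hpoly]
    by_cases hk : k ≤ nE h
    · simp only [if_pos hk]
      have e3 := congrArg (fun x : KK => x.coeff (2 * k - nE h)) (hkey α hα)
      simp only [HahnSeries.coeff_sum] at e3
      have e4 : ∀ q, (Nf q * (cnt α (mu q) : KK)).coeff (2 * k - nE h) =
          (nq q (2 * k - nE h) : ℚ) * cnt α (mu q) := by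
        intro q
        rw [mul_comm (Nf q), ← nsmul_eq_mul, HahnSeries.coeff_nsmul, Pi.smul_apply, hnq,
          nsmul_eq_mul, mul_comm]
      have e5 : ∀ f : Fin (N + 1) → ℕ, (tt (2 * asc h f - nE h)).coeff (2 * k - nE h) =
          if k = asc h f then (1 : ℚ) else 0 := by
        intro f
        simp only [tt, HahnSeries.coeff_single]
        by_cases hf : k = asc h f
        · simp [hf]
        · rw [if_neg hf, if_neg (by omega)]
      simp only [e4, e5] at e3
      exact_mod_cast e3
    · simp only [if_neg hk, zero_mul, Finset.sum_const_zero]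
      refine Finset.sum_eq_zero fun f _ => if_neg fun hf => hk ?_
      rw [hf]; exact asc_le h f

end
end Vale.Agent.P066
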