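import Vale.Agent.P066.Stab

/-! Twisted convolution on a lattice with a skew form, and the completed quantum torus. -/

namespace Vale.Agent.P066
noncomputable section

/-- coefficients: Laurent series in `t` -/
abbrev KK : Type := LaurentSeries ℚ
/-- `t ^ k` -/
def tt (k : ℤ) : KK := HahnSeries.single k 1
theorem tt_add (a b : ℤ) : tt (a + b) = tt a * tt b := by
  simp [tt, HahnSeries.single_mul_single]
theorem tt_zero : tt 0 = 1 := rfl
theorem tt_ne_zero (a : ℤ) : tt a ≠ 0 := HahnSeries.single_ne_zero one_ne_zero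

/-- an alternating integral form -/
structure Form (L : Type) [AddCommGroup L] where
  w : L →+ L →+ ℤ
  alt : ∀ a, w a a = 0

/-- a strictly convex, locally finite cone with a degree function -/
structure Cone (L : Type) [AddCommGroup L] where
  S : AddSubmonoid L
  deg : L →+ ℤ
  pos : ∀ n ∈ S, n ≠ 0 → 0 < deg n
  fin : ∀ k : ℤ, {n | n ∈ S ∧ deg n ≤ k}.Finite

variable {L : Type} [AddCommGroup L]

theorem Form.skew (ω : Form L) (a b : L) : ω.w a b = - ω.w b a := by
  have h := ω.alt (a + b)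
  simp only [map_add, AddMonoidHom.add_apply, ω.alt] at h
  omega

theorem Cone.deg_nonneg (C : Cone L) {n : L} (h : n ∈ C.S) : 0 ≤ C.deg n := by
  by_cases h0 : n = 0
  · simp [h0]
  · exact (C.pos n h h0).le

/-- twisted convolution: `X ^ a * X ^ b = t ^ ω(a, b) X ^ (a + b)` -/
def conv (ω : Form L) (u v : L → KK) : L → KK :=
  fun n => ∑ᶠ a, tt (ω.w a n) * u a * v (n - a)

/-- supported in finitely many translates of the cone -/
def Adm (C : Cone L) (u : L → KK) : Prop := ∃ F : Finset L, ∀ n, u n ≠ 0 → ∃ p ∈ F, n - p ∈ C.S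

theorem Adm.finite_pairs {C : Cone L} {u v : L → KK} (hu : Adm C u) (hv : Adm C v) (n : L) :
    {a | u a ≠ 0 ∧ v (n - a) ≠ 0}.Finite := by
  classical
  obtain ⟨F, hF⟩ := hu
  obtain ⟨G, hG⟩ := hv
  have : {a | u a ≠ 0 ∧ v (n - a) ≠ 0} ⊆ ⋃ p ∈ F, ⋃ q ∈ G,
      (fun m => p + m) '' {m | m ∈ C.S ∧ C.deg m ≤ C.deg (n - p - q)} := by
    rintro a ⟨h1, h2⟩
    obtain ⟨p, hp, hp'⟩ := hF a h1
    obtain ⟨q, hq, hq'⟩ := hG _ h2
    simp only [Set.mem_iUnion]
    refine ⟨p, hp, q, hq, a - p, ⟨hp', ?_⟩, by simp⟩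
    have := C.deg_nonneg hq'
    simp only [map_sub] at this ⊢
    omega
  exact Set.Finite.subset (F.finite_toSet.biUnion fun p _ =>
    G.finite_toSet.biUnion fun q _ => (C.fin _).image _) this

theorem Adm.finite_conv (ω : Form L) {C : Cone L} {u v : L → KK} (hu : Adm C u) (hv : Adm C v)
    (n : L) : (Function.support fun a => tt (ω.w a n) * u a * v (n - a)).Finite :=
  (hu.finite_pairs hv n).subset fun a ha => by
    simp only [Function.mem_support, ne_eq, mul_eq_zero, not_or] at ha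
    exact ⟨ha.1.2, ha.2⟩

theorem conv_ne_zero (ω : Form L) {u v : L → KK} {n : L} (h : conv ω u v n ≠ 0) :
    ∃ a, u a ≠ 0 ∧ v (n - a) ≠ 0 := by
  by_contra hc
  push Not at hc
  apply h
  unfold conv
  rw [← finsum_zero (α := L)]
  refine finsum_congr fun a => ?_
  by_cases ha : u a = 0
  · simp [ha]
  · simp [hc a ha]

theorem Adm.conv (ω : Form L) {C : Cone L} {u v : L → KK} (hu : Adm C u) (hv : Adm C v) :
    Adm C (conv ω u v) := by
  classical
  obtain ⟨F, hF⟩ := hu
  obtain ⟨G, hG⟩ := hv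
  refine ⟨Finset.image₂ (· + ·) F G, fun n hn => ?_⟩
  obtain ⟨a, h1, h2⟩ := conv_ne_zero ω hn
  obtain ⟨p, hp, hp'⟩ := hF a h1
  obtain ⟨q, hq, hq'⟩ := hG _ h2
  refine ⟨p + q, Finset.mem_image₂_of_mem hp hq, ?_⟩
  have := C.S.add_mem hp' hq'
  rwa [show a - p + (n - a - q) = n - (p + q) by abel] at this

theorem conv_assoc (ω : Form L) {C : Cone L} {u v w : L → KK} (hu : Adm C u) (hv : Adm C v)
    (hw : Adm C w) : conv ω (conv ω u v) w = conv ω u (conv ω v w) := by
  classical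
  funext n
  have hind : ∀ x : L → KK, Adm C x → Adm C fun a => if x a = 0 then 0 else 1 := fun x hx =>
    hx.imp fun F hF a ha => hF a (by intro h; simp [h] at ha)
  have hfin : {x : L × L | u x.1 ≠ 0 ∧ v (x.2 - x.1) ≠ 0 ∧ w (n - x.2) ≠ 0}.Finite := by
    obtain ⟨F, hF⟩ := hu
    obtain ⟨G, hG⟩ := hv
    have h1 : Adm C fun b => if ∃ a, u a ≠ 0 ∧ v (b - a) ≠ 0 then 1 else 0 := by
      refine ⟨Finset.image₂ (· + ·) F G, fun b hb => ?_⟩
      have hb' : ∃ a, u a ≠ 0 ∧ v (b - a) ≠ 0 := by by_contra h; simp [h] at hb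
      obtain ⟨a, h1, h2⟩ := hb'
      obtain ⟨p, hp, hp'⟩ := hF a h1
      obtain ⟨q, hq, hq'⟩ := hG _ h2
      refine ⟨p + q, Finset.mem_image₂_of_mem hp hq, ?_⟩
      have := C.S.add_mem hp' hq'
      rwa [show a - p + (b - a - q) = b - (p + q) by abel] at this
    have h2 := h1.finite_pairs hw n
    refine Set.Finite.subset (h2.biUnion fun b _ =>
      (Adm.finite_pairs ⟨F, hF⟩ ⟨G, hG⟩ b).image fun a => (a, b)) ?_
    rintro ⟨a, b⟩ ⟨x1, x2, x3⟩
    simp only [Set.mem_iUnion]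
    exact ⟨b, ⟨by rw [if_pos ⟨a, x1, x2⟩]; exact one_ne_zero, x3⟩, a, ⟨x1, x2⟩, rfl⟩
  set Φ : L × L → KK := fun x =>
    tt (ω.w x.2 n + ω.w x.1 x.2) * u x.1 * v (x.2 - x.1) * w (n - x.2) with hΦ
  have hΦfin : (Function.support Φ).Finite := hfin.subset fun x hx => by
    simp only [hΦ, Function.mem_support, ne_eq, mul_eq_zero, not_or] at hx
    exact ⟨hx.1.1.2, hx.1.2, hx.2⟩
  have e1 : conv ω (conv ω u v) w n = ∑ᶠ (b) (a), Φ (a, b) := by
    refine finsum_congr fun b => ?_
    simp only [conv]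
    rw [mul_finsum' _ _ (hu.finite_conv ω hv b), finsum_mul']
    · exact finsum_congr fun a => by simp only [hΦ, tt_add]; ring
    · refine (hu.finite_conv ω hv b).subset fun a ha h => ha ?_
      simp only at h ⊢
      rw [h, mul_zero]
  have e2 : conv ω u (conv ω v w) n = ∑ᶠ (a) (b), Φ (a, b) := by
    refine finsum_congr fun a => ?_
    simp only [conv]
    rw [mul_finsum' _ _ (hv.finite_conv ω hw (n - a)), ← finsum_comp_equiv (Equiv.subRight a)]
    refine finsum_congr fun b => ?_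
    simp only [hΦ, Equiv.subRight_apply]
    have h1 : n - a - (b - a) = n - b := by abel
    have h2 : ω.w b n + ω.w a b = ω.w a n + ω.w (b - a) (n - a) := by
      simp only [map_sub, AddMonoidHom.sub_apply, ω.alt, ω.skew b a]; ring
    rw [h1, h2, tt_add]; ring
  rw [e1, e2, ← finsum_curry Φ hΦfin]
  have hΦ' : (Function.support fun x : L × L => Φ x.swap).Finite :=
    hΦfin.preimage (f := Prod.swap) Prod.swap_injective.injOn
  have := finsum_curry (fun x : L × L => Φ x.swap) hΦ'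
  simp only [Prod.swap_prod_mk] at this
  rw [← this]
  exact finsum_comp_equiv (Equiv.prodComm L L) (f := Φ)

end
end Vale.Agent.P066
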