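import Vale.Agent.P066.QRing

/-! Normalised elements, triangular systems, factorisation along a preorder. -/

namespace Vale.Agent.P066
noncomputable section
variable {L : Type} [AddCommGroup L] {ω : Form L} {C : Cone L}

/-- the elements of the cone strictly below `n` -/
def Below (C : Cone L) (n : L) : Set L := {m | m ∈ C.S ∧ n - m ∈ C.S ∧ m ≠ n}
/-- sets closed under going down in the cone -/
def Lower (C : Cone L) (Λ : Set L) : Prop := ∀ n ∈ Λ, ∀ m ∈ C.S, n - m ∈ C.S → m ∈ Λ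
def Agr (Λ : Set L) (u v : L → KK) : Prop := ∀ n ∈ Λ, u n = v n
/-- supported in `p + C` -/
def InC (C : Cone L) (p : L) (u : L → KK) : Prop := ∀ n, u n ≠ 0 → n - p ∈ C.S
/-- normalised functions supported in `C ∩ S` -/
def Un (C : Cone L) (S : AddSubmonoid L) (u : L → KK) : Prop :=
  (∀ n, u n ≠ 0 → n ∈ C.S ∧ n ∈ S) ∧ u 0 = 1
/-- `θ_p = ω(·, p)` -/
def Form.th (ω : Form L) (p : L) : L →+ ℤ := ω.w.flip p
theorem Form.th_apply (ω : Form L) (p a : L) : ω.th p a = ω.w a p := rfl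

section tri
theorem Un.adm {S : AddSubmonoid L} {u : L → KK} (h : Un C S u) : Adm C u :=
  adm_of_supp C 0 fun n hn => by simpa using (h.1 n hn).1
theorem Un.mono {S S' : AddSubmonoid L} {u : L → KK} (h : Un C S u) (hS : S ≤ S') : Un C S' u :=
  ⟨fun n hn => ⟨(h.1 n hn).1, hS (h.1 n hn).2⟩, h.2⟩
theorem Un.inC {S : AddSubmonoid L} {u : L → KK} (h : Un C S u) : InC C 0 u :=
  fun n hn => by simpa using (h.1 n hn).1
theorem lower_below (n : L) : Lower C (Below C n) := by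
  rintro k ⟨-, h2, h3⟩ m hm hkm
  refine ⟨hm, by simpa using C.S.add_mem h2 hkm, ?_⟩
  rintro rfl
  have e1 := C.pos _ h2 (sub_ne_zero.2 h3.symm)
  have e2 := C.deg_nonneg hkm
  rw [map_sub] at e1 e2
  omega
theorem lower_deg (k : ℤ) : Lower C {n | C.deg n ≤ k} := by
  intro n hn m _ h
  have e := C.deg_nonneg h
  rw [map_sub] at e
  rw [Set.mem_ofPred_eq] at hn ⊢
  omega
theorem lower_univ : Lower C Set.univ := fun _ _ _ _ _ => trivial
theorem Lower.below_subset {Λ : Set L} (h : Lower C Λ) {n : L} (hn : n ∈ Λ) : Below C n ⊆ Λ :=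
  fun m hm => h n hn m hm.1 hm.2.1
theorem Below.deg_lt {n m : L} (h : m ∈ Below C n) : C.deg m < C.deg n := by
  have e := C.pos _ h.2.1 (sub_ne_zero.2 h.2.2.symm)
  rw [map_sub] at e
  omega
theorem Cone.induction {P : L → Prop} (h : ∀ n ∈ C.S, (∀ m ∈ Below C n, P m) → P n) :
    ∀ n ∈ C.S, P n := by
  intro n hn
  induction hk : (C.deg n).toNat using Nat.strong_induction_on generalizing n with
  | h k ih =>
    refine h n hn fun m hm => ih _ ?_ m hm.1 rfl
    have e1 := Below.deg_lt hm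
    have e2 := C.deg_nonneg hm.1
    omega
theorem InC.conv {p q : L} {u v : L → KK} (hu : InC C p u) (hv : InC C q v) :
    InC C (p + q) (conv ω u v) := fun n hn => by
  obtain ⟨a, h1, h2⟩ := conv_ne_zero ω hn
  have := C.S.add_mem (hu a h1) (hv _ h2)
  rwa [show a - p + (n - a - q) = n - (p + q) by abel] at this
theorem InC.eq_zero {u : L → KK} (hu : InC C 0 u) {n : L} (hn : n ∉ C.S) : u n = 0 := by
  by_contra h
  exact hn (by simpa using hu n h)
theorem conv_term_eq {u u' v v' : L → KK} (hu : InC C 0 u) (hu' : InC C 0 u') (hv : InC C 0 v)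
    (hv' : InC C 0 v') {n a : L} (h : a ∈ C.S → n - a ∈ C.S → u a = u' a ∧ v (n - a) = v' (n - a)) :
    tt (ω.w a n) * u a * v (n - a) = tt (ω.w a n) * u' a * v' (n - a) := by
  by_cases h1 : a ∈ C.S
  · by_cases h2 : n - a ∈ C.S
    · rw [(h h1 h2).1, (h h1 h2).2]
    · rw [hv.eq_zero h2, hv'.eq_zero h2, mul_zero, mul_zero]
  · rw [hu.eq_zero h1, hu'.eq_zero h1, mul_zero, zero_mul, zero_mul]
theorem conv_at_zero {u v : L → KK} (hu : InC C 0 u) (hv : InC C 0 v) :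
    conv ω u v 0 = u 0 * v 0 := by
  unfold conv
  rw [finsum_eq_single _ 0]
  · simp [tt_zero]
  · intro a ha
    by_cases h1 : a ∈ C.S
    · rw [hv.eq_zero, mul_zero]
      intro h2
      have e1 := C.pos a h1 ha
      have e2 := C.deg_nonneg h2
      rw [map_sub, map_zero] at e2
      omega
    · rw [hu.eq_zero h1, mul_zero, zero_mul]
theorem agr_conv {Λ : Set L} (hΛ : Lower C Λ) {u u' v v' : L → KK} (hu : InC C 0 u)
    (hu' : InC C 0 u') (hv : InC C 0 v) (hv' : InC C 0 v') (h1 : Agr Λ u u') (h2 : Agr Λ v v') :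
    Agr Λ (conv ω u v) (conv ω u' v') := fun n hn =>
  finsum_congr fun a => conv_term_eq hu hu' hv hv' fun ha hb =>
    ⟨h1 a (hΛ n hn a ha hb), h2 _ (hΛ n hn _ hb (by simpa using ha))⟩
theorem Un.conv {S : AddSubmonoid L} {u v : L → KK} (hu : Un C S u) (hv : Un C S v) :
    Un C S (conv ω u v) := by
  refine ⟨fun n hn => ?_, by rw [conv_at_zero hu.inC hv.inC, hu.2, hv.2, mul_one]⟩
  obtain ⟨a, h1, h2⟩ := conv_ne_zero ω hn
  exact ⟨by simpa using C.S.add_mem (hu.1 a h1).1 (hv.1 _ h2).1,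
    by simpa using S.add_mem (hu.1 a h1).2 (hv.1 _ h2).2⟩
theorem first_order {u u' v v' : L → KK} (hu : InC C 0 u) (hu' : InC C 0 u') (hv : InC C 0 v)
    (hv' : InC C 0 v') {n : L} (hn : n ∈ C.S) (h0 : n ≠ 0) (h1 : Agr (Below C n) u u')
    (h2 : Agr (Below C n) v v') :
    conv ω u v n - conv ω u' v' n = (u n - u' n) * v 0 + u 0 * (v n - v' n) := by
  classical
  have hz : (0 : L) ∈ Below C n := ⟨C.S.zero_mem, by simpa using hn, h0.symm⟩
  unfold conv
  rw [← finsum_sub_distrib ((adm_of_supp C 0 hu).finite_conv ω (adm_of_supp C 0 hv) n)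
    ((adm_of_supp C 0 hu').finite_conv ω (adm_of_supp C 0 hv') n),
    finsum_eq_sum_of_support_subset (s := {0, n}), Finset.sum_pair h0.symm]
  · simp only [map_zero, AddMonoidHom.zero_apply, ω.alt, tt_zero, sub_zero, sub_self, ← h1 0 hz,
      ← h2 0 hz]
    ring
  · intro a ha
    by_contra hc
    simp only [Finset.coe_insert, Finset.coe_singleton, Set.mem_insert_iff, Set.mem_singleton_iff,
      not_or] at hc
    refine ha (sub_eq_zero.2 (conv_term_eq hu hu' hv hv' fun ha hb =>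
      ⟨h1 a ⟨ha, hb, hc.2⟩, h2 _ ⟨hb, by simpa using ha, by simpa using hc.1⟩⟩))
open Classical in
/-- successive approximations of the solution of a triangular system -/
def triSeq (C : Cone L) (Ψ : (L → KK) → L → KK) (c g : L → KK) : ℕ → L → KK
  | 0 => dlt 0 1
  | k + 1 => fun n => if n ∈ C.S ∧ C.deg n = k + 1 then (g n - Ψ (triSeq C Ψ c g k) n) / c n
      else triSeq C Ψ c g k n
open Classical in
theorem triSeq_succ (Ψ : (L → KK) → L → KK) (c g : L → KK) (k : ℕ) (n : L) :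
    triSeq C Ψ c g (k + 1) n = if n ∈ C.S ∧ C.deg n = k + 1 then
      (g n - Ψ (triSeq C Ψ c g k) n) / c n else triSeq C Ψ c g k n := rfl
theorem triSeq_un (Ψ : (L → KK) → L → KK) (c g : L → KK) (k : ℕ) :
    Un C ⊤ (triSeq C Ψ c g k) ∧ ∀ n, (k : ℤ) < C.deg n → triSeq C Ψ c g k n = 0 := by
  induction k with
  | zero =>
    refine ⟨⟨fun n hn => ?_, by simp [triSeq, dlt]⟩, fun n hn => ?_⟩
    · have : n = 0 := by by_contra h; simp [triSeq, dlt, h] at hn
      simp [this]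
    · have : n ≠ 0 := by rintro rfl; simp at hn
      simp [triSeq, dlt, this]
  | succ k ih =>
    refine ⟨⟨fun n hn => ?_, ?_⟩, fun n hn => ?_⟩
    · rw [triSeq_succ] at hn
      split_ifs at hn with h
      exacts [⟨h.1, trivial⟩, ih.1.1 n hn]
    · rw [triSeq_succ, if_neg (fun h => by have := h.2; rw [map_zero] at this; omega), ih.1.2]
    · rw [triSeq_succ, if_neg (fun h => by have := h.2; omega), ih.2 n (by omega)]
theorem triSeq_stable (Ψ : (L → KK) → L → KK) (c g : L → KK) {n : L} {k l : ℕ}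
    (hk : C.deg n ≤ k) (hl : k ≤ l) : triSeq C Ψ c g l n = triSeq C Ψ c g k n := by
  induction l, hl using Nat.le_induction with
  | base => rfl
  | succ l hl ih => rw [triSeq_succ, if_neg (fun h => by have := h.2; omega), ih]
/-- triangular systems have solutions -/
theorem exists_solution (Ψ : (L → KK) → L → KK) (c : L → KK)
    (hc : ∀ n ∈ C.S, n ≠ 0 → c n ≠ 0)
    (h : ∀ x y n, Un C ⊤ x → Un C ⊤ y → n ∈ C.S → n ≠ 0 → Agr (Below C n) x y →
      Ψ x n - Ψ y n = c n * (x n - y n)) (g : L → KK) :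
    ∃ x, Un C ⊤ x ∧ ∀ n ∈ C.S, n ≠ 0 → Ψ x n = g n := by
  have hx : Un C ⊤ fun n => triSeq C Ψ c g (C.deg n).toNat n :=
    ⟨fun n hn => (triSeq_un Ψ c g _).1.1 n hn, (triSeq_un Ψ c g _).1.2⟩
  refine ⟨_, hx, fun n hn h0 => ?_⟩
  have hp := C.pos n hn h0
  obtain ⟨k, hk⟩ : ∃ k : ℕ, (C.deg n).toNat = k + 1 := ⟨(C.deg n).toNat - 1, by omega⟩
  have e := h _ _ n hx (triSeq_un Ψ c g k).1 hn h0 fun m hm =>
    (triSeq_stable Ψ c g (Int.self_le_toNat _) (by have := Below.deg_lt hm; omega)).symm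
  rw [(triSeq_un Ψ c g k).2 n (by omega), hk, triSeq_succ, if_pos ⟨hn, by omega⟩, sub_zero,
    mul_div_cancel₀ _ (hc n hn h0)] at e
  exact sub_left_injective e
theorem Un.exists_rinv {u : QA ω C} (h : Un C ⊤ u.fn) : ∃ v : QA ω C, Un C ⊤ v.fn ∧ u * v = 1 := by
  obtain ⟨x, hx, h1⟩ := exists_solution (C := C) (P066.conv ω u.fn) (fun _ => 1)
    (fun _ _ _ => one_ne_zero) (fun x y n hx hy hn h0 ha => by
      rw [first_order h.inC h.inC hx.inC hy.inC hn h0 (fun _ _ => rfl) ha, h.2, sub_self, zero_mul,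
        zero_add]) 0
  refine ⟨QA.mk x hx.adm, hx, QA.ext fun n => ?_⟩
  rw [QA.fn_mul, QA.fn_mk, QA.fn_one]
  by_cases h0 : n = 0
  · rw [h0, (h.conv hx).2]; simp [dlt]
  · rw [dlt, if_neg h0]
    by_cases hn : n ∈ C.S
    exacts [h1 n hn h0, (h.conv hx).inC.eq_zero hn]
theorem Un.exists_inv {S : AddSubmonoid L} {u : QA ω C} (h : Un C S u.fn) :
    ∃ v : QA ω C, Un C S v.fn ∧ u * v = 1 ∧ v * u = 1 := by
  classical
  obtain ⟨v, hv, h1⟩ := (h.mono le_top).exists_rinv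
  obtain ⟨w, -, h2⟩ := hv.exists_rinv
  refine ⟨v, ⟨fun n hn => ⟨(hv.1 n hn).1, ?_⟩, hv.2⟩, h1, left_inv_eq_right_inv h1 h2 ▸ h2⟩
  have hv' : Un C S fun n => if n ∈ S then v.fn n else 0 :=
    ⟨fun n hn => by
      simp only at hn
      split_ifs at hn with h3
      exacts [⟨(hv.1 n hn).1, h3⟩, (hn rfl).elim], (if_pos S.zero_mem).trans hv.2⟩
  have key : ∀ n ∈ C.S, v.fn n = if n ∈ S then v.fn n else 0 := by
    refine Cone.induction fun n hn ih => ?_
    split_ifs with h3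
    · rfl
    have h0 : n ≠ 0 := fun h4 => h3 (h4 ▸ S.zero_mem)
    have e := first_order (ω := ω) h.inC h.inC hv.inC hv'.inC hn h0 (fun _ _ => rfl) ih
    have e1 : P066.conv ω u.fn (fun n => if n ∈ S then v.fn n else 0) n = 0 := by
      by_contra h4
      exact h3 ((h.conv hv').1 n h4).2
    rw [e1, ← QA.fn_mul, h1, QA.fn_one, dlt, if_neg h0, if_neg h3, h.2] at e
    simpa using e.symm
  by_contra h3
  exact hn ((key n (hv.1 n hn).1).trans (if_neg h3))
end tri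

/-- the group of normalised elements supported in `C ∩ S` -/
def GS (ω : Form L) (C : Cone L) (S : AddSubmonoid L) : Subgroup (QA ω C)ˣ where
  carrier := {g | Un C S (g : QA ω C).fn}
  mul_mem' ha hb := Un.conv ha hb
  one_mem' := ⟨fun n hn => by
    have : n = 0 := by by_contra h; simp [QA.fn_one, dlt, h] at hn
    simp [this], by simp [QA.fn_one, dlt]⟩
  inv_mem' := by
    intro g hg
    obtain ⟨v, hv, h1, _⟩ := Un.exists_inv hg
    have : ((g⁻¹ : (QA ω C)ˣ) : QA ω C) = v := Units.inv_eq_of_mul_eq_one_right h1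
    change Un C S ((g⁻¹ : (QA ω C)ˣ) : QA ω C).fn
    rwa [this]

theorem mem_GS {S : AddSubmonoid L} {g : (QA ω C)ˣ} : g ∈ GS ω C S ↔ Un C S (g : QA ω C).fn :=
  Iff.rfl
theorem GS_mono {S S' : AddSubmonoid L} (h : S ≤ S') : GS ω C S ≤ GS ω C S' :=
  fun _ hg => Un.mono hg h
theorem GS_top {S : AddSubmonoid L} {g : (QA ω C)ˣ} (h : g ∈ GS ω C S) : g ∈ GS ω C ⊤ :=
  GS_mono le_top h

open Classical in
/-- a normalised function as a unit (one if not normalised) -/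
def mkU (ω : Form L) (C : Cone L) (u : L → KK) : (QA ω C)ˣ :=
  if h : Un C ⊤ u then
    ⟨QA.mk u h.adm, (Un.exists_inv (ω := ω) (u := QA.mk u h.adm) h).choose,
      (Un.exists_inv (ω := ω) (u := QA.mk u h.adm) h).choose_spec.2.1,
      (Un.exists_inv (ω := ω) (u := QA.mk u h.adm) h).choose_spec.2.2⟩
  else 1
theorem fn_mkU (ω : Form L) {S : AddSubmonoid L} {u : L → KK} (h : Un C S u) :
    ((mkU ω C u : (QA ω C)ˣ) : QA ω C).fn = u := by
  have h' : Un C ⊤ u := h.mono le_top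
  simp [mkU, h']
theorem mkU_mem (ω : Form L) {S : AddSubmonoid L} {u : L → KK} (h : Un C S u) :
    mkU ω C u ∈ GS ω C S := by rw [mem_GS, fn_mkU ω h]; exact h

def negM (σ : Stab L) : AddSubmonoid L where
  carrier := {n | σ.neg n ∨ n = 0}
  add_mem' := by
    rintro a b (ha | rfl) (hb | rfl)
    exacts [Or.inl (ha.add hb), by simpa using Or.inl ha, by simpa using Or.inl hb, by simp]
  zero_mem' := Or.inr rfl
def posM (σ : Stab L) : AddSubmonoid L where
  carrier := {n | σ.pos n ∨ n = 0}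
  add_mem' := by
    rintro a b (ha | rfl) (hb | rfl)
    exacts [Or.inl (ha.add hb), by simpa using Or.inl ha, by simpa using Or.inl hb, by simp]
  zero_mem' := Or.inr rfl
def zeroM (σ : Stab L) : AddSubmonoid L where
  carrier := {n | σ.zero n}
  add_mem' := Stab.zero.add
  zero_mem' := σ.zero_zero
theorem mem_negM {σ : Stab L} {n : L} : n ∈ negM σ ↔ σ.neg n ∨ n = 0 := Iff.rfl
theorem mem_posM {σ : Stab L} {n : L} : n ∈ posM σ ↔ σ.pos n ∨ n = 0 := Iff.rfl
theorem mem_zeroM {σ : Stab L} {n : L} : n ∈ zeroM σ ↔ σ.zero n := Iff.rfl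

section fact
open Classical in
/-- restriction of a function to a submonoid -/
def truncF (S : AddSubmonoid L) (x : L → KK) : L → KK := fun n => if n ∈ S then x n else 0
theorem truncF_of_mem {S : AddSubmonoid L} {x : L → KK} {n : L} (h : n ∈ S) :
    truncF S x n = x n := by simp [truncF, h]
theorem truncF_of_not_mem {S : AddSubmonoid L} {x : L → KK} {n : L} (h : n ∉ S) :
    truncF S x n = 0 := by simp [truncF, h]
theorem truncF_un (S : AddSubmonoid L) {T : AddSubmonoid L} {x : L → KK} (h : Un C T x) :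
    Un C S (truncF S x) := by
  refine ⟨fun n hn => ?_, by rw [truncF_of_mem S.zero_mem, h.2]⟩
  by_cases hS : n ∈ S
  · rw [truncF_of_mem hS] at hn; exact ⟨(h.1 n hn).1, hS⟩
  · exact (hn (truncF_of_not_mem hS)).elim
theorem truncF_agr (S : AddSubmonoid L) {Λ : Set L} {x y : L → KK} (h : Agr Λ x y) :
    Agr Λ (truncF S x) (truncF S y) := fun n hn => by
  by_cases hS : n ∈ S
  · rw [truncF_of_mem hS, truncF_of_mem hS, h n hn]
  · rw [truncF_of_not_mem hS, truncF_of_not_mem hS]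
theorem Un.eq_zero_of_not_mem {S : AddSubmonoid L} {u : L → KK} (h : Un C S u) {n : L}
    (hn : n ∉ S) : u n = 0 := by
  by_contra h'; exact hn (h.1 n h').2
theorem Un.eq_zero_of_not_memC {S : AddSubmonoid L} {u : L → KK} (h : Un C S u) {n : L}
    (hn : n ∉ C.S) : u n = 0 := by
  by_contra h'; exact hn (h.1 n h').1
theorem first_order3 {l z r l' z' r' : L → KK} (hl : Un C ⊤ l) (hz : Un C ⊤ z) (hr : Un C ⊤ r)
    (hl' : Un C ⊤ l') (hz' : Un C ⊤ z') (hr' : Un C ⊤ r') {n : L} (hn : n ∈ C.S) (h0 : n ≠ 0)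
    (h1 : Agr (Below C n) l l') (h2 : Agr (Below C n) z z') (h3 : Agr (Below C n) r r') :
    conv ω (conv ω l z) r n - conv ω (conv ω l' z') r' n =
      (l n - l' n) + (z n - z' n) + (r n - r' n) := by
  have hu : Un C ⊤ (conv ω l z) := hl.conv hz
  have hu' : Un C ⊤ (conv ω l' z') := hl'.conv hz'
  rw [first_order hu.inC hu'.inC hr.inC hr'.inC hn h0
    (agr_conv (lower_below n) hl.inC hl'.inC hz.inC hz'.inC h1 h2) h3,
    first_order hl.inC hl'.inC hz.inC hz'.inC hn h0 h1 h2, hr.2, hz.2, hl.2, hu.2]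
  ring
theorem not_mem_negM {σ : Stab L} {n : L} (h0 : n ≠ 0) (h : ¬ σ.neg n) : n ∉ negM σ :=
  fun h' => (mem_negM.1 h').elim h h0
theorem not_mem_posM {σ : Stab L} {n : L} (h0 : n ≠ 0) (h : ¬ σ.pos n) : n ∉ posM σ :=
  fun h' => (mem_posM.1 h').elim h h0
theorem fn_mul3 (l z r : (QA ω C)ˣ) : ((l * z * r : (QA ω C)ˣ) : QA ω C).fn =
    conv ω (conv ω (l : QA ω C).fn (z : QA ω C).fn) (r : QA ω C).fn := rfl

theorem exists_fact (σ : Stab L) {g : (QA ω C)ˣ} (hg : g ∈ GS ω C ⊤) :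
    ∃ x : (QA ω C)ˣ × (QA ω C)ˣ × (QA ω C)ˣ, x.1 ∈ GS ω C (negM σ) ∧ x.2.1 ∈ GS ω C (zeroM σ) ∧
      x.2.2 ∈ GS ω C (posM σ) ∧ x.1 * x.2.1 * x.2.2 = g := by
  obtain ⟨x, hx, hxg⟩ := exists_solution (C := C)
    (fun x => conv ω (conv ω (truncF (negM σ) x) (truncF (zeroM σ) x)) (truncF (posM σ) x))
    (fun _ => 1) (fun _ _ _ => one_ne_zero) (fun x y n hx hy hn h0 h => by
      rw [first_order3 ((truncF_un _ hx).mono le_top) ((truncF_un _ hx).mono le_top)
        ((truncF_un _ hx).mono le_top) ((truncF_un _ hy).mono le_top)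
        ((truncF_un _ hy).mono le_top) ((truncF_un _ hy).mono le_top) hn h0
        (truncF_agr _ h) (truncF_agr _ h) (truncF_agr _ h)]
      rcases σ.tri n with hs | hs | hs
      · have a1 : n ∈ negM σ := Or.inl hs
        have a2 : n ∉ zeroM σ := hs.not_zero
        have a3 : n ∉ posM σ := not_mem_posM h0 hs.not_pos
        simp only [truncF_of_mem a1, truncF_of_not_mem a2, truncF_of_not_mem a3]; ring
      · have a1 : n ∉ negM σ := not_mem_negM h0 fun h => h.not_zero hs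
        have a2 : n ∈ zeroM σ := hs
        have a3 : n ∉ posM σ := not_mem_posM h0 fun h => h.not_zero hs
        simp only [truncF_of_mem a2, truncF_of_not_mem a1, truncF_of_not_mem a3]; ring
      · have a1 : n ∉ negM σ := not_mem_negM h0 fun h => h.not_pos hs
        have a2 : n ∉ zeroM σ := hs.not_zero
        have a3 : n ∈ posM σ := Or.inl hs
        simp only [truncF_of_mem a3, truncF_of_not_mem a1, truncF_of_not_mem a2]; ring)
    (g : QA ω C).fn
  have h1 := truncF_un (negM σ) hx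
  have h2 := truncF_un (zeroM σ) hx
  have h3 := truncF_un (posM σ) hx
  refine ⟨(mkU ω C _, mkU ω C _, mkU ω C _), mkU_mem ω h1, mkU_mem ω h2, mkU_mem ω h3, ?_⟩
  refine Units.ext (QA.ext fun n => ?_)
  rw [fn_mul3, fn_mkU ω h1, fn_mkU ω h2, fn_mkU ω h3]
  have hu : Un C ⊤ (conv ω (conv ω (truncF (negM σ) x) (truncF (zeroM σ) x))
      (truncF (posM σ) x)) := ((h1.mono le_top).conv (h2.mono le_top)).conv (h3.mono le_top)
  by_cases hn : n ∈ C.S
  · by_cases h0 : n = 0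
    · rw [h0, hu.2, (mem_GS.1 hg).2]
    · exact hxg n hn h0
  · rw [hu.eq_zero_of_not_memC hn, (mem_GS.1 hg).eq_zero_of_not_memC hn]

open Classical in
def fact (σ : Stab L) (g : (QA ω C)ˣ) : (QA ω C)ˣ × (QA ω C)ˣ × (QA ω C)ˣ :=
  if h : g ∈ GS ω C ⊤ then (exists_fact σ h).choose else 1
/-- negative, neutral and positive factor -/
def negP (σ : Stab L) (g : (QA ω C)ˣ) : (QA ω C)ˣ := (fact σ g).1
def zeroP (σ : Stab L) (g : (QA ω C)ˣ) : (QA ω C)ˣ := (fact σ g).2.1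
def posP (σ : Stab L) (g : (QA ω C)ˣ) : (QA ω C)ˣ := (fact σ g).2.2

theorem negP_mem (σ : Stab L) (g : (QA ω C)ˣ) : negP σ g ∈ GS ω C (negM σ) := by
  unfold negP fact
  split_ifs with h
  · exact (exists_fact σ h).choose_spec.1
  · exact Subgroup.one_mem _
theorem zeroP_mem (σ : Stab L) (g : (QA ω C)ˣ) : zeroP σ g ∈ GS ω C (zeroM σ) := by
  unfold zeroP fact
  split_ifs with h
  · exact (exists_fact σ h).choose_spec.2.1
  · exact Subgroup.one_mem _
theorem posP_mem (σ : Stab L) (g : (QA ω C)ˣ) : posP σ g ∈ GS ω C (posM σ) := by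
  unfold posP fact
  split_ifs with h
  · exact (exists_fact σ h).choose_spec.2.2.1
  · exact Subgroup.one_mem _
theorem fact_eq (σ : Stab L) {g : (QA ω C)ˣ} (hg : g ∈ GS ω C ⊤) :
    negP σ g * zeroP σ g * posP σ g = g := by
  unfold negP zeroP posP fact
  rw [dif_pos hg]
  exact (exists_fact σ hg).choose_spec.2.2.2
theorem agr_inv {Λ : Set L} (hΛ : Lower C Λ) {g g' : (QA ω C)ˣ} (hg : g ∈ GS ω C ⊤)
    (hg' : g' ∈ GS ω C ⊤) (h : Agr Λ (g : QA ω C).fn (g' : QA ω C).fn) :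
    Agr Λ ((g⁻¹ : (QA ω C)ˣ) : QA ω C).fn ((g'⁻¹ : (QA ω C)ˣ) : QA ω C).fn := by
  have hu := mem_GS.1 hg
  have hu' := mem_GS.1 hg'
  have hv := mem_GS.1 (Subgroup.inv_mem _ hg)
  have hv' := mem_GS.1 (Subgroup.inv_mem _ hg')
  have key : ∀ n ∈ C.S, n ∈ Λ →
      ((g⁻¹ : (QA ω C)ˣ) : QA ω C).fn n = ((g'⁻¹ : (QA ω C)ˣ) : QA ω C).fn n := by
    refine Cone.induction fun n hn ih hΛn => ?_
    by_cases h0 : n = 0
    · rw [h0, hv.2, hv'.2]
    have e := first_order (ω := ω) hu.inC hu'.inC hv.inC hv'.inC hn h0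
      (fun m hm => h m (hΛ.below_subset hΛn hm)) (fun m hm => ih m hm (hΛ.below_subset hΛn hm))
    rw [← QA.fn_mul, ← QA.fn_mul, Units.mul_inv, Units.mul_inv, sub_self, h n hΛn, sub_self,
      zero_mul, zero_add, hu.2, one_mul] at e
    exact sub_eq_zero.1 e.symm
  intro n hn
  by_cases hC : n ∈ C.S
  · exact key n hC hn
  · rw [hv.eq_zero_of_not_memC hC, hv'.eq_zero_of_not_memC hC]
theorem triple_agr {Λ : Set L} (hΛ : Lower C Λ) {σ σ' : Stab L}
    (hσ : ∀ n ∈ Λ, n ∈ C.S → n ≠ 0 → (σ.neg n ↔ σ'.neg n) ∧ (σ.pos n ↔ σ'.pos n))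
    {l z r l' z' r' : L → KK} (hl : Un C (negM σ) l) (hz : Un C (zeroM σ) z)
    (hr : Un C (posM σ) r) (hl' : Un C (negM σ') l') (hz' : Un C (zeroM σ') z')
    (hr' : Un C (posM σ') r') (h : Agr Λ (conv ω (conv ω l z) r) (conv ω (conv ω l' z') r')) :
    Agr Λ l l' ∧ Agr Λ z z' ∧ Agr Λ r r' := by
  have key : ∀ n ∈ C.S, n ∈ Λ → l n = l' n ∧ z n = z' n ∧ r n = r' n := by
    refine Cone.induction fun n hn ih hΛn => ?_
    by_cases h0 : n = 0
    · rw [h0, hl.2, hl'.2, hz.2, hz'.2, hr.2, hr'.2]; exact ⟨rfl, rfl, rfl⟩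
    have e := first_order3 (ω := ω) (hl.mono le_top) (hz.mono le_top) (hr.mono le_top)
      (hl'.mono le_top) (hz'.mono le_top) (hr'.mono le_top) hn h0
      (fun m hm => (ih m hm (hΛ.below_subset hΛn hm)).1)
      (fun m hm => (ih m hm (hΛ.below_subset hΛn hm)).2.1)
      (fun m hm => (ih m hm (hΛ.below_subset hΛn hm)).2.2)
    rw [h n hΛn, sub_self] at e
    obtain ⟨s1, s2⟩ := hσ n hΛn hn h0
    rcases σ.tri n with hs | hs | hs
    · have hs' := s1.1 hs
      rw [hz.eq_zero_of_not_mem hs.not_zero, hz'.eq_zero_of_not_mem hs'.not_zero,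
        hr.eq_zero_of_not_mem (not_mem_posM h0 hs.not_pos),
        hr'.eq_zero_of_not_mem (not_mem_posM h0 hs'.not_pos)] at e ⊢
      exact ⟨by linear_combination -e, rfl, rfl⟩
    · have a1 : ¬ σ.neg n := fun h => h.not_zero hs
      have a2 : ¬ σ.pos n := fun h => h.not_zero hs
      rw [hl.eq_zero_of_not_mem (not_mem_negM h0 a1),
        hl'.eq_zero_of_not_mem (not_mem_negM h0 fun h => a1 (s1.2 h)),
        hr.eq_zero_of_not_mem (not_mem_posM h0 a2),
        hr'.eq_zero_of_not_mem (not_mem_posM h0 fun h => a2 (s2.2 h))] at e ⊢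
      exact ⟨rfl, by linear_combination -e, rfl⟩
    · have hs' := s2.1 hs
      rw [hz.eq_zero_of_not_mem hs.not_zero, hz'.eq_zero_of_not_mem hs'.not_zero,
        hl.eq_zero_of_not_mem (not_mem_negM h0 fun h => h.not_pos hs),
        hl'.eq_zero_of_not_mem (not_mem_negM h0 fun h => h.not_pos hs')] at e ⊢
      exact ⟨rfl, rfl, by linear_combination -e⟩
  refine ⟨fun n hn => ?_, fun n hn => ?_, fun n hn => ?_⟩
  · by_cases hC : n ∈ C.S
    · exact (key n hC hn).1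
    · rw [hl.eq_zero_of_not_memC hC, hl'.eq_zero_of_not_memC hC]
  · by_cases hC : n ∈ C.S
    · exact (key n hC hn).2.1
    · rw [hz.eq_zero_of_not_memC hC, hz'.eq_zero_of_not_memC hC]
  · by_cases hC : n ∈ C.S
    · exact (key n hC hn).2.2
    · rw [hr.eq_zero_of_not_memC hC, hr'.eq_zero_of_not_memC hC]
/-- the factors depend only on the values and signs on a lower set -/
theorem fact_agr {Λ : Set L} (hΛ : Lower C Λ) {σ σ' : Stab L}
    (hσ : ∀ n ∈ Λ, n ∈ C.S → n ≠ 0 → (σ.neg n ↔ σ'.neg n) ∧ (σ.pos n ↔ σ'.pos n))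
    {g g' : (QA ω C)ˣ} (hg : g ∈ GS ω C ⊤) (hg' : g' ∈ GS ω C ⊤)
    (h : Agr Λ (g : QA ω C).fn (g' : QA ω C).fn) :
    Agr Λ (negP σ g : QA ω C).fn (negP σ' g' : QA ω C).fn ∧
      Agr Λ (zeroP σ g : QA ω C).fn (zeroP σ' g' : QA ω C).fn ∧
      Agr Λ (posP σ g : QA ω C).fn (posP σ' g' : QA ω C).fn := by
  refine triple_agr (ω := ω) hΛ hσ (negP_mem σ g) (zeroP_mem σ g) (posP_mem σ g) (negP_mem σ' g')
    (zeroP_mem σ' g') (posP_mem σ' g') ?_
  rw [← fn_mul3, ← fn_mul3, fact_eq σ hg, fact_eq σ' hg']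
  exact h
theorem fact_unique {σ : Stab L} {l z r : (QA ω C)ˣ} (hl : l ∈ GS ω C (negM σ))
    (hz : z ∈ GS ω C (zeroM σ)) (hr : r ∈ GS ω C (posM σ)) :
    negP σ (l * z * r) = l ∧ zeroP σ (l * z * r) = z ∧ posP σ (l * z * r) = r := by
  have hg : l * z * r ∈ GS ω C ⊤ :=
    Subgroup.mul_mem _ (Subgroup.mul_mem _ (GS_top hl) (GS_top hz)) (GS_top hr)
  obtain ⟨h1, h2, h3⟩ := triple_agr (ω := ω) (lower_univ (C := C)) (σ := σ) (σ' := σ)
    (fun _ _ _ _ => ⟨Iff.rfl, Iff.rfl⟩) (negP_mem σ (l * z * r)) (zeroP_mem σ (l * z * r))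
    (posP_mem σ (l * z * r)) hl hz hr (by
      rw [← fn_mul3, ← fn_mul3, fact_eq σ hg]; exact fun _ _ => rfl)
  exact ⟨Units.ext (QA.ext fun n => h1 n trivial), Units.ext (QA.ext fun n => h2 n trivial),
    Units.ext (QA.ext fun n => h3 n trivial)⟩
theorem parts_mem (σ : Stab L) {S : AddSubmonoid L} {g : (QA ω C)ˣ} (hg : g ∈ GS ω C S) :
    negP σ g ∈ GS ω C S ∧ zeroP σ g ∈ GS ω C S ∧ posP σ g ∈ GS ω C S := by
  have hl := mem_GS.1 (negP_mem σ g)
  have hz := mem_GS.1 (zeroP_mem σ g)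
  have hr := mem_GS.1 (posP_mem σ g)
  have hgS := mem_GS.1 hg
  have hprod := fn_mul3 (negP σ g) (zeroP σ g) (posP σ g)
  rw [fact_eq σ (GS_top hg)] at hprod
  set l := (negP σ g : QA ω C).fn with hldef
  set z := (zeroP σ g : QA ω C).fn with hzdef
  set r := (posP σ g : QA ω C).fn with hrdef
  have hl' := truncF_un S hl
  have hz' := truncF_un S hz
  have hr' := truncF_un S hr
  have key : ∀ n ∈ C.S, l n = truncF S l n ∧ z n = truncF S z n ∧ r n = truncF S r n := by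
    refine Cone.induction fun n hn ih => ?_
    by_cases hS : n ∈ S
    · simp only [truncF_of_mem hS, and_self]
    have h0 : n ≠ 0 := fun h => hS (h ▸ S.zero_mem)
    have e := first_order3 (ω := ω) (hl.mono le_top) (hz.mono le_top) (hr.mono le_top)
      (hl'.mono le_top) (hz'.mono le_top) (hr'.mono le_top) hn h0
      (fun m hm => (ih m hm).1) (fun m hm => (ih m hm).2.1) (fun m hm => (ih m hm).2.2)
    rw [← hprod, hgS.eq_zero_of_not_mem hS, ((hl'.conv hz').conv hr').eq_zero_of_not_mem hS] at e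
    simp only [truncF_of_not_mem hS] at e ⊢
    rcases σ.tri n with hs | hs | hs
    · rw [hz.eq_zero_of_not_mem hs.not_zero,
        hr.eq_zero_of_not_mem (not_mem_posM h0 hs.not_pos)] at e ⊢
      exact ⟨by linear_combination -e, rfl, rfl⟩
    · rw [hl.eq_zero_of_not_mem (not_mem_negM h0 fun h => h.not_zero hs),
        hr.eq_zero_of_not_mem (not_mem_posM h0 fun h => h.not_zero hs)] at e ⊢
      exact ⟨rfl, by linear_combination -e, rfl⟩
    · rw [hz.eq_zero_of_not_mem hs.not_zero,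
        hl.eq_zero_of_not_mem (not_mem_negM h0 fun h => h.not_pos hs)] at e ⊢
      exact ⟨rfl, rfl, by linear_combination -e⟩
  refine ⟨⟨fun n hn => ?_, hl.2⟩, ⟨fun n hn => ?_, hz.2⟩, ⟨fun n hn => ?_, hr.2⟩⟩
  · have hC := (hl.1 n hn).1
    exact hl'.1 n (by rw [← (key n hC).1]; exact hn)
  · have hC := (hz.1 n hn).1
    exact hz'.1 n (by rw [← (key n hC).2.1]; exact hn)
  · have hC := (hr.1 n hn).1
    exact hr'.1 n (by rw [← (key n hC).2.2]; exact hn)
theorem fact_lex (σ τ : Stab L) {g : (QA ω C)ˣ} (hg : g ∈ GS ω C ⊤) :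
    negP (σ.lex τ) g = negP σ g * negP τ (zeroP σ g) ∧
      zeroP (σ.lex τ) g = zeroP τ (zeroP σ g) ∧
      posP (σ.lex τ) g = posP τ (zeroP σ g) * posP σ g := by
  have hz := zeroP_mem σ g
  obtain ⟨a1, a2, a3⟩ := parts_mem τ hz
  have b1 := negP_mem τ (zeroP σ g)
  have b2 := zeroP_mem τ (zeroP σ g)
  have b3 := posP_mem τ (zeroP σ g)
  have e : negP σ g * negP τ (zeroP σ g) * zeroP τ (zeroP σ g) *
      (posP τ (zeroP σ g) * posP σ g) = g := by
    conv_rhs => rw [← fact_eq σ hg, ← fact_eq τ (GS_top hz)]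
    simp only [mul_assoc]
  have c1 : negP σ g * negP τ (zeroP σ g) ∈ GS ω C (negM (σ.lex τ)) := by
    refine Subgroup.mul_mem _ (GS_mono ?_ (negP_mem σ g)) ⟨fun n hn => ⟨(a1.1 n hn).1, ?_⟩, a1.2⟩
    · rintro n (h | h)
      · exact Or.inl (Stab.lex_neg.2 (Or.inl h))
      · exact Or.inr h
    · rcases (b1.1 n hn).2 with h | h
      · exact Or.inl (Stab.lex_neg.2 (Or.inr ⟨(a1.1 n hn).2, h⟩))
      · exact Or.inr h
  have c2 : zeroP τ (zeroP σ g) ∈ GS ω C (zeroM (σ.lex τ)) :=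
    ⟨fun n hn => ⟨(a2.1 n hn).1, Stab.lex_zero.2 ⟨(a2.1 n hn).2, (b2.1 n hn).2⟩⟩, a2.2⟩
  have c3 : posP τ (zeroP σ g) * posP σ g ∈ GS ω C (posM (σ.lex τ)) := by
    refine Subgroup.mul_mem _ ⟨fun n hn => ⟨(a3.1 n hn).1, ?_⟩, a3.2⟩ (GS_mono ?_ (posP_mem σ g))
    · rcases (b3.1 n hn).2 with h | h
      · exact Or.inl (Stab.lex_pos.2 (Or.inr ⟨(a3.1 n hn).2, h⟩))
      · exact Or.inr h
    · rintro n (h | h)
      · exact Or.inl (Stab.lex_pos.2 (Or.inl h))
      · exact Or.inr h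
  have := fact_unique c1 c2 c3
  rwa [e] at this
theorem negP_lex (σ τ : Stab L) {g : (QA ω C)ˣ} (hg : g ∈ GS ω C ⊤) :
    negP (σ.lex τ) g = negP σ g * negP τ (zeroP σ g) := (fact_lex σ τ hg).1
theorem zeroP_lex (σ τ : Stab L) {g : (QA ω C)ˣ} (hg : g ∈ GS ω C ⊤) :
    zeroP (σ.lex τ) g = zeroP τ (zeroP σ g) := (fact_lex σ τ hg).2.1
/-- at a neutral `n` the element and its neutral factor have the same first order term -/
theorem zeroP_first_order {σ : Stab L} {g g' : (QA ω C)ˣ} (hg : g ∈ GS ω C ⊤)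
    (hg' : g' ∈ GS ω C ⊤) {n : L} (hn : n ∈ C.S) (h0 : n ≠ 0) (hz : σ.zero n)
    (h : Agr (Below C n) (g : QA ω C).fn (g' : QA ω C).fn) :
    (zeroP σ g : QA ω C).fn n - (zeroP σ g' : QA ω C).fn n =
      (g : QA ω C).fn n - (g' : QA ω C).fn n := by
  obtain ⟨h1, h2, h3⟩ := fact_agr (lower_below n) (σ := σ) (σ' := σ)
    (fun _ _ _ _ => ⟨Iff.rfl, Iff.rfl⟩) hg hg' h
  have e := first_order3 (ω := ω) (GS_top (negP_mem σ g)) (GS_top (zeroP_mem σ g))
    (GS_top (posP_mem σ g)) (GS_top (negP_mem σ g')) (GS_top (zeroP_mem σ g'))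
    (GS_top (posP_mem σ g')) hn h0 h1 h2 h3
  have a1 : n ∉ negM σ := not_mem_negM h0 fun h => h.not_zero hz
  have a2 : n ∉ posM σ := not_mem_posM h0 fun h => h.not_zero hz
  rw [← fn_mul3, ← fn_mul3, fact_eq σ hg, fact_eq σ hg',
    (mem_GS.1 (negP_mem σ g)).eq_zero_of_not_mem a1,
    (mem_GS.1 (negP_mem σ g')).eq_zero_of_not_mem a1,
    (mem_GS.1 (posP_mem σ g)).eq_zero_of_not_mem a2,
    (mem_GS.1 (posP_mem σ g')).eq_zero_of_not_mem a2] at e
  rw [e]; ring
/-- if `g = N * Z` with `N` negative and `Z` nonnegative then the neutral factor is read off `Z` -/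
theorem zeroP_two_block {σ : Stab L} {N Z : (QA ω C)ˣ} (hN : N ∈ GS ω C (negM σ))
    (hZ : Z ∈ GS ω C ⊤) (hZ' : ∀ n, (Z : QA ω C).fn n ≠ 0 → σ.nn n) {n : L} (hn : σ.zero n) :
    (zeroP σ (N * Z) : QA ω C).fn n = (Z : QA ω C).fn n := by
  let T : AddSubmonoid L :=
    { carrier := {n | σ.nn n}, add_mem' := σ.nn_add, zero_mem' := σ.nn_zero }
  have hZT : Z ∈ GS ω C T := ⟨fun m hm => ⟨(hZ.1 m hm).1, hZ' m hm⟩, hZ.2⟩
  have hl := mem_GS.1 (negP_mem σ Z)
  have hlT := mem_GS.1 (parts_mem σ hZT).1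
  have hl1 : negP σ Z = 1 := by
    refine Units.ext (QA.ext fun m => ?_)
    by_cases h0 : m = 0
    · rw [h0, hl.2]; simp [QA.fn_one, dlt]
    · have : (negP σ Z : QA ω C).fn m = 0 := by
        by_contra h
        rcases (hl.1 m h).2 with h' | h'
        · exact h' (hlT.1 m h).2
        · exact h0 h'
      rw [this]; simp [QA.fn_one, dlt, h0]
  have e := fact_eq σ hZ
  rw [hl1, one_mul] at e
  have e2 : zeroP σ (N * Z) = zeroP σ Z := by
    have := (fact_unique hN (zeroP_mem σ Z) (posP_mem σ Z)).2.1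
    rwa [mul_assoc, e] at this
  have hz := mem_GS.1 (zeroP_mem σ Z)
  have hr := mem_GS.1 (posP_mem σ Z)
  rw [e2]
  conv_rhs => rw [← e]
  rw [Units.val_mul, QA.mul_apply, finsum_eq_single _ n]
  · rw [ω.alt, tt_zero, sub_self, hr.2, one_mul, mul_one]
  · intro a ha
    by_cases h1 : (zeroP σ Z : QA ω C).fn a = 0
    · rw [h1, mul_zero, zero_mul]
    · have h2 : σ.zero (n - a) := hn.sub (hz.1 a h1).2
      rw [hr.eq_zero_of_not_mem (not_mem_posM (sub_ne_zero.2 (Ne.symm ha))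
        fun h => h.not_zero h2), mul_zero]
end fact

end
end Vale.Agent.P066
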