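import Vale.Agent.P066.QSeed

/-! Auxiliary lemmas for the mutation of the cluster element. -/

namespace Vale.Agent.P066
noncomputable section
namespace MutB
variable {L : Type} [AddCommGroup L] {I : Type} [Fintype I] [DecidableEq I] {ω : Form L}
  {C : Cone L}

theorem EU_mem {y : L} (hy : y ∈ C.S) (h0 : y ≠ 0) :
    EU ω C y ∈ GS ω C (AddSubmonoid.multiples y) := mkU_mem ω (un_Efun hy h0)
theorem fn_EU {y : L} (hy : y ∈ C.S) (h0 : y ≠ 0) : (EU ω C y : QA ω C).fn = Efun y :=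
  fn_mkU ω (un_Efun hy h0)

theorem conj_mem {P : L → Prop} {Z S : AddSubmonoid L} (hS : ∀ n, n ∈ S ↔ P n ∨ n = 0)
    (hP : ∀ a b c, a ∈ Z → P b → c ∈ Z → P (a + b + c)) {l z : (QA ω C)ˣ} (hl : l ∈ GS ω C S)
    (hz : z ∈ GS ω C Z) : z * l * z⁻¹ ∈ GS ω C S := by
  have ht : z * l * z⁻¹ ∈ GS ω C ⊤ :=
    mul_mem (mul_mem (GS_top hz) (GS_top hl)) (inv_mem (GS_top hz))
  refine ⟨fun n hn => ⟨(ht.1 n hn).1, (hS n).2 ?_⟩, ht.2⟩
  by_cases h0 : n = 0
  · exact Or.inr h0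
  left
  have e : ((z * l * z⁻¹ : (QA ω C)ˣ) : QA ω C) =
      (z : QA ω C) * ((l : QA ω C) - 1) * (z⁻¹ : (QA ω C)ˣ) + 1 := by
    simp only [Units.val_mul, mul_sub, sub_mul, mul_one, Units.mul_inv, sub_add_cancel]
  rw [e, QA.fn_add, QA.fn_one] at hn
  simp only [dlt, if_neg h0, add_zero] at hn
  obtain ⟨a, ha, hc⟩ := conv_ne_zero ω hn
  obtain ⟨a', ha', hb⟩ := conv_ne_zero ω ha
  have hb0 : a - a' ≠ 0 := fun h => hb (by
    rw [h, QA.fn_sub, QA.fn_one, hl.2]; simp [dlt])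
  have hb' : (l : QA ω C).fn (a - a') ≠ 0 := fun h => hb (by
    rw [QA.fn_sub, QA.fn_one, h]; simp [dlt, hb0])
  have := hP a' (a - a') (n - a) (hz.1 _ ha').2 (((hS _).1 (hl.1 _ hb').2).resolve_right hb0)
    ((inv_mem hz : z⁻¹ ∈ GS ω C Z).1 _ hc).2
  rwa [show a' + (a - a') + (n - a) = n by abel] at this

theorem mult_le {y : L} {S : AddSubmonoid L} (h : y ∈ S) : AddSubmonoid.multiples y ≤ S := by
  rintro _ ⟨j, rfl⟩
  exact S.nsmul_mem h j

theorem ld_zero_of_not_mem (d : L →+ ℤ) {S : AddSubmonoid L} {g : (QA ω C)ˣ} (hg : g ∈ GS ω C S)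
    {n : L} (hn : n ∉ S) : (ld d g).fn n = 0 := by
  by_contra h
  exact hn (ld_supp d hg h).2.1

theorem att_left (d : L →+ ℤ) {y n : L} {E g : (QA ω C)ˣ}
    (hE : E ∈ GS ω C (AddSubmonoid.multiples y)) (hg : g ∈ GS ω C ⊤) (hb : ω.w y n ≤ 0)
    (hn : n ∉ AddSubmonoid.multiples y) : att d (E * g) n = att d g n := by
  unfold att
  set σ := Stab.ofHom (ω.th n) with hσ
  have hf := fact_eq σ hg
  rcases hb.lt_or_eq with hb | hb
  · have h1 : E ∈ GS ω C (negM σ) := GS_mono (mult_le (Or.inl ((Stab.ofHom_neg (θ := ω.th n) (a := y)).2 hb))) hE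
    have := (fact_unique (mul_mem h1 (negP_mem σ g)) (zeroP_mem σ g) (posP_mem σ g)).2.1
    rw [show E * negP σ g * zeroP σ g * posP σ g = E * g by rw [← hf]; simp only [mul_assoc, hf]]
      at this
    rw [this]
  · have h1 : E ∈ GS ω C (zeroM σ) := GS_mono (mult_le ((Stab.ofHom_zero (θ := ω.th n) (a := y)).2 hb)) hE
    have h2 : E * negP σ g * E⁻¹ ∈ GS ω C (negM σ) :=
      conj_mem (P := σ.neg) (Z := zeroM σ) (fun _ => mem_negM)
        (fun a b c ha hb hc => (Stab.np_add_neg ha.2 hb).add_np hc.2) (negP_mem σ g) h1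
    have := (fact_unique h2 (mul_mem h1 (zeroP_mem σ g)) (posP_mem σ g)).2.1
    rw [show E * negP σ g * E⁻¹ * (E * zeroP σ g) * posP σ g = E * g by
      conv_rhs => rw [← hf]
      group] at this
    rw [this, ld_mul_perp d E (zeroP_mem σ g), ld_zero_of_not_mem d hE hn, zero_add]

theorem att_right (d : L →+ ℤ) {y n : L} {E g : (QA ω C)ˣ}
    (hE : E ∈ GS ω C (AddSubmonoid.multiples y)) (hg : g ∈ GS ω C ⊤) (hb : 0 ≤ ω.w y n)
    (hn : n ∉ AddSubmonoid.multiples y) : att d (g * E) n = att d g n := by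
  unfold att
  set σ := Stab.ofHom (ω.th n) with hσ
  have hf := fact_eq σ hg
  rcases hb.lt_or_eq with hb | hb
  · have h1 : E ∈ GS ω C (posM σ) := GS_mono (mult_le (Or.inl ((Stab.ofHom_pos (θ := ω.th n) (a := y)).2 hb))) hE
    have := (fact_unique (negP_mem σ g) (zeroP_mem σ g) (mul_mem (posP_mem σ g) h1)).2.1
    rw [← mul_assoc, hf] at this
    rw [this]
  · have h1 : E ∈ GS ω C (zeroM σ) := GS_mono (mult_le ((Stab.ofHom_zero (θ := ω.th n) (a := y)).2 hb.symm)) hE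
    have h2 : E⁻¹ * posP σ g * E⁻¹⁻¹ ∈ GS ω C (posM σ) :=
      conj_mem (P := σ.pos) (Z := zeroM σ) (fun _ => mem_posM)
        (fun a b c ha hb hc => (Stab.nn_add_pos ha.1 hb).add_nn hc.1) (posP_mem σ g) (inv_mem h1)
    have := (fact_unique (negP_mem σ g) (mul_mem (zeroP_mem σ g) h1) h2).2.1
    rw [show negP σ g * (zeroP σ g * E) * (E⁻¹ * posP σ g * E⁻¹⁻¹) = g * E by
      conv_rhs => rw [← hf]
      group] at this
    rw [this, ld_mul_perp d _ h1, ld_zero_of_not_mem d hE hn, add_zero]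

theorem Efun_tr (Φ : L ≃+ L) (y n : L) : Efun (Φ y) (Φ n) = Efun y n := by
  unfold Efun ser
  refine finsum_congr fun j => ?_
  rw [← map_nsmul]
  by_cases h : n = j • y
  · rw [if_pos h, if_pos (congrArg Φ h)]
  · rw [if_neg h, if_neg fun h' => h (Φ.injective h')]

theorem refl_form (ω : Form L) (a b : L) :
    ω.w (AddEquiv.refl L a) (AddEquiv.refl L b) = ω.w a b := rfl
theorem refl_sub (C : Cone L) (S : AddSubmonoid L) :
    ∀ n ∈ (C.sub S).S, AddEquiv.refl L n ∈ C.S := fun _ hn => hn.1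

/-- a unit supported in `S` comes from the subcone -/
theorem exists_lift {S : AddSubmonoid L} {g : (QA ω C)ˣ} (hg : g ∈ GS ω C S) :
    ∃ k : (QA ω (C.sub S))ˣ, k ∈ GS ω (C.sub S) ⊤ ∧ (k : QA ω (C.sub S)).fn = (g : QA ω C).fn ∧
      trU (AddEquiv.refl L) (refl_form ω) (refl_sub C S) k = g := by
  have hu : Un (C.sub S) ⊤ (g : QA ω C).fn := ⟨fun n hn => ⟨hg.1 n hn, trivial⟩, hg.2⟩
  refine ⟨mkU ω _ (g : QA ω C).fn, mkU_mem ω hu, fn_mkU ω hu, Units.ext (QA.ext fun n => ?_)⟩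
  rw [coe_trU, fn_tr, fn_mkU ω hu]
  rfl

theorem ld_EU_tr {C' : Cone L} (Φ : L ≃+ L) (hω : ∀ a b, ω.w (Φ a) (Φ b) = ω.w a b) {y : L}
    (hy : y ∈ C.S) (h0 : y ≠ 0) (hy' : Φ y ∈ C'.S) (d : L →+ ℤ) (n : L) :
    (ld d (EU ω C' (Φ y))).fn (Φ n) = (ld (d.comp Φ.toAddMonoidHom) (EU ω C y)).fn n := by
  obtain ⟨k, hk, hk1, hk2⟩ := exists_lift (EU_mem (ω := ω) hy h0)
  have hC : ∀ m ∈ (C.sub (AddSubmonoid.multiples y)).S, Φ m ∈ C'.S := by
    rintro _ ⟨_, j, rfl⟩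
    simp only [map_nsmul]
    exact C'.S.nsmul_mem hy' j
  have h3 : trU Φ hω hC k = EU ω C' (Φ y) := Units.ext (QA.ext fun m => by
    rw [coe_trU, fn_tr, hk1, fn_EU hy h0, fn_EU hy' (by simpa using h0), ← Efun_tr Φ,
      AddEquiv.apply_symm_apply])
  rw [← h3, ← hk2, ld_trU, ld_trU, fn_tr, fn_tr, AddEquiv.symm_apply_apply]
  rfl

theorem co_sum (s : Seed L I) (c : I → ℤ) (i : I) : s.co i (∑ j, c j • s.e j) = c i := by
  simp [map_sum, s.dual]

theorem lower_mult (s : Seed L I) (k : I) :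
    Lower s.cone (AddSubmonoid.multiples (s.e k) : Set L) := by
  rintro _ ⟨j, rfl⟩ m hm hm'
  obtain ⟨h1, h2⟩ := s.mem_closure.1 hm
  obtain ⟨h3, _⟩ := s.mem_closure.1 hm'
  refine ⟨(s.co k m).toNat, ?_⟩
  change (s.co k m).toNat • s.e k = m
  rw [← natCast_zsmul, Int.toNat_of_nonneg (h1 k)]
  conv_rhs => rw [h2]
  symm
  refine Finset.sum_eq_single k (fun i _ hi => ?_) (fun h => (h (Finset.mem_univ k)).elim)
  have a1 := h1 i
  have a2 := h3 i
  simp only [map_sub, map_nsmul, s.dual, if_neg hi, smul_zero] at a2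
  rw [show s.co i m = 0 by omega, zero_smul]

omit [Fintype I] in
theorem not_mult_of_ne (s : Seed L I) {i k : I} (h : i ≠ k) {n : L} (h0 : n ≠ 0)
    (hn : n ∈ AddSubmonoid.multiples (s.e k)) : n ∉ AddSubmonoid.multiples (s.e i) := by
  rintro ⟨j, hj⟩
  obtain ⟨j', hj'⟩ := hn
  have := congrArg (s.co i) (hj.trans hj'.symm)
  simp only [map_nsmul, s.dual, if_neg h, if_true, smul_zero, nsmul_eq_mul, mul_one,
    Nat.cast_eq_zero] at this
  subst this
  exact h0 (by rw [← hj]; simp)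

theorem att_multiple (s : Seed L I) (k : I) {g : (QA ω s.cone)ˣ} (hg : g ∈ GS ω s.cone ⊤)
    (h : Agr (AddSubmonoid.multiples (s.e k) : Set L) (g : QA ω s.cone).fn (Efun (s.e k)))
    (d : L →+ ℤ) {n : L} (hn : n ∈ AddSubmonoid.multiples (s.e k)) (h0 : n ≠ 0) :
    att d g n = ∑ i, (ld d (EU ω s.cone (s.e i))).fn n := by
  have hE := EU_mem (ω := ω) (s.e_mem k) (s.e_ne_zero k)
  rw [← fn_EU (ω := ω) (s.e_mem k) (s.e_ne_zero k)] at h
  have h1 := att_first_order d hg (GS_top hE) (mult_le (s.e_mem k) hn) h0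
    fun m hm => h m ((lower_mult s k).below_subset hn hm)
  rw [h n hn, sub_self, mul_zero, sub_eq_zero] at h1
  have hz : EU ω s.cone (s.e k) ∈ GS ω s.cone (zeroM (Stab.ofHom (ω.th n))) := by
    refine GS_mono (mult_le (Stab.ofHom_zero.2 ?_)) hE
    obtain ⟨j, rfl⟩ := hn
    simp [Form.th_apply, ω.alt]
  have h2 := (fact_unique (one_mem _) hz (one_mem _)).2.1
  rw [one_mul, mul_one] at h2
  rw [h1, att, h2, Finset.sum_eq_single k (fun i _ hi => ld_zero_of_not_mem d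
    (EU_mem (s.e_mem i) (s.e_ne_zero i)) (not_mult_of_ne s hi h0 hn)) (by simp)]

theorem att_clu (s : Seed L I) (d : L →+ ℤ) {n : L} (h0 : n ≠ 0) :
    att d (clu ω s) n = ∑ i, (ld d (EU ω s.cone (s.e i))).fn n := by
  by_cases hn : n ∈ s.cone.S
  · exact (clu_spec ω s).2 d n hn h0
  · rw [Finset.sum_eq_zero fun i _ => ?_]
    · by_contra h
      exact hn (att_supp d (clu_spec ω s).1 h).1
    · by_contra h
      exact hn (ld_supp d (EU_mem (ω := ω) (s.e_mem i) (s.e_ne_zero i)) h).1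

/-- the bound for the `k`-th coordinate in the mutated cone -/
def Bh (ω : Form L) (s : Seed L I) (k : I) : L →+ ℤ := ∑ j, max (ω.w (s.e k) (s.e j)) 0 • s.co j

theorem Bh_e (s : Seed L I) (k i : I) : Bh ω s k (s.e i) = max (ω.w (s.e k) (s.e i)) 0 := by
  simp [Bh, AddMonoidHom.finsetSum_apply, s.dual]

theorem mut_e_self (s : Seed L I) (k : I) : (s.mutate ω k).e k = - s.e k := by
  simp [Seed.mutate]
theorem mut_e_ne (s : Seed L I) {k i : I} (h : i ≠ k) :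
    (s.mutate ω k).e i = s.e i + max (ω.w (s.e k) (s.e i)) 0 • s.e k := by
  simp [Seed.mutate, h]

theorem mem_mut (s : Seed L I) (k : I) {n : L} : n ∈ (s.mutate ω k).cone.S ↔
    n = ∑ i, s.co i n • s.e i ∧ (∀ i, i ≠ k → 0 ≤ s.co i n) ∧ s.co k n ≤ Bh ω s k n := by
  have h1 : (s.mutate ω k).co k n = - s.co k n + Bh ω s k n := by simp [Seed.mutate, Bh]
  have h2 : ∀ i, i ≠ k → (s.mutate ω k).co i n = s.co i n := fun i hi => by
    simp [Seed.mutate, hi]
  have h3 : ∑ i, (s.mutate ω k).co i n • (s.mutate ω k).e i = ∑ i, s.co i n • s.e i := by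
    have hB : Bh ω s k n = ∑ i ∈ Finset.univ.erase k, s.co i n * max (ω.w (s.e k) (s.e i)) 0 := by
      rw [Bh, AddMonoidHom.finsetSum_apply, ← Finset.add_sum_erase _ _ (Finset.mem_univ k)]
      simp [ω.alt, mul_comm]
    have h4 : ∀ i ∈ Finset.univ.erase k, (s.mutate ω k).co i n • (s.mutate ω k).e i =
        s.co i n • s.e i + (s.co i n * max (ω.w (s.e k) (s.e i)) 0) • s.e k := fun i hi => by
      rw [h2 i (Finset.ne_of_mem_erase hi), mut_e_ne s (Finset.ne_of_mem_erase hi), smul_add,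
        smul_smul]
    rw [← Finset.add_sum_erase _ _ (Finset.mem_univ k),
      ← Finset.add_sum_erase _ _ (Finset.mem_univ k), h1, mut_e_self,
      Finset.sum_congr rfl h4, Finset.sum_add_distrib, ← Finset.sum_smul, ← hB]
    simp only [add_smul, neg_smul, smul_neg, neg_neg, neg_add]
    abel
  change n ∈ AddSubmonoid.closure _ ↔ _
  rw [Seed.mem_closure, h3]
  constructor
  · rintro ⟨a, b⟩
    refine ⟨b, fun i hi => h2 i hi ▸ a i, ?_⟩
    have := a k
    omega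
  · rintro ⟨a, b, c⟩
    refine ⟨fun i => ?_, a⟩
    by_cases hi : i = k
    · subst hi; omega
    · rw [h2 i hi]; exact b i hi

end MutB
end
end Vale.Agent.P066
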