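import Vale.Agent.P066.QSeed
import Vale.Agent.P066.QMutAuxB

/-! Part A: mutation invariance. -/

namespace Vale.Agent.P066
noncomputable section
variable {L : Type} [AddCommGroup L] {I : Type} [Fintype I] [DecidableEq I] (ω : Form L)

/-- the transvection `m ↦ m + ω(y, m) y` -/
def transv (y : L) : L ≃+ L where
  toFun m := m + ω.w y m • y
  invFun m := m - ω.w y m • y
  left_inv m := by simp [ω.alt]
  right_inv m := by simp [ω.alt]
  map_add' a b := by simp only [map_add, add_smul]; abel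
theorem transv_apply (y m : L) : transv ω y m = m + ω.w y m • y := rfl
theorem transv_form (y a b : L) : ω.w (transv ω y a) (transv ω y b) = ω.w a b := by
  simp only [transv_apply, map_add, map_zsmul, AddMonoidHom.add_apply, AddMonoidHom.smul_apply,
    ω.alt, smul_eq_mul, ω.skew a y]
  ring

/-- tropical mutation -/
def Tm (y p : L) : L := p + max (ω.w y p) 0 • y

section line
/-- coefficients of `∏ (1 + t ^ a Y)`, `a = 1 - b, 3 - b, ..., b - 1` -/
def pb (b : ℕ) : ℕ → KK := fun j =>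
  (∏ i ∈ Finset.range b, (1 + Polynomial.C (tt (2 * i + 1 - b)) * Polynomial.X)).coeff j
theorem natDegree_lin (u : KK) : (1 + Polynomial.C u * Polynomial.X).natDegree ≤ 1 :=
  (Polynomial.natDegree_add_le _ _).trans (max_le (by simp)
    ((Polynomial.natDegree_C_mul_le _ _).trans Polynomial.natDegree_X_le))
theorem natDegree_prod_lin (u : ℕ → KK) (b : ℕ) :
    (∏ i ∈ Finset.range b, (1 + Polynomial.C (u i) * Polynomial.X)).natDegree ≤ b := by
  induction b with
  | zero => simp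
  | succ b ih =>
    rw [Finset.prod_range_succ]
    exact Polynomial.natDegree_mul_le.trans (add_le_add ih (natDegree_lin _))
theorem reflect_prod_lin (u : ℕ → ℤ) (b : ℕ) :
    Polynomial.reflect b (∏ i ∈ Finset.range b, (1 + Polynomial.C (tt (u i)) * Polynomial.X)) =
      Polynomial.C (tt (∑ i ∈ Finset.range b, u i)) *
        ∏ i ∈ Finset.range b, (1 + Polynomial.C (tt (-u i)) * Polynomial.X) := by
  induction b with
  | zero => simp [tt_zero]
  | succ b ih =>
    have h1 : Polynomial.reflect 1 (1 + Polynomial.C (tt (u b)) * Polynomial.X) =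
        Polynomial.C (tt (u b)) * (1 + Polynomial.C (tt (-u b)) * Polynomial.X) := by
      rw [Polynomial.reflect_add, Polynomial.reflect_one, Polynomial.reflect_C_mul,
        Polynomial.reflect_one_X, mul_add, ← mul_assoc, ← Polynomial.C_mul, ← tt_add,
        add_neg_cancel, tt_zero, Polynomial.C_1]
      ring
    rw [Finset.prod_range_succ, Finset.prod_range_succ, Finset.sum_range_succ,
      Polynomial.reflect_mul _ _ (natDegree_prod_lin (fun i => tt (u i)) b) (natDegree_lin _), ih,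
      h1, tt_add, Polynomial.C_mul]
    ring
theorem pb_eq_zero {b j : ℕ} (h : b < j) : pb b j = 0 :=
  Polynomial.coeff_eq_zero_of_natDegree_lt
    ((natDegree_prod_lin (fun i => tt (2 * i + 1 - b)) b).trans_lt h)
theorem pb_symm {b j : ℕ} (h : j ≤ b) : pb b (b - j) = pb b j := by
  have h1 : ∀ c : ℕ, ∑ i ∈ Finset.range c, (2 * (i : ℤ) + 1 - b) = c * c - c * b := fun c => by
    induction c with
    | zero => simp
    | succ c ih => rw [Finset.sum_range_succ, ih]; push_cast; ring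
  have h2 := reflect_prod_lin (fun i => 2 * (i : ℤ) + 1 - b) b
  rw [h1, sub_self, tt_zero, Polynomial.C_1, one_mul, ← Finset.prod_range_reflect
    (fun i => 1 + Polynomial.C (tt (-(2 * (i : ℤ) + 1 - b))) * Polynomial.X)] at h2
  have h3 : ∏ i ∈ Finset.range b,
      (1 + Polynomial.C (tt (-(2 * ((b - 1 - i : ℕ) : ℤ) + 1 - b))) * Polynomial.X) =
      ∏ i ∈ Finset.range b, (1 + Polynomial.C (tt (2 * (i : ℤ) + 1 - b)) * Polynomial.X) :=
    Finset.prod_congr rfl fun i hi => by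
      have := Finset.mem_range.1 hi
      rw [show -(2 * ((b - 1 - i : ℕ) : ℤ) + 1 - b) = 2 * (i : ℤ) + 1 - b by omega]
  rw [h3] at h2
  have h4 := congrArg (fun q => Polynomial.coeff q j) h2
  simp only [Polynomial.coeff_reflect, Polynomial.revAt_le h] at h4
  exact h4
theorem phi_true_step (a : ℤ) : PowerSeries.mk (phi true a) =
    (1 + PowerSeries.C (tt a) * PowerSeries.X) * PowerSeries.mk (phi true (a + 2)) := by
  ext1 e
  rw [add_mul, one_mul, mul_assoc, map_add, PowerSeries.coeff_C_mul]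
  cases e with
  | zero => simp [phi_zero]
  | succ e => simp only [PowerSeries.coeff_mk, PowerSeries.coeff_succ_X_mul, phi_true_succ a e]
theorem phi_true_steps (a : ℤ) (b : ℕ) : PowerSeries.mk (phi true a) =
    (∏ i ∈ Finset.range b, (1 + PowerSeries.C (tt (2 * i + a)) * PowerSeries.X)) *
      PowerSeries.mk (phi true (a + 2 * b)) := by
  induction b with
  | zero => simp
  | succ b ih =>
    rw [Finset.prod_range_succ, mul_assoc, ih, phi_true_step (a + 2 * b)]
    push_cast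
    rw [add_comm a (2 * b), show 2 * (b : ℤ) + a + 2 = a + 2 * (b + 1) by ring]
theorem phi_pb (b : ℕ) : PowerSeries.mk (phi true (1 - b)) =
    PowerSeries.mk (pb b) * PowerSeries.mk (phi true (1 + b)) := by
  have h : PowerSeries.mk (pb b) =
      ∏ i ∈ Finset.range b, (1 + PowerSeries.C (tt (2 * i + (1 - b))) * PowerSeries.X) := by
    have h1 := map_prod (Polynomial.coeToPowerSeries.ringHom (R := KK))
      (fun i : ℕ => 1 + Polynomial.C (tt (2 * i + 1 - b)) * Polynomial.X) (Finset.range b)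
    simp only [Polynomial.coeToPowerSeries.ringHom_apply, Polynomial.coe_add, Polynomial.coe_one,
      Polynomial.coe_mul, Polynomial.coe_C, Polynomial.coe_X] at h1
    simp only [← add_sub_assoc, ← h1]
    ext1 j
    rw [PowerSeries.coeff_mk, Polynomial.coeff_coe, pb]
  rw [h, phi_true_steps (1 - b) b, show 1 - (b : ℤ) + 2 * b = 1 + b by ring]
variable {C : Cone L} {y : L} (hy : y ∈ C.S) (h0 : y ≠ 0)
include hy h0
omit h0 in
theorem adm_ser (c : ℕ → KK) : Adm C (ser y c) :=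
  adm_of_supp C 0 fun n hn => by
    obtain ⟨j, rfl⟩ := ser_ne_zero hn
    simpa using C.S.nsmul_mem hy j
omit h0 in
/-- a power series in `X ^ y` -/
def serA (f : PowerSeries KK) : QA ω C :=
  QA.mk (ser y fun j => PowerSeries.coeff j f) (adm_ser hy _)
theorem serA_mul (f g : PowerSeries KK) : serA ω hy (f * g) = serA ω hy f * serA ω hy g :=
  QA.ext fun n => by
    simp only [serA, QA.fn_mul, QA.fn_mk, conv_ser hy h0, PowerSeries.coeff_mul]
theorem fn_EU : (EU ω C y : QA ω C).fn = Efun y := fn_mkU ω (un_Efun hy h0)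
theorem EU_mem : EU ω C y ∈ GS ω C (AddSubmonoid.multiples y) := mkU_mem ω (un_Efun hy h0)
theorem tw_EU (β : L →+ ℤ) :
    tw β (EU ω C y : QA ω C) = serA ω hy (PowerSeries.mk (phi true (1 + β y))) :=
  QA.ext fun n => by
    rw [fn_tw, fn_EU ω hy h0]
    simp only [serA, QA.fn_mk, PowerSeries.coeff_mk, Efun]
    by_cases hn : ∃ j : ℕ, n = j • y
    · obtain ⟨j, rfl⟩ := hn
      rw [ser_apply hy h0, ser_apply hy h0, map_nsmul, nsmul_eq_mul, mul_comm (j : ℤ), tt_mul_phi]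
    · have h1 : ∀ c, ser y c n = 0 := fun c => by
        by_contra h
        exact hn (ser_ne_zero h)
      rw [h1, h1, mul_zero]
theorem finsum_ser_pb (b : ℕ) (g : L → KK) :
    ∑ᶠ m, (serA ω hy (PowerSeries.mk (pb b))).fn m * g m =
      ∑ j ∈ Finset.range (b + 1), pb b j * g (j • y) := by
  classical
  have hinj : Function.Injective fun j : ℕ => j • y := fun i j h => by
    have h1 := congrArg C.deg h
    simp only [map_nsmul, nsmul_eq_mul] at h1
    exact_mod_cast mul_right_cancel₀ (C.pos y hy h0).ne' h1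
  simp only [serA, QA.fn_mk, PowerSeries.coeff_mk]
  rw [finsum_eq_sum_of_support_subset (s := (Finset.range (b + 1)).image fun j : ℕ => j • y),
    Finset.sum_image fun i _ j _ h => hinj h]
  · exact Finset.sum_congr rfl fun j _ => by rw [ser_apply hy h0]
  · intro m hm
    have h1 := left_ne_zero_of_mul hm
    obtain ⟨j, rfl⟩ := ser_ne_zero h1
    rw [ser_apply hy h0] at h1
    refine Finset.mem_coe.2 (Finset.mem_image_of_mem _ (Finset.mem_range.2 ?_))
    by_contra h2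
    exact h1 (pb_eq_zero (by omega))
/-- conjugation by the dilogarithm is polynomial in the good direction -/
theorem conj_E_nonpos (u : QA ω C) {p : L} {b : ℕ} (hb : ω.w y p = -b) :
    ((EU ω C y : QA ω C) * u * ((EU ω C y)⁻¹ : (QA ω C)ˣ)).fn p =
      ∑ j ∈ Finset.range (b + 1), pb b j * u.fn (p - j • y) := by
  have h1 : tw (ω.th p) (EU ω C y : QA ω C) =
      tw (-ω.th p) (EU ω C y : QA ω C) * serA ω hy (PowerSeries.mk (pb b)) := by
    rw [tw_EU ω hy h0, tw_EU ω hy h0, AddMonoidHom.neg_apply, Form.th_apply, hb, neg_neg,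
      ← sub_eq_add_neg, phi_pb, mul_comm, serA_mul ω hy h0]
  rw [sandwich, h1, ← mul_assoc, ← map_mul, Units.inv_mul, map_one, one_mul]
  exact finsum_ser_pb ω hy h0 b fun m => u.fn (p - m)
theorem conj_E_nonneg (u : QA ω C) {p : L} {b : ℕ} (hb : ω.w y p = b) :
    ((((EU ω C y)⁻¹ : (QA ω C)ˣ) : QA ω C) * u * EU ω C y).fn p =
      ∑ j ∈ Finset.range (b + 1), pb b j * u.fn (p - j • y) := by
  have h1 : tw (-ω.th p) (EU ω C y : QA ω C) =
      serA ω hy (PowerSeries.mk (pb b)) * tw (ω.th p) (EU ω C y : QA ω C) := by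
    rw [tw_EU ω hy h0, tw_EU ω hy h0, AddMonoidHom.neg_apply, Form.th_apply, hb,
      ← sub_eq_add_neg, phi_pb, serA_mul ω hy h0]
  rw [sandwich, h1, mul_assoc, ← map_mul, Units.mul_inv, map_one, mul_one]
  exact finsum_ser_pb ω hy h0 b fun m => u.fn (p - m)
omit hy h0 in
theorem sum_pb_reflect (b : ℕ) (g : ℤ → KK) :
    ∑ j ∈ Finset.range (b + 1), pb b j * g (b - j) = ∑ j ∈ Finset.range (b + 1), pb b j * g j := by
  rw [← Finset.sum_range_reflect]
  refine Finset.sum_congr rfl fun j hj => ?_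
  have := Finset.mem_range.1 hj
  rw [show b + 1 - 1 - j = b - j by omega, pb_symm (by omega),
    show (b : ℤ) - ((b - j : ℕ) : ℤ) = j by omega]
/-- the line lemma -/
theorem line_lemma {C' : Cone L} (hy' : -y ∈ C'.S) {u u' : QA ω C} {v v' : QA ω C'}
    (h : (EU ω C y : QA ω C) * u' = u * EU ω C y) (hv' : v'.fn = u'.fn)
    (hv : ∀ n, v.fn (transv ω y n) = u.fn n) :
    v' * EU ω C' (-y) = (EU ω C' (-y) : QA ω C') * v := by
  have h0' : -y ≠ 0 := neg_ne_zero.2 h0
  have hE : ∀ m, (EU ω C' (-y) : QA ω C').fn m ≠ 0 → ω.w y m = 0 := fun m hm => by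
    obtain ⟨j, rfl⟩ := ((EU_mem ω hy' h0').1 m hm).2
    simp [ω.alt]
  have hv2 : ∀ n, v.fn n = u.fn (n - ω.w y n • y) := fun n => by
    have := hv ((transv ω y).symm n)
    rwa [AddEquiv.apply_symm_apply] at this
  refine QA.ext fun n => ?_
  rw [← sub_eq_zero, ← QA.fn_sub]
  by_contra hne
  rcases le_total (ω.w y n) 0 with hn | hn
  · obtain ⟨b, hb⟩ : ∃ b : ℕ, ω.w y n = -b := ⟨(-ω.w y n).toNat, by omega⟩
    have e1 : u = (EU ω C y : QA ω C) * u' * ((EU ω C y)⁻¹ : (QA ω C)ˣ) := by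
      rw [h, Units.mul_inv_cancel_right]
    have e2 : v' * EU ω C' (-y) - (EU ω C' (-y) : QA ω C') * v = (EU ω C' (-y) : QA ω C') *
        ((((EU ω C' (-y))⁻¹ : (QA ω C')ˣ) : QA ω C') * v' * EU ω C' (-y) - v) := by
      rw [mul_sub, mul_assoc, Units.mul_inv_cancel_left]
    rw [e2, QA.fn_mul] at hne
    obtain ⟨a, ha, hx⟩ := conv_ne_zero ω hne
    have hp : ω.w y (n - a) = -b := by rw [map_sub, hE a ha, hb, sub_zero]
    generalize n - a = p at hx hp
    apply hx
    rw [QA.fn_sub, conj_E_nonneg ω hy' h0' v' (b := b) (by simp [hp]), hv2, e1,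
      conj_E_nonpos ω hy h0 u' (b := b) (by simp [hp, ω.alt]), hv', sub_eq_zero, hp]
    have := sum_pb_reflect b fun j => u'.fn (p + j • y)
    refine Eq.trans (Finset.sum_congr rfl fun j _ => ?_) (this.symm.trans
      (Finset.sum_congr rfl fun j _ => ?_))
    · rw [smul_neg, sub_neg_eq_add, natCast_zsmul]
    · rw [neg_smul, sub_neg_eq_add, sub_smul, natCast_zsmul y j, add_sub_assoc]
  · obtain ⟨b, hb⟩ : ∃ b : ℕ, ω.w y n = b := ⟨(ω.w y n).toNat, by omega⟩
    have e1 : u' = (((EU ω C y)⁻¹ : (QA ω C)ˣ) : QA ω C) * u * EU ω C y := by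
      rw [mul_assoc, ← h, Units.inv_mul_cancel_left]
    have e2 : v' * EU ω C' (-y) - (EU ω C' (-y) : QA ω C') * v =
        (v' - (EU ω C' (-y) : QA ω C') * v * ((EU ω C' (-y))⁻¹ : (QA ω C')ˣ)) * EU ω C' (-y) := by
      rw [sub_mul, Units.inv_mul_cancel_right]
    rw [e2, QA.fn_mul] at hne
    obtain ⟨p, hx, ha⟩ := conv_ne_zero ω hne
    have hp : ω.w y p = b := by
      have := hE _ ha
      rw [map_sub, hb] at this
      omega
    apply hx
    rw [QA.fn_sub, conj_E_nonpos ω hy' h0' v (b := b) (by simp [hp]), hv', e1,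
      conj_E_nonneg ω hy h0 u hp, sub_eq_zero]
    have := sum_pb_reflect b fun j => u.fn (p - j • y)
    refine Eq.trans (Finset.sum_congr rfl fun j _ => ?_) (this.symm.trans
      (Finset.sum_congr rfl fun j _ => ?_))
    · rw [natCast_zsmul]
    · have h5 : ω.w y (p - j • -y) = b := by simp [hp, ω.alt]
      rw [hv2, h5, sub_smul, natCast_zsmul y j, smul_neg, sub_neg_eq_add]
      exact congrArg (fun z => pb b j * u.fn z) (by abel)
end line

section mutation
variable (s : Seed L I) (k : I)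
/-- supports of `E⁻¹ g` and `g E⁻¹` -/
theorem mut_supp (n : L) :
    ((((EU ω s.cone (s.e k))⁻¹ * clu ω s : (QA ω s.cone)ˣ) : QA ω s.cone).fn n ≠ 0 →
      n ∈ (s.mutate ω k).cone.S) ∧
    (((clu ω s * (EU ω s.cone (s.e k))⁻¹ : (QA ω s.cone)ˣ) : QA ω s.cone).fn n ≠ 0 →
      transv ω (s.e k) n ∈ (s.mutate ω k).cone.S) := by
  have hy := s.e_mem k
  have hy0 := s.e_ne_zero k
  have hE := MutB.EU_mem (ω := ω) hy hy0
  have hg := (clu_spec ω s).1
  set E := EU ω s.cone (s.e k) with hEd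
  set g := clu ω s with hgd
  have g1 : E⁻¹ * g ∈ GS ω s.cone ⊤ := mul_mem (inv_mem (GS_top hE)) hg
  have g2 : g * E⁻¹ ∈ GS ω s.cone ⊤ := mul_mem hg (inv_mem (GS_top hE))
  have hB0 : MutB.Bh ω s k (s.e k) = 0 := by rw [MutB.Bh_e]; simp [ω.alt]
  have hkk : s.co k (s.e k) = 1 := by simp [s.dual]
  have hsp : ∀ m (c : ℤ), m = ∑ i, s.co i m • s.e i →
      m + c • s.e k = ∑ i, s.co i (m + c • s.e k) • s.e i := by
    intro m c hm
    simp only [map_add, map_zsmul, s.dual, add_smul, Finset.sum_add_distrib, ← hm]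
    simp
  have hagr : Agr (AddSubmonoid.multiples (s.e k) : Set L) (g : QA ω s.cone).fn
      (E : QA ω s.cone).fn := by
    rintro _ ⟨j, rfl⟩
    rw [hEd, MutB.fn_EU hy hy0]
    exact clu_multiple ω s k j
  have vanish : ∀ (h : (QA ω s.cone)ˣ) (S : AddSubmonoid L) (n : L), h ∈ GS ω s.cone ⊤ →
      n ∈ s.cone.S → n ∉ AddSubmonoid.multiples (s.e k) → (∀ i, i ≠ k → s.e i ∈ S) →
      att s.cone.deg h n = att s.cone.deg g n →
      (∀ m ∈ Below s.cone n, (h : QA ω s.cone).fn m ≠ 0 → m ∈ S) →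
      (h : QA ω s.cone).fn n ≠ 0 → n ∈ S := by
    classical
    intro h S n hh hn hnm hS hatt hlow hne
    by_contra hnS
    have h0 : n ≠ 0 := fun h => hnS (h ▸ S.zero_mem)
    have hu : Un s.cone S fun m => if m ∈ S then (h : QA ω s.cone).fn m else 0 := by
      refine ⟨fun m hm => ?_, by simp [S.zero_mem, hh.2]⟩
      by_cases hmS : m ∈ S
      · exact ⟨(hh.1 m (by simpa [hmS] using hm)).1, hmS⟩
      · simp [hmS] at hm
    have h1 := att_first_order s.cone.deg hh (GS_top (mkU_mem ω hu)) hn h0 (by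
      intro m hm
      rw [fn_mkU ω hu]
      by_cases hmS : m ∈ S
      · simp [hmS]
      · simp only [if_neg hmS]
        by_contra hc
        exact hmS (hlow m hm hc))
    have h2 : att s.cone.deg
        (mkU ω s.cone fun m => if m ∈ S then (h : QA ω s.cone).fn m else 0) n = 0 := by
      by_contra hc
      exact hnS (att_supp _ (mkU_mem ω hu) hc).2.1
    have h3 : att s.cone.deg g n = 0 := by
      rw [hgd, MutB.att_clu s _ h0]
      refine Finset.sum_eq_zero fun i _ =>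
        MutB.ld_zero_of_not_mem _ (MutB.EU_mem (s.e_mem i) (s.e_ne_zero i)) fun hi => ?_
      by_cases hik : i = k
      · exact hnm (hik ▸ hi)
      · exact hnS (MutB.mult_le (hS i hik) hi)
    rw [h2, hatt, h3, fn_mkU ω hu] at h1
    simp only [if_neg hnS, sub_zero] at h1
    have : CharZero KK := algebraRat.charZero _
    have hd : ((s.cone.deg n : ℤ) : KK) ≠ 0 := Int.cast_ne_zero.2 (s.cone.pos n hn h0).ne'
    exact hne ((mul_eq_zero.1 h1.symm).resolve_left hd)
  have hei : ∀ i, s.e i = ∑ j, s.co j (s.e i) • s.e j := fun i => (s.mem_closure.1 (s.e_mem i)).2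
  by_cases hnC : n ∈ s.cone.S
  swap
  · exact ⟨fun h => (hnC (g1.1 n h).1).elim, fun h => (hnC (g2.1 n h).1).elim⟩
  revert n
  refine Cone.induction fun n hn ih => ?_
  by_cases hm : n ∈ AddSubmonoid.multiples (s.e k)
  · have hEi : InC s.cone 0 ((E⁻¹ : (QA ω s.cone)ˣ) : QA ω s.cone).fn :=
      Un.inC (inv_mem hE : E⁻¹ ∈ GS ω _ _)
    have a1 := agr_conv (ω := ω) (MutB.lower_mult s k) hEi hEi (Un.inC hg) (Un.inC hE)
      (fun _ _ => rfl) hagr n hm
    have a2 := agr_conv (ω := ω) (MutB.lower_mult s k) (Un.inC hg) (Un.inC hE) hEi hEi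
      hagr (fun _ _ => rfl) n hm
    rw [← QA.fn_mul, ← QA.fn_mul, Units.inv_mul, QA.fn_one] at a1
    rw [← QA.fn_mul, ← QA.fn_mul, Units.mul_inv, QA.fn_one] at a2
    simp only [Units.val_mul, a1, a2]
    by_cases h0 : n = 0
    · subst h0; simp
    · simp [dlt, h0]
  obtain ⟨hc1, hc2⟩ := s.mem_closure.1 hn
  have hlow : ∀ j : ℕ, n - j • s.e k ∈ s.cone.S → j ≠ 0 → n - j • s.e k ∈ Below s.cone n := by
    intro j h1 h2
    refine ⟨h1, by simpa using s.cone.S.nsmul_mem hy j, fun h => h2 ?_⟩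
    have := congrArg (s.co k) h
    simp only [map_sub, map_nsmul, hkk, nsmul_eq_mul, mul_one] at this
    omega
  rcases le_total (ω.w (s.e k) n) 0 with hb | hb
  · have c1 := vanish (E⁻¹ * g) (s.mutate ω k).cone.S n g1 hn hm
      (fun i hi => (MutB.mem_mut s k).2 ⟨hei i, fun j _ => (s.mem_closure.1 (s.e_mem i)).1 j, by
        rw [MutB.Bh_e, s.dual, if_neg hi.symm]; exact le_max_right _ _⟩)
      (MutB.att_left _ (inv_mem hE) hg hb hm) fun m hm' => (ih m hm').1
    refine ⟨c1, fun hne => ?_⟩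
    obtain ⟨β, hβ⟩ := Int.eq_ofNat_of_zero_le (neg_nonneg.2 hb)
    have e : ((g * E⁻¹ : (QA ω s.cone)ˣ) : QA ω s.cone) =
        (E : QA ω s.cone) * (E⁻¹ * g : (QA ω s.cone)ˣ) * (E⁻¹ : (QA ω s.cone)ˣ) := by
      rw [← Units.val_mul, ← Units.val_mul, mul_inv_cancel_left]
    rw [e, conj_E_nonpos ω hy hy0 _ (b := β) (by omega)] at hne
    obtain ⟨j, hj, hj'⟩ := Finset.exists_ne_zero_of_sum_ne_zero hne
    have hj1 := right_ne_zero_of_mul hj'
    have hj2 : n - j • s.e k ∈ (s.mutate ω k).cone.S := by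
      by_cases h0 : j = 0
      · subst h0; simpa using c1 (by simpa using hj1)
      · exact (ih _ (hlow j (g1.1 _ hj1).1 h0)).1 hj1
    have hj3 := ((MutB.mem_mut s k).1 hj2).2.2
    have := Finset.mem_range.1 hj
    simp only [map_sub, map_nsmul, hkk, hB0, nsmul_eq_mul, mul_one, mul_zero, sub_zero] at hj3
    refine (MutB.mem_mut s k).2 ⟨hsp n _ hc2, fun i hi => ?_, ?_⟩
    · simpa [transv_apply, s.dual, hi] using hc1 i
    · simp only [transv_apply, map_add, map_zsmul, hkk, hB0, smul_eq_mul]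
      omega
  · have c1 := vanish (g * E⁻¹)
      ((s.mutate ω k).cone.S.comap (transv ω (s.e k)).toAddMonoidHom) n g2 hn hm
      (fun i hi => (MutB.mem_mut s k).2 ⟨hsp _ _ (hei i), fun j hj => by
        simpa [transv_apply, s.dual, hj] using (s.mem_closure.1 (s.e_mem i)).1 j, by
        change s.co k (transv ω (s.e k) (s.e i)) ≤ MutB.Bh ω s k (transv ω (s.e k) (s.e i))
        simp only [transv_apply, map_add, map_zsmul, hkk, hB0, smul_eq_mul, MutB.Bh_e, s.dual,
          if_neg hi.symm]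
        simp⟩)
      (MutB.att_right _ (inv_mem hE) hg hb hm) fun m hm' => (ih m hm').2
    refine ⟨fun hne => ?_, c1⟩
    obtain ⟨β, hβ⟩ := Int.eq_ofNat_of_zero_le hb
    have e : ((E⁻¹ * g : (QA ω s.cone)ˣ) : QA ω s.cone) =
        ((E⁻¹ : (QA ω s.cone)ˣ) : QA ω s.cone) * (g * E⁻¹ : (QA ω s.cone)ˣ) * E := by
      rw [← Units.val_mul, ← Units.val_mul, mul_assoc, inv_mul_cancel_right]
    rw [e, conj_E_nonneg ω hy hy0 _ hβ] at hne
    obtain ⟨j, hj, hj'⟩ := Finset.exists_ne_zero_of_sum_ne_zero hne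
    have hj1 := right_ne_zero_of_mul hj'
    have hj2 : transv ω (s.e k) (n - j • s.e k) ∈ (s.mutate ω k).cone.S := by
      by_cases h0 : j = 0
      · subst h0; simpa using c1 (by simpa using hj1)
      · exact (ih _ (hlow j (g2.1 _ hj1).1 h0)).2 hj1
    have hj3 := ((MutB.mem_mut s k).1 hj2).2.2
    have := Finset.mem_range.1 hj
    simp only [transv_apply, map_add, map_zsmul, map_sub, map_nsmul, hkk, hB0, nsmul_eq_mul,
      mul_one, mul_zero, sub_zero, smul_eq_mul, ω.alt, add_zero] at hj3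
    exact (MutB.mem_mut s k).2 ⟨hc2, fun i _ => hc1 i, by omega⟩

theorem sign_mult (e y n : L) (hn : n ∈ AddSubmonoid.multiples y) (h0 : n ≠ 0) :
    (0 < ω.w e y → 0 < ω.w e n) ∧ (ω.w e y < 0 → ω.w e n < 0) := by
  obtain ⟨j, rfl⟩ := hn
  have hj : (0 : ℤ) < j := by
    have : j ≠ 0 := fun h => h0 (by simp [h])
    omega
  simp only [map_nsmul, nsmul_eq_mul]
  exact ⟨fun h => mul_pos hj h, fun h => mul_neg_of_pos_of_neg hj h⟩

theorem ld_EU_zero (d : L →+ ℤ) (i : I) {m : L} (h : m ∉ AddSubmonoid.multiples (s.e i)) :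
    (ld d (EU ω s.cone (s.e i))).fn m = 0 :=
  MutB.ld_zero_of_not_mem d (MutB.EU_mem (s.e_mem i) (s.e_ne_zero i)) h

theorem sum_ld_nonpos (d : L →+ ℤ) {n : L} (h0 : n ≠ 0) (hb : ω.w (s.e k) n ≤ 0)
    (hm : n ∉ AddSubmonoid.multiples (- s.e k)) (hm' : n ∉ AddSubmonoid.multiples (s.e k)) :
    ∑ i, (ld d (EU ω s.cone (s.e i))).fn n =
      ∑ i, (ld d (EU ω (s.mutate ω k).cone ((s.mutate ω k).e i))).fn n := by
  refine Finset.sum_congr rfl fun i _ => ?_
  by_cases hik : i = k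
  · subst hik
    rw [ld_EU_zero ω s d i hm', ld_EU_zero ω _ d i (by rwa [MutB.mut_e_self])]
  rcases le_or_gt (ω.w (s.e k) (s.e i)) 0 with hi | hi
  · have e : (s.mutate ω k).e i = s.e i := by
      rw [MutB.mut_e_ne s hik, max_eq_right hi, zero_smul, add_zero]
    have hmem : s.e i ∈ (s.mutate ω k).cone.S := by rw [← e]; exact Seed.e_mem _ i
    rw [e]
    exact (MutB.ld_EU_tr (AddEquiv.refl L) (MutB.refl_form ω) (s.e_mem i) (s.e_ne_zero i)
      hmem d n).symm
  · have hi' : 0 < ω.w (s.e k) ((s.mutate ω k).e i) := by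
      rw [MutB.mut_e_ne s hik]; simpa [ω.alt] using hi
    rw [ld_EU_zero ω s d i fun h => absurd ((sign_mult ω _ _ n h h0).1 hi) (by omega),
      ld_EU_zero ω _ d i fun h => absurd ((sign_mult ω _ _ n h h0).1 hi') (by omega)]

theorem sum_ld_nonneg (d : L →+ ℤ) {m : L} (h0 : m ≠ 0) (hb : 0 ≤ ω.w (s.e k) m)
    (hm : transv ω (s.e k) m ∉ AddSubmonoid.multiples (- s.e k))
    (hm' : m ∉ AddSubmonoid.multiples (s.e k)) :
    ∑ i, (ld (d.comp (transv ω (s.e k)).toAddMonoidHom) (EU ω s.cone (s.e i))).fn m =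
      ∑ i, (ld d (EU ω (s.mutate ω k).cone ((s.mutate ω k).e i))).fn (transv ω (s.e k) m) := by
  refine Finset.sum_congr rfl fun i _ => ?_
  by_cases hik : i = k
  · subst hik
    rw [ld_EU_zero ω s _ i hm', ld_EU_zero ω _ d i (by rwa [MutB.mut_e_self])]
  rcases le_or_gt 0 (ω.w (s.e k) (s.e i)) with hi | hi
  · have e : (s.mutate ω k).e i = transv ω (s.e k) (s.e i) := by
      rw [MutB.mut_e_ne s hik, max_eq_left hi, transv_apply]
    have hmem : transv ω (s.e k) (s.e i) ∈ (s.mutate ω k).cone.S := by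
      rw [← e]; exact Seed.e_mem _ i
    rw [e]
    exact (MutB.ld_EU_tr _ (transv_form ω (s.e k)) (s.e_mem i) (s.e_ne_zero i) hmem d m).symm
  · have hi' : ω.w (s.e k) ((s.mutate ω k).e i) < 0 := by
      rw [MutB.mut_e_ne s hik]; simpa [ω.alt] using hi
    have hbm : ω.w (s.e k) (transv ω (s.e k) m) = ω.w (s.e k) m := by
      simp [transv_apply, ω.alt]
    have h0' : transv ω (s.e k) m ≠ 0 := fun h => h0 (by simpa using h)
    rw [ld_EU_zero ω s _ i fun h => absurd ((sign_mult ω _ _ m h h0).2 hi) (by omega),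
      ld_EU_zero ω _ d i fun h => absurd ((sign_mult ω _ _ _ h h0').2 hi') (by omega)]

/-- the cluster element of the mutated seed -/
theorem mut_clu : ∃ h₁ h₂ : (QA ω (s.mutate ω k).cone)ˣ,
    h₁ ∈ GS ω _ ⊤ ∧ h₂ ∈ GS ω _ ⊤ ∧
    (h₁ : QA ω (s.mutate ω k).cone).fn =
      (((EU ω s.cone (s.e k))⁻¹ * clu ω s : (QA ω s.cone)ˣ) : QA ω s.cone).fn ∧
    (∀ n, (h₂ : QA ω (s.mutate ω k).cone).fn (transv ω (s.e k) n) =
      ((clu ω s * (EU ω s.cone (s.e k))⁻¹ : (QA ω s.cone)ˣ) : QA ω s.cone).fn n) ∧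
    clu ω (s.mutate ω k) = h₁ * EU ω _ (- s.e k) ∧
    clu ω (s.mutate ω k) = EU ω _ (- s.e k) * h₂ := by
  have hy := s.e_mem k
  have hy0 := s.e_ne_zero k
  have hE := MutB.EU_mem (ω := ω) hy hy0
  have hg := (clu_spec ω s).1
  have hy' : - s.e k ∈ (s.mutate ω k).cone.S := MutB.mut_e_self (ω := ω) s k ▸ Seed.e_mem _ k
  have hy0' : - s.e k ≠ 0 := neg_ne_zero.2 hy0
  have hE' := MutB.EU_mem (ω := ω) hy' hy0'
  have hsup := mut_supp ω s k
  set E := EU ω s.cone (s.e k) with hEd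
  set g := clu ω s with hgd
  have g1 : E⁻¹ * g ∈ GS ω s.cone ⊤ := mul_mem (inv_mem (GS_top hE)) hg
  have g2 : g * E⁻¹ ∈ GS ω s.cone ⊤ := mul_mem hg (inv_mem (GS_top hE))
  obtain ⟨k1, hk1, hk1f, hk1t⟩ := MutB.exists_lift (S := (s.mutate ω k).cone.S) (g := E⁻¹ * g)
    ⟨fun n hn => ⟨(g1.1 n hn).1, (hsup n).1 hn⟩, g1.2⟩
  obtain ⟨k2, hk2, hk2f, hk2t⟩ := MutB.exists_lift
    (S := (s.mutate ω k).cone.S.comap (transv ω (s.e k)).toAddMonoidHom) (g := g * E⁻¹)
    ⟨fun n hn => ⟨(g2.1 n hn).1, (hsup n).2 hn⟩, g2.2⟩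
  have hC1 : ∀ n ∈ (s.cone.sub (s.mutate ω k).cone.S).S,
      AddEquiv.refl L n ∈ (s.mutate ω k).cone.S := fun _ hn => hn.2
  have hC2 : ∀ n ∈ (s.cone.sub ((s.mutate ω k).cone.S.comap (transv ω (s.e k)).toAddMonoidHom)).S,
      transv ω (s.e k) n ∈ (s.mutate ω k).cone.S := fun _ hn => hn.2
  set h₁ := trU (AddEquiv.refl L) (MutB.refl_form ω) hC1 k1 with hh₁
  set h₂ := trU (transv ω (s.e k)) (transv_form ω (s.e k)) hC2 k2 with hh₂
  have m1 : h₁ ∈ GS ω _ ⊤ := trU_mem _ _ _ (fun _ _ => AddSubmonoid.mem_top _) hk1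
  have m2 : h₂ ∈ GS ω _ ⊤ := trU_mem _ _ _ (fun _ _ => AddSubmonoid.mem_top _) hk2
  have f1 : (h₁ : QA ω (s.mutate ω k).cone).fn = ((E⁻¹ * g : (QA ω s.cone)ˣ) : QA ω s.cone).fn :=
    hk1f
  have f2 : ∀ n, (h₂ : QA ω (s.mutate ω k).cone).fn (transv ω (s.e k) n) =
      ((g * E⁻¹ : (QA ω s.cone)ˣ) : QA ω s.cone).fn n := fun n => by
    rw [hh₂, coe_trU, fn_tr, AddEquiv.symm_apply_apply, hk2f]
  have hline : h₁ * EU ω _ (- s.e k) = EU ω _ (- s.e k) * h₂ := Units.ext
    (line_lemma ω hy hy0 hy' (u := (g * E⁻¹ : (QA ω s.cone)ˣ)) (u' := (E⁻¹ * g : (QA ω s.cone)ˣ))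
      (by rw [← hEd, ← Units.val_mul, ← Units.val_mul, mul_inv_cancel_left, inv_mul_cancel_right])
      f1 f2)
  have hkk : s.co k (s.e k) = 1 := by simp [s.dual]
  have hboth : ∀ n, n ∈ AddSubmonoid.multiples (s.e k) → n ∈ (s.mutate ω k).cone.S → n = 0 := by
    rintro _ ⟨j, rfl⟩ h
    have := ((MutB.mem_mut s k).1 h).2.2
    simp only [map_nsmul, hkk, MutB.Bh_e, ω.alt, max_self, nsmul_eq_mul, mul_one, mul_zero] at this
    have : j = 0 := by omega
    simp [this]
  have hcl : IsCl ω (s.mutate ω k) (h₁ * EU ω _ (- s.e k)) := by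
    refine ⟨mul_mem m1 (GS_top hE'), fun d n hn h0 => ?_⟩
    by_cases hm : n ∈ AddSubmonoid.multiples (- s.e k)
    · rw [← MutB.mut_e_self (ω := ω) s k] at hm
      refine MutB.att_multiple _ k (mul_mem m1 (GS_top hE')) (fun m hm' => ?_) d hm h0
      have a := agr_conv (ω := ω) (MutB.lower_mult (s.mutate ω k) k) (Un.inC m1)
        (Un.inC (one_mem (GS ω (s.mutate ω k).cone ⊤))) (Un.inC hE') (Un.inC hE') (by
          rintro _ ⟨j, rfl⟩
          rw [Units.val_one, QA.fn_one]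
          by_cases hj : j = 0
          · subst hj; simpa [dlt] using m1.2
          · have hne : j • (s.mutate ω k).e k ≠ 0 := fun h => hj (by
              have := congrArg ((s.mutate ω k).co k) h
              simpa [Seed.dual] using this)
            simp only [dlt, if_neg hne]
            by_contra hc
            rw [f1] at hc
            have := (s.mem_closure.1 (g1.1 _ hc).1).1 k
            simp only [MutB.mut_e_self, map_nsmul, map_neg, hkk, nsmul_eq_mul] at this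
            omega) (fun _ _ => rfl) m hm'
      rw [← QA.fn_mul, ← QA.fn_mul, Units.val_one, one_mul, MutB.fn_EU hy' hy0'] at a
      rw [Units.val_mul, a, MutB.mut_e_self]
    rcases le_total (ω.w (s.e k) n) 0 with hb | hb
    · have hm' : n ∉ AddSubmonoid.multiples (s.e k) := fun h => h0 (hboth n h hn)
      have e1 : att d h₁ n = att d (E⁻¹ * g) n := by
        rw [← hk1t]
        have x1 := att_trU (AddEquiv.refl L) (MutB.refl_form ω) hC1 d hk1 n
        have x2 := att_trU (AddEquiv.refl L) (MutB.refl_form ω) (MutB.refl_sub _ _) d hk1 n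
        exact x1.trans x2.symm
      rw [MutB.att_right d hE' m1 (by simpa using hb) hm, e1,
        MutB.att_left d (inv_mem hE) hg hb hm', MutB.att_clu s d h0]
      exact sum_ld_nonpos ω s k d h0 hb hm hm'
    · obtain ⟨m, rfl⟩ := (transv ω (s.e k)).surjective n
      have hbm : ω.w (s.e k) (transv ω (s.e k) m) = ω.w (s.e k) m := by
        simp [transv_apply, ω.alt]
      have hm0 : m ≠ 0 := fun h => h0 (by simp [h])
      have hm' : m ∉ AddSubmonoid.multiples (s.e k) := by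
        rintro ⟨j, rfl⟩
        refine h0 (hboth _ ⟨j, ?_⟩ hn)
        simp [transv_apply, ω.alt]
      have e1 : att d h₂ (transv ω (s.e k) m) =
          att (d.comp (transv ω (s.e k)).toAddMonoidHom) (g * E⁻¹) m := by
        rw [← hk2t]
        have x1 := att_trU (transv ω (s.e k)) (transv_form ω (s.e k)) hC2 d hk2 m
        have x2 := att_trU (AddEquiv.refl L) (MutB.refl_form ω) (MutB.refl_sub _ _)
          (d.comp (transv ω (s.e k)).toAddMonoidHom) hk2 m
        exact x1.trans x2.symm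
      rw [hline, MutB.att_left d hE' m2 (by simpa using hb) hm, e1,
        MutB.att_right _ (inv_mem hE) hg (hbm ▸ hb) hm', MutB.att_clu s _ hm0]
      exact sum_ld_nonneg ω s k d hm0 (hbm ▸ hb) hm hm'
  have hfin := (clu_spec ω (s.mutate ω k)).unique ω hcl
  exact ⟨h₁, h₂, m1, m2, f1, f2, hfin, hfin.trans hline⟩

omit [Fintype I] [DecidableEq I] in
/-- comparison of expansions in two cones -/
theorem negP_transfer {C C' : Cone L} (Φ : L ≃+ L) (hω : ∀ a b, ω.w (Φ a) (Φ b) = ω.w a b)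
    {g : (QA ω C)ˣ} {g' : (QA ω C')ˣ} (hg : g ∈ GS ω C ⊤) (hg' : g' ∈ GS ω C' ⊤)
    (h : ∀ n, (g' : QA ω C').fn (Φ n) = (g : QA ω C).fn n) {σ σ' : Stab L}
    (hσ : σ'.comap Φ.toAddMonoidHom = σ) :
    (∀ n, (negP σ' g' : QA ω C').fn (Φ n) = (negP σ g : QA ω C).fn n) ∧
    ∀ (u : QA ω C) (u' : QA ω C'), (Function.support u.fn).Finite → (∀ n, u'.fn (Φ n) = u.fn n) →
      ∀ n, ((((negP σ' g')⁻¹ : (QA ω C')ˣ) : QA ω C') * u' * negP σ' g').fn (Φ n) =
        ((((negP σ g)⁻¹ : (QA ω C)ˣ) : QA ω C) * u * negP σ g).fn n := by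
  let C₀ := C.sub (C'.S.comap Φ.toAddMonoidHom)
  have h0 : ∀ a b, ω.w (AddEquiv.refl L a) (AddEquiv.refl L b) = ω.w a b := fun _ _ => rfl
  have h1 : ∀ n ∈ C₀.S, AddEquiv.refl L n ∈ C.S := fun n hn => hn.1
  have h2 : ∀ n ∈ C₀.S, Φ n ∈ C'.S := fun n hn => hn.2
  have hU : Un C₀ ⊤ (g : QA ω C).fn :=
    ⟨fun n hn => ⟨⟨(hg.1 n hn).1, (hg'.1 (Φ n) (by rwa [h])).1⟩, trivial⟩, hg.2⟩
  have e1 : g = trU (AddEquiv.refl L) h0 h1 (mkU ω C₀ (g : QA ω C).fn) :=
    Units.ext (QA.ext fun n => by rw [coe_trU, fn_tr, fn_mkU ω hU]; rfl)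
  have e2 : g' = trU Φ hω h2 (mkU ω C₀ (g : QA ω C).fn) :=
    Units.ext (QA.ext fun n => by rw [coe_trU, fn_tr, fn_mkU ω hU, ← h, Φ.apply_symm_apply])
  have e3 := (trU_parts (AddEquiv.refl L) h0 h1 σ (mkU_mem ω hU)).1
  have e4 := (trU_parts Φ hω h2 σ' (mkU_mem ω hU)).1
  rw [← e1, show σ.comap (AddEquiv.refl L).toAddMonoidHom = σ from rfl] at e3
  rw [← e2, hσ] at e4
  refine ⟨fun n => ?_, fun u u' hu hu' n => ?_⟩
  · rw [e3, e4, coe_trU, coe_trU, fn_tr, fn_tr, Φ.symm_apply_apply]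
    rfl
  · have e5 : u = tr (AddEquiv.refl L) h0 h1 (QA.mk u.fn (adm_of_finite C₀ hu)) := rfl
    have e6 : u' = tr Φ hω h2 (QA.mk u.fn (adm_of_finite C₀ hu)) :=
      QA.ext fun n => by rw [fn_tr, QA.fn_mk, ← hu', Φ.apply_symm_apply]
    rw [e3, e4, e6]
    conv_rhs => rw [e5]
    rw [← trU_inv, ← trU_inv, coe_trU, coe_trU, coe_trU, coe_trU, ← map_mul, ← map_mul, ← map_mul,
      ← map_mul, fn_tr, fn_tr, Φ.symm_apply_apply]
    rfl

omit [Fintype I] [DecidableEq I] in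
theorem negP_mul_left {C : Cone L} {σ : Stab L} {E h : (QA ω C)ˣ} (hE : E ∈ GS ω C (negM σ))
    (hh : h ∈ GS ω C ⊤) : negP σ (E * h) = E * negP σ h := by
  have := (fact_unique (mul_mem hE (negP_mem σ h)) (zeroP_mem σ h) (posP_mem σ h)).1
  rwa [mul_assoc E, mul_assoc E, fact_eq σ hh] at this

omit [Fintype I] [DecidableEq I] in
theorem negP_mul_right {C : Cone L} {σ : Stab L} {E h : (QA ω C)ˣ} (hE : E ∈ GS ω C (posM σ))
    (hh : h ∈ GS ω C ⊤) : negP σ (h * E) = negP σ h := by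
  have := (fact_unique (negP_mem σ h) (zeroP_mem σ h) (mul_mem (posP_mem σ h) hE)).1
  rwa [← mul_assoc, fact_eq σ hh] at this

omit [Fintype I] [DecidableEq I] in
theorem EU_mem_GS {C : Cone L} {y : L} (hy : y ∈ C.S) (h0 : y ≠ 0) {S : AddSubmonoid L}
    (hS : y ∈ S) : EU ω C y ∈ GS ω C S :=
  GS_mono (by rintro _ ⟨j, rfl⟩; exact S.nsmul_mem hS j) (mkU_mem ω (un_Efun hy h0))

theorem neg_e_mem_mutate : -s.e k ∈ (s.mutate ω k).cone.S :=
  (if_pos rfl : (s.mutate ω k).e k = -s.e k) ▸ (s.mutate ω k).e_mem k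

theorem mut_negP {σ : Stab L} (hσ : σ.neg (s.e k)) : ∃ h₁ : (QA ω (s.mutate ω k).cone)ˣ,
    h₁ ∈ GS ω _ ⊤ ∧ (h₁ : QA ω (s.mutate ω k).cone).fn =
      (((EU ω s.cone (s.e k))⁻¹ * clu ω s : (QA ω s.cone)ˣ) : QA ω s.cone).fn ∧
    negP σ (clu ω (s.mutate ω k)) = negP σ h₁ ∧ (EU ω s.cone (s.e k))⁻¹ * clu ω s ∈ GS ω _ ⊤ ∧
    negP σ (clu ω s) = EU ω s.cone (s.e k) * negP σ ((EU ω s.cone (s.e k))⁻¹ * clu ω s) := by
  obtain ⟨h₁, h₂, m1, -, e1, -, e2, -⟩ := mut_clu ω s k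
  have hE := EU_mem_GS ω (s.e_mem k) (s.e_ne_zero k) (mem_negM.2 (Or.inl hσ))
  have m2 := mul_mem (inv_mem (GS_top hE)) (clu_spec ω s).1
  refine ⟨h₁, m1, e1, ?_, m2, ?_⟩
  · rw [e2, negP_mul_right ω (EU_mem_GS ω (neg_e_mem_mutate ω s k)
      (neg_ne_zero.2 (s.e_ne_zero k)) (mem_posM.2 (Or.inl (Stab.pos_neg_iff.2 hσ)))) m1]
  · rw [← negP_mul_left ω hE m2, mul_inv_cancel_left]

variable {f f' : L → KK} (hf : (Function.support f).Finite) (hf' : (Function.support f').Finite)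
  (hE : conv ω f (Efun (s.e k)) = conv ω (Efun (s.e k)) f')
include hf hf' hE
theorem mut_hE : (EU ω s.cone (s.e k) : QA ω s.cone) * mkA ω s.cone f' =
    mkA ω s.cone f * EU ω s.cone (s.e k) := QA.ext fun n => by
  rw [QA.fn_mul, QA.fn_mul, EU, fn_mkU ω (un_Efun (s.e_mem k) (s.e_ne_zero k)),
    fn_mkA ω (adm_of_finite _ hf), fn_mkA ω (adm_of_finite _ hf'), hE]
theorem mut_uth {σ : Stab L} (hσ : σ.neg (s.e k)) :
    uth ω (s.mutate ω k) σ f' = uth ω s σ f := by
  obtain ⟨h₁, m1, e1, e2, m2, e3⟩ := mut_negP ω s k hσ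
  funext n
  have h := (negP_transfer ω (AddEquiv.refl L) (fun _ _ => rfl) m2 m1 (fun n => congrFun e1 n)
    (σ := σ) (σ' := σ) rfl).2 (mkA ω _ f') (mkA ω _ f')
    (by rwa [fn_mkA ω (adm_of_finite _ hf')])
    (fun n => by rw [fn_mkA ω (adm_of_finite _ hf'), fn_mkA ω (adm_of_finite _ hf')]; rfl) n
  rw [uth, uth, e2, e3, mul_inv_rev, Units.val_mul, Units.val_mul, mul_assoc _ (mkA ω _ f),
    ← mul_assoc (mkA ω _ f), ← mut_hE ω s k hf hf' hE, mul_assoc, mul_assoc, mul_assoc,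
    Units.inv_mul_cancel_left, ← mul_assoc, ← mul_assoc]
  exact h
theorem mut_cinf (p : L) : cinf ω (s.mutate ω k) f' (Tm ω (s.e k) p) = cinf ω s f p := by
  rcases le_or_gt (ω.w (s.e k) p) 0 with hb | hb
  · have hσ : ((Stab.ofHom (ω.th p)).lex (Stab.ofHom (-s.co k))).neg (s.e k) := by
      rw [Stab.lex_neg, Stab.ofHom_neg, Stab.ofHom_zero, Stab.ofHom_neg, Form.th_apply]
      simpa [s.dual] using hb.lt_or_eq
    rw [Tm, max_eq_right hb, zero_smul, add_zero, ← uth_lex ω _ (Stab.ofHom (-s.co k)),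
      ← uth_lex ω _ (Stab.ofHom (-s.co k)), mut_uth ω s k hf hf' hE hσ]
  · obtain ⟨h₁, h₂, -, m2, -, e1, -, e2⟩ := mut_clu ω s k
    have hp : (Stab.ofHom (ω.th p)).pos (s.e k) := Stab.ofHom_pos.2 hb
    have hn : (Stab.ofHom (ω.th (transv ω (s.e k) p))).neg (-s.e k) := by
      rw [Stab.ofHom_neg, Form.th_apply, transv_apply]
      simpa [ω.alt] using hb
    have hE1 := EU_mem_GS ω (s.e_mem k) (s.e_ne_zero k) (mem_posM.2 (Or.inl hp))
    have hE2 := EU_mem_GS ω (neg_e_mem_mutate ω s k) (neg_ne_zero.2 (s.e_ne_zero k))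
      (mem_negM.2 (Or.inl hn))
    have m1 := mul_mem (clu_spec ω s).1 (inv_mem (GS_top hE1))
    have e3 := negP_mul_right ω hE1 m1
    rw [inv_mul_cancel_right] at e3
    have hfin : (Function.support fun n => f ((transv ω (s.e k)).symm n)).Finite :=
      hf.preimage (transv ω (s.e k)).symm.injective.injOn
    have hv : ∀ n, (mkA ω (s.mutate ω k).cone fun n => f ((transv ω (s.e k)).symm n)).fn
        (transv ω (s.e k) n) = (mkA ω s.cone f).fn n := fun n => by
      rw [fn_mkA ω (adm_of_finite _ hfin), fn_mkA ω (adm_of_finite _ hf)]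
      simp only [AddEquiv.symm_apply_apply]
    have e4 := line_lemma ω (s.e_mem k) (s.e_ne_zero k) (neg_e_mem_mutate ω s k)
      (mut_hE ω s k hf hf' hE) (v' := mkA ω _ f')
      (by rw [fn_mkA ω (adm_of_finite _ hf'), fn_mkA ω (adm_of_finite _ hf')]) hv
    have h := (negP_transfer ω (transv ω (s.e k)) (transv_form ω _) m1 m2 e1
      (σ := Stab.ofHom (ω.th p)) (σ' := Stab.ofHom (ω.th (transv ω (s.e k) p)))
      (Stab.ext' fun a => by
        rw [Stab.comap_nn, Stab.ofHom_nn, Stab.ofHom_nn, Form.th_apply, Form.th_apply,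
          ← transv_form ω (s.e k) a p]
        rfl)).2 _ _ (by rwa [fn_mkA ω (adm_of_finite _ hf)]) hv p
    rw [Tm, max_eq_left hb.le, ← transv_apply, cinf, cinf, uth, uth, e3, ← h, e2,
      negP_mul_left ω hE2 m2, mul_inv_rev, Units.val_mul, Units.val_mul,
      mul_assoc _ (mkA ω _ f'), ← mul_assoc (mkA ω _ f'), e4, mul_assoc, mul_assoc,
      Units.inv_mul_cancel_left, ← mul_assoc]
omit hf hf' hE in
theorem mut_lneg {σ : Stab L} (hσ : σ.neg (s.e k)) (S : AddSubmonoid L) (hS : s.e k ∈ S)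
    (h : ∀ n, lneg ω s σ n ≠ 0 → n ∈ S) : ∀ n, lneg ω (s.mutate ω k) σ n ≠ 0 → n ∈ S := by
  obtain ⟨h₁, m1, e1, e2, m2, e3⟩ := mut_negP ω s k hσ
  intro n hn
  have h1 := (negP_transfer ω (AddEquiv.refl L) (fun _ _ => rfl) m2 m1 (fun n => congrFun e1 n)
    (σ := σ) (σ' := σ) rfl).1 n
  have h2 : negP σ (clu ω s) ∈ GS ω s.cone S :=
    ⟨fun n hn => ⟨((negP_mem σ _).1 n hn).1, h n hn⟩, (negP_mem σ _).2⟩
  have h3 := mul_mem (inv_mem (EU_mem_GS ω (s.e_mem k) (s.e_ne_zero k) hS)) h2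
  rw [e3, inv_mul_cancel_left] at h3
  rw [lneg, e2] at hn
  exact (h3.1 n (h1 ▸ hn)).2
end mutation

end
end Vale.Agent.P066
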