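import Vale.Agent.P066.QGrp

/-! Twists, conjugation formula, logarithmic derivative, transport along automorphisms. -/

namespace Vale.Agent.P066
noncomputable section
variable {L : Type} [AddCommGroup L] {ω : Form L} {C : Cone L}

section twist
theorem tw_conv (b : L →+ ℤ) (u v : L → KK) (n : L) : tt (b n) * conv ω u v n =
    conv ω (fun a => tt (b a) * u a) (fun a => tt (b a) * v a) n := by
  simp only [conv, mul_finsum]
  refine finsum_congr fun a => ?_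
  rw [show b n = b a + b (n - a) by rw [map_sub]; ring, tt_add]
  ring

/-- the automorphism `X ^ a ↦ t ^ b(a) X ^ a` -/
def tw (b : L →+ ℤ) : QA ω C →+* QA ω C where
  toFun u := QA.mk (fun a => tt (b a) * u.fn a) (u.adm.mono fun n hn h => hn (by simp [h]))
  map_one' := QA.ext fun n => by
    by_cases h : n = 0 <;> simp [QA.fn_one, dlt, h, tt_zero]
  map_mul' u v := QA.ext fun n => tw_conv b _ _ n
  map_zero' := QA.ext fun n => by simp
  map_add' u v := QA.ext fun n => by simp [mul_add]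
theorem fn_tw (b : L →+ ℤ) (u : QA ω C) (n : L) : (tw b u).fn n = tt (b n) * u.fn n := rfl

theorem mul_swap_apply (u v : QA ω C) (n : L) :
    (v * u).fn n = ∑ᶠ a, tt (-ω.w a n) * u.fn a * v.fn (n - a) := by
  rw [QA.mul_apply, ← finsum_comp_equiv (Equiv.subLeft n)]
  refine finsum_congr fun a => ?_
  simp only [Equiv.subLeft_apply, sub_sub_cancel, map_sub, AddMonoidHom.sub_apply, ω.alt, zero_sub]
  ring
theorem trace_comm (u v : QA ω C) : (u * v).fn 0 = (v * u).fn 0 := by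
  rw [mul_swap_apply u v, QA.mul_apply]
  simp only [map_zero, neg_zero]
theorem fn_eq_trace (u : QA ω C) (p : L) : u.fn p = (u * QA.mono (-p) 1).fn 0 := by
  rw [QA.fn_mul, QA.fn_mono, conv_dlt_right]
  simp [tt_zero]
theorem middle_mono (r r' : QA ω C) (p m : L) : (r' * QA.mono (-p) 1 * r).fn (m - p) =
    (tw (-ω.th p) r' * tw (ω.th p) r).fn m := by
  rw [QA.mul_apply, QA.mul_apply, ← finsum_comp_equiv (Equiv.subRight p)]
  refine finsum_congr fun e => ?_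
  rw [QA.fn_mul, QA.fn_mono, conv_dlt_right, fn_tw, fn_tw]
  simp only [Equiv.subRight_apply, sub_neg_eq_add, sub_add_cancel, sub_sub_sub_cancel_right]
  have h : ω.w (e - p) (m - p) + ω.w (e - p) (-p) =
      ω.w e m + (-ω.th p) e + ω.th p (m - e) := by
    simp only [map_sub, map_neg, AddMonoidHom.sub_apply, AddMonoidHom.neg_apply, Form.th_apply,
      ω.alt, ω.skew p m]
    ring
  calc tt (ω.w (e - p) (m - p)) * (tt (ω.w (e - p) (-p)) * r'.fn e * 1) * r.fn (m - e)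
      = tt (ω.w (e - p) (m - p) + ω.w (e - p) (-p)) * r'.fn e * r.fn (m - e) := by
        rw [tt_add]; ring
    _ = _ := by rw [h, tt_add, tt_add]; ring

/-- the conjugation formula -/
theorem sandwich (r u r' : QA ω C) (p : L) : (r * u * r').fn p =
    ∑ᶠ m, (tw (-ω.th p) r' * tw (ω.th p) r).fn m * u.fn (p - m) := by
  have h : r * u * r' * QA.mono (-p) 1 = r * (u * (r' * QA.mono (-p) 1)) := by
    simp only [mul_assoc]
  rw [fn_eq_trace, h, trace_comm, mul_assoc, QA.mul_apply,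
    ← finsum_comp_equiv (Equiv.subLeft p)]
  refine finsum_congr fun m => ?_
  rw [Equiv.subLeft_apply, zero_sub, neg_sub, middle_mono, map_zero, tt_zero]
  ring
theorem tw_eq_self {b : L →+ ℤ} {u : QA ω C} (h : ∀ n, u.fn n ≠ 0 → b n = 0) : tw b u = u :=
  QA.ext fun n => by
    rw [fn_tw]
    by_cases hn : u.fn n = 0
    · rw [hn, mul_zero]
    · rw [h n hn, tt_zero, one_mul]
theorem conj_perp {g : (QA ω C)ˣ} {p : L} (hg : ∀ n, (g : QA ω C).fn n ≠ 0 → ω.w n p = 0)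
    (hg' : ∀ n, ((g⁻¹ : (QA ω C)ˣ) : QA ω C).fn n ≠ 0 → ω.w n p = 0) (u : QA ω C) :
    (((g⁻¹ : (QA ω C)ˣ) : QA ω C) * u * g).fn p = u.fn p := by
  rw [sandwich, tw_eq_self (b := -ω.th p) fun n hn => by simp [Form.th_apply, hg n hn],
    tw_eq_self (b := ω.th p) hg', Units.mul_inv, finsum_eq_single _ 0]
  · simp [QA.fn_one, dlt]
  · intro x hx
    simp [QA.fn_one, dlt, hx]
theorem conj_perp_GS {g : (QA ω C)ˣ} {p : L} (hg : g ∈ GS ω C (zeroM (Stab.ofHom (ω.th p))))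
    (u : QA ω C) : (((g⁻¹ : (QA ω C)ˣ) : QA ω C) * u * g).fn p = u.fn p :=
  conj_perp (fun n hn => (Stab.ofHom_zero (θ := ω.th p)).1 (hg.1 n hn).2)
    (fun n hn => (Stab.ofHom_zero (θ := ω.th p)).1 ((inv_mem hg).1 n hn).2) u
theorem InC.tw (b : L →+ ℤ) {u : QA ω C} {p : L} (hu : InC C p u.fn) : InC C p (tw b u).fn :=
  fun n hn => hu n fun h => hn (by rw [fn_tw, h, mul_zero])
theorem sandwich_agr {r r₁ r' r₁' u : QA ω C} {p₀ p : L} (hu : InC C p₀ u.fn)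
    (hr : InC C 0 r.fn) (hr₁ : InC C 0 r₁.fn) (hr' : InC C 0 r'.fn) (hr₁' : InC C 0 r₁'.fn)
    (h : Agr {n | C.deg n ≤ C.deg (p - p₀)} r.fn r₁.fn)
    (h' : Agr {n | C.deg n ≤ C.deg (p - p₀)} r'.fn r₁'.fn) :
    (r * u * r').fn p = (r₁ * u * r₁').fn p := by
  rw [sandwich, sandwich]
  refine finsum_congr fun m => ?_
  by_cases hm : u.fn (p - m) = 0
  · rw [hm, mul_zero, mul_zero]
  · have h1 := C.deg_nonneg (hu _ hm)
    have h2 : m ∈ {n | C.deg n ≤ C.deg (p - p₀)} := by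
      simp only [map_sub, Set.mem_ofPred_eq] at h1 ⊢
      omega
    have h3 := agr_conv (ω := ω) (lower_deg _) (hr'.tw (-ω.th p)) (hr₁'.tw (-ω.th p))
      (hr.tw (ω.th p)) (hr₁.tw (ω.th p)) (fun n hn => by rw [fn_tw, fn_tw, h' n hn])
      (fun n hn => by rw [fn_tw, fn_tw, h n hn]) m h2
    rw [QA.fn_mul, QA.fn_mul, h3]
theorem mul_comm_at' {u v : QA ω C} {n : L}
    (h : ∀ a, u.fn a ≠ 0 → v.fn (n - a) ≠ 0 → ω.w a n = 0) : (u * v).fn n = (v * u).fn n := by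
  rw [mul_swap_apply u v, QA.mul_apply]
  refine finsum_congr fun a => ?_
  by_cases ha : u.fn a = 0
  · simp [ha]
  · by_cases hb : v.fn (n - a) = 0
    · simp [hb]
    · rw [h a ha hb, neg_zero]
/-- elements with mutually orthogonal supports commute -/
theorem commute_of_orth {u v : QA ω C} (h : ∀ a b, u.fn a ≠ 0 → v.fn b ≠ 0 → ω.w a b = 0) :
    u * v = v * u :=
  QA.ext fun n => mul_comm_at' fun a ha hb => by simpa [ω.alt] using h a _ ha hb
theorem mul_comm_at {u v : QA ω C} {n : L} (h : ∀ a, u.fn a ≠ 0 → ω.w a n = 0) :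
    (u * v).fn n = (v * u).fn n := mul_comm_at' fun a ha _ => h a ha
end twist

section logder
/-- the derivation `X ^ a ↦ d(a) X ^ a` -/
def Dd (d : L →+ ℤ) (u : QA ω C) : QA ω C :=
  QA.mk (fun a => (d a : KK) * u.fn a) (u.adm.mono fun n hn h => hn (by simp [h]))
theorem fn_Dd (d : L →+ ℤ) (u : QA ω C) (n : L) : (Dd d u).fn n = (d n : KK) * u.fn n := rfl
theorem Dd_mul (d : L →+ ℤ) (u v : QA ω C) : Dd d (u * v) = Dd d u * v + u * Dd d v :=
  QA.ext fun n => by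
    rw [fn_Dd, QA.fn_add, QA.mul_apply, QA.mul_apply, QA.mul_apply, mul_finsum,
      ← finsum_add_distrib ((Dd d u).adm.finite_conv ω v.adm n)
        (u.adm.finite_conv ω (Dd d v).adm n)]
    refine finsum_congr fun a => ?_
    rw [fn_Dd, fn_Dd, map_sub]
    push_cast
    ring
theorem Dd_one (d : L →+ ℤ) : Dd d (1 : QA ω C) = 0 :=
  QA.ext fun n => by
    by_cases h : n = 0 <;> simp [fn_Dd, QA.fn_one, dlt, h]
theorem Dd_comm (d d' : L →+ ℤ) (u : QA ω C) : Dd d (Dd d' u) = Dd d' (Dd d u) :=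
  QA.ext fun n => by simp only [fn_Dd]; ring
/-- logarithmic derivative -/
def ld (d : L →+ ℤ) (g : (QA ω C)ˣ) : QA ω C := ((g⁻¹ : (QA ω C)ˣ) : QA ω C) * Dd d (g : QA ω C)
theorem ld_one (d : L →+ ℤ) : ld d (1 : (QA ω C)ˣ) = 0 := by
  rw [ld, Units.val_one, Dd_one, mul_zero]
theorem ld_mul (d : L →+ ℤ) (g h : (QA ω C)ˣ) :
    ld d (g * h) = ((h⁻¹ : (QA ω C)ˣ) : QA ω C) * ld d g * h + ld d h := by
  simp only [ld, mul_inv_rev, Units.val_mul, Dd_mul, mul_add, mul_assoc, Units.inv_mul_cancel_left]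
theorem ld_mul_perp (d : L →+ ℤ) (g : (QA ω C)ˣ) {h : (QA ω C)ˣ} {n : L}
    (hh : h ∈ GS ω C (zeroM (Stab.ofHom (ω.th n)))) :
    (ld d (g * h)).fn n = (ld d g).fn n + (ld d h).fn n := by
  rw [ld_mul, QA.fn_add, conj_perp_GS hh]
theorem ld_supp (d : L →+ ℤ) {S : AddSubmonoid L} {g : (QA ω C)ˣ} (hg : g ∈ GS ω C S) {n : L}
    (hn : (ld d g).fn n ≠ 0) : n ∈ C.S ∧ n ∈ S ∧ n ≠ 0 := by
  obtain ⟨a, ha, hb⟩ := conv_ne_zero ω hn
  rw [fn_Dd] at hb
  have h1 := (inv_mem hg).1 a ha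
  have h2 := hg.1 _ (right_ne_zero_of_mul hb)
  have h3 : n - a ≠ 0 := fun h => left_ne_zero_of_mul hb (by simp [h])
  have e : a + (n - a) = n := by abel
  refine ⟨e ▸ C.S.add_mem h1.1 h2.1, e ▸ S.add_mem h1.2 h2.2, fun h => ?_⟩
  have h4 := C.pos _ h2.1 h3
  have h5 := C.deg_nonneg h1.1
  rw [h, map_sub, map_zero] at h4
  omega
theorem InC.Dd (d : L →+ ℤ) {u : QA ω C} {p : L} (hu : InC C p u.fn) : InC C p (Dd d u).fn :=
  fun n hn => hu n (right_ne_zero_of_mul hn)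
theorem ld_first_order (d : L →+ ℤ) {g g' : (QA ω C)ˣ} (hg : g ∈ GS ω C ⊤) (hg' : g' ∈ GS ω C ⊤)
    {n : L} (hn : n ∈ C.S) (h0 : n ≠ 0) (h : Agr (Below C n) (g : QA ω C).fn (g' : QA ω C).fn) :
    (ld d g).fn n - (ld d g').fn n = (d n : KK) * ((g : QA ω C).fn n - (g' : QA ω C).fn n) := by
  have h1 := first_order (ω := ω) (Un.inC (inv_mem hg)) (Un.inC (inv_mem hg'))
    ((Un.inC hg).Dd d) ((Un.inC hg').Dd d) hn h0 (agr_inv (lower_below n) hg hg' h)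
    fun m hm => by rw [fn_Dd, fn_Dd, h m hm]
  rw [(inv_mem hg).2, fn_Dd, fn_Dd, fn_Dd, map_zero] at h1
  rw [ld, ld, QA.fn_mul, QA.fn_mul, h1]
  push_cast
  ring
theorem Dd_inv (d : L →+ ℤ) (g : (QA ω C)ˣ) :
    Dd d ((g⁻¹ : (QA ω C)ˣ) : QA ω C) = -(ld d g * ((g⁻¹ : (QA ω C)ˣ) : QA ω C)) := by
  have h := Dd_mul d ((g⁻¹ : (QA ω C)ˣ) : QA ω C) g
  rw [Units.inv_mul, Dd_one] at h
  have h2 : Dd d ((g⁻¹ : (QA ω C)ˣ) : QA ω C) * g = -ld d g := eq_neg_of_add_eq_zero_left h.symm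
  rw [← neg_mul, ← h2, Units.mul_inv_cancel_right]
/-- independence of the degree function -/
theorem ld_cross (d d' : L →+ ℤ) {g : (QA ω C)ˣ} {n : L}
    (hg : g ∈ GS ω C (zeroM (Stab.ofHom (ω.th n)))) :
    (d' n : KK) * (ld d g).fn n = (d n : KK) * (ld d' g).fn n := by
  have key : ∀ e e' : L →+ ℤ, Dd e' (ld e g) =
      -(ld e' g * ld e g) + ((g⁻¹ : (QA ω C)ˣ) : QA ω C) * Dd e' (Dd e g) := fun e e' => by
    rw [ld.eq_1 e g, Dd_mul, Dd_inv, neg_mul, mul_assoc]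
  have h : (ld d g * ld d' g).fn n = (ld d' g * ld d g).fn n :=
    mul_comm_at fun a ha => (Stab.ofHom_zero (θ := ω.th n)).1 (ld_supp d hg ha).2.1
  rw [← fn_Dd, ← fn_Dd, key, key, QA.fn_add, QA.fn_add, QA.fn_neg, QA.fn_neg, h, Dd_comm]
/-- the attractor invariant -/
def att (d : L →+ ℤ) (g : (QA ω C)ˣ) (n : L) : KK :=
  (ld d (zeroP (Stab.ofHom (ω.th n)) g)).fn n
theorem att_first_order (d : L →+ ℤ) {g g' : (QA ω C)ˣ} (hg : g ∈ GS ω C ⊤)
    (hg' : g' ∈ GS ω C ⊤) {n : L} (hn : n ∈ C.S) (h0 : n ≠ 0)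
    (h : Agr (Below C n) (g : QA ω C).fn (g' : QA ω C).fn) :
    att d g n - att d g' n = (d n : KK) * ((g : QA ω C).fn n - (g' : QA ω C).fn n) := by
  have hz : (Stab.ofHom (ω.th n)).zero n := Stab.ofHom_zero.2 (ω.alt n)
  rw [← zeroP_first_order hg hg' hn h0 hz h]
  exact ld_first_order d (GS_top (zeroP_mem _ g)) (GS_top (zeroP_mem _ g')) hn h0
    (fact_agr (lower_below n) (fun _ _ _ _ => ⟨Iff.rfl, Iff.rfl⟩) hg hg' h).2.1
theorem att_supp (d : L →+ ℤ) {S : AddSubmonoid L} {g : (QA ω C)ˣ} (hg : g ∈ GS ω C S) {n : L}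
    (hn : att d g n ≠ 0) : n ∈ C.S ∧ n ∈ S ∧ n ≠ 0 := ld_supp d (parts_mem _ hg).2.1 hn
/-- refining the attractor preorder does not change the invariant -/
theorem att_lex (d : L →+ ℤ) (τ : Stab L) {g : (QA ω C)ˣ} (hg : g ∈ GS ω C ⊤) {n : L}
    (hn : τ.zero n) :
    (ld d (zeroP ((Stab.ofHom (ω.th n)).lex τ) g)).fn n = att d g n := by
  have hz := zeroP_mem (Stab.ofHom (ω.th n)) g
  have hp := parts_mem τ hz
  have h1 : (ld d (negP τ (zeroP (Stab.ofHom (ω.th n)) g))).fn n = 0 := by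
    by_contra h
    obtain ⟨-, h2, h3⟩ := ld_supp d (negP_mem τ _) h
    exact (h2.resolve_right h3).not_zero hn
  have h2 : (ld d (posP τ (zeroP (Stab.ofHom (ω.th n)) g))).fn n = 0 := by
    by_contra h
    obtain ⟨-, h2, h3⟩ := ld_supp d (posP_mem τ _) h
    exact (h2.resolve_right h3).not_zero hn
  have h3 := congrArg (fun x => (ld d x).fn n) (fact_eq τ (GS_top hz))
  simp only [ld_mul_perp d _ hp.2.2, ld_mul_perp d _ hp.2.1, h1, h2, zero_add, add_zero] at h3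
  rw [zeroP_lex _ _ hg, h3, att]
end logder

section transport
variable {C' : Cone L}
theorem Adm.tr (Φ : L ≃+ L) (hC : ∀ n ∈ C.S, Φ n ∈ C'.S) {u : L → KK} (hu : Adm C u) :
    Adm C' fun n => u (Φ.symm n) := by
  obtain ⟨F, hF⟩ := hu
  refine ⟨F.map Φ.toEquiv.toEmbedding, fun n hn => ?_⟩
  obtain ⟨p, hp, hp'⟩ := hF _ hn
  exact ⟨Φ p, Finset.mem_map_of_mem _ hp, by simpa using hC _ hp'⟩
theorem conv_tr (Φ : L ≃+ L) (hω : ∀ a b, ω.w (Φ a) (Φ b) = ω.w a b) (u v : L → KK) (n : L) :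
    conv ω u v (Φ.symm n) = conv ω (fun a => u (Φ.symm a)) (fun a => v (Φ.symm a)) n := by
  simp only [conv]
  rw [← finsum_comp_equiv Φ.symm.toEquiv]
  refine finsum_congr fun a => ?_
  have h := hω (Φ.symm a) (Φ.symm n)
  rw [Φ.apply_symm_apply, Φ.apply_symm_apply] at h
  rw [h, map_sub]
  rfl

/-- transport along a form preserving automorphism mapping `C` into `C'` -/
def tr (Φ : L ≃+ L) (hω : ∀ a b, ω.w (Φ a) (Φ b) = ω.w a b) (hC : ∀ n ∈ C.S, Φ n ∈ C'.S) :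
    QA ω C →+* QA ω C' where
  toFun u := QA.mk (fun n => u.fn (Φ.symm n)) (u.adm.tr Φ hC)
  map_one' := QA.ext fun n => by
    have : Φ.symm n = 0 ↔ n = 0 := Φ.symm.map_eq_zero_iff
    by_cases h : n = 0 <;> simp [QA.fn_one, dlt, h, this]
  map_mul' u v := QA.ext fun n => conv_tr Φ hω _ _ n
  map_zero' := QA.ext fun n => by simp
  map_add' u v := QA.ext fun n => by simp

variable (Φ : L ≃+ L) (hω : ∀ a b, ω.w (Φ a) (Φ b) = ω.w a b) (hC : ∀ n ∈ C.S, Φ n ∈ C'.S)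
theorem fn_tr (u : QA ω C) (n : L) : (tr Φ hω hC u).fn n = u.fn (Φ.symm n) := rfl
/-- transport of units -/
def trU (g : (QA ω C)ˣ) : (QA ω C')ˣ := Units.map (tr Φ hω hC).toMonoidHom g
theorem coe_trU (g : (QA ω C)ˣ) : (trU Φ hω hC g : QA ω C') = tr Φ hω hC g := rfl
theorem trU_mul (g h : (QA ω C)ˣ) : trU Φ hω hC (g * h) = trU Φ hω hC g * trU Φ hω hC h :=
  map_mul (Units.map (tr Φ hω hC).toMonoidHom) g h
theorem trU_inv (g : (QA ω C)ˣ) : trU Φ hω hC g⁻¹ = (trU Φ hω hC g)⁻¹ :=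
  map_inv (Units.map (tr Φ hω hC).toMonoidHom) g
theorem trU_mem {S S' : AddSubmonoid L} (hS : ∀ n ∈ S, Φ n ∈ S') {g : (QA ω C)ˣ}
    (hg : g ∈ GS ω C S) : trU Φ hω hC g ∈ GS ω C' S' := by
  refine ⟨fun n hn => ?_, ?_⟩
  · have h := hg.1 _ hn
    exact ⟨by simpa using hC _ h.1, by simpa using hS _ h.2⟩
  · rw [coe_trU, fn_tr, map_zero]
    exact hg.2
theorem trU_parts (σ : Stab L) {g : (QA ω C)ˣ} (hg : g ∈ GS ω C ⊤) :
    negP σ (trU Φ hω hC g) = trU Φ hω hC (negP (σ.comap Φ.toAddMonoidHom) g) ∧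
    zeroP σ (trU Φ hω hC g) = trU Φ hω hC (zeroP (σ.comap Φ.toAddMonoidHom) g) := by
  have h1 : ∀ n ∈ negM (σ.comap Φ.toAddMonoidHom), Φ n ∈ negM σ := fun n hn =>
    (mem_negM.1 hn).imp id fun h => by rw [h, map_zero]
  have h2 : ∀ n ∈ zeroM (σ.comap Φ.toAddMonoidHom), Φ n ∈ zeroM σ := fun n hn =>
    Stab.comap_zero.1 (mem_zeroM.1 hn)
  have h3 : ∀ n ∈ posM (σ.comap Φ.toAddMonoidHom), Φ n ∈ posM σ := fun n hn =>
    (mem_posM.1 hn).imp Stab.comap_pos.1 fun h => by rw [h, map_zero]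
  have h := fact_unique (σ := σ) (trU_mem Φ hω hC h1 (negP_mem _ g))
    (trU_mem Φ hω hC h2 (zeroP_mem _ g)) (trU_mem Φ hω hC h3 (posP_mem _ g))
  rw [← trU_mul, ← trU_mul, fact_eq _ hg] at h
  exact ⟨h.1, h.2.1⟩
theorem ld_trU (d : L →+ ℤ) (g : (QA ω C)ˣ) :
    ld d (trU Φ hω hC g) = tr Φ hω hC (ld (d.comp Φ.toAddMonoidHom) g) := by
  have h : Dd d (tr Φ hω hC g) = tr Φ hω hC (Dd (d.comp Φ.toAddMonoidHom) g) :=
    QA.ext fun n => by simp [fn_Dd, fn_tr]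
  rw [ld, ld, map_mul, ← trU_inv, coe_trU, coe_trU, h]
theorem att_trU (d : L →+ ℤ) {g : (QA ω C)ˣ} (hg : g ∈ GS ω C ⊤) (n : L) :
    att d (trU Φ hω hC g) (Φ n) = att (d.comp Φ.toAddMonoidHom) g n := by
  have h : (Stab.ofHom (ω.th (Φ n))).comap Φ.toAddMonoidHom = Stab.ofHom (ω.th n) :=
    Stab.ext' fun a => by
      rw [Stab.comap_nn, Stab.ofHom_nn, Stab.ofHom_nn, Form.th_apply, Form.th_apply, ← hω a n]
      rfl
  rw [att, att, (trU_parts Φ hω hC _ hg).2, h, ld_trU, fn_tr, Φ.symm_apply_apply]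

/-- the subcone `C ∩ S` -/
def Cone.sub (C : Cone L) (S : AddSubmonoid L) : Cone L where
  S := C.S ⊓ S
  deg := C.deg
  pos n hn := C.pos n hn.1
  fin k := (C.fin k).subset fun _ hn => ⟨hn.1.1, hn.2⟩
end transport

end
end Vale.Agent.P066
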