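import Vale.Agent.P066.QConv

/-! The completed quantum torus as a ring. -/

namespace Vale.Agent.P066
noncomputable section
variable {L : Type} [AddCommGroup L]

theorem Adm.add {C : Cone L} {u v : L → KK} (hu : Adm C u) (hv : Adm C v) : Adm C (u + v) := by
  classical
  obtain ⟨F, hF⟩ := hu
  obtain ⟨G, hG⟩ := hv
  refine ⟨F ∪ G, fun n hn => ?_⟩
  by_cases h : u n = 0
  · obtain ⟨p, hp, hp'⟩ := hG n (by intro h'; simp [h, h'] at hn)
    exact ⟨p, Finset.mem_union_right _ hp, hp'⟩
  · obtain ⟨p, hp, hp'⟩ := hF n h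
    exact ⟨p, Finset.mem_union_left _ hp, hp'⟩

theorem Adm.mono {C : Cone L} {u v : L → KK} (hu : Adm C u) (h : ∀ n, v n ≠ 0 → u n ≠ 0) :
    Adm C v := hu.imp fun _ hF n hn => hF n (h n hn)

theorem adm_of_finite (C : Cone L) {u : L → KK} (h : (Function.support u).Finite) : Adm C u :=
  ⟨h.toFinset, fun n hn => ⟨n, by simpa using hn, by simp⟩⟩

theorem adm_of_supp (C : Cone L) {u : L → KK} (p : L) (h : ∀ n, u n ≠ 0 → n - p ∈ C.S) :
    Adm C u := ⟨{p}, fun n hn => ⟨p, by simp, h n hn⟩⟩

def admSub (C : Cone L) : Submodule KK (L → KK) where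
  carrier := {u | Adm C u}
  add_mem' := Adm.add
  zero_mem' := ⟨∅, fun _ h => (h rfl).elim⟩
  smul_mem' c _ hu := Adm.mono hu fun n hn h => hn (by simp [h])

/-- the completed quantum torus -/
def QA (_ω : Form L) (C : Cone L) : Type := admSub C

open Classical in
/-- the monomial function `c * X ^ a` -/
def dlt (a : L) (c : KK) : L → KK := fun n => if n = a then c else 0

theorem adm_dlt (C : Cone L) (a : L) (c : KK) : Adm C (dlt a c) :=
  adm_of_supp C a fun n hn => by
    have : n = a := by by_contra h; simp [dlt, h] at hn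
    simp [this]

theorem conv_dlt_left (ω : Form L) (a : L) (c : KK) (v : L → KK) (n : L) :
    conv ω (dlt a c) v n = tt (ω.w a n) * c * v (n - a) := by
  unfold conv
  rw [finsum_eq_single _ a]
  · simp [dlt]
  · intro x hx; simp [dlt, hx]

theorem conv_dlt_right (ω : Form L) (a : L) (c : KK) (v : L → KK) (n : L) :
    conv ω v (dlt a c) n = tt (ω.w n a) * v (n - a) * c := by
  unfold conv
  rw [finsum_eq_single _ (n - a)]
  · simp [dlt, ω.alt, ω.skew n a]
  · intro x hx
    have : n - x ≠ a := fun h => hx (by rw [← h]; simp)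
    simp [dlt, this]

namespace QA
variable {ω : Form L} {C : Cone L}
instance : AddCommGroup (QA ω C) := inferInstanceAs (AddCommGroup (admSub C))
instance : Module KK (QA ω C) := inferInstanceAs (Module KK (admSub C))
/-- the underlying function -/
def fn (u : QA ω C) : L → KK := Subtype.val u
theorem adm (u : QA ω C) : Adm C u.fn := Subtype.property u
/-- constructor -/
def mk (u : L → KK) (h : Adm C u) : QA ω C := Subtype.mk u h
@[simp] theorem fn_mk (u : L → KK) (h : Adm C u) : (mk u h : QA ω C).fn = u := rfl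
@[ext] theorem ext {u v : QA ω C} (h : ∀ n, u.fn n = v.fn n) : u = v := Subtype.ext (funext h)
instance : Mul (QA ω C) := ⟨fun u v => mk (conv ω u.fn v.fn) (u.adm.conv ω v.adm)⟩
instance : One (QA ω C) := ⟨mk (dlt 0 1) (adm_dlt C 0 1)⟩
theorem fn_mul (u v : QA ω C) : (u * v).fn = conv ω u.fn v.fn := rfl
theorem fn_one : (1 : QA ω C).fn = dlt 0 1 := rfl
@[simp] theorem fn_add (u v : QA ω C) (n : L) : (u + v).fn n = u.fn n + v.fn n := rfl
@[simp] theorem fn_sub (u v : QA ω C) (n : L) : (u - v).fn n = u.fn n - v.fn n := rfl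
@[simp] theorem fn_neg (u : QA ω C) (n : L) : (-u).fn n = - u.fn n := rfl
@[simp] theorem fn_zero (n : L) : (0 : QA ω C).fn n = 0 := rfl
@[simp] theorem fn_smul (c : KK) (u : QA ω C) (n : L) : (c • u).fn n = c * u.fn n := rfl
theorem mul_apply (u v : QA ω C) (n : L) :
    (u * v).fn n = ∑ᶠ a, tt (ω.w a n) * u.fn a * v.fn (n - a) := rfl

instance : Ring (QA ω C) where
  __ := (inferInstance : AddCommGroup (QA ω C))
  mul_assoc u v w := Subtype.ext (conv_assoc ω u.adm v.adm w.adm)
  one_mul u := ext fun n => by rw [fn_mul, fn_one, conv_dlt_left]; simp [tt_zero]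
  mul_one u := ext fun n => by rw [fn_mul, fn_one, conv_dlt_right]; simp [tt_zero]
  zero_mul u := ext fun n => by simp [mul_apply]
  mul_zero u := ext fun n => by simp [mul_apply]
  left_distrib u v w := ext fun n => by
    simp only [mul_apply, fn_add, mul_add]
    exact finsum_add_distrib (u.adm.finite_conv ω v.adm n) (u.adm.finite_conv ω w.adm n)
  right_distrib u v w := ext fun n => by
    simp only [mul_apply, fn_add, mul_add, add_mul]
    exact finsum_add_distrib (u.adm.finite_conv ω w.adm n) (v.adm.finite_conv ω w.adm n)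

instance : Algebra KK (QA ω C) := Algebra.ofModule
  (fun c u v => ext fun n => by
    simp only [mul_apply, fn_smul, mul_finsum]
    exact finsum_congr fun a => by ring)
  (fun c u v => ext fun n => by
    simp only [mul_apply, fn_smul, mul_finsum]
    exact finsum_congr fun a => by ring)

theorem fn_sum {ι : Type*} (s : Finset ι) (u : ι → QA ω C) (n : L) :
    (∑ i ∈ s, u i).fn n = ∑ i ∈ s, (u i).fn n := by
  classical
  induction s using Finset.induction_on with
  | empty => simp
  | insert i s hi ih => rw [Finset.sum_insert hi, Finset.sum_insert hi, fn_add, ih]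

/-- the monomial `c * X ^ a` -/
def mono (a : L) (c : KK) : QA ω C := mk (dlt a c) (adm_dlt C a c)
theorem fn_mono (a : L) (c : KK) : (mono a c : QA ω C).fn = dlt a c := rfl
theorem mono_mul (a b : L) (c d : KK) :
    (mono a c * mono b d : QA ω C) = mono (a + b) (tt (ω.w a b) * c * d) := ext fun n => by
  rw [fn_mul, fn_mono, conv_dlt_left, fn_mono, fn_mono]
  by_cases h : n = a + b
  · subst h; simp [dlt, ω.alt]
  · have : n - a ≠ b := fun h' => h (by rw [← h']; simp)
    simp [dlt, h, this]
end QA

open Classical in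
/-- a function as an element of the ring (zero if not admissible) -/
def mkA (ω : Form L) (C : Cone L) (u : L → KK) : QA ω C := if h : Adm C u then QA.mk u h else 0
theorem fn_mkA (ω : Form L) {C : Cone L} {u : L → KK} (h : Adm C u) : (mkA ω C u).fn = u := by
  simp [mkA, h]
theorem mkA_fn {ω : Form L} {C : Cone L} (u : QA ω C) : mkA ω C u.fn = u :=
  QA.ext fun n => by rw [fn_mkA ω u.adm]

end
end Vale.Agent.P066
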