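import Vale.Agent.P066.QSer

/-! Seeds, the cluster element (scattering diagram), and naturality. -/

namespace Vale.Agent.P066
noncomputable section
variable {L : Type} [AddCommGroup L] {I : Type} [Fintype I] [DecidableEq I]

/-- a seed: independent vectors with dual coordinates -/
structure Seed (L : Type) [AddCommGroup L] (I : Type) [DecidableEq I] where
  e : I → L
  co : I → L →+ ℤ
  dual : ∀ i j, co i (e j) = if i = j then 1 else 0

theorem Seed.mem_closure (s : Seed L I) {n : L} : n ∈ AddSubmonoid.closure (Set.range s.e) ↔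
    (∀ i, 0 ≤ s.co i n) ∧ n = ∑ i, s.co i n • s.e i := by
  constructor
  · intro hn
    induction hn using AddSubmonoid.closure_induction with
    | mem x hx =>
      obtain ⟨j, rfl⟩ := hx
      refine ⟨fun i => ?_, ?_⟩
      · rw [s.dual]; split_ifs <;> omega
      · simp [s.dual]
    | zero => simp
    | add x y _ _ hx hy =>
      refine ⟨fun i => ?_, ?_⟩
      · rw [map_add]; exact add_nonneg (hx.1 i) (hy.1 i)
      · simp only [map_add, add_smul, Finset.sum_add_distrib, ← hx.2, ← hy.2]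
  · rintro ⟨h1, h2⟩
    rw [h2]
    refine AddSubmonoid.sum_mem _ fun i _ => ?_
    obtain ⟨k, hk⟩ := Int.eq_ofNat_of_zero_le (h1 i)
    rw [hk, natCast_zsmul]
    exact nsmul_mem (AddSubmonoid.subset_closure (Set.mem_range_self i)) k

/-- the cone spanned by the seed -/
def Seed.cone (s : Seed L I) : Cone L where
  S := AddSubmonoid.closure (Set.range s.e)
  deg := ∑ i, s.co i
  pos n hn h0 := by
    obtain ⟨h1, h2⟩ := s.mem_closure.1 hn
    rw [AddMonoidHom.finsetSum_apply]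
    refine (Finset.sum_nonneg fun i _ => h1 i).lt_of_ne fun h => h0 ?_
    have h3 := (Finset.sum_eq_zero_iff_of_nonneg fun i _ => h1 i).1 h.symm
    rw [h2]
    exact Finset.sum_eq_zero fun i hi => by rw [h3 i hi, zero_smul]
  fin k := by
    refine ((Set.finite_Icc (0 : I → ℤ) fun _ => k).image
      fun x : I → ℤ => ∑ i, x i • s.e i).subset ?_
    rintro n ⟨hn, hk⟩
    obtain ⟨h1, h2⟩ := s.mem_closure.1 hn
    rw [AddMonoidHom.finsetSum_apply] at hk
    exact ⟨fun i => s.co i n, ⟨h1, fun i =>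
      (Finset.single_le_sum (fun j _ => h1 j) (Finset.mem_univ i)).trans hk⟩, h2.symm⟩

theorem Seed.e_mem (s : Seed L I) (i : I) : s.e i ∈ s.cone.S :=
  AddSubmonoid.subset_closure ⟨i, rfl⟩
theorem Seed.e_ne_zero (s : Seed L I) (i : I) : s.e i ≠ 0 := fun h => by
  have := s.dual i i
  simp [h] at this

variable (ω : Form L)

/-- mutation at `k` -/
def Seed.mutate (s : Seed L I) (k : I) : Seed L I where
  e i := if i = k then - s.e k else s.e i + max (ω.w (s.e k) (s.e i)) 0 • s.e k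
  co i := if i = k then - s.co k + ∑ j, max (ω.w (s.e k) (s.e j)) 0 • s.co j else s.co i
  dual i j := by
    by_cases hi : i = k <;> by_cases hj : j = k
    · simp [hi, hj, s.dual, ω.alt]
    · simp [hi, hj, s.dual, ω.alt, Ne.symm hj, mul_add, Finset.sum_add_distrib]
    · simp [hi, hj, s.dual]
    · simp [hi, hj, s.dual]

/-- the dilogarithm of `y` as a unit -/
def EU (C : Cone L) (y : L) : (QA ω C)ˣ := mkU ω C (Efun y)

/-- `g` has the attractor invariants of the initial dilogarithms -/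
def IsCl (s : Seed L I) (g : (QA ω s.cone)ˣ) : Prop :=
  g ∈ GS ω s.cone ⊤ ∧ ∀ (d : L →+ ℤ) (n : L), n ∈ s.cone.S → n ≠ 0 →
    att d g n = ∑ i, (ld d (EU ω s.cone (s.e i))).fn n

theorem deg_cast_ne_zero_sd {C : Cone L} {n : L} (hn : n ∈ C.S) (h0 : n ≠ 0) :
    ((C.deg n : ℤ) : KK) ≠ 0 := by
  have : CharZero KK := algebraRat.charZero KK
  exact Int.cast_ne_zero.2 (C.pos n hn h0).ne'

theorem EU_mem_sd {C : Cone L} {y : L} (hy : y ∈ C.S) (h0 : y ≠ 0) :
    EU ω C y ∈ GS ω C (AddSubmonoid.multiples y) := mkU_mem ω (un_Efun hy h0)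

theorem fn_EU_sd {C : Cone L} {y : L} (hy : y ∈ C.S) (h0 : y ≠ 0) :
    (EU ω C y : QA ω C).fn = Efun y := fn_mkU ω (un_Efun hy h0)

theorem EU_mem_perp_sd {C : Cone L} {y n : L} (hy : y ∈ C.S) (h0 : y ≠ 0)
    (hn : n ∈ AddSubmonoid.multiples y) : EU ω C y ∈ GS ω C (zeroM (Stab.ofHom (ω.th n))) := by
  refine GS_mono ?_ (EU_mem_sd ω hy h0)
  rintro _ ⟨l, rfl⟩
  obtain ⟨j, rfl⟩ := hn
  rw [mem_zeroM, Stab.ofHom_zero, Form.th_apply]
  simp [ω.alt]

theorem ld_EU_eq_zero_sd {C : Cone L} {y n : L} (hy : y ∈ C.S) (h0 : y ≠ 0) (d : L →+ ℤ)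
    (hn : n ∉ AddSubmonoid.multiples y) : (ld d (EU ω C y)).fn n = 0 := by
  by_contra h
  exact hn (ld_supp d (EU_mem_sd ω hy h0) h).2.1

theorem ld_cross_EU_sd {C : Cone L} {y : L} (hy : y ∈ C.S) (h0 : y ≠ 0) (d d' : L →+ ℤ) (n : L) :
    (d' n : KK) * (ld d (EU ω C y)).fn n = (d n : KK) * (ld d' (EU ω C y)).fn n := by
  by_cases hn : n ∈ AddSubmonoid.multiples y
  · exact ld_cross d d' (EU_mem_perp_sd ω hy h0 hn)
  · rw [ld_EU_eq_zero_sd ω hy h0 d hn, ld_EU_eq_zero_sd ω hy h0 d' hn, mul_zero, mul_zero]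

theorem GS_ext_sd {C : Cone L} {g g' : (QA ω C)ˣ} (hg : g ∈ GS ω C ⊤) (hg' : g' ∈ GS ω C ⊤)
    (h : ∀ n ∈ C.S, n ≠ 0 → Agr (Below C n) (g : QA ω C).fn (g' : QA ω C).fn →
      (g : QA ω C).fn n = (g' : QA ω C).fn n) : g = g' := by
  have key : ∀ n ∈ C.S, (g : QA ω C).fn n = (g' : QA ω C).fn n := by
    refine Cone.induction fun n hn ih => ?_
    by_cases h0 : n = 0
    · rw [h0, (mem_GS.1 hg).2, (mem_GS.1 hg').2]
    · exact h n hn h0 ih
  refine Units.ext (QA.ext fun n => ?_)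
  by_cases hn : n ∈ C.S
  · exact key n hn
  · rw [(mem_GS.1 hg).inC.eq_zero hn, (mem_GS.1 hg').inC.eq_zero hn]

theorem exists_isCl (s : Seed L I) : ∃ g, IsCl ω s g := by
  obtain ⟨x, hx, h1⟩ := exists_solution (C := s.cone)
    (fun x n => att s.cone.deg (mkU ω s.cone x) n) (fun n => ((s.cone.deg n : ℤ) : KK))
    (fun n hn h0 => deg_cast_ne_zero_sd hn h0)
    (fun x y n hx hy hn h0 ha => by
      have := att_first_order s.cone.deg (mkU_mem ω hx) (mkU_mem ω hy) hn h0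
        (by rw [fn_mkU ω hx, fn_mkU ω hy]; exact ha)
      rwa [fn_mkU ω hx, fn_mkU ω hy] at this)
    (fun n => ∑ i, (ld s.cone.deg (EU ω s.cone (s.e i))).fn n)
  refine ⟨mkU ω s.cone x, mkU_mem ω hx, fun d n hn h0 => ?_⟩
  apply mul_left_cancel₀ (deg_cast_ne_zero_sd hn h0)
  have e := h1 n hn h0
  unfold att at e ⊢
  rw [ld_cross d s.cone.deg (zeroP_mem _ _), e, Finset.mul_sum, Finset.mul_sum]
  exact Finset.sum_congr rfl fun i _ =>
    (ld_cross_EU_sd ω (s.e_mem i) (s.e_ne_zero i) d s.cone.deg n).symm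
theorem IsCl.unique {s : Seed L I} {g g' : (QA ω s.cone)ˣ} (h : IsCl ω s g) (h' : IsCl ω s g') :
    g = g' := by
  refine GS_ext_sd ω h.1 h'.1 fun n hn h0 ha => ?_
  have e := att_first_order s.cone.deg h.1 h'.1 hn h0 ha
  rw [h.2 _ n hn h0, h'.2 _ n hn h0, sub_self] at e
  exact sub_eq_zero.1 ((mul_eq_zero.1 e.symm).resolve_left (deg_cast_ne_zero_sd hn h0))

/-- the cluster element -/
def clu (s : Seed L I) : (QA ω s.cone)ˣ := (exists_isCl ω s).choose
theorem clu_spec (s : Seed L I) : IsCl ω s (clu ω s) := (exists_isCl ω s).choose_spec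

/-- the negative factor of the cluster element -/
def lneg (s : Seed L I) (σ : Stab L) : L → KK := (negP σ (clu ω s) : QA ω s.cone).fn
/-- expansion of `f` in the chamber `σ` -/
def uth (s : Seed L I) (σ : Stab L) (f : L → KK) : L → KK :=
  ((((negP σ (clu ω s))⁻¹ : (QA ω s.cone)ˣ) : QA ω s.cone) * mkA ω s.cone f *
    (negP σ (clu ω s) : QA ω s.cone)).fn
/-- the asymptotic coefficient -/
def cinf (s : Seed L I) (f : L → KK) (p : L) : KK := uth ω s (Stab.ofHom (ω.th p)) f p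

theorem un_lneg (s : Seed L I) (σ : Stab L) : Un s.cone (negM σ) (lneg ω s σ) := negP_mem σ _
theorem uth_inC (s : Seed L I) (σ : Stab L) {f : L → KK} {p : L} (hf : InC s.cone p f) :
    InC s.cone p (uth ω s σ f) := by
  have h1 := (mem_GS.1 (negP_mem σ (clu ω s))).inC
  have h2 := (mem_GS.1 (inv_mem (negP_mem σ (clu ω s)))).inC
  have h3 : InC s.cone p (mkA ω s.cone f).fn := by
    rw [fn_mkA ω (adm_of_supp _ p hf)]; exact hf
  have h4 := InC.conv (ω := ω) (InC.conv (ω := ω) h2 h3) h1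
  rw [zero_add, add_zero] at h4
  exact h4
theorem uth_lex (s : Seed L I) (τ : Stab L) (f : L → KK) (p : L) :
    uth ω s ((Stab.ofHom (ω.th p)).lex τ) f p = cinf ω s f p := by
  have h1 := (parts_mem τ (zeroP_mem (Stab.ofHom (ω.th p)) (clu ω s))).1
  unfold cinf uth
  refine Eq.trans ?_ (conj_perp_GS h1 _)
  rw [negP_lex _ _ (clu_spec ω s).1, mul_inv_rev, Units.val_mul, Units.val_mul]
  simp only [mul_assoc]
theorem uth_of_pos (s : Seed L I) {σ : Stab L} (hσ : ∀ n ∈ s.cone.S, n ≠ 0 → σ.pos n)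
    {f : L → KK} (hf : Adm s.cone f) : uth ω s σ f = f := by
  have h1 : negP σ (clu ω s) = 1 := by
    refine GS_ext_sd ω (GS_top (negP_mem σ _)) (one_mem _) fun n hn h0 _ => ?_
    rw [Units.val_one, QA.fn_one, dlt, if_neg h0]
    by_contra h
    rcases ((mem_GS.1 (negP_mem σ (clu ω s))).1 n h).2 with h2 | h2
    · exact h2.not_pos (hσ n hn h0)
    · exact h0 h2
  unfold uth
  rw [h1, inv_one, Units.val_one, one_mul, mul_one, fn_mkA ω hf]

theorem Seed.below_multiple_sd (s : Seed L I) (k : I) (j : ℕ) {m : L}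
    (hm : m ∈ Below s.cone (j • s.e k)) : ∃ l < j, m = l • s.e k := by
  obtain ⟨h1, h2⟩ := s.mem_closure.1 hm.1
  obtain ⟨h3, -⟩ := s.mem_closure.1 hm.2.1
  have e : m = s.co k m • s.e k := by
    refine h2.trans (Finset.sum_eq_single k (fun i _ hi => ?_) fun h => absurd (Finset.mem_univ k) h)
    have h4 := h3 i
    have h5 := h1 i
    rw [map_sub, map_nsmul, s.dual, if_neg hi, smul_zero] at h4
    rw [show s.co i m = 0 by omega, zero_smul]
  obtain ⟨l, hl⟩ := Int.eq_ofNat_of_zero_le (h1 k)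
  rw [hl, natCast_zsmul] at e
  refine ⟨l, ?_, e⟩
  have h4 := h3 k
  rw [map_sub, map_nsmul, s.dual, if_pos rfl, hl, nsmul_eq_mul, mul_one] at h4
  refine lt_of_le_of_ne (by omega) fun h => hm.2.2 ?_
  rw [e, h]

/-- a multiple of an initial vector: the cluster element restricts to the dilogarithm -/
theorem clu_multiple (s : Seed L I) (k : I) (j : ℕ) :
    (clu ω s : QA ω s.cone).fn (j • s.e k) = Efun (s.e k) (j • s.e k) := by
  induction j using Nat.strong_induction_on with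
  | h j ih =>
    by_cases h0 : j • s.e k = 0
    · rw [h0, (mem_GS.1 (clu_spec ω s).1).2, (un_Efun (s.e_mem k) (s.e_ne_zero k)).2]
    have hn : j • s.e k ∈ s.cone.S := nsmul_mem (s.e_mem k) j
    have hE := EU_mem_sd ω (s.e_mem k) (s.e_ne_zero k)
    have e := att_first_order s.cone.deg (clu_spec ω s).1 (GS_top hE) hn h0 fun m hm => by
      obtain ⟨l, hl, rfl⟩ := s.below_multiple_sd k j hm
      rw [ih l hl, fn_EU_sd ω (s.e_mem k) (s.e_ne_zero k)]
    have e1 : zeroP (Stab.ofHom (ω.th (j • s.e k))) (EU ω s.cone (s.e k)) =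
        EU ω s.cone (s.e k) := by
      have := (fact_unique (σ := Stab.ofHom (ω.th (j • s.e k))) (one_mem _)
        (EU_mem_perp_sd ω (s.e_mem k) (s.e_ne_zero k) ⟨j, rfl⟩) (one_mem _)).2.1
      rwa [one_mul, mul_one] at this
    rw [(clu_spec ω s).2 _ _ hn h0, Finset.sum_eq_single k, att, e1, sub_self,
      fn_EU_sd ω (s.e_mem k) (s.e_ne_zero k)] at e
    · exact sub_eq_zero.1 ((mul_eq_zero.1 e.symm).resolve_left (deg_cast_ne_zero_sd hn h0))
    · intro i _ hi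
      refine ld_EU_eq_zero_sd ω (s.e_mem i) (s.e_ne_zero i) _ ?_
      rintro ⟨l, hl⟩
      have h1 := congrArg (s.co k) hl
      simp only [map_nsmul, s.dual, if_neg hi.symm, if_true, smul_zero, nsmul_eq_mul,
        mul_one] at h1
      have : j = 0 := by exact_mod_cast h1.symm
      exact h0 (by rw [this, zero_smul])
    · exact fun h => absurd (Finset.mem_univ k) h

theorem ofHom_th_eq_sd {C : Cone L} {n n₀ : L} (hn : n ∈ C.S) (h0 : n ≠ 0) (hn₀ : n₀ ∈ C.S)
    {k : ℕ} (hk : 0 < k) {x : ℤ} (h : k • n = x • n₀) :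
    Stab.ofHom (ω.th n) = Stab.ofHom (ω.th n₀) := by
  have hk' : (0 : ℤ) < k := by exact_mod_cast hk
  have hx : 0 < x := by
    have h1 := congrArg C.deg h
    rw [map_nsmul, map_zsmul, nsmul_eq_mul, smul_eq_mul] at h1
    have h2 := mul_pos hk' (C.pos n hn h0)
    rw [h1] at h2
    exact pos_of_mul_pos_left h2 (C.deg_nonneg hn₀)
  refine Stab.ext' fun a => ?_
  have h1 := congrArg (ω.w a) h
  rw [map_nsmul, map_zsmul, nsmul_eq_mul, smul_eq_mul] at h1
  rw [Stab.ofHom_nn, Stab.ofHom_nn, Form.th_apply, Form.th_apply,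
    ← mul_nonneg_iff_of_pos_left hk', h1, mul_nonneg_iff_of_pos_left hx]

theorem zero_of_multiple_sd {σ : Stab L} {y n : L} (h0 : n ≠ 0) (hz : σ.zero n)
    (hn : n ∈ AddSubmonoid.multiples y) : σ.zero y := by
  obtain ⟨l, rfl⟩ := hn
  have hl : 0 < l := Nat.pos_of_ne_zero fun h => h0 (by simp [h])
  refine ⟨(Stab.nn_nsmul_iff hl).1 hz.1, (Stab.nn_nsmul_iff hl).1 ?_⟩
  rw [smul_neg]
  exact hz.2

set_option linter.unusedVariables false in
/-- the wall function at the end of the attractor flow -/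
theorem zeroP_attractor (s : Seed L I) {n₀ : L} (hn : n₀ ∈ s.cone.S) (h0 : n₀ ≠ 0) {σ : Stab L}
    (hz : σ.zero n₀) (hline : ∀ a, σ.zero a → ∃ k : ℕ, 0 < k ∧ ∃ x : ℤ, k • a = x • n₀) :
    zeroP ((Stab.ofHom (ω.th n₀)).lex σ) (clu ω s) = 1 ∨
      ∃ i, σ.zero (s.e i) ∧
        zeroP ((Stab.ofHom (ω.th n₀)).lex σ) (clu ω s) = EU ω s.cone (s.e i) := by
  have hzm : zeroP ((Stab.ofHom (ω.th n₀)).lex σ) (clu ω s) ∈ GS ω s.cone (zeroM σ) :=
    GS_mono (fun n hn => (Stab.lex_zero.1 hn).2) (zeroP_mem _ _)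
  have key : ∀ z ∈ GS ω s.cone (zeroM σ), (∀ n ∈ s.cone.S, n ≠ 0 → σ.zero n →
      ∑ i, (ld s.cone.deg (EU ω s.cone (s.e i))).fn n = (ld s.cone.deg z).fn n) →
      zeroP ((Stab.ofHom (ω.th n₀)).lex σ) (clu ω s) = z := by
    intro z hz' hsum
    refine GS_ext_sd ω (GS_top hzm) (GS_top hz') fun n hn1 hn0 ha => ?_
    by_cases hσ : σ.zero n
    · obtain ⟨k, hk, x, hx⟩ := hline n hσ
      have e := ld_first_order s.cone.deg (GS_top hzm) (GS_top hz') hn1 hn0 ha
      have e1 := att_lex s.cone.deg σ (clu_spec ω s).1 hσ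
      rw [ofHom_th_eq_sd ω hn1 hn0 hn hk hx, (clu_spec ω s).2 _ n hn1 hn0,
        hsum n hn1 hn0 hσ] at e1
      rw [e1, sub_self] at e
      exact sub_eq_zero.1 ((mul_eq_zero.1 e.symm).resolve_left (deg_cast_ne_zero_sd hn1 hn0))
    · have e1 : ∀ g ∈ GS ω s.cone (zeroM σ), (g : QA ω s.cone).fn n = 0 := fun g hg => by
        by_contra h
        exact hσ ((mem_GS.1 hg).1 n h).2
      rw [e1 _ hzm, e1 _ hz']
  have hv : ∀ i, ¬ σ.zero (s.e i) → ∀ n, n ≠ 0 → σ.zero n →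
      (ld s.cone.deg (EU ω s.cone (s.e i))).fn n = 0 := fun i hi n hn0 hσ =>
    ld_EU_eq_zero_sd ω (s.e_mem i) (s.e_ne_zero i) _ fun h => hi (zero_of_multiple_sd hn0 hσ h)
  by_cases hex : ∃ i, σ.zero (s.e i)
  · obtain ⟨i, hi⟩ := hex
    refine Or.inr ⟨i, hi, key _ ?_ fun n _ hn0 hσ => ?_⟩
    · refine GS_mono ?_ (EU_mem_sd ω (s.e_mem i) (s.e_ne_zero i))
      rintro _ ⟨l, rfl⟩
      have := hi.zsmul l
      rwa [natCast_zsmul] at this
    · refine Finset.sum_eq_single i (fun j _ hj => hv j (fun hj' => ?_) n hn0 hσ)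
        fun h => absurd (Finset.mem_univ i) h
      obtain ⟨k, hk, x, hx⟩ := hline _ hi
      obtain ⟨k', hk', x', hx'⟩ := hline _ hj'
      have h1 := congrArg (s.co i) hx
      have h2 := congrArg (s.co i) hx'
      have h3 := congrArg (s.co j) hx'
      simp only [map_nsmul, map_zsmul, s.dual, if_neg hj.symm, if_true, smul_zero, nsmul_eq_mul,
        mul_one, smul_eq_mul] at h1 h2 h3
      rcases mul_eq_zero.1 h2.symm with h4 | h4
      · rw [h4, zero_mul] at h3; omega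
      · rw [h4, mul_zero] at h1; omega
  · refine Or.inl (key 1 (one_mem _) fun n _ hn0 hσ => ?_)
    rw [ld_one, QA.fn_zero]
    exact Finset.sum_eq_zero fun i _ => hv i (fun h => hex ⟨i, h⟩) n hn0 hσ

section natural
variable {ω} {s s' : Seed L I} (Φ : L ≃+ L) (hω : ∀ a b, ω.w (Φ a) (Φ b) = ω.w a b) (π : I ≃ I)
  (he : ∀ i, s'.e i = Φ (s.e (π i)))

include he in
theorem nat_cone_sd : ∀ n ∈ s.cone.S, Φ n ∈ s'.cone.S := by
  intro n hn
  induction hn using AddSubmonoid.closure_induction with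
  | mem x hx =>
    obtain ⟨j, rfl⟩ := hx
    have := s'.e_mem (π.symm j)
    rwa [he, π.apply_symm_apply] at this
  | zero => rw [map_zero]; exact zero_mem _
  | add x y _ _ hx hy => rw [map_add]; exact add_mem hx hy

include he in
theorem nat_cone_symm_sd : ∀ n ∈ s'.cone.S, Φ.symm n ∈ s.cone.S :=
  nat_cone_sd Φ.symm π.symm fun i => by rw [he, π.apply_symm_apply, Φ.symm_apply_apply]

theorem ser_tr_sd (y : L) (c : ℕ → KK) (n : L) : ser (Φ y) c n = ser y c (Φ.symm n) := by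
  unfold ser
  refine finsum_congr fun j => ?_
  have : n = j • Φ y ↔ Φ.symm n = j • y := by rw [Φ.symm_apply_eq, map_nsmul]
  by_cases h : n = j • Φ y
  · rw [if_pos h, if_pos (this.1 h)]
  · rw [if_neg h, if_neg fun h' => h (this.2 h')]

theorem EU_tr_sd {C C' : Cone L} (hC : ∀ n ∈ C.S, Φ n ∈ C'.S) {y : L} (hy : y ∈ C.S)
    (h0 : y ≠ 0) : EU ω C' (Φ y) = trU Φ hω hC (EU ω C y) := by
  refine Units.ext (QA.ext fun n => ?_)
  rw [coe_trU, fn_tr, fn_EU_sd ω hy h0, fn_EU_sd ω (hC y hy) (by simpa using h0)]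
  exact ser_tr_sd Φ y _ n

theorem clu_tr_sd : clu ω s' = trU Φ hω (nat_cone_sd Φ π he) (clu ω s) := by
  refine (clu_spec ω s').unique ω ⟨trU_mem Φ hω _ (fun _ _ => AddSubmonoid.mem_top _) (clu_spec ω s).1,
    fun d n hn h0 => ?_⟩
  obtain ⟨m, rfl⟩ := Φ.surjective n
  have hm : m ∈ s.cone.S := by simpa using nat_cone_symm_sd Φ π he _ hn
  have hm0 : m ≠ 0 := by simpa using h0
  rw [att_trU Φ hω _ d (clu_spec ω s).1, (clu_spec ω s).2 _ m hm hm0, ← Equiv.sum_comp π]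
  refine Finset.sum_congr rfl fun i _ => ?_
  rw [he, EU_tr_sd Φ hω (nat_cone_sd Φ π he) (s.e_mem _) (s.e_ne_zero _), ld_trU, fn_tr,
    Φ.symm_apply_apply]

include hω he
theorem nat_lneg (σ : Stab L) (n : L) :
    lneg ω s' σ (Φ n) = lneg ω s (σ.comap Φ.toAddMonoidHom) n := by
  unfold lneg
  rw [clu_tr_sd Φ hω π he, (trU_parts Φ hω _ σ (clu_spec ω s).1).1, coe_trU, fn_tr,
    Φ.symm_apply_apply]
theorem nat_uth (σ : Stab L) {f : L → KK} (hf : Adm s.cone f) (n : L) :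
    uth ω s' σ (fun m => f (Φ.symm m)) (Φ n) = uth ω s (σ.comap Φ.toAddMonoidHom) f n := by
  have e : mkA ω s'.cone (fun m => f (Φ.symm m)) =
      tr Φ hω (nat_cone_sd Φ π he) (mkA ω s.cone f) := QA.ext fun m => by
    rw [fn_tr, fn_mkA ω hf, fn_mkA ω (hf.tr Φ (nat_cone_sd Φ π he))]
  unfold uth
  rw [clu_tr_sd Φ hω π he, (trU_parts Φ hω _ σ (clu_spec ω s).1).1, e, ← trU_inv, coe_trU,
    coe_trU, ← map_mul, ← map_mul, fn_tr, Φ.symm_apply_apply]
theorem nat_cinf {f : L → KK} (hf : Adm s.cone f) (p : L) :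
    cinf ω s' (fun m => f (Φ.symm m)) (Φ p) = cinf ω s f p := by
  have e : (Stab.ofHom (ω.th (Φ p))).comap Φ.toAddMonoidHom = Stab.ofHom (ω.th p) :=
    Stab.ext' fun a => by
      rw [Stab.comap_nn, Stab.ofHom_nn, Stab.ofHom_nn, Form.th_apply, Form.th_apply, ← hω a p]
      rfl
  unfold cinf
  rw [nat_uth Φ hω π he _ hf, e]
end natural

end
end Vale.Agent.P066
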