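import Vale.Agent.P066.QOps
import Vale.Agent.P066.CDefs

/-! Quantum dilogarithms and their twisted products. -/

namespace Vale.Agent.P066
noncomputable section
variable {L : Type} [AddCommGroup L] {ω : Form L} {C : Cone L}

/-- power series in `q = t ^ 2` as Laurent series in `t` -/
def Psi : PowerSeries ℚ →+* KK :=
  (HahnSeries.embDomainRingHom (R := ℚ) (Γ := ℕ) (Γ' := ℤ)
    ((AddMonoidHom.mulLeft (2 : ℤ)).comp (Nat.castAddMonoidHom ℤ))
    (fun a b h => by simpa using h) (fun a b => by simp)).comp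
    (HahnSeries.toPowerSeries (R := ℚ)).symm.toRingHom

/-- coefficient of `y ^ e` in `∏ (1 + t ^ (a + 2 j) y)` resp. `∏ (1 - t ^ (a + 2 j) y)⁻¹` -/
def phi (fm : Bool) (a : ℤ) (e : ℕ) : KK := tt (a * e) * Psi (psi fm e)

open Classical in
/-- the series `∑ c j * X ^ (j • y)` -/
def ser (y : L) (c : ℕ → KK) : L → KK := fun n => ∑ᶠ j : ℕ, if n = j • y then c j else 0

/-- the quantum dilogarithm -/
def Efun (y : L) : L → KK := ser y (phi true 1)

/-- Laurent polynomials with nonnegative integer coefficients -/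
def PosK : AddSubmonoid KK := AddSubmonoid.closure (Set.range tt)

/-- a family of particles: class, statistics, exponent -/
structure Items (L : Type) (Γ : Type) where
  cl : Γ → L
  fm : Γ → Bool
  ex : Γ → ℤ

variable {Γ : Type} [Fintype Γ] [DecidableEq Γ]

def Items.twist (ω : Form L) (It : Items L Γ) (d : Γ → ℕ) : ℤ :=
  ∑ γ, ∑ γ', (d γ : ℤ) * d γ' * max (ω.w (It.cl γ) (It.cl γ')) 0

open Classical in
/-- twisted product of the dilogarithms of the particles in `s` -/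
def Items.gam (ω : Form L) (It : Items L Γ) (s : Finset Γ) : L → KK := fun m =>
  ∑ᶠ d : Γ → ℕ, if (∀ γ, γ ∉ s → d γ = 0) ∧ ∑ γ, d γ • It.cl γ = m then
    tt (- It.twist ω d) * ∏ γ, phi (It.fm γ) (It.ex γ) (d γ) else 0

/-- all classes lie in the cone and are nonzero -/
def Items.OK (It : Items L Γ) (C : Cone L) : Prop := ∀ γ, It.cl γ ∈ C.S ∧ It.cl γ ≠ 0

section series
theorem Psi_X : Psi PowerSeries.X = tt 2 := by
  have h : (HahnSeries.toPowerSeries (R := ℚ)).symm PowerSeries.X = HahnSeries.single 1 1 := by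
    ext n
    rw [HahnSeries.coeff_toPowerSeries_symm, PowerSeries.coeff_X, HahnSeries.coeff_single]
    split_ifs <;> rfl
  simp only [Psi, RingHom.comp_apply, RingEquiv.toRingHom_eq_coe, RingHom.coe_coe, h, tt]
  exact HahnSeries.embDomain_single
theorem tt_pow (a : ℤ) (k : ℕ) : tt a ^ k = tt (a * k) := by
  induction k with
  | zero => simp [tt_zero]
  | succ k ih => rw [pow_succ, ih, ← tt_add]; push_cast; rw [mul_add, mul_one]
theorem qser_const (e : ℕ) : PowerSeries.constantCoeff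
    (∏ i ∈ Finset.range e, (1 - PowerSeries.X ^ (i + 1)) : PowerSeries ℚ) ≠ 0 := by
  simp [map_prod]
theorem qser_inv_succ (e : ℕ) :
    Psi (∏ i ∈ Finset.range (e + 1), (1 - PowerSeries.X ^ (i + 1)))⁻¹ * (1 - tt (2 * (e + 1))) =
      Psi (∏ i ∈ Finset.range e, (1 - PowerSeries.X ^ (i + 1)))⁻¹ := by
  have h1 : (1 - tt (2 * (e + 1)) : KK) = Psi (1 - PowerSeries.X ^ (e + 1)) := by
    rw [map_sub, map_one, map_pow, Psi_X, tt_pow]; push_cast; rfl
  rw [h1, ← map_mul]
  refine congrArg Psi ?_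
  rw [PowerSeries.eq_inv_iff_mul_eq_one (qser_const e), mul_assoc,
    mul_comm (1 - PowerSeries.X ^ (e + 1)), ← Finset.prod_range_succ
      (fun i => (1 - PowerSeries.X ^ (i + 1) : PowerSeries ℚ))]
  exact PowerSeries.inv_mul_cancel _ (qser_const _)
theorem phi_zero (fm : Bool) (a : ℤ) : phi fm a 0 = 1 := by
  simp [phi, psi, tt_zero]
theorem tt_mul_phi (fm : Bool) (a b : ℤ) (e : ℕ) :
    tt (b * e) * phi fm a e = phi fm (a + b) e := by
  rw [phi, phi, ← mul_assoc, ← tt_add, add_mul, add_comm]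
theorem phi_true_succ (a : ℤ) (e : ℕ) :
    phi true a (e + 1) = phi true (a + 2) (e + 1) + tt a * phi true (a + 2) e := by
  have h := qser_inv_succ e
  have hc : (e + 1).choose 2 = e.choose 2 + e := by
    rw [Nat.choose_succ_succ' e 1, Nat.choose_one_right, add_comm]
  simp only [phi, psi, if_true, map_mul, map_pow, Psi_X, hc, tt_pow]
  rw [← h]
  have e1 : tt ((a + 2) * ((e + 1 : ℕ) : ℤ)) = tt (a * ((e + 1 : ℕ) : ℤ)) * tt (2 * (e + 1)) := by
    rw [← tt_add]; push_cast; ring_nf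
  have e2 : tt a * (tt ((a + 2) * e) * tt (2 * (e.choose 2 : ℕ))) =
      tt (a * ((e + 1 : ℕ) : ℤ)) * tt (2 * ((e.choose 2 + e : ℕ) : ℤ)) := by
    simp only [← tt_add]; push_cast; ring_nf
  rw [e1]
  linear_combination (-(Psi (∏ i ∈ Finset.range (e + 1), (1 - PowerSeries.X ^ (i + 1)))⁻¹ *
    (1 - tt (2 * (e + 1))))) * e2
theorem phi_false_succ (a : ℤ) (e : ℕ) :
    phi false a (e + 1) = phi false (a + 2) (e + 1) + tt a * phi false a e := by
  have h := qser_inv_succ e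
  simp only [phi, psi, Bool.false_eq_true, if_false, one_mul]
  rw [← h]
  have e1 : tt ((a + 2) * ((e + 1 : ℕ) : ℤ)) = tt (a * ((e + 1 : ℕ) : ℤ)) * tt (2 * (e + 1)) := by
    rw [← tt_add]; push_cast; ring_nf
  have e2 : tt a * tt (a * e) = tt (a * ((e + 1 : ℕ) : ℤ)) := by
    simp only [← tt_add]; push_cast; ring_nf
  rw [e1]
  linear_combination (-(Psi (∏ i ∈ Finset.range (e + 1), (1 - PowerSeries.X ^ (i + 1)))⁻¹ *
    (1 - tt (2 * (e + 1))))) * e2
theorem nsmul_inj_cone {y : L} (hy : y ∈ C.S) (h0 : y ≠ 0) {i j : ℕ} (h : i • y = j • y) :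
    i = j := by
  have hp := C.pos y hy h0
  have := congrArg C.deg h
  simp only [map_nsmul, nsmul_eq_mul] at this
  exact_mod_cast mul_right_cancel₀ hp.ne' this
theorem ser_apply {y : L} (hy : y ∈ C.S) (h0 : y ≠ 0) (c : ℕ → KK) (j : ℕ) :
    ser y c (j • y) = c j := by
  unfold ser
  rw [finsum_eq_single _ j]
  · simp
  · intro i hi
    exact if_neg fun h => hi (nsmul_inj_cone hy h0 h).symm
theorem ser_ne_zero {y n : L} {c : ℕ → KK} (h : ser y c n ≠ 0) : ∃ j : ℕ, n = j • y := by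
  by_contra hc
  push Not at hc
  exact h (by simp [ser, hc])
theorem un_ser {y : L} (hy : y ∈ C.S) (h0 : y ≠ 0) {c : ℕ → KK} (hc : c 0 = 1) :
    Un C (AddSubmonoid.multiples y) (ser y c) := by
  refine ⟨fun n hn => ?_, ?_⟩
  · obtain ⟨j, rfl⟩ := ser_ne_zero hn
    exact ⟨C.S.nsmul_mem hy j, j, rfl⟩
  · rw [← hc, ← ser_apply hy h0 c 0, zero_nsmul]
theorem un_Efun {y : L} (hy : y ∈ C.S) (h0 : y ≠ 0) :
    Un C (AddSubmonoid.multiples y) (Efun y) := un_ser hy h0 (phi_zero _ _)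
theorem conv_ser {y : L} (hy : y ∈ C.S) (h0 : y ≠ 0) (c c' : ℕ → KK) :
    conv ω (ser y c) (ser y c') = ser y fun j => ∑ x ∈ Finset.HasAntidiagonal.antidiagonal j, c x.1 * c' x.2 := by
  classical
  funext n
  by_cases hn : ∃ j : ℕ, n = j • y
  · obtain ⟨j, rfl⟩ := hn
    rw [ser_apply hy h0, conv,
      finsum_eq_sum_of_support_subset
        (s := (Finset.HasAntidiagonal.antidiagonal j).image fun x : ℕ × ℕ => x.1 • y),
      Finset.sum_image]
    · refine Finset.sum_congr rfl fun x hx => ?_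
      rw [Finset.HasAntidiagonal.mem_antidiagonal] at hx
      have e1 : j • y - x.1 • y = x.2 • y := by rw [← hx, add_nsmul, add_sub_cancel_left]
      rw [e1, ser_apply hy h0, ser_apply hy h0]
      simp [ω.alt, tt_zero]
    · intro x hx x' hx' h
      have h1 := nsmul_inj_cone hy h0 h
      simp only [Finset.mem_coe, Finset.HasAntidiagonal.mem_antidiagonal] at hx hx'
      exact Prod.ext h1 (by omega)
    · intro a ha
      simp only [Function.mem_support, ne_eq, mul_eq_zero, not_or] at ha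
      obtain ⟨i, rfl⟩ := ser_ne_zero ha.1.2
      obtain ⟨k, hk⟩ := ser_ne_zero ha.2
      have : j = i + k := nsmul_inj_cone hy h0 (by rw [add_nsmul, ← hk, add_sub_cancel])
      simp only [Finset.coe_image, Set.mem_image, Finset.mem_coe,
        Finset.HasAntidiagonal.mem_antidiagonal]
      exact ⟨(i, k), this.symm, rfl⟩
  · have h1 : conv ω (ser y c) (ser y c') n = 0 := by
      by_contra h
      obtain ⟨a, ha, hb⟩ := conv_ne_zero ω h
      obtain ⟨i, rfl⟩ := ser_ne_zero ha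
      obtain ⟨k, hk⟩ := ser_ne_zero hb
      exact hn ⟨i + k, by rw [add_nsmul, ← hk, add_sub_cancel]⟩
    rw [h1]
    by_contra h
    exact hn (ser_ne_zero (Ne.symm h))
theorem one_mem_PosK : (1 : KK) ∈ PosK := AddSubmonoid.subset_closure ⟨0, tt_zero⟩
theorem tt_mem_PosK (a : ℤ) : tt a ∈ PosK := AddSubmonoid.subset_closure ⟨a, rfl⟩
theorem mul_mem_PosK {x y : KK} (hx : x ∈ PosK) (hy : y ∈ PosK) : x * y ∈ PosK := by
  induction hx using AddSubmonoid.closure_induction with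
  | zero => simp
  | add a b _ _ ha hb => rw [add_mul]; exact PosK.add_mem ha hb
  | mem a ha =>
    obtain ⟨i, rfl⟩ := ha
    induction hy using AddSubmonoid.closure_induction with
    | zero => simp
    | add a b _ _ ha hb => rw [mul_add]; exact PosK.add_mem ha hb
    | mem b hb =>
      obtain ⟨j, rfl⟩ := hb
      rw [← tt_add]; exact tt_mem_PosK _
theorem PosK_coeff {x : KK} (hx : x ∈ PosK) (j : ℤ) : ∃ k : ℕ, x.coeff j = k := by
  induction hx using AddSubmonoid.closure_induction with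
  | zero => exact ⟨0, by simp⟩
  | add a b _ _ ha hb =>
    obtain ⟨k, hk⟩ := ha
    obtain ⟨l, hl⟩ := hb
    exact ⟨k + l, by rw [HahnSeries.coeff_add, hk, hl, Nat.cast_add]⟩
  | mem a ha =>
    obtain ⟨i, rfl⟩ := ha
    by_cases h : j = i
    · exact ⟨1, by simp [tt, h]⟩
    · exact ⟨0, by simp [tt, h]⟩
theorem PosK_conv {u v : QA ω C} (hu : ∀ n, u.fn n ∈ PosK) (hv : ∀ n, v.fn n ∈ PosK) (n : L) :
    (u * v).fn n ∈ PosK := by
  rw [QA.mul_apply]
  exact finsum_induction (· ∈ PosK) PosK.zero_mem (fun _ _ => PosK.add_mem)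
    fun a => mul_mem_PosK (mul_mem_PosK (tt_mem_PosK _) (hu a)) (hv _)
theorem ser_mem_PosK {y : L} {c : ℕ → KK} (hc : ∀ j, c j ∈ PosK) (n : L) : ser y c n ∈ PosK := by
  unfold ser
  refine finsum_induction (· ∈ PosK) PosK.zero_mem (fun _ _ => PosK.add_mem) fun j => ?_
  split_ifs
  exacts [hc j, PosK.zero_mem]
/-- one step of the shift of the dilogarithm -/
theorem phi_step (fm : Bool) (a : ℤ) : ∃ r : ℕ → KK, r 0 = 1 ∧ (∀ j, r j ∈ PosK) ∧
    phi fm a = fun j => ∑ x ∈ Finset.HasAntidiagonal.antidiagonal j,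
      r x.1 * phi fm (a + 2) x.2 := by
  cases fm
  · refine ⟨fun j => tt (a * j), by simp [tt_zero], fun j => tt_mem_PosK _, funext fun j => ?_⟩
    induction j with
    | zero => simp [phi_zero, tt_zero]
    | succ j ih =>
      rw [Finset.Nat.sum_antidiagonal_succ, phi_false_succ, ih, Finset.mul_sum]
      simp only [Nat.cast_zero, mul_zero, tt_zero, one_mul]
      refine congrArg _ (Finset.sum_congr rfl fun x _ => ?_)
      rw [← mul_assoc, ← tt_add]; push_cast; ring_nf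
  · refine ⟨fun j => if j = 0 then 1 else if j = 1 then tt a else 0, by simp, fun j => ?_,
      funext fun j => ?_⟩
    · beta_reduce
      split_ifs
      exacts [one_mem_PosK, tt_mem_PosK _, PosK.zero_mem]
    · cases j with
      | zero => simp [phi_zero]
      | succ j =>
        rw [Finset.Nat.sum_antidiagonal_succ, phi_true_succ, Finset.sum_eq_single (0, j)]
        · simp
        · intro x hx hne
          rw [Finset.HasAntidiagonal.mem_antidiagonal] at hx
          have : x.1 ≠ 0 := fun h => hne (Prod.ext h (by simpa [h] using hx))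
          simp [this]
        · simp
theorem mkU_ser_mul {y : L} (hy : y ∈ C.S) (h0 : y ≠ 0) {c c' : ℕ → KK} (hc : c 0 = 1)
    (hc' : c' 0 = 1) : mkU ω C (ser y fun j => ∑ x ∈ Finset.HasAntidiagonal.antidiagonal j,
      c x.1 * c' x.2) = mkU ω C (ser y c) * mkU ω C (ser y c') := by
  refine Units.ext (QA.ext fun n => ?_)
  rw [Units.val_mul, QA.fn_mul, fn_mkU ω (un_ser hy h0 hc), fn_mkU ω (un_ser hy h0 hc'),
    conv_ser hy h0, fn_mkU ω (un_ser hy h0 (by simp [hc, hc']))]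
/-- positivity of the quotient of two shifted dilogarithms -/
theorem ser_ratio_pos {y : L} (hy : y ∈ C.S) (h0 : y ≠ 0) (fm : Bool) (a : ℤ) (k : ℕ) (n : L) :
    ((mkU ω C (ser y (phi fm a)) * (mkU ω C (ser y (phi fm (a + 2 * k))))⁻¹ : (QA ω C)ˣ) :
      QA ω C).fn n ∈ PosK := by
  induction k generalizing a n with
  | zero =>
    simp only [Nat.cast_zero, mul_zero, add_zero, mul_inv_cancel, Units.val_one, QA.fn_one, dlt]
    split_ifs
    exacts [one_mem_PosK, PosK.zero_mem]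
  | succ k ih =>
    obtain ⟨r, hr0, hr, he⟩ := phi_step fm a
    have e1 : a + 2 * ((k + 1 : ℕ) : ℤ) = a + 2 + 2 * k := by push_cast; ring
    have e2 : mkU ω C (ser y (phi fm a)) = mkU ω C (ser y r) * mkU ω C (ser y (phi fm (a + 2))) := by
      rw [← mkU_ser_mul hy h0 hr0 (phi_zero _ _), ← he]
    rw [e1, e2, mul_assoc, Units.val_mul]
    refine PosK_conv (fun m => ?_) (fun m => ih (a + 2) m) n
    rw [fn_mkU ω (un_ser hy h0 hr0)]
    exact ser_mem_PosK hr m
end series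

section gam
theorem gam_ite_ne {p : Prop} {_ : Decidable p} {a : KK} (h : ite p a 0 ≠ 0) : p :=
  (ite_ne_right_iff.1 h).1
theorem gam_ite_congr {p q : Prop} {_ : Decidable p} {_ : Decidable q} (h : p ↔ q) (a : KK) :
    ite p a 0 = ite q a 0 := if_congr h rfl rfl
theorem finsum_of_inj {α β : Type} {e : α → β} (he : Function.Injective e) (f : β → KK)
    (h : ∀ b, f b ≠ 0 → b ∈ Set.range e) : ∑ᶠ b, f b = ∑ᶠ a, f (e a) := by
  rw [← finsum_mem_range he, ← finsum_mem_univ f]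
  exact finsum_mem_inter_support_eq' _ _ _ fun x hx => ⟨fun _ => h x hx, fun _ => trivial⟩
/-- the coefficient of a multiplicity function -/
def Items.wt (ω : Form L) (It : Items L Γ) (d : Γ → ℕ) : KK :=
  tt (- It.twist ω d) * ∏ γ, phi (It.fm γ) (It.ex γ) (d γ)
/-- bounded multiplicity functions supported in `s` -/
def boxS (s : Finset Γ) (K : ℕ) : Finset (Γ → ℕ) := (box Γ K).filter fun d => ∀ γ, γ ∉ s → d γ = 0
theorem mem_boxS {s : Finset Γ} {K : ℕ} {d : Γ → ℕ} :
    d ∈ boxS s K ↔ (∀ γ, d γ ≤ K) ∧ ∀ γ, γ ∉ s → d γ = 0 := by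
  simp [boxS, box]
omit [DecidableEq Γ] in
theorem Items.wt_zero (It : Items L Γ) : It.wt ω 0 = 1 := by
  simp [Items.wt, Items.twist, phi_zero, tt_zero]
omit [DecidableEq Γ] in
theorem Items.wt_add (It : Items L Γ) {s s' : Finset Γ} (hd : Disjoint s s')
    (h : ∀ γ ∈ s, ∀ γ' ∈ s', ω.w (It.cl γ) (It.cl γ') ≤ 0) {d d' : Γ → ℕ}
    (h1 : ∀ γ, γ ∉ s → d γ = 0) (h2 : ∀ γ, γ ∉ s' → d' γ = 0) :
    It.wt ω (d + d') =
      tt (ω.w (∑ γ, d γ • It.cl γ) (∑ γ, d' γ • It.cl γ)) * It.wt ω d * It.wt ω d' := by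
  have e1 : ∑ γ, ∑ γ', (d γ : ℤ) * d' γ' * max (ω.w (It.cl γ) (It.cl γ')) 0 = 0 :=
    Finset.sum_eq_zero fun γ _ => Finset.sum_eq_zero fun γ' _ => by
      by_cases a1 : γ ∈ s
      · by_cases a2 : γ' ∈ s'
        · rw [max_eq_right (h γ a1 γ' a2), mul_zero]
        · simp [h2 γ' a2]
      · simp [h1 γ a1]
  have e2 : ∑ γ, ∑ γ', (d' γ : ℤ) * d γ' * max (ω.w (It.cl γ) (It.cl γ')) 0 =
      - ω.w (∑ γ, d γ • It.cl γ) (∑ γ, d' γ • It.cl γ) := by
    simp only [map_sum, map_nsmul, AddMonoidHom.finsetSum_apply, AddMonoidHom.nsmul_apply,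
      nsmul_eq_mul, Finset.mul_sum, ← Finset.sum_neg_distrib]
    refine Finset.sum_congr rfl fun γ _ => Finset.sum_congr rfl fun γ' _ => ?_
    by_cases a1 : γ' ∈ s
    · by_cases a2 : γ ∈ s'
      · rw [ω.skew (It.cl γ), max_eq_left (neg_nonneg.2 (h γ' a1 γ a2))]
        ring
      · simp [h2 γ a2]
    · simp [h1 γ' a1]
  have e3 : It.twist ω (d + d') = It.twist ω d + It.twist ω d' -
      ω.w (∑ γ, d γ • It.cl γ) (∑ γ, d' γ • It.cl γ) := by
    simp only [Items.twist, Pi.add_apply, Nat.cast_add, add_mul, mul_add, Finset.sum_add_distrib]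
    omega
  have e4 : ∏ γ, phi (It.fm γ) (It.ex γ) ((d + d') γ) =
      (∏ γ, phi (It.fm γ) (It.ex γ) (d γ)) * ∏ γ, phi (It.fm γ) (It.ex γ) (d' γ) := by
    rw [← Finset.prod_mul_distrib]
    refine Finset.prod_congr rfl fun γ _ => ?_
    by_cases a1 : γ ∈ s
    · simp [h2 γ (Finset.disjoint_left.1 hd a1), phi_zero]
    · simp [h1 γ a1, phi_zero]
  rw [Items.wt, Items.wt, Items.wt, e3, e4, neg_sub, sub_eq_add_neg, neg_add, tt_add, tt_add]
  ring
theorem tw_ser {y : L} (hy : y ∈ C.S) (h0 : y ≠ 0) (fm : Bool) (a : ℤ) (b : L →+ ℤ) :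
    tw b (mkU ω C (ser y (phi fm a)) : QA ω C) = mkU ω C (ser y (phi fm (a + b y))) :=
  QA.ext fun n => by
    rw [fn_tw, fn_mkU ω (un_ser hy h0 (phi_zero _ _)), fn_mkU ω (un_ser hy h0 (phi_zero _ _))]
    by_cases h : ∃ j : ℕ, n = j • y
    · obtain ⟨j, rfl⟩ := h
      rw [ser_apply hy h0, ser_apply hy h0, map_nsmul, nsmul_eq_mul, mul_comm (j : ℤ), tt_mul_phi]
    · have : ∀ c, ser y c n = 0 := fun c => by_contra fun h' => h (ser_ne_zero h')
      rw [this, this, mul_zero]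
theorem tw_ser_pos {y : L} (hy : y ∈ C.S) (h0 : y ≠ 0) (fm : Bool) (a : ℤ) (b : L →+ ℤ)
    (hb : 0 < b y) (n : L) : (tw (-b) (mkU ω C (ser y (phi fm a)) : QA ω C) *
      tw b (((mkU ω C (ser y (phi fm a)))⁻¹ : (QA ω C)ˣ) : QA ω C)).fn n ∈ PosK := by
  have e : (((mkU ω C (ser y (phi fm (a + b y))))⁻¹ : (QA ω C)ˣ) : QA ω C) =
      tw b (((mkU ω C (ser y (phi fm a)))⁻¹ : (QA ω C)ˣ) : QA ω C) :=
    Units.inv_eq_of_mul_eq_one_right (by rw [← tw_ser hy h0, ← map_mul, Units.mul_inv, map_one])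
  have h := ser_ratio_pos (ω := ω) hy h0 fm (a + (-b) y) (b y).toNat n
  rw [show a + (-b) y + 2 * ((b y).toNat : ℤ) = a + b y by
    rw [AddMonoidHom.neg_apply]; omega] at h
  rw [tw_ser hy h0, ← e]
  exact h

variable (It : Items L Γ) (hI : It.OK C)
include hI
omit [DecidableEq Γ] in
theorem Items.tot_mem (d : Γ → ℕ) : ∑ γ, d γ • It.cl γ ∈ C.S :=
  C.S.sum_mem fun γ _ => C.S.nsmul_mem (hI γ).1 _
omit [DecidableEq Γ] in
theorem Items.le_deg (d : Γ → ℕ) (γ : Γ) : (d γ : ℤ) ≤ C.deg (∑ γ, d γ • It.cl γ) := by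
  rw [map_sum]
  refine le_trans ?_ (Finset.single_le_sum (f := fun γ => C.deg (d γ • It.cl γ))
    (fun γ _ => C.deg_nonneg (C.S.nsmul_mem (hI γ).1 _)) (Finset.mem_univ γ))
  rw [map_nsmul, nsmul_eq_mul]
  exact le_mul_of_one_le_right (Nat.cast_nonneg _) (C.pos _ (hI γ).1 (hI γ).2)
theorem Items.gam_eq_sum (s : Finset Γ) (K : ℕ) {n : L} (hn : C.deg n ≤ K) :
    It.gam ω s n = ∑ d ∈ boxS s K, dlt (∑ γ, d γ • It.cl γ) (It.wt ω d) n := by
  unfold Items.gam
  rw [finsum_eq_sum_of_support_subset (s := boxS s K)]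
  · refine Finset.sum_congr rfl fun d hd => ?_
    exact gam_ite_congr ((and_iff_right (mem_boxS.1 hd).2).trans eq_comm) _
  · intro d hd
    obtain ⟨h1, h2⟩ := gam_ite_ne hd
    refine mem_boxS.2 ⟨fun γ => ?_, h1⟩
    have := It.le_deg hI d γ
    rw [h2] at this
    omega
theorem Items.un_gam (s : Finset Γ) {S : AddSubmonoid L} (hS : ∀ γ ∈ s, It.cl γ ∈ S) :
    Un C S (It.gam ω s) := by
  refine ⟨fun n hn => ?_, ?_⟩
  · rw [It.gam_eq_sum hI s _ (Int.self_le_toNat _)] at hn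
    obtain ⟨d, hd, h⟩ := Finset.exists_ne_zero_of_sum_ne_zero hn
    rw [gam_ite_ne h]
    refine ⟨It.tot_mem hI d, S.sum_mem fun γ _ => ?_⟩
    by_cases h1 : γ ∈ s
    · exact S.nsmul_mem (hS γ h1) _
    · rw [(mem_boxS.1 hd).2 γ h1, zero_smul]
      exact S.zero_mem
  · rw [It.gam_eq_sum hI s 0 (by simp), Finset.sum_eq_single_of_mem 0 (by simp [mem_boxS])]
    · simp [dlt, Items.wt_zero]
    · exact fun d hd h => (h (funext fun γ => Nat.le_zero.1 ((mem_boxS.1 hd).1 γ))).elim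
theorem Items.gam_empty : It.gam ω ∅ = dlt 0 1 := by
  funext n
  rw [It.gam_eq_sum hI ∅ _ (Int.self_le_toNat _),
    Finset.sum_eq_single_of_mem 0 (by simp [mem_boxS])]
  · simp [Items.wt_zero]
  · exact fun d hd h => (h (funext fun γ => (mem_boxS.1 hd).2 γ (by simp))).elim
theorem Items.gam_singleton (γ : Γ) :
    It.gam ω {γ} = ser (It.cl γ) (phi (It.fm γ) (It.ex γ)) := by
  have _ := hI
  funext n
  unfold Items.gam ser
  rw [finsum_of_inj (Pi.single_injective (M := fun _ => ℕ) γ)]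
  · refine finsum_congr fun j => ?_
    have e1 : ∑ γ', (Pi.single γ j : Γ → ℕ) γ' • It.cl γ' = j • It.cl γ := by
      rw [Finset.sum_eq_single_of_mem γ (Finset.mem_univ _) fun b _ hb => by simp [hb]]
      simp
    have e2 : It.twist ω (Pi.single γ j) = 0 :=
      Finset.sum_eq_zero fun a _ => Finset.sum_eq_zero fun b _ => by
        by_cases ha : a = γ <;> by_cases hb : b = γ <;> simp [ha, hb, ω.alt]
    have e3 : ∏ γ', phi (It.fm γ') (It.ex γ') ((Pi.single γ j : Γ → ℕ) γ') =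
        phi (It.fm γ) (It.ex γ) j := by
      rw [Finset.prod_eq_single_of_mem γ (Finset.mem_univ _) fun b _ hb => by simp [hb, phi_zero]]
      simp
    rw [e1, e2, e3, neg_zero, tt_zero, one_mul]
    exact gam_ite_congr ⟨fun h => h.2.symm, fun h =>
      ⟨fun b hb => Pi.single_eq_of_ne (by simpa using hb) _, h.symm⟩⟩ _
  · intro d hd
    obtain ⟨h1, -⟩ := gam_ite_ne hd
    refine ⟨d γ, funext fun b => ?_⟩
    by_cases hb : b = γ
    · simp [hb]
    · simp [hb, h1 b (by simpa using hb)]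
/-- splitting lemma -/
theorem Items.gam_union {s s' : Finset Γ} (hd : Disjoint s s')
    (h : ∀ γ ∈ s, ∀ γ' ∈ s', ω.w (It.cl γ) (It.cl γ') ≤ 0) :
    It.gam ω (s ∪ s') = conv ω (It.gam ω s) (It.gam ω s') := by
  funext n
  set K := (C.deg n).toNat with hK
  have hn : C.deg n ≤ K := Int.self_le_toNat _
  let U : Finset Γ → QA ω C := fun s => ∑ d ∈ boxS s K, QA.mono (∑ γ, d γ • It.cl γ) (It.wt ω d)
  have hU : ∀ s, InC C 0 (U s).fn := fun s m hm => by
    rw [QA.fn_sum] at hm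
    obtain ⟨d, -, h⟩ := Finset.exists_ne_zero_of_sum_ne_zero hm
    rw [gam_ite_ne h, sub_zero]
    exact It.tot_mem hI d
  have hU' : ∀ s, Agr {m | C.deg m ≤ K} (It.gam ω s) (U s).fn := fun s m hm => by
    rw [QA.fn_sum, It.gam_eq_sum hI s K hm]
    rfl
  have hg : ∀ s, InC C 0 (It.gam ω s) := fun s => (It.un_gam hI s (S := ⊤) fun _ _ => trivial).inC
  rw [agr_conv (lower_deg K) (hg s) (hU s) (hg s') (hU s') (hU' s) (hU' s') n hn, ← QA.fn_mul,
    hU' _ n hn]
  refine congrArg (fun u : QA ω C => u.fn n) ?_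
  simp only [U]
  rw [Finset.sum_mul_sum, ← Finset.sum_product']
  symm
  refine Finset.sum_nbij' (fun p => p.1 + p.2)
    (fun d => (fun γ => if γ ∈ s then d γ else 0, fun γ => if γ ∈ s then 0 else d γ)) ?_ ?_ ?_ ?_ ?_
  · intro p hp
    obtain ⟨⟨a1, a2⟩, a3, a4⟩ := (Finset.mem_product.1 hp).imp mem_boxS.1 mem_boxS.1
    refine mem_boxS.2 ⟨fun γ => ?_, fun γ hγ => ?_⟩
    · by_cases b : γ ∈ s
      · simpa [a4 γ (Finset.disjoint_left.1 hd b)] using a1 γ
      · simpa [a2 γ b] using a3 γ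
    · rw [Finset.mem_union, not_or] at hγ
      simp [a2 γ hγ.1, a4 γ hγ.2]
  · intro d hd'
    obtain ⟨a1, a2⟩ := mem_boxS.1 hd'
    refine Finset.mem_product.2 ⟨mem_boxS.2 ⟨fun γ => ?_, fun γ hγ => if_neg hγ⟩,
      mem_boxS.2 ⟨fun γ => ?_, fun γ hγ => ?_⟩⟩ <;> simp only <;> split_ifs with b
    exacts [a1 γ, K.zero_le, K.zero_le, a1 γ, rfl, a2 γ (by simp [b, hγ])]
  · intro p hp
    obtain ⟨⟨-, a2⟩, -, a4⟩ := (Finset.mem_product.1 hp).imp mem_boxS.1 mem_boxS.1
    refine Prod.ext (funext fun γ => ?_) (funext fun γ => ?_) <;> by_cases b : γ ∈ s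
    · simp [b, a4 γ (Finset.disjoint_left.1 hd b)]
    · simp [b, a2 γ b]
    · simp [b, a4 γ (Finset.disjoint_left.1 hd b)]
    · simp [b, a2 γ b]
  · intro d _
    funext γ
    by_cases b : γ ∈ s <;> simp [b]
  · intro p hp
    obtain ⟨⟨-, a2⟩, -, a4⟩ := (Finset.mem_product.1 hp).imp mem_boxS.1 mem_boxS.1
    rw [QA.mono_mul, It.wt_add hd h a2 a4]
    simp only [Pi.add_apply, add_smul, Finset.sum_add_distrib]
theorem Items.gam_emb {Γ' : Type} [Fintype Γ'] [DecidableEq Γ'] (It' : Items L Γ') (ι : Γ' ↪ Γ)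
    (h1 : ∀ γ, It'.cl γ = It.cl (ι γ)) (h2 : ∀ γ, It'.fm γ = It.fm (ι γ))
    (h3 : ∀ γ, It'.ex γ = It.ex (ι γ)) :
    It'.gam ω Finset.univ = It.gam ω (Finset.univ.map ι) := by
  have _ := hI
  funext n
  unfold Items.gam
  rw [finsum_of_inj (Function.extend_injective ι.injective (0 : Γ → ℕ))]
  · refine finsum_congr fun d => ?_
    have a1 : ∀ γ, Function.extend ι d 0 (ι γ) = d γ := fun γ => ι.injective.extend_apply _ _ _
    have a2 : ∀ γ ∉ Set.range ι, Function.extend ι d 0 γ = 0 := fun γ hγ =>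
      Function.extend_apply' _ _ _ hγ
    have e1 : ∑ γ, d γ • It'.cl γ = ∑ γ, Function.extend ι d 0 γ • It.cl γ :=
      Fintype.sum_of_injective ι ι.injective _ _ (fun γ hγ => by rw [a2 γ hγ, zero_smul])
        fun γ => by rw [a1, h1]
    have e2 : It'.twist ω d = It.twist ω (Function.extend ι d 0) :=
      Fintype.sum_of_injective ι ι.injective _ _ (fun γ hγ => by simp [a2 γ hγ]) fun γ =>
        Fintype.sum_of_injective ι ι.injective _ _ (fun γ hγ => by simp [a2 γ hγ]) fun γ' => by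
          rw [a1, a1, h1, h1]
    have e3 : ∏ γ, phi (It'.fm γ) (It'.ex γ) (d γ) =
        ∏ γ, phi (It.fm γ) (It.ex γ) (Function.extend ι d 0 γ) :=
      Fintype.prod_of_injective ι ι.injective _ _ (fun γ hγ => by rw [a2 γ hγ, phi_zero])
        fun γ => by rw [a1, h2, h3]
    rw [e1, e2, e3]
    exact gam_ite_congr
      (and_congr_left' ⟨fun _ γ hγ => a2 γ (by simpa using hγ), fun _ => by simp⟩) _
  · intro d hd
    obtain ⟨a1, -⟩ := gam_ite_ne hd
    refine ⟨fun γ => d (ι γ), funext fun γ => ?_⟩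
    by_cases hγ : ∃ a, ι a = γ
    · obtain ⟨a, rfl⟩ := hγ
      exact ι.injective.extend_apply _ _ _
    · exact (Function.extend_apply' _ _ _ hγ).trans (a1 γ (by simpa using hγ)).symm
/-- in degrees at most `K` only bounded multiplicities occur -/
theorem Items.gam_eq_sum_box (K : ℕ) {n : L} (hn : C.deg n ≤ K) :
    It.gam ω Finset.univ n = ∑ d ∈ box Γ K, dlt (∑ γ, d γ • It.cl γ)
      (tt (- It.twist ω d) * ∏ γ, phi (It.fm γ) (It.ex γ) (d γ)) n := by
  rw [It.gam_eq_sum hI _ K hn, boxS, Finset.filter_true_of_mem fun _ _ => by simp]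
  rfl
/-- crossing a wall in the good direction is positive -/
theorem Items.wall_pos (horth : ∀ γ γ', ω.w (It.cl γ) (It.cl γ') = 0) (b : L →+ ℤ)
    (hb : ∀ γ, 0 < b (It.cl γ)) (n : L) :
    (tw (-b) (mkU ω C (It.gam ω Finset.univ) : QA ω C) *
      tw b (((mkU ω C (It.gam ω Finset.univ))⁻¹ : (QA ω C)ˣ) : QA ω C)).fn n ∈ PosK ∧
    (tw b (((mkU ω C (It.gam ω Finset.univ))⁻¹ : (QA ω C)ˣ) : QA ω C) *
      tw (-b) (mkU ω C (It.gam ω Finset.univ) : QA ω C)).fn n ∈ PosK := by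
  set S := AddSubmonoid.closure (Set.range It.cl) with hS
  have hw : ∀ x ∈ S, ∀ y ∈ S, ω.w x y = 0 := fun x hx y hy => by
    refine AddSubmonoid.closure_induction₂ (motive := fun x y _ _ => ω.w x y = 0) ?_ ?_ ?_ ?_ ?_ hx hy
    · rintro _ _ ⟨γ, rfl⟩ ⟨γ', rfl⟩
      exact horth γ γ'
    · simp
    · simp
    · intro x y z _ _ _ h1 h2
      simp [h1, h2]
    · intro x y z _ _ _ h1 h2
      simp [h1, h2]
  have hun : ∀ s, Un C S (It.gam ω s) := fun s =>
    It.un_gam hI s fun γ _ => AddSubmonoid.subset_closure ⟨γ, rfl⟩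
  have hcomm : ∀ (c c' : L →+ ℤ) (g g' : (QA ω C)ˣ), g ∈ GS ω C S → g' ∈ GS ω C S →
      Commute (tw c (g : QA ω C)) (tw c' (g' : QA ω C)) := fun c c' g g' hg hg' =>
    commute_of_orth fun x y hx hy => hw x (hg.1 x (right_ne_zero_of_mul hx)).2 y
      (hg'.1 y (right_ne_zero_of_mul hy)).2
  have hG : ∀ s, mkU ω C (It.gam ω s) ∈ GS ω C S := fun s => mkU_mem ω (hun s)
  have key : ∀ (s : Finset Γ) n, (tw (-b) (mkU ω C (It.gam ω s) : QA ω C) *
      tw b (((mkU ω C (It.gam ω s))⁻¹ : (QA ω C)ˣ) : QA ω C)).fn n ∈ PosK := by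
    intro s
    induction s using Finset.induction_on with
    | empty =>
      intro n
      have e : mkU ω C (It.gam ω ∅) = 1 :=
        Units.ext (QA.ext fun n => by rw [fn_mkU ω (hun _), It.gam_empty hI]; rfl)
      rw [e, inv_one, Units.val_one, map_one, map_one, mul_one, QA.fn_one, dlt]
      split_ifs
      exacts [one_mem_PosK, PosK.zero_mem]
    | insert γ s hγ ih =>
      have e : mkU ω C (It.gam ω (insert γ s)) = mkU ω C (It.gam ω {γ}) * mkU ω C (It.gam ω s) :=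
        Units.ext (QA.ext fun n => by
          rw [Units.val_mul, QA.fn_mul, fn_mkU ω (hun _), fn_mkU ω (hun _), fn_mkU ω (hun _),
            Finset.insert_eq, It.gam_union hI (Finset.disjoint_singleton_left.2 hγ)
              fun a _ a' _ => (horth a a').le])
      have c := ((hcomm (-b) b _ _ (hG s) (inv_mem (hG {γ}))).mul_left
        (hcomm b b _ _ (inv_mem (hG s)) (inv_mem (hG {γ})))).eq
      intro n
      rw [e, mul_inv_rev, Units.val_mul, Units.val_mul, map_mul, map_mul, mul_assoc,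
        ← mul_assoc (tw (-b) (mkU ω C (It.gam ω s) : QA ω C)), c, ← mul_assoc]
      refine PosK_conv (fun m => ?_) ih n
      rw [It.gam_singleton hI]
      exact tw_ser_pos (hI γ).1 (hI γ).2 _ _ b (hb γ) m
  exact ⟨key _ n, (hcomm (-b) b _ _ (hG _) (inv_mem (hG _))).eq ▸ key _ n⟩
end gam

end
end Vale.Agent.P066
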