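import Mathlib

/-! Total preorders on an abelian group, compatible with addition (stability data). -/

namespace Vale.Agent.P066

/-- A translation invariant total preorder, given by its cone of nonnegative elements. -/
structure Stab (L : Type*) [AddCommGroup L] where
  nn : L → Prop
  nn_add : ∀ {a b : L}, nn a → nn b → nn (a + b)
  total : ∀ a : L, nn a ∨ nn (-a)

namespace Stab
variable {L L' : Type*} [AddCommGroup L] [AddCommGroup L'] (σ τ : Stab L)

def neg (a : L) : Prop := ¬ σ.nn a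
def pos (a : L) : Prop := ¬ σ.nn (-a)
def zero (a : L) : Prop := σ.nn a ∧ σ.nn (-a)

theorem ext' {σ τ : Stab L} (h : ∀ a, σ.nn a ↔ τ.nn a) : σ = τ := by
  cases σ; cases τ; congr; funext a; exact propext (h a)

theorem nn_zero : σ.nn 0 := by
  rcases σ.total 0 with h | h
  · exact h
  · simpa using h

theorem zero_zero : σ.zero 0 := ⟨σ.nn_zero, by simpa using σ.nn_zero⟩
theorem not_neg_zero : ¬ σ.neg 0 := fun h => h σ.nn_zero
theorem not_pos_zero : ¬ σ.pos 0 := fun h => h (by simpa using σ.nn_zero)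

theorem tri (a : L) : σ.neg a ∨ σ.zero a ∨ σ.pos a := by
  unfold neg zero pos; tauto

variable {σ τ}
theorem pos.nn {a : L} (h : σ.pos a) : σ.nn a := (σ.total a).resolve_right h
theorem neg.nn_neg {a : L} (h : σ.neg a) : σ.nn (-a) := (σ.total a).resolve_left h
theorem neg.not_pos {a : L} (h : σ.neg a) : ¬ σ.pos a := fun h' => h h'.nn
theorem neg.not_zero {a : L} (h : σ.neg a) : ¬ σ.zero a := fun h' => h h'.1
theorem pos.not_zero {a : L} (h : σ.pos a) : ¬ σ.zero a := fun h' => h h'.2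
theorem pos_neg_iff {a : L} : σ.pos (-a) ↔ σ.neg a := by simp [pos, neg]
theorem neg_neg_iff {a : L} : σ.neg (-a) ↔ σ.pos a := Iff.rfl
theorem zero.neg' {a : L} (h : σ.zero a) : σ.zero (-a) := ⟨h.2, by simpa using h.1⟩
theorem zero.add {a b : L} (ha : σ.zero a) (hb : σ.zero b) : σ.zero (a + b) :=
  ⟨σ.nn_add ha.1 hb.1, by rw [neg_add]; exact σ.nn_add ha.2 hb.2⟩
theorem zero.sub {a b : L} (ha : σ.zero a) (hb : σ.zero b) : σ.zero (a - b) := by
  rw [sub_eq_add_neg]; exact ha.add hb.neg'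
theorem pos.add_nn {a b : L} (ha : σ.pos a) (hb : σ.nn b) : σ.pos (a + b) := fun h =>
  ha (by have := σ.nn_add h hb; simpa using this)
theorem nn_add_pos {a b : L} (ha : σ.nn a) (hb : σ.pos b) : σ.pos (a + b) := by
  rw [add_comm]; exact hb.add_nn ha
theorem neg.add_np {a b : L} (ha : σ.neg a) (hb : σ.nn (-b)) : σ.neg (a + b) := fun h =>
  ha (by have := σ.nn_add h hb; simpa using this)
theorem np_add_neg {a b : L} (ha : σ.nn (-a)) (hb : σ.neg b) : σ.neg (a + b) := by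
  rw [add_comm]; exact hb.add_np ha
theorem neg.add {a b : L} (ha : σ.neg a) (hb : σ.neg b) : σ.neg (a + b) := ha.add_np hb.nn_neg
theorem pos.add {a b : L} (ha : σ.pos a) (hb : σ.pos b) : σ.pos (a + b) := ha.add_nn hb.nn
theorem nn_nsmul {a : L} (h : σ.nn a) (k : ℕ) : σ.nn (k • a) := by
  induction k with
  | zero => simpa using σ.nn_zero
  | succ k ih => rw [succ_nsmul]; exact σ.nn_add ih h
theorem nn_zsmul {a : L} (h : σ.nn a) {k : ℤ} (hk : 0 ≤ k) : σ.nn (k • a) := by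
  obtain ⟨k, rfl⟩ := Int.eq_ofNat_of_zero_le hk
  rw [natCast_zsmul]; exact nn_nsmul h k
theorem neg.nsmul {a : L} (h : σ.neg a) {k : ℕ} (hk : 0 < k) : σ.neg (k • a) := by
  obtain ⟨k, rfl⟩ : ∃ j, k = j + 1 := ⟨k - 1, by omega⟩
  rw [succ_nsmul]
  exact np_add_neg (by rw [← smul_neg]; exact nn_nsmul h.nn_neg k) h
theorem nn_nsmul_iff {a : L} {k : ℕ} (hk : 0 < k) : σ.nn (k • a) ↔ σ.nn a :=
  ⟨fun h => by by_contra h'; exact (neg.nsmul (σ := σ) h' hk) h, fun h => nn_nsmul h k⟩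
theorem nn_zsmul_iff {a : L} {k : ℤ} (hk : 0 < k) : σ.nn (k • a) ↔ σ.nn a := by
  obtain ⟨k, rfl⟩ := Int.eq_ofNat_of_zero_le hk.le
  rw [natCast_zsmul]; exact nn_nsmul_iff (by exact_mod_cast hk)
theorem zero.zsmul {a : L} (h : σ.zero a) (k : ℤ) : σ.zero (k • a) := by
  rcases le_total 0 k with hk | hk
  · exact ⟨nn_zsmul h.1 hk, by rw [← smul_neg]; exact nn_zsmul h.2 hk⟩
  · refine ⟨?_, ?_⟩
    · have := nn_zsmul h.2 (neg_nonneg.2 hk); simpa using this
    · have := nn_zsmul h.1 (neg_nonneg.2 hk); simpa using this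
theorem nn_sum {ι : Type*} (s : Finset ι) (f : ι → L) (h : ∀ i ∈ s, σ.nn (f i)) :
    σ.nn (∑ i ∈ s, f i) :=
  Finset.sum_induction f σ.nn (fun _ _ => σ.nn_add) σ.nn_zero h
theorem zero_sum {ι : Type*} (s : Finset ι) (f : ι → L) (h : ∀ i ∈ s, σ.zero (f i)) :
    σ.zero (∑ i ∈ s, f i) :=
  Finset.sum_induction f σ.zero (fun _ _ => zero.add) σ.zero_zero h

/-- The preorder given by an integer valued additive function. -/
def ofHom (θ : L →+ ℤ) : Stab L where
  nn a := 0 ≤ θ a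
  nn_add ha hb := by rw [map_add]; omega
  total a := by rw [map_neg]; omega

theorem ofHom_nn {θ : L →+ ℤ} {a : L} : (ofHom θ).nn a ↔ 0 ≤ θ a := Iff.rfl
theorem ofHom_neg {θ : L →+ ℤ} {a : L} : (ofHom θ).neg a ↔ θ a < 0 := by simp [neg, ofHom]
theorem ofHom_pos {θ : L →+ ℤ} {a : L} : (ofHom θ).pos a ↔ 0 < θ a := by simp [pos, ofHom]
theorem ofHom_zero {θ : L →+ ℤ} {a : L} : (ofHom θ).zero a ↔ θ a = 0 := by
  simp only [zero, ofHom, map_neg]; omega

/-- Pull-back along an additive map. -/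
def comap (σ : Stab L) (A : L' →+ L) : Stab L' where
  nn a := σ.nn (A a)
  nn_add ha hb := by rw [map_add]; exact σ.nn_add ha hb
  total a := by rw [map_neg]; exact σ.total _

theorem comap_nn {A : L' →+ L} {a : L'} : (σ.comap A).nn a ↔ σ.nn (A a) := Iff.rfl
theorem comap_neg {A : L' →+ L} {a : L'} : (σ.comap A).neg a ↔ σ.neg (A a) := Iff.rfl
theorem comap_pos {A : L' →+ L} {a : L'} : (σ.comap A).pos a ↔ σ.pos (A a) := by
  simp [pos, comap]
theorem comap_zero {A : L' →+ L} {a : L'} : (σ.comap A).zero a ↔ σ.zero (A a) := by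
  simp [zero, comap]

/-- Lexicographic refinement: first `σ`, ties broken by `τ`. -/
def lex (σ τ : Stab L) : Stab L where
  nn a := σ.pos a ∨ (σ.zero a ∧ τ.nn a)
  nn_add := by
    rintro a b (ha | ⟨ha, ha'⟩) (hb | ⟨hb, hb'⟩)
    · exact Or.inl (ha.add hb)
    · exact Or.inl (ha.add_nn hb.1)
    · exact Or.inl (nn_add_pos ha.1 hb)
    · exact Or.inr ⟨ha.add hb, τ.nn_add ha' hb'⟩
  total a := by
    rcases σ.tri a with h | h | h
    · exact Or.inr (Or.inl (pos_neg_iff.2 h))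
    · rcases τ.total a with h' | h'
      · exact Or.inl (Or.inr ⟨h, h'⟩)
      · exact Or.inr (Or.inr ⟨h.neg', h'⟩)
    · exact Or.inl (Or.inl h)

theorem lex_nn {a : L} : (σ.lex τ).nn a ↔ σ.pos a ∨ (σ.zero a ∧ τ.nn a) := Iff.rfl
theorem lex_neg {a : L} : (σ.lex τ).neg a ↔ σ.neg a ∨ (σ.zero a ∧ τ.neg a) := by
  have := σ.total a
  simp only [neg, lex, pos, zero]; tauto
theorem lex_pos {a : L} : (σ.lex τ).pos a ↔ σ.pos a ∨ (σ.zero a ∧ τ.pos a) := by
  have := σ.total a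
  simp only [lex, pos, zero, neg_neg]; tauto
theorem lex_zero {a : L} : (σ.lex τ).zero a ↔ σ.zero a ∧ τ.zero a := by
  have := σ.total a
  simp only [lex, pos, zero, neg_neg]; tauto

end Stab
end Vale.Agent.P066
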